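import Crest.Agent.SaxlN.RrF

/-!
CHUNK DUAL (medium): twisting by the sign.
-/

set_option autoImplicit false
set_option linter.unusedSectionVars false

namespace Crest.Agent.SaxlN

open Finset Equiv
open Crest.Agent.Saxl

variable {X : Type} [Fintype X] [DecidableEq X]

private noncomputable def duP {V : Type} [AddCommGroup V] [Module ℂ V]
    (τ : Representation ℂ (Perm X) V) (ρ : Word X) : V →ₗ[ℂ] V := ∑ r ∈ Rs ρ, τ r

private noncomputable def duM {V : Type} [AddCommGroup V] [Module ℂ V]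
    (τ : Representation ℂ (Perm X) V) (ρ : Word X) : V →ₗ[ℂ] V :=
  ∑ r ∈ Rs ρ, (((Perm.sign r : ℤˣ) : ℤ) : ℂ) • τ r

private theorem du_yact {V : Type} [AddCommGroup V] [Module ℂ V]
    (τ : Representation ℂ (Perm X) V) (ρ κ : Word X) (v : V) :
    yact τ ρ κ v = duP τ ρ (duM τ κ v) := by
  unfold yact duP duM
  rw [LinearMap.sum_apply]
  refine Finset.sum_congr rfl fun r _ => ?_
  rw [LinearMap.sum_apply, map_sum]
  refine Finset.sum_congr rfl fun c _ => ?_
  rw [LinearMap.smul_apply, map_smul, map_mul, Module.End.mul_apply]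

private theorem du_sq (g : Perm X) :
    (((Perm.sign g : ℤˣ) : ℤ) : ℂ) * (((Perm.sign g : ℤˣ) : ℤ) : ℂ) = 1 := by
  rcases Int.units_eq_one_or (Perm.sign g) with h | h <;> simp [h]

private theorem du_yact' {V : Type} [AddCommGroup V] [Module ℂ V]
    {τ τ' : Representation ℂ (Perm X) V}
    (hτ : ∀ g v, τ' g v = (((Perm.sign g : ℤˣ) : ℤ) : ℂ) • τ g v) (ρ κ : Word X) (v : V) :
    yact τ' ρ κ v = duM τ ρ (duP τ κ v) := by
  unfold yact duP duM
  rw [LinearMap.sum_apply]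
  refine Finset.sum_congr rfl fun r _ => ?_
  rw [LinearMap.sum_apply, map_sum]
  refine Finset.sum_congr rfl fun c _ => ?_
  have e1 : τ (r * c) = τ r * τ c := map_mul τ r c
  rw [LinearMap.smul_apply, hτ, e1, Module.End.mul_apply, smul_smul]
  congr 1
  rw [Perm.sign_mul, Units.val_mul, Int.cast_mul, mul_comm, mul_assoc, du_sq, mul_one]

private theorem du_tab {ρ κ : Word X} (h : IsTab (fun _ => 0) ρ κ) : IsTab (fun _ => 0) κ ρ := by
  refine ⟨fun x y hxy => h.inj ?_, fun x i j hi hj => ?_⟩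
  · simp only [Prod.mk.injEq] at hxy ⊢
    exact ⟨hxy.1, hxy.2.2, hxy.2.1⟩
  · obtain ⟨y, h1, h2, h3⟩ := h.lower x j i hj hi
    exact ⟨y, h1, h3, h2⟩

private theorem du_sqq {V : Type} [AddCommGroup V] [Module ℂ V]
    (τ : Representation ℂ (Perm X) V) {ρ κ : Word X} (h : IsTab (fun _ => 0) ρ κ) :
    ∃ γ : ℂ, γ ≠ 0 ∧ ∀ v, yact τ ρ κ (yact τ ρ κ v) = γ • yact τ ρ κ v := by
  obtain ⟨γ, hγ, hE⟩ := EP_sq h
  refine ⟨γ, hγ, fun v => ?_⟩
  rw [← asAlgebraHom_EP, ← asAlgebraHom_EP, ← Module.End.mul_apply, ← map_mul, hE, map_smul,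
    LinearMap.smul_apply]

theorem yact_sign {V : Type} [AddCommGroup V] [Module ℂ V] (τ τ' : Representation ℂ (Perm X) V)
    (hτ : ∀ g v, τ' g v = (((Perm.sign g : ℤˣ) : ℤ) : ℂ) • τ g v) (ρ κ : Word X)
    (h : IsTab (fun _ => 0) ρ κ) :
    (∃ v, yact τ' ρ κ v ≠ 0) ↔ ∃ v, yact τ κ ρ v ≠ 0 := by
  constructor
  · rintro ⟨v, hv⟩
    by_contra hcon
    push Not at hcon
    obtain ⟨γ, hγ, hE⟩ := du_sqq τ' h
    have h1 := hE v
    rw [du_yact' hτ ρ κ (yact τ' ρ κ v), du_yact' hτ ρ κ v, ← du_yact, hcon, map_zero] at h1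
    rw [← du_yact' hτ] at h1
    exact hv ((smul_eq_zero.1 h1.symm).resolve_left hγ)
  · rintro ⟨v, hv⟩
    by_contra hcon
    push Not at hcon
    obtain ⟨γ, hγ, hE⟩ := du_sqq τ (du_tab h)
    have h1 := hE v
    rw [du_yact τ κ ρ (yact τ κ ρ v), du_yact τ κ ρ v, ← du_yact' hτ, hcon, map_zero] at h1
    rw [← du_yact] at h1
    exact hv ((smul_eq_zero.1 h1.symm).resolve_left hγ)

/-- The modules generated by `v` under `τ` and `τ' = τ ⊗ sgn`.
PROOF. `yact τ' ρ κ v = C^+..`: with `R`, `C` the row and column groups of `(ρ, κ)`,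
`yact τ' ρ κ = ∑_{r,c} sgn(c) sgn(rc) τ(rc) = ∑_{r,c} sgn(r) τ(r c) = R^- C^+`, and
`yact τ κ ρ = C^+ R^-`. If `R^- C^+ x ≠ 0` for some `x` in the (invariant) module `N` generated by `v`, then
`C^+ R^- ≠ 0` on `N`: otherwise `R^- C^+ R^- C^+ = 0` on `N`, but `(R^- C^+)² = γ R^- C^+` with `γ ≠ 0`
(`EP_sq` for the representation `τ'`). -/
theorem IsoV.dual {V : Type} [AddCommGroup V] [Module ℂ V] {τ τ' : Representation ℂ (Perm X) V}
    (hτ : ∀ g v, τ' g v = (((Perm.sign g : ℤˣ) : ℤ) : ℂ) • τ g v) {v : V} {R C : Word X}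
    (h : IsoV τ v R C) : IsoV τ' v C R := by
  rintro ρ κ hT ⟨g, hg⟩
  by_cases hcon : ∃ g, yact τ κ ρ (τ g v) ≠ 0
  · obtain ⟨k, hk1, hk2⟩ := h κ ρ (du_tab hT) hcon
    exact ⟨k, hk2, hk1⟩
  · exfalso
    push Not at hcon
    obtain ⟨γ, hγ, hE⟩ := du_sqq τ' hT
    have h1 := hE (τ' g v)
    rw [du_yact' hτ ρ κ (yact τ' ρ κ (τ' g v)), du_yact' hτ ρ κ (τ' g v), ← du_yact] at h1
    have h2 : yact τ κ ρ (duP τ κ (τ' g v)) = 0 := by
      have h3 : duP τ κ (τ' g v) =
          ∑ c ∈ Rs κ, (((Perm.sign g : ℤˣ) : ℤ) : ℂ) • τ (c * g) v := by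
        unfold duP
        rw [LinearMap.sum_apply]
        refine Finset.sum_congr rfl fun c _ => ?_
        rw [hτ, map_smul, map_mul, Module.End.mul_apply]
      rw [du_yact, h3, map_sum, map_sum]
      refine Finset.sum_eq_zero fun c _ => ?_
      rw [map_smul, map_smul, ← du_yact, hcon, smul_zero]
    rw [h2, map_zero, ← du_yact' hτ] at h1
    exact hg ((smul_eq_zero.1 h1.symm).resolve_left hγ)

/-- transport of `IsoV` by an equivariant linear map -/
theorem IsoV.map {V V' : Type} [AddCommGroup V] [Module ℂ V] [AddCommGroup V'] [Module ℂ V']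
    {τ : Representation ℂ (Perm X) V} {τ' : Representation ℂ (Perm X) V'} (f : V →ₗ[ℂ] V')
    (hf : ∀ g v, f (τ g v) = τ' g (f v)) {v : V} {R C : Word X} (h : IsoV τ v R C) :
    IsoV τ' (f v) R C := by
  rintro ρ κ hT ⟨g, hg⟩
  refine h ρ κ hT ⟨g, fun h0 => hg ?_⟩
  have h1 : ∀ w, yact τ' ρ κ (f w) = f (yact τ ρ κ w) := by
    intro w
    unfold yact
    rw [map_sum]
    refine Finset.sum_congr rfl fun r _ => ?_
    rw [map_sum]
    refine Finset.sum_congr rfl fun c _ => ?_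
    rw [map_smul, hf]
  rw [← hf, h1, h0, map_zero]

/-- the twist of the left regular representation -/
private noncomputable def du_rep (X : Type) [Fintype X] [DecidableEq X] :
    Representation ℂ (Perm X) (Perm X → ℂ) where
  toFun g := (((Perm.sign g : ℤˣ) : ℤ) : ℂ) • lreg X g
  map_one' := by simp
  map_mul' g h := by
    have e1 : lreg X (g * h) = lreg X g * lreg X h := map_mul (lreg X) g h
    refine LinearMap.ext fun v => ?_
    rw [LinearMap.smul_apply, Module.End.mul_apply, LinearMap.smul_apply, LinearMap.smul_apply,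
      map_smul, e1, Module.End.mul_apply, smul_smul, Perm.sign_mul, Units.val_mul,
      Int.cast_mul]

private noncomputable def du_map (X : Type) [Fintype X] [DecidableEq X] :
    (Perm X → ℂ) →ₗ[ℂ] (Perm X → ℂ) where
  toFun v := fun x => (((Perm.sign x : ℤˣ) : ℤ) : ℂ) * v x
  map_add' u v := by funext x; simp [mul_add]
  map_smul' c v := by
    funext x
    simp only [Pi.smul_apply, smul_eq_mul, RingHom.id_apply]
    ring

private theorem du_map_eq (g : Perm X) (v : Perm X → ℂ) :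
    du_map X (du_rep X g v) = lreg X g (du_map X v) := by
  funext x
  have h1 : du_rep X g v = (((Perm.sign g : ℤˣ) : ℤ) : ℂ) • lreg X g v := rfl
  have h2 : ∀ w : Perm X → ℂ, du_map X w x = (((Perm.sign x : ℤˣ) : ℤ) : ℂ) * w x := fun _ => rfl
  have h3 : lreg X g (du_map X v) x =
      (((Perm.sign (g⁻¹ * x) : ℤˣ) : ℤ) : ℂ) * v (g⁻¹ * x) := rfl
  rw [h2, h1, h3, Pi.smul_apply, lreg_apply, smul_eq_mul, Perm.sign_mul, Perm.sign_inv,
    Units.val_mul, Int.cast_mul]
  ring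

private theorem du_cnt (η : ℕ → ℕ) (t : ℕ → Bool) (s : Bool) (r : ℕ) :
    cnt η (fun i => !t i) s r = cnt η t (!s) r := by
  unfold cnt
  congr 1
  refine Finset.filter_congr fun i _ => ?_
  constructor
  · rintro ⟨h1, h2⟩
    exact ⟨h1, by rw [← h2]; simp⟩
  · rintro ⟨h1, h2⟩
    refine ⟨h1, ?_⟩
    change (!t (i / 2)) = s
    rw [h2]; simp

private theorem du_row (η : ℕ → ℕ) (t : ℕ → Bool) (A w₀ : Word X) :
    rowT η (fun i => !t i) A w₀ = colT η t A w₀ := by
  funext x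
  unfold rowT colT
  rw [du_cnt]
  by_cases ht : t (w₀ x / 2) = true
  · simp [ht]
  · simp only [Bool.not_eq_true] at ht
    simp [ht]

private theorem du_col (η : ℕ → ℕ) (t : ℕ → Bool) (A w₀ : Word X) :
    colT η (fun i => !t i) A w₀ = rowT η t A w₀ := by
  funext x
  unfold rowT colT
  rw [du_cnt]
  by_cases ht : t (w₀ x / 2) = true
  · simp [ht]
  · simp only [Bool.not_eq_true] at ht
    simp [ht]

private theorem du_chi {t : ℕ → Bool} {w₀ : Word X} {k : Perm X} (hk : gw w₀ ∘ k = gw w₀) :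
    chi (fun i => !t i) w₀ k = Perm.sign k * chi t w₀ k := by
  unfold chi
  have h1 : (fun x => t (w₀ x / 2)) ∘ k = (fun x => t (w₀ x / 2)) := by
    funext x
    have := congrFun hk x
    simp only [Function.comp_apply, gw] at this ⊢
    rw [this]
  exact sgnT_not h1

private theorem du_gw {w₀ : Word X} {k : Perm X} (hk : w₀ ∘ k = w₀) : gw w₀ ∘ k = gw w₀ := by
  funext x
  have := congrFun hk x
  simp only [Function.comp_apply, gw] at this ⊢
  rw [this]

private theorem du_Rr (t : ℕ → Bool) (w₀ : Word X) (v : Perm X → ℤ) (g : Perm X) (b : X → Fin 2) :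
    Rr w₀ (fun i => !t i) (cx (fun g => ((Perm.sign g : ℤˣ) : ℤ) * v g)) g b =
      (((Perm.sign g : ℤˣ) : ℤ) : ℂ) * Rr w₀ t (cx v) g b := by
  suffices key : ∑ h ∈ (univ : Finset (Perm X)).filter (fun h => w₀ ∘ (h⁻¹ : Perm X) = dw (gw w₀) b),
      (((chi (fun i => !t i) w₀ h : ℤˣ) : ℤ) : ℂ) *
        cx (fun g => ((Perm.sign g : ℤˣ) : ℤ) * v g) (g * h) =
      (((Perm.sign g : ℤˣ) : ℤ) : ℂ) *
        ∑ h ∈ (univ : Finset (Perm X)).filter (fun h => w₀ ∘ (h⁻¹ : Perm X) = dw (gw w₀) b),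
          (((chi t w₀ h : ℤˣ) : ℤ) : ℂ) * cx v (g * h) by
    unfold Rr
    rw [key]
    ring
  rw [Finset.mul_sum]
  refine Finset.sum_congr rfl fun h hh => ?_
  rw [Finset.mem_filter] at hh
  rw [du_chi (gw_of_dw hh.2)]
  have e : cx (fun g => ((Perm.sign g : ℤˣ) : ℤ) * v g) (g * h) =
      (((Perm.sign g : ℤˣ) : ℤ) : ℂ) * (((Perm.sign h : ℤˣ) : ℤ) : ℂ) * cx v (g * h) := by
    unfold cx
    rw [Int.cast_mul, Perm.sign_mul, Units.val_mul, Int.cast_mul]
  rw [e, Units.val_mul, Int.cast_mul]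
  have := du_sq h
  linear_combination
    ((((Perm.sign g : ℤˣ) : ℤ) : ℂ) * (((chi t w₀ h : ℤˣ) : ℤ) : ℂ) * cx v (g * h)) * this

/-- PROOF. `right`: `sign k * chi t k = chi (!t) k` (`sgnT_not`). `left`, `par`: clear. `rest`:
`Rr w₀ (!t) (sign·v) g = sign g • Rr w₀ t v g`. `iso`: `rowT (!t) = colT t`, `colT (!t) = rowT t`
(definitions), and the map `v ↦ sign·v` intertwines `lreg` with `sgn ⊗ lreg` (`IsoV.dual`, `IsoV.map`). -/
theorem Lifted.dual {η : ℕ → ℕ} {t : ℕ → Bool} {w₀ A : Word X} {s : Bool} {v : Perm X → ℤ}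
    (h : Lifted η t w₀ A s v) :
    Lifted η (fun i => !t i) w₀ A (!s) (fun g => ((Perm.sign g : ℤˣ) : ℤ) * v g) := by
  refine ⟨?_, ?_, ?_, ?_, ?_⟩
  · intro g k hk
    rw [h.right g k hk, du_chi (du_gw hk), Perm.sign_mul, Units.val_mul, Units.val_mul]
    ring
  · intro c hc g
    have hsq : ((Perm.sign c : ℤˣ) : ℤ) * ((Perm.sign c : ℤˣ) : ℤ) = 1 := by
      rcases Int.units_eq_one_or (Perm.sign c) with h | h <;> simp [h]
    rw [h.left c hc g, Perm.sign_mul, Units.val_mul]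
    cases s with
    | true => simp only [if_true, Bool.not_true, Bool.false_eq_true, if_false]; ring
    | false =>
      simp only [Bool.not_false, Bool.false_eq_true, if_true, if_false]
      linear_combination (((Perm.sign g : ℤˣ) : ℤ) * v g) * hsq
  · intro g
    rw [← h.par g]
    rcases Int.units_eq_one_or (Perm.sign g) with h1 | h1
    · simp [h1]
    · simp [h1]
  · intro g
    obtain ⟨f, hf, hb⟩ := h.rest g
    rcases Int.units_eq_one_or (Perm.sign g) with h1 | h1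
    · refine ⟨f, hf, fun b => ?_⟩
      rw [du_Rr, hb, h1]
      simp
    · refine ⟨-f, neg_mem hf, fun b => ?_⟩
      rw [du_Rr, hb, h1]
      simp
  · rw [du_row, du_col]
    have h1 : IsoV (du_rep X) (cx v) (colT η t A w₀) (rowT η t A w₀) :=
      IsoV.dual (τ := lreg X) (fun g v => rfl) h.iso
    have h2 := IsoV.map (τ' := lreg X) (du_map X) du_map_eq h1
    have h3 : du_map X (cx v) = cx (fun g => ((Perm.sign g : ℤˣ) : ℤ) * v g) := by
      funext x
      unfold cx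
      rw [Int.cast_mul]
      rfl
    rw [h3] at h2
    exact h2

end Crest.Agent.SaxlN
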