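import Crest.Agent.SaxlN.VecBasic
import Crest.Agent.SaxlN.Dual

/-!
CHUNK VECSPLIT (easy/medium, ~120 lines).
-/

set_option autoImplicit false
set_option linter.unusedSectionVars false
set_option linter.unusedSimpArgs false

namespace Crest.Agent.SaxlN

open Finset Equiv
open Crest.Agent.Saxl

variable {X : Type} [Fintype X] [DecidableEq X]
variable {W : Type} [AddCommGroup W] [Module ℂ W]

private lemma vspl_aux_eq {T : X → Bool} {g g' : Perm X} (hg : T ∘ g = T)
    (h1 : ∀ x, T x = true → g' x = g x) (h2 : ∀ x, T x = false → g' x = x) :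
    sgnT T g = Perm.sign g' := by
  classical
  have hg1 : ∀ x, T (g x) = T x := fun x => congrFun hg x
  have hg2 : ∀ x, T (g' x) = T x := by
    intro x
    cases hx : T x with
    | true => rw [h1 x hx, hg1, hx]
    | false => rw [h2 x hx, hx]
  unfold sgnT
  rw [dif_pos hg1]
  have hs := Perm.sign_subtypePerm g' (p := fun x => T x = true)
    (fun x => by simp only [hg2]) (fun x hx => by
      by_contra hc
      exact hx (h2 x (by simpa using hc)))
  rw [← hs]
  congr 1
  ext x
  simp only [Perm.subtypePerm_apply]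
  exact (h1 _ x.2).symm

private lemma vspl_aux_exists {T : X → Bool} {g : Perm X} (hg : T ∘ g = T) :
    ∃ g' : Perm X, (∀ x, T x = true → g' x = g x) ∧ (∀ x, T x = false → g' x = x) := by
  classical
  have hg1 : ∀ x, T (g x) = T x := fun x => congrFun hg x
  refine ⟨Perm.ofSubtype (g.subtypePerm (p := fun x => T x = true)
    (fun x => by simp only [hg1])), ?_, ?_⟩
  · intro x hx
    rw [Perm.ofSubtype_apply_of_mem (p := fun x => T x = true) _ hx]
    simp
  · intro x hx
    rw [Perm.ofSubtype_apply_of_not_mem (p := fun x => T x = true)]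
    simp [hx]

private lemma vspl_mem_Rs {w : Word X} {g : Perm X} : g ∈ Rs w ↔ w ∘ g = w := by
  unfold Rs
  simp

private lemma vspl_mul {w : Word X} {g h : Perm X} (hg : w ∘ g = w) (hh : w ∘ h = w) :
    w ∘ (g * h : Perm X) = w := by
  funext x
  have h1 := congrFun hg (h x)
  have h2 := congrFun hh x
  simp only [Function.comp_apply] at h1 h2
  simp [Perm.mul_apply, h1, h2]

private lemma vspl_inv {w : Word X} {g : Perm X} (hg : w ∘ g = w) :
    w ∘ (g⁻¹ : Perm X) = w := by
  funext x
  have h1 := congrFun hg (g⁻¹ x)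
  simp only [Function.comp_apply] at h1
  simpa using h1.symm

/-- left translation of a sum over a finite set stable under left multiplication -/
private lemma vspl_left (σ : Representation ℂ (Perm X) W) (H : Finset (Perm X)) (g : Perm X)
    (hH : ∀ r, g * r ∈ H ↔ r ∈ H) (c : Perm X → ℂ) (u : W) :
    σ g (∑ r ∈ H, c r • σ r u) = ∑ r ∈ H, c (g⁻¹ * r) • σ r u := by
  rw [map_sum]
  refine Finset.sum_equiv (Equiv.mulLeft g) (fun r => ?_) (fun r _ => ?_)
  · simpa using (hH r).symm
  · rw [map_smul, ← Module.End.mul_apply, ← map_mul]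
    simp

private lemma vspl_left' (σ : Representation ℂ (Perm X) W) (H : Finset (Perm X)) (g : Perm X)
    (hH : ∀ r, g * r ∈ H ↔ r ∈ H) (u : W) :
    σ g (∑ r ∈ H, σ r u) = ∑ r ∈ H, σ r u := by
  have := vspl_left σ H g hH (fun _ => 1) u
  simpa using this

private lemma vspl_Rs_stable {w : Word X} {g : Perm X} (hg : w ∘ g = w) (r : Perm X) :
    g * r ∈ Rs w ↔ r ∈ Rs w := by
  rw [vspl_mem_Rs, vspl_mem_Rs]
  constructor
  · intro h
    have := vspl_mul (vspl_inv hg) h
    simpa using this
  · intro h
    exact vspl_mul hg h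

private noncomputable def vsplU (σ : Representation ℂ (Perm X) W) (κ : Word X) (w : W) : W :=
  ∑ c ∈ Rs κ, (((Perm.sign c : ℤˣ) : ℤ) : ℂ) • σ c w

private lemma vspl_yact (σ : Representation ℂ (Perm X) W) (ρ κ : Word X) (w : W) :
    yact σ ρ κ w = ∑ r ∈ Rs ρ, σ r (vsplU σ κ w) := by
  unfold yact vsplU
  refine Finset.sum_congr rfl fun r _ => ?_
  rw [map_sum]
  refine Finset.sum_congr rfl fun c _ => ?_
  rw [map_smul, map_mul, Module.End.mul_apply]

private lemma vspl_sq (g : Perm X) :
    (((Perm.sign g : ℤˣ) : ℤ) : ℂ) * (((Perm.sign g : ℤˣ) : ℤ) : ℂ) = 1 := by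
  rcases Int.units_eq_one_or (Perm.sign g) with h | h <;> simp [h]

private lemma vsplU_alt (σ : Representation ℂ (Perm X) W) {κ : Word X} (w : W) {c : Perm X}
    (hc : κ ∘ c = κ) : σ c (vsplU σ κ w) = (((Perm.sign c : ℤˣ) : ℤ) : ℂ) • vsplU σ κ w := by
  unfold vsplU
  rw [vspl_left σ (Rs κ) c (vspl_Rs_stable hc), Finset.smul_sum]
  refine Finset.sum_congr rfl fun r _ => ?_
  rw [Perm.sign_mul, Perm.sign_inv, Units.val_mul, Int.cast_mul, smul_smul]

/-- SPLIT. For ANY set `T` of letters: a vector fixed by the row permutations of the letters in `T` and alternating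
under the column permutations of the letters outside `T`.
PROOF. `yact σ ρ κ w = R⁺ C⁻ w ≠ 0`. `u := C⁻ w = ∑_{c ∈ Rs κ} sgn(c) σ(c) w` is alternating under `Rs κ`. Let `R_T` be the permutations in
`Rs ρ` fixing all letters outside `T`, and `v := ∑_{r ∈ R_T} σ r u`. `v ≠ 0`: `∑_{r ∈ Rs ρ} σ r v = #R_T • ∑_{r ∈ Rs ρ} σ r u ≠ 0`. `v` is fixed by
`R_T`. For `c ∈ Rs κ` fixing `T` pointwise: `c` commutes with `R_T`, so `σ c v = sgn(c) v`. A permutation `g` preserving
the labels `a x = if T x then 2 ρ x else 2 κ x + 1` preserves `T` and is a product `r c` of such permutations, and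
`sgnT (fun x => ! T x) g = sign c`. -/
theorem vec_split {σ : Representation ℂ (Perm X) W} {ρ κ : Word X} {w : W}
    (hw : yact σ ρ κ w ≠ 0) (T : X → Bool) :
    Vec σ (fun l => l % 2 == 1) (fun x => if T x then 2 * ρ x else 2 * κ x + 1) := by
  classical
  set u : W := vsplU σ κ w with hu
  set RT : Finset (Perm X) := (Rs ρ).filter (fun r => ∀ x, T x = false → r x = x) with hRT
  have hmem : ∀ r, r ∈ RT ↔ ρ ∘ r = ρ ∧ ∀ x, T x = false → r x = x := by
    intro r
    rw [hRT, Finset.mem_filter, vspl_mem_Rs]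
  have hT : ∀ r ∈ RT, ∀ x, T (r x) = T x := by
    intro r hr x
    have hr2 := ((hmem r).1 hr).2
    cases hx : T x with
    | false => rw [hr2 x hx, hx]
    | true =>
      cases hx2 : T (r x) with
      | true => rfl
      | false =>
        have h3 := hr2 (r x) hx2
        have h4 : r x = x := r.injective h3
        rw [h4, hx] at hx2
        exact hx2.symm
  have hRTst : ∀ g ∈ RT, ∀ r, g * r ∈ RT ↔ r ∈ RT := by
    intro g hg r
    have hg' := (hmem g).1 hg
    rw [hmem, hmem]
    constructor
    · rintro ⟨h1, h2⟩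
      refine ⟨?_, ?_⟩
      · have := vspl_mul (vspl_inv hg'.1) h1
        simpa using this
      · intro x hx
        have h3 := h2 x hx
        rw [Perm.mul_apply] at h3
        have h4 := hg'.2 x hx
        exact g.injective (h3.trans h4.symm)
    · rintro ⟨h1, h2⟩
      refine ⟨vspl_mul hg'.1 h1, ?_⟩
      intro x hx
      rw [Perm.mul_apply, h2 x hx, hg'.2 x hx]
  refine ⟨∑ r ∈ RT, σ r u, ?_, ?_⟩
  · -- nonzero
    intro h0
    apply hw
    have h1 : ∑ r ∈ Rs ρ, σ r (∑ r' ∈ RT, σ r' u) = (RT.card : ℂ) • yact σ ρ κ w := by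
      have h2 : ∀ r ∈ Rs ρ, σ r (∑ r' ∈ RT, σ r' u) = ∑ r' ∈ RT, σ (r * r') u := by
        intro r _
        rw [map_sum]
        refine Finset.sum_congr rfl fun r' _ => ?_
        rw [map_mul, Module.End.mul_apply]
      rw [Finset.sum_congr rfl h2, Finset.sum_comm]
      have h3 : ∀ r' ∈ RT, ∑ r ∈ Rs ρ, σ (r * r') u = yact σ ρ κ w := by
        intro r' hr'
        have hr1 := ((hmem r').1 hr').1
        rw [vspl_yact, ← hu]
        refine Finset.sum_equiv (Equiv.mulRight r') (fun r => ?_) (fun r _ => ?_)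
        · simp only [Equiv.coe_mulRight]
          rw [vspl_mem_Rs, vspl_mem_Rs]
          constructor
          · intro h
            exact vspl_mul h hr1
          · intro h
            have := vspl_mul h (vspl_inv hr1)
            simpa using this
        · simp
      rw [Finset.sum_congr rfl h3, Finset.sum_const, Nat.cast_smul_eq_nsmul]
    rw [h0] at h1
    simp only [map_zero, Finset.sum_const_zero] at h1
    have h5 : (RT.card : ℂ) ≠ 0 := by
      have : (1 : Perm X) ∈ RT := by
        rw [hmem]
        exact ⟨by rfl, fun x _ => rfl⟩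
      exact_mod_cast (Finset.card_pos.2 ⟨1, this⟩).ne'
    exact (smul_eq_zero.1 h1.symm).resolve_left h5
  · intro g hg
    have hgx : ∀ x, (if T (g x) then 2 * ρ (g x) else 2 * κ (g x) + 1) =
        (if T x then 2 * ρ x else 2 * κ x + 1) := fun x => congrFun hg x
    have hTg : ∀ x, T (g x) = T x := by
      intro x
      have h := hgx x
      cases h1 : T x <;> cases h2 : T (g x)
      · rfl
      · exfalso; simp [h1, h2] at h; omega
      · exfalso; simp [h1, h2] at h; omega
      · rfl
    have hTg' : T ∘ g = T := funext hTg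
    have hnTg : (fun x => !T x) ∘ g = (fun x => !T x) := by
      funext x
      simp only [Function.comp_apply, hTg x]
    obtain ⟨r, hr1, hr2⟩ := vspl_aux_exists hTg'
    obtain ⟨c, hc1, hc2⟩ := vspl_aux_exists hnTg
    have hc1' : ∀ x, T x = false → c x = g x := fun x hx => hc1 x (by simp [hx])
    have hc2' : ∀ x, T x = true → c x = x := fun x hx => hc2 x (by simp [hx])
    have hcT : ∀ x, T (c x) = T x := by
      intro x
      cases hx : T x with
      | true => rw [hc2' x hx, hx]
      | false => rw [hc1' x hx, hTg, hx]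
    have hgrc : g = r * c := by
      ext x
      rw [Perm.mul_apply]
      cases hx : T x with
      | true => rw [hc2' x hx, hr1 x hx]
      | false =>
        rw [hc1' x hx]
        exact (hr2 (g x) (by rw [hTg, hx])).symm
    have hrRT : r ∈ RT := by
      rw [hmem]
      refine ⟨?_, hr2⟩
      funext x
      simp only [Function.comp_apply]
      cases hx : T x with
      | true =>
        rw [hr1 x hx]
        have h := hgx x
        rw [hTg, hx] at h
        simpa using h
      | false => rw [hr2 x hx]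
    have hcκ : κ ∘ c = κ := by
      funext x
      simp only [Function.comp_apply]
      cases hx : T x with
      | true => rw [hc2' x hx]
      | false =>
        rw [hc1' x hx]
        have h := hgx x
        rw [hTg, hx] at h
        simpa using h
    have hcomm : ∀ r' ∈ RT, c * r' = r' * c := by
      intro r' hr'
      have h2 := ((hmem r').1 hr').2
      ext x
      rw [Perm.mul_apply, Perm.mul_apply]
      cases hx : T x with
      | true =>
        rw [hc2' x hx, hc2' (r' x) (by rw [hT r' hr', hx])]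
      | false =>
        rw [h2 x hx, h2 (c x) (by rw [hcT, hx])]
    have hs : (fun x => ((if T x then 2 * ρ x else 2 * κ x + 1) % 2 == 1)) = (fun x => !T x) := by
      funext x
      cases hx : T x with
      | true => simp [hx]
      | false => simp [hx, Nat.add_mod]
    have hsg : sgnT (fun x => ((if T x then 2 * ρ x else 2 * κ x + 1) % 2 == 1)) g =
        Perm.sign c := by
      rw [hs]
      exact vspl_aux_eq hnTg hc1 hc2
    rw [hsg, hgrc, map_mul, Module.End.mul_apply]
    have hcv : σ c (∑ r' ∈ RT, σ r' u) = (((Perm.sign c : ℤˣ) : ℤ) : ℂ) • ∑ r' ∈ RT, σ r' u := by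
      rw [map_sum, Finset.smul_sum]
      refine Finset.sum_congr rfl fun r' hr' => ?_
      rw [← Module.End.mul_apply, ← map_mul, hcomm r' hr', map_mul, Module.End.mul_apply, hu,
        vsplU_alt σ w hcκ, map_smul]
    rw [hcv, map_smul, vspl_left' σ RT r (hRTst r hrRT)]

/-- rows only (`T` = everything) -/
theorem vec_rows {σ : Representation ℂ (Perm X) W} {ρ κ : Word X} {w : W}
    (hw : yact σ ρ κ w ≠ 0) : Vec σ (fun _ => false) ρ := by
  refine ⟨yact σ ρ κ w, hw, fun g hg => ?_⟩
  rw [sgnT_false, vspl_yact, vspl_left' σ (Rs ρ) g (vspl_Rs_stable hg)]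
  simp

/-- From vector data to the restriction to `S`: `b` is determined by `(u, cl)` on `S`.
PROOF. The same vector; for `g : Perm S` preserving `u` and `cl`, `ofSubtype g` preserves `b` (it is the identity outside
`S`), and `sgnT` of the extension is `sgnT` of `g` (`sgnT_ofSubtype`). -/
theorem HasSV.of_vec {σ : Representation ℂ (Perm X) W} {s : ℕ → Bool} {b : Word X}
    (h : Vec σ s b) (S : X → Prop) [DecidablePred S] {U P : Finset ℕ} {t t' : ℕ → Bool}
    {u cl : Word {x // S x}} (hl : Lay U P t t' u cl) (hb : Bal U t) (hb' : Bal U t')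
    (hdet : ∀ x y : {x // S x}, u x = u y → cl x = cl y → b x = b y)
    (hs : ∀ x : {x // S x}, s (b x) = xor (t (u x)) (t' (u x))) :
    HasSV U (resS S σ) := by
  obtain ⟨v, hv, hinv⟩ := h
  refine ⟨P, t, t', u, cl, v, hl, ⟨hb, hb'⟩, hv, ?_⟩
  intro g hgu hgc
  have hbS : ∀ x : {x // S x}, b (g x) = b x := fun x =>
    hdet (g x) x (congrFun hgu x) (congrFun hgc x)
  have hbg : b ∘ (Perm.ofSubtype g : Perm X) = b := by
    funext x
    simp only [Function.comp_apply]
    by_cases hx : S x
    · rw [Perm.ofSubtype_apply_of_mem _ hx]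
      exact hbS ⟨x, hx⟩
    · rw [Perm.ofSubtype_apply_of_not_mem _ hx]
  rw [resS_apply, hinv _ hbg]
  have h1 := sgnT_ofSubtype (T := fun x => s (b x)) S g (by
    funext x
    simp only [Function.comp_apply]
    rw [hbS x])
  rw [h1]
  have h2 : (fun x : {x // S x} => s (b x)) = (fun x => xor (t (u x)) (t' (u x))) := funext hs
  rw [h2]

/-- the dual of a representation with a given tableau: `yact` for `W ⊗ sign` and the conjugate tableau is nonzero -/
theorem exists_twist {σ : Representation ℂ (Perm X) W} {ρ κ : Word X} (ht : IsTab (fun _ => 0) ρ κ)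
    {w : W} (hw : yact σ ρ κ w ≠ 0) :
    ∃ σ' : Representation ℂ (Perm X) W, (∀ g w, σ' g w = (((Perm.sign g : ℤˣ) : ℤ) : ℂ) • σ g w) ∧
      (∃ w', yact σ' κ ρ w' ≠ 0) := by
  let σ' : Representation ℂ (Perm X) W :=
    { toFun := fun g => (((Perm.sign g : ℤˣ) : ℤ) : ℂ) • σ g
      map_one' := by simp
      map_mul' := by
        intro g h
        refine LinearMap.ext fun v => ?_
        have e1 : σ (g * h) = σ g * σ h := map_mul σ g h
        rw [LinearMap.smul_apply, Module.End.mul_apply, LinearMap.smul_apply,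
          LinearMap.smul_apply, map_smul, e1, Module.End.mul_apply, smul_smul, Perm.sign_mul,
          Units.val_mul, Int.cast_mul] }
  have hσ' : ∀ g w, σ' g w = (((Perm.sign g : ℤˣ) : ℤ) : ℂ) • σ g w := fun g w => rfl
  have ht' : IsTab (fun _ => 0) κ ρ := by
    refine ⟨fun x y hxy => ht.inj ?_, fun x i j hi hj => ?_⟩
    · simp only [Prod.mk.injEq] at hxy ⊢
      exact ⟨hxy.1, hxy.2.2, hxy.2.1⟩
    · obtain ⟨y, h1, h2, h3⟩ := ht.lower x j i hj hi
      exact ⟨y, h1, h3, h2⟩
  exact ⟨σ', hσ', (yact_sign σ σ' hσ' κ ρ ht').2 ⟨w, hw⟩⟩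

end Crest.Agent.SaxlN
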