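import Crest.Agent.SaxlN.Union
import Crest.Agent.SaxlN.VecSplit
import Crest.Agent.Saxl.Dicho

/-!
CHUNK CORE (medium, ~200 lines; Union, VecSplit, Dicho are black boxes).
-/

set_option autoImplicit false

namespace Crest.Agent.SaxlN

open Finset Equiv
open Crest.Agent.Saxl

private theorem core_exists_perm {X : Type} [Fintype X] [DecidableEq X] (S T : X → Prop)
    [DecidablePred S] [DecidablePred T] (h : Fintype.card {x // S x} ≤ (univ.filter T).card) :
    ∃ g : Perm X, ∀ x, S x → T (g x) := by
  classical
  obtain ⟨T', hT', hcard⟩ := Finset.exists_subset_card_eq h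
  have hc : Fintype.card {x // S x} = Fintype.card {x // x ∈ T'} := by
    rw [Fintype.card_coe, hcard]
  have e : {x // S x} ≃ {x // x ∈ T'} := Fintype.equivOfCardEq hc
  refine ⟨e.extendSubtype, fun x hx => ?_⟩
  have h1 := e.extendSubtype_mem x hx
  have h2 := hT' h1
  rw [mem_filter] at h2
  exact h2.2

private theorem core_aux {k : ℕ} (hk : 1 ≤ k) {X : Type} [Fintype X] [DecidableEq X]
    (S : X → Prop) [DecidablePred S]
    (hS : Fintype.card {x // S x} = 2 * k - 1)
    {W : Type} [AddCommGroup W] [Module ℂ W] (σ : Representation ℂ (Perm X) W) {ρ κ : Word X}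
    {w : W} (hw : yact σ ρ κ w ≠ 0) (hρ : 2 * k - 1 ≤ (univ.filter (fun x => ρ x < 4)).card) :
    HasV (Finset.Icc 1 k \ Finset.Icc 1 (k - 2)) (fun _ _ => True) (resS S σ) := by
  classical
  by_cases hk1 : k = 1
  · subst hk1
    have hw0 : w ≠ 0 := by
      rintro rfl
      apply hw
      unfold yact
      simp
    have hsub : Subsingleton {x // S x} := by
      rw [← Fintype.card_le_one_iff_subsingleton, hS]
    refine ⟨∅, fun _ => false, fun _ => false, fun _ => 1, fun _ => 0, w, ?_, trivial, hw0, ?_⟩
    · refine ⟨by simp, by simp, by simp, ?_, by simp, by simp⟩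
      intro L
      by_cases hL : L = 1
      · subst hL
        simp [hS]
      · have h1 : ¬ (1 = L) := fun h => hL h.symm
        simp [h1]
        intro h2
        omega
    · intro g _ _
      have hg : g = 1 := by
        ext x
        exact congrArg Subtype.val (Subsingleton.elim _ _)
      rw [hg, sgnT_one]
      simp
  · obtain ⟨g, hg⟩ := core_exists_perm S (fun x => ρ x < 4) (by rw [hS]; exact hρ)
    obtain ⟨v, hv0, hv⟩ := (vec_rows hw).conj g
    refine ⟨{k}, fun _ => false, fun _ => false, fun _ => k, fun x => ρ (g x.1), v, ?_, trivial,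
      hv0, ?_⟩
    · refine ⟨?_, ?_, by simp, ?_, ?_, by simp⟩
      · intro L hL
        rw [mem_singleton] at hL
        subst hL
        simp only [mem_sdiff, mem_Icc]
        omega
      · intro L hL
        rw [mem_singleton] at hL ⊢
        omega
      · intro L
        by_cases hL : L = k
        · subst hL
          simp [hS]
        · have h1 : ¬ (k = L) := fun h => hL h.symm
          simp only [h1, hL, mem_singleton, if_false, mem_sdiff, mem_Icc]
          rw [if_neg (by omega)]
          simp
      · intro x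
        exact hg x.1 x.2
    · intro h _ hcl
      rw [resS_apply]
      have h1 : (ρ ∘ g) ∘ (Perm.ofSubtype h : Perm X) = ρ ∘ g := by
        funext x
        simp only [Function.comp_apply]
        by_cases hx : S x
        · rw [Perm.ofSubtype_apply_of_mem (p := S) _ hx]
          exact congrFun hcl ⟨x, hx⟩
        · rw [Perm.ofSubtype_apply_of_not_mem (p := S) _ hx]
      have h2 := hv _ h1
      rw [h2]
      congr 1
      simp only [Bool.bne_false]
      rw [sgnT_false, sgnT_false]

/-- One pair of lines `k, k-1` of the core.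
PROOF. `exists_yact_ne_zero` gives a tableau `ρ, κ`; `dichotomy`: `2k-1 ≤ #{ρ < 4}` or `2k-1 ≤ #{κ < 4}`. First case: `vec_rows`: `Vec σ + ρ`.
Choose a permutation `g` with `ρ (g x) < 4` for all `x ∈ S` (`#S = 2k-1`), `Vec.conj`: `Vec σ + (ρ ∘ g)`. Take `u = k` on `S`,
`cl = ρ ∘ g`, `P = {k}` if `k ≥ 2` (if `k = 1`: `P = ∅`, `cl = 0`, `S` has one letter), `t = t'` anything (e.g. `false`).
(As in `HasSV.of_vec` but without balance; prove directly.) Second case: `exists_twist` and `HasV.twist`. -/
theorem core_step {k : ℕ} (hk : 1 ≤ k) {X : Type} [Fintype X] [DecidableEq X]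
    (hX : Fintype.card X = k * (k + 1) / 2) (S : X → Prop) [DecidablePred S]
    (hS : Fintype.card {x // S x} = 2 * k - 1)
    {W : Type} [AddCommGroup W] [Module ℂ W] [Nontrivial W] (σ : Representation ℂ (Perm X) W) :
    HasV (Finset.Icc 1 k \ Finset.Icc 1 (k - 2)) (fun _ _ => True) (resS S σ) := by
  classical
  obtain ⟨ρ, κ, hT, w, hw⟩ := exists_yact_ne_zero σ
  rcases dichotomy hk hX hT with h | h
  · exact core_aux hk S hS σ hw h
  · obtain ⟨σ', hσ', w', hw'⟩ := exists_twist hT hw
    refine HasV.twist (σ' := resS S σ') (fun g w => ?_) (core_aux hk S hS σ' hw' h)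
    rw [resS_apply, resS_apply, hσ', Perm.sign_ofSubtype]

/-- PROOF by strong induction on `k` (`k - 2 → k`): `core_step` and `HasV.union`. `k = 0`: `X` empty, `P = ∅`. -/
theorem core_hasV (k : ℕ) : ∀ (X : Type) [Fintype X] [DecidableEq X]
    (_ : Fintype.card X = k * (k + 1) / 2)
    (W : Type) [AddCommGroup W] [Module ℂ W] [Nontrivial W]
    (σ : Representation ℂ (Perm X) W), HasV (Finset.Icc 1 k) (fun _ _ => True) σ := by
  induction k using Nat.strong_induction_on with
  | _ k ih =>
  intro X _ _ hX W _ _ _ σ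
  classical
  by_cases hk0 : k = 0
  · subst hk0
    have hX0 : Fintype.card X = 0 := by simpa using hX
    have hE : IsEmpty X := Fintype.card_eq_zero_iff.1 hX0
    obtain ⟨w, hw⟩ := exists_ne (0 : W)
    refine ⟨∅, fun _ => false, fun _ => false, fun _ => 0, fun _ => 0, w, ?_, trivial, hw, ?_⟩
    · exact ⟨by simp, by simp, by simp, by simp, by simp, by simp⟩
    · intro g _ _
      have hg : g = 1 := Subsingleton.elim _ _
      rw [hg, sgnT_one]
      simp
  · have hk : 1 ≤ k := Nat.one_le_iff_ne_zero.2 hk0
    have h2X : 2 * Fintype.card X = k * (k + 1) := by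
      rw [hX]
      exact Nat.two_mul_div_two_of_even (Nat.even_mul_succ_self k)
    have hle : 2 * k - 1 ≤ (univ : Finset X).card := by
      rw [Finset.card_univ]
      obtain ⟨j, rfl⟩ : ∃ j, k = j + 1 := ⟨k - 1, by omega⟩
      have h3 : j ≤ j * j := Nat.le_mul_self j
      have h4 : 2 * (j + 1) - 1 = 2 * j + 1 := by omega
      rw [h4]
      nlinarith
    obtain ⟨T, _, hT⟩ := Finset.exists_subset_card_eq hle
    have hS : @Fintype.card {x // x ∈ T} (Subtype.fintype fun x => x ∈ T) = 2 * k - 1 := by
      rw [Fintype.card_subtype]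
      simpa using hT
    have hS' : Fintype.card {x // ¬ x ∈ T} = (k - 2) * (k - 2 + 1) / 2 := by
      rw [Fintype.card_subtype_compl, Fintype.card_coe, hT]
      symm
      apply Nat.div_eq_of_eq_mul_left (by norm_num)
      by_cases hk1 : k = 1
      · subst hk1
        omega
      · obtain ⟨j, rfl⟩ : ∃ j, k = j + 2 := ⟨k - 2, by omega⟩
        have h3 : j + 2 - 2 = j := by omega
        rw [h3]
        have h4 : 2 * Fintype.card X = j * (j + 1) + 2 * (2 * (j + 2) - 1) := by
          rw [h2X]
          have : 2 * (j + 2) - 1 = 2 * j + 3 := by omega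
          rw [this]
          ring
        omega
    have hU : (Finset.Icc 1 k \ Finset.Icc 1 (k - 2)) ∪ Finset.Icc 1 (k - 2) = Finset.Icc 1 k := by
      ext L
      simp only [mem_union, mem_sdiff, mem_Icc]
      omega
    have hfin := HasV.union (U := Finset.Icc 1 k \ Finset.Icc 1 (k - 2))
      (La' := Finset.Icc 1 (k - 2)) (C := fun _ _ => True) (C' := fun _ _ => True)
      (C'' := fun _ _ => True) Finset.sdiff_disjoint (fun _ _ _ _ _ _ => trivial)
      (fun x => x ∈ T) σ (core_step hk hX (fun x => x ∈ T) hS σ)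
      (fun V _ _ _ τ => ih (k - 2) (by omega) _ hS' V τ)
    rw [hU] at hfin
    exact hfin

/-- every type word is balanced for `{1, .., k}` (there is no gap below) -/
theorem bal_core (k : ℕ) (t : ℕ → Bool) : Bal (Finset.Icc 1 k) t := by
  intro L hL
  rw [mem_Icc] at hL
  unfold cntL
  rw [Finset.filter_false_of_mem, Finset.filter_false_of_mem]
  · intro M hM
    rw [mem_Icc] at hM
    rintro ⟨h1, _⟩
    omega
  · intro M hM
    rw [mem_Icc] at hM
    rintro ⟨h1, _⟩
    omega

/-- the staircase is good -/
theorem good_core (k : ℕ) : Good (Finset.Icc 1 k) := by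
  intro X _ _ hX W _ _ _ σ
  have hX' : Fintype.card X = k * (k + 1) / 2 := by
    rw [hX]
    have h1 : ∑ L ∈ Finset.Icc 1 k, L = ∑ L ∈ range (k + 1), L := by
      rw [Finset.sum_range_succ']
      simp only [add_zero]
      rw [Finset.range_eq_Ico, Finset.sum_Ico_add' (fun x => x) 0 k 1]
      rfl
    rw [h1, Finset.sum_range_id, Nat.add_sub_cancel, Nat.mul_comm]
  obtain ⟨P, t, t', u, cl, w, h1, _, h3, h4⟩ := core_hasV k X hX' W σ
  exact ⟨P, t, t', u, cl, w, h1, ⟨bal_core k t, bal_core k t'⟩, h3, h4⟩

end Crest.Agent.SaxlN
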