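import Crest.Agent.Saxl.Shapes

/-!
# Row 195, S0298: the universal peel lemma (rows or columns)

For a tableau `(ρ, κ)` with `n` letters, `s k = #{ρ < k}`, `t k = #{κ < k}`: if `n ≥ 4a-2`, `n ≥ 8a-20` and
`4n > a²` then `s 4 ≥ 2a+1, s 8 ≥ 4a-2` or `t 4 ≥ 2a+1, t 8 ≥ 4a-2`.
-/

set_option autoImplicit false

namespace Crest.Agent.SaxlN

open Finset Equiv
open Crest.Agent.Saxl

section
variable {X : Type} [Fintype X] [DecidableEq X]

/-- number of letters with `f < k` -/
def nlt (f : Word X) (k : ℕ) : ℕ := (univ.filter (fun x => f x < k)).card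

/-- number of letters with `f = k` -/
def neq (f : Word X) (k : ℕ) : ℕ := (univ.filter (fun x => f x = k)).card

/-- the inner part -/
def nin (ρ κ : Word X) (k l : ℕ) : ℕ := (univ.filter (fun x => k ≤ ρ x ∧ l ≤ κ x)).card

/-- the corner -/
def ncr (ρ κ : Word X) (k l : ℕ) : ℕ := (univ.filter (fun x => ρ x < k ∧ κ x < l)).card

omit [Fintype X] [DecidableEq X] in
theorem tab_swap {ρ κ : Word X} (h : IsTab (fun _ => 0) ρ κ) : IsTab (fun _ => 0) κ ρ := by
  refine ⟨fun x y hxy => h.inj ?_, fun x i j hi hj => ?_⟩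
  · simp only [Prod.mk.injEq] at hxy ⊢
    exact ⟨trivial, hxy.2.2, hxy.2.1⟩
  · obtain ⟨y, -, h1, h2⟩ := h.lower x j i hj hi
    exact ⟨y, rfl, h2, h1⟩

theorem incl_excl (ρ κ : Word X) (k l : ℕ) :
    Fintype.card X + ncr ρ κ k l = nlt ρ k + nlt κ l + nin ρ κ k l := by
  unfold ncr nlt nin
  have h1 : (univ.filter (fun x => ρ x < k)).card + (univ.filter (fun x => κ x < l)).card =
      (univ.filter (fun x => ρ x < k ∨ κ x < l)).card +
        (univ.filter (fun x => ρ x < k ∧ κ x < l)).card := by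
    rw [filter_or, filter_and, card_union_add_card_inter]
  have h2 : (univ.filter (fun x => ρ x < k ∨ κ x < l)).card +
      (univ.filter (fun x => ¬ (ρ x < k ∨ κ x < l))).card = Fintype.card X := by
    rw [card_filter_add_card_filter_not, card_univ]
  have h3 : (univ.filter (fun x => ¬ (ρ x < k ∨ κ x < l))) =
      (univ.filter (fun x => k ≤ ρ x ∧ l ≤ κ x)) := by
    ext x
    simp only [mem_filter, mem_univ, true_and, not_or, not_lt]
  rw [h3] at h2
  omega

theorem neq_anti {ρ κ : Word X} (h : IsTab (fun _ => 0) ρ κ) {i k : ℕ} (hik : i ≤ k) :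
    neq ρ k ≤ neq ρ i := by
  unfold neq
  have hk := sh_row_image h k
  have hi := sh_row_image h i
  have hsub : (univ.filter (fun x => ρ x = k)).image κ ⊆ (univ.filter (fun x => ρ x = i)).image κ := by
    intro j hj
    rw [mem_image] at hj ⊢
    obtain ⟨x, hx, rfl⟩ := hj
    rw [mem_filter] at hx
    obtain ⟨y, _, hy2, hy3⟩ := h.lower x i (κ x) (by omega) le_rfl
    exact ⟨y, by rw [mem_filter]; exact ⟨mem_univ _, hy2⟩, hy3⟩
  rw [hk, hi] at hsub
  simpa using card_le_card hsub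

/-- the first `m` rows have at least `m` times the length of row `k` letters -/
theorem mul_neq_le {ρ κ : Word X} (h : IsTab (fun _ => 0) ρ κ) {m k : ℕ} (hmk : m ≤ k + 1) :
    m * neq ρ k ≤ nlt ρ m := by
  have h1 : nlt ρ m = ∑ i ∈ range m, neq ρ i := by
    unfold nlt neq
    rw [card_eq_sum_card_fiberwise (f := ρ) (t := range m)]
    · apply sum_congr rfl
      intro i hi
      rw [mem_range] at hi
      congr 1
      ext x
      simp only [mem_filter, mem_univ, true_and]
      constructor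
      · exact fun h => h.2
      · exact fun h => ⟨by omega, h⟩
    · intro x hx
      have hx' := (mem_filter.1 (mem_coe.1 hx)).2
      simpa using hx'
  rw [h1]
  calc m * neq ρ k = ∑ _i ∈ range m, neq ρ k := by simp
    _ ≤ ∑ i ∈ range m, neq ρ i := sum_le_sum fun i hi => neq_anti h (by
      rw [mem_range] at hi; omega)

/-- the inner part lies in a box -/
theorem nin_le {ρ κ : Word X} (h : IsTab (fun _ => 0) ρ κ) (k l : ℕ) :
    nin ρ κ k l ≤ (neq κ l - k) * (neq ρ k - l) := by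
  unfold nin
  have h1 : (univ.filter (fun x => k ≤ ρ x ∧ l ≤ κ x)).card ≤
      ((Ico k (neq κ l)) ×ˢ (Ico l (neq ρ k))).card := by
    apply card_le_card_of_injOn (fun x => (ρ x, κ x))
    · intro x hx
      have hx' := (mem_filter.1 (mem_coe.1 hx)).2
      have hr : κ x ∈ range (neq ρ k) := by
        rw [neq, ← sh_row_image h k, mem_image]
        obtain ⟨y, _, hy2, hy3⟩ := h.lower x k (κ x) hx'.1 le_rfl
        exact ⟨y, by rw [mem_filter]; exact ⟨mem_univ _, hy2⟩, hy3⟩
      have hc : ρ x ∈ range (neq κ l) := by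
        rw [neq, ← sh_col_image h l, mem_image]
        obtain ⟨y, _, hy2, hy3⟩ := h.lower x (ρ x) l le_rfl hx'.2
        exact ⟨y, by rw [mem_filter]; exact ⟨mem_univ _, hy3⟩, hy2⟩
      rw [mem_range] at hr hc
      simp only [coe_product, coe_Ico, Set.mem_prod, Set.mem_Ico]
      exact ⟨⟨hx'.1, hc⟩, ⟨hx'.2, hr⟩⟩
    · intro x _ y _ hxy
      exact h.inj (by
        simp only [Prod.mk.injEq] at hxy ⊢
        exact ⟨trivial, hxy⟩)
  rw [card_product, Nat.card_Ico, Nat.card_Ico] at h1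
  exact h1

omit [DecidableEq X] in
/-- a nonempty inner part makes the corner full -/
theorem ncr_full {ρ κ : Word X} (h : IsTab (fun _ => 0) ρ κ) {k l : ℕ}
    (h1 : nin ρ κ k l ≠ 0) : k * l ≤ ncr ρ κ k l := by
  unfold nin at h1
  obtain ⟨x, hx⟩ := card_pos.1 (Nat.pos_of_ne_zero h1)
  have hx' := (mem_filter.1 hx).2
  have h2 : ((range k) ×ˢ (range l)).card ≤ ncr ρ κ k l := by
    unfold ncr
    have h3 : (range k) ×ˢ (range l) ⊆
        (univ.filter (fun x => ρ x < k ∧ κ x < l)).image (fun x => (ρ x, κ x)) := by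
      rintro ⟨i, j⟩ hij
      rw [mem_product, mem_range, mem_range] at hij
      simp only at hij
      obtain ⟨y, _, hy2, hy3⟩ := h.lower x i j (by omega) (by omega)
      rw [mem_image]
      exact ⟨y, by rw [mem_filter]; exact ⟨mem_univ _, by omega, by omega⟩, by rw [hy2, hy3]⟩
    exact (card_le_card h3).trans card_image_le
  rwa [card_product, card_range, card_range] at h2

omit [DecidableEq X] in
/-- if some letter is below row `k` and some letter is right of column `l`, the corner has at least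
`k + l - 1` letters -/
theorem ncr_hook {ρ κ : Word X} (h : IsTab (fun _ => 0) ρ κ) {k l : ℕ} (hk : 0 < k) (hl : 0 < l)
    (h1 : nlt ρ k < Fintype.card X) (h2 : nlt κ l < Fintype.card X) :
    k + l ≤ ncr ρ κ k l + 1 := by
  obtain ⟨x, hx⟩ : ∃ x, k ≤ ρ x := by
    by_contra hc
    push Not at hc
    unfold nlt at h1
    rw [filter_true_of_mem (fun x _ => hc x), card_univ] at h1
    omega
  obtain ⟨y, hy⟩ : ∃ y, l ≤ κ y := by
    by_contra hc
    push Not at hc
    unfold nlt at h2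
    rw [filter_true_of_mem (fun x _ => hc x), card_univ] at h2
    omega
  unfold ncr
  have h3 : (range k).image (fun i => (i, 0)) ∪ (Ico 1 l).image (fun j => (0, j)) ⊆
      (univ.filter (fun x => ρ x < k ∧ κ x < l)).image (fun x => (ρ x, κ x)) := by
    intro p hp
    rw [mem_union, mem_image, mem_image] at hp
    rw [mem_image]
    rcases hp with ⟨i, hi, rfl⟩ | ⟨j, hj, rfl⟩
    · rw [mem_range] at hi
      obtain ⟨z, _, hz2, hz3⟩ := h.lower x i 0 (by omega) (by omega)
      exact ⟨z, by rw [mem_filter]; exact ⟨mem_univ _, by omega, by omega⟩, by rw [hz2, hz3]⟩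
    · rw [mem_Ico] at hj
      obtain ⟨z, _, hz2, hz3⟩ := h.lower y 0 j (by omega) (by omega)
      exact ⟨z, by rw [mem_filter]; exact ⟨mem_univ _, by omega, by omega⟩, by rw [hz2, hz3]⟩
  have h4 := (card_le_card h3).trans card_image_le
  rw [card_union_of_disjoint, card_image_of_injective, card_image_of_injective, card_range,
    Nat.card_Ico] at h4
  · omega
  · intro i j hij
    simpa using hij
  · intro i j hij
    simpa using hij
  · rw [disjoint_left]
    intro p hp hp'
    rw [mem_image] at hp hp'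
    obtain ⟨i, _, rfl⟩ := hp
    obtain ⟨j, hj, hj2⟩ := hp'
    rw [mem_Ico] at hj
    simp only [Prod.mk.injEq] at hj2
    omega

/-- both failures are failures of the eight lines -/
private theorem rc_A {ρ κ : Word X} (h : IsTab (fun _ => 0) ρ κ) {a : ℕ} (ha : 3 ≤ a)
    (h1 : 4 * a ≤ Fintype.card X + 2) (h2 : 8 * a ≤ Fintype.card X + 20)
    (h3 : a * a < 4 * Fintype.card X)
    (hr : nlt ρ 8 + 3 ≤ 4 * a) (hc : nlt κ 8 + 3 ≤ 4 * a) : False := by
  have e1 := incl_excl ρ κ 8 8
  have e2 := ncr_hook h (k := 8) (l := 8) (by norm_num) (by norm_num) (by omega) (by omega)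
  by_cases h0 : nin ρ κ 8 8 = 0
  · omega
  · have e3 := ncr_full h h0
    have e4 := nin_le h 8 8
    have e5 := mul_neq_le h (m := 8) (k := 8) (by norm_num)
    have e6 := mul_neq_le (tab_swap h) (m := 8) (k := 8) (by norm_num)
    obtain ⟨u, hu⟩ : ∃ u, u = neq ρ 8 - 8 := ⟨_, rfl⟩
    obtain ⟨v, hv⟩ : ∃ v, v = neq κ 8 - 8 := ⟨_, rfl⟩
    rw [← hu, ← hv] at e4
    have hu1 : 1 ≤ u := by
      by_contra hc'
      have : u = 0 := by omega
      rw [this, mul_zero] at e4
      omega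
    have hv1 : 1 ≤ v := by
      by_contra hc'
      have : v = 0 := by omega
      rw [this, zero_mul] at e4
      omega
    have hua : 2 * u + 17 ≤ a := by omega
    have hva : 2 * v + 17 ≤ a := by omega
    obtain ⟨b, rfl⟩ : ∃ b, a = b + 17 := ⟨a - 17, by omega⟩
    have e7 : (2 * v) * (2 * u) ≤ b * b := Nat.mul_le_mul (by omega) (by omega)
    nlinarith

private theorem rc_B {ρ κ : Word X} (h : IsTab (fun _ => 0) ρ κ) {a : ℕ} (ha : 3 ≤ a)
    (h1 : 4 * a ≤ Fintype.card X + 2) (h3 : a * a < 4 * Fintype.card X)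
    (hr : nlt ρ 4 ≤ 2 * a) (hc : nlt κ 4 ≤ 2 * a) : False := by
  have e1 := incl_excl ρ κ 4 4
  have e2 := ncr_hook h (k := 4) (l := 4) (by norm_num) (by norm_num) (by omega) (by omega)
  by_cases h0 : nin ρ κ 4 4 = 0
  · omega
  · have e3 := ncr_full h h0
    have e4 := nin_le h 4 4
    have e5 := mul_neq_le h (m := 4) (k := 4) (by norm_num)
    have e6 := mul_neq_le (tab_swap h) (m := 4) (k := 4) (by norm_num)
    obtain ⟨u, hu⟩ : ∃ u, u = neq ρ 4 - 4 := ⟨_, rfl⟩
    obtain ⟨v, hv⟩ : ∃ v, v = neq κ 4 - 4 := ⟨_, rfl⟩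
    rw [← hu, ← hv] at e4
    have hu1 : 1 ≤ u := by
      by_contra hc'
      have : u = 0 := by omega
      rw [this, mul_zero] at e4
      omega
    have hv1 : 1 ≤ v := by
      by_contra hc'
      have : v = 0 := by omega
      rw [this, zero_mul] at e4
      omega
    have hua : 2 * u + 8 ≤ a := by omega
    have hva : 2 * v + 8 ≤ a := by omega
    obtain ⟨b, rfl⟩ : ∃ b, a = b + 8 := ⟨a - 8, by omega⟩
    have e7 : (2 * v) * (2 * u) ≤ b * b := Nat.mul_le_mul (by omega) (by omega)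
    nlinarith

private theorem rc_C {ρ κ : Word X} (h : IsTab (fun _ => 0) ρ κ) {a : ℕ} (ha : 3 ≤ a)
    (h1 : 4 * a ≤ Fintype.card X + 2) (h2 : 8 * a ≤ Fintype.card X + 20)
    (h3 : a * a < 4 * Fintype.card X)
    (hr : nlt ρ 4 ≤ 2 * a) (hc : nlt κ 8 + 3 ≤ 4 * a) : False := by
  have e1 := incl_excl ρ κ 4 8
  have e2 := ncr_hook h (k := 4) (l := 8) (by norm_num) (by norm_num) (by omega) (by omega)
  by_cases h0 : nin ρ κ 4 8 = 0
  · omega
  · have e3 := ncr_full h h0
    have e4 := nin_le h 4 8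
    have e5 := mul_neq_le h (m := 4) (k := 4) (by norm_num)
    have e6 := mul_neq_le (tab_swap h) (m := 8) (k := 8) (by norm_num)
    obtain ⟨u, hu⟩ : ∃ u, u = neq ρ 4 - 8 := ⟨_, rfl⟩
    obtain ⟨v, hv⟩ : ∃ v, v = neq κ 8 - 4 := ⟨_, rfl⟩
    rw [← hu, ← hv] at e4
    have hu1 : 1 ≤ u := by
      by_contra hc'
      have : u = 0 := by omega
      rw [this, mul_zero] at e4
      omega
    have hv1 : 1 ≤ v := by
      by_contra hc'
      have : v = 0 := by omega
      rw [this, zero_mul] at e4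
      omega
    have hua : 2 * u + 16 ≤ a := by omega
    have hva : 2 * v + 9 ≤ a := by omega
    obtain ⟨b, rfl⟩ : ∃ b, a = b + 16 := ⟨a - 16, by omega⟩
    have e7 : (2 * v) * (2 * u) ≤ (b + 7) * b := Nat.mul_le_mul (by omega) (by omega)
    nlinarith

/-- THE UNIVERSAL PEEL LEMMA. -/
theorem peel_RC {ρ κ : Word X} (h : IsTab (fun _ => 0) ρ κ) {a : ℕ} (ha : 3 ≤ a)
    (h1 : 4 * a ≤ Fintype.card X + 2) (h2 : 8 * a ≤ Fintype.card X + 20)
    (h3 : a * a < 4 * Fintype.card X) :
    (2 * a + 1 ≤ nlt ρ 4 ∧ 4 * a ≤ nlt ρ 8 + 2) ∨ (2 * a + 1 ≤ nlt κ 4 ∧ 4 * a ≤ nlt κ 8 + 2) := by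
  by_contra hcon
  push Not at hcon
  obtain ⟨hR, hC⟩ := hcon
  by_cases hr : 2 * a + 1 ≤ nlt ρ 4
  · have hr8 := hR hr
    by_cases hc : 2 * a + 1 ≤ nlt κ 4
    · exact rc_A h ha h1 h2 h3 (by omega) (by have := hC hc; omega)
    · exact rc_C (tab_swap h) ha h1 h2 h3 (by omega) (by omega)
  · by_cases hc : 2 * a + 1 ≤ nlt κ 4
    · exact rc_C h ha h1 h2 h3 (by omega) (by have := hC hc; omega)
    · exact rc_B h ha h1 h3 (by omega) (by omega)

end

end Crest.Agent.SaxlN
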