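import Crest.Agent.SaxlN.SysDefs

/-!
CHUNK GLUEGAP (medium, ~150 lines): the gluing theorem with empty groups allowed.
-/

set_option autoImplicit false

namespace Crest.Agent.SaxlN

open Finset Equiv
open Crest.Agent.Saxl

variable {X : Type} [Fintype X] [DecidableEq X]

/-- renumbered line -/
private noncomputable def gapF (η : ℕ → ℕ) (r : ℕ) : ℕ := by
  classical
  exact 2 * Nat.count (fun i => 0 < η (2 * i)) (r / 2) + r % 2

/-- original line -/
private noncomputable def gapB (η : ℕ → ℕ) (r : ℕ) : ℕ :=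
  2 * Nat.nth (fun i => 0 < η (2 * i)) (r / 2) + r % 2

/-- number of nonempty groups -/
private noncomputable def gapQ (q : ℕ) (η : ℕ → ℕ) : ℕ := by
  classical
  exact Nat.count (fun i => 0 < η (2 * i)) q

/-- renumbered lengths -/
private noncomputable def gapE (q : ℕ) (η : ℕ → ℕ) (r : ℕ) : ℕ :=
  if r / 2 < gapQ q η then η (gapB η r) else 0

private lemma gap_p {q : ℕ} {η : ℕ → ℕ} (hη : LD0 q η) {r : ℕ} (hr : 0 < η r) :
    0 < η (2 * (r / 2)) := by
  rcases Nat.even_or_odd' r with ⟨i, hi | hi⟩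
  · have : 2 * (r / 2) = r := by omega
    rw [this]; exact hr
  · have h1 : r / 2 = i := by omega
    rw [h1]
    by_contra hc
    have := hη.pos2 i (by omega)
    rw [hi] at hr
    omega

private lemma gap_lt {q : ℕ} {η : ℕ → ℕ} (hη : LD0 q η) {r : ℕ} (hr : 0 < η r) : r / 2 < q := by
  by_contra hc
  have := hη.zero r (by omega)
  omega

private lemma gap_BF {q : ℕ} {η : ℕ → ℕ} (hη : LD0 q η) {r : ℕ} (hr : 0 < η r) :
    gapB η (gapF η r) = r := by
  classical
  have h1 : gapF η r / 2 = Nat.count (fun i => 0 < η (2 * i)) (r / 2) := by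
    unfold gapF; omega
  have h2 : gapF η r % 2 = r % 2 := by
    unfold gapF; omega
  unfold gapB
  rw [h1, h2, Nat.nth_count (p := fun i => 0 < η (2 * i)) (gap_p hη hr)]
  omega

private lemma gap_Flt {q : ℕ} {η : ℕ → ℕ} (hη : LD0 q η) {r : ℕ} (hr : 0 < η r) :
    gapF η r / 2 < gapQ q η := by
  classical
  have h1 : gapF η r / 2 = Nat.count (fun i => 0 < η (2 * i)) (r / 2) := by
    unfold gapF; omega
  rw [h1]
  unfold gapQ
  exact Nat.count_strict_mono (p := fun i => 0 < η (2 * i)) (gap_p hη hr) (gap_lt hη hr)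

private lemma gap_EF {q : ℕ} {η : ℕ → ℕ} (hη : LD0 q η) {r : ℕ} (hr : 0 < η r) :
    gapE q η (gapF η r) = η r := by
  unfold gapE
  rw [if_pos (gap_Flt hη hr), gap_BF hη hr]

private lemma gap_E {q : ℕ} {η : ℕ → ℕ} {r : ℕ} (hr : 0 < gapE q η r) :
    r / 2 < gapQ q η ∧ gapE q η r = η (gapB η r) := by
  unfold gapE at hr ⊢
  split_ifs at hr ⊢ with h
  · exact ⟨h, rfl⟩
  · omega

private lemma gap_n {q : ℕ} {η : ℕ → ℕ} {j : ℕ} (hj : j < gapQ q η) :
    0 < η (2 * Nat.nth (fun i => 0 < η (2 * i)) j) := by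
  classical
  unfold gapQ at hj
  exact Nat.nth_mem (p := fun i => 0 < η (2 * i)) j (fun hf => by
    refine lt_of_lt_of_le hj ?_
    exact Nat.count_le_card hf q)

private lemma gap_FB {q : ℕ} {η : ℕ → ℕ} {r : ℕ} (hr : r / 2 < gapQ q η) :
    gapF η (gapB η r) = r := by
  classical
  have h1 : gapB η r / 2 = Nat.nth (fun i => 0 < η (2 * i)) (r / 2) := by
    unfold gapB; omega
  have h2 : gapB η r % 2 = r % 2 := by
    unfold gapB; omega
  unfold gapF
  rw [h1, h2, Nat.count_nth (p := fun i => 0 < η (2 * i)) (fun hf => by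
    refine lt_of_lt_of_le hr ?_
    unfold gapQ
    exact Nat.count_le_card hf q)]
  omega

private lemma gap_Fmono {q : ℕ} {η : ℕ → ℕ} (hη : LD0 q η) {r s : ℕ} (hr : 0 < η r)
    (hrs : r < s) : gapF η r < gapF η s := by
  classical
  unfold gapF
  rcases Nat.lt_or_ge (r / 2) (s / 2) with h | h
  · have := Nat.count_strict_mono (p := fun i => 0 < η (2 * i)) (gap_p hη hr) h
    omega
  · have h2 : r / 2 = s / 2 := by omega
    rw [h2]
    omega

private lemma gap_Bmono {q : ℕ} {η : ℕ → ℕ} (hη : LD0 q η) {r s : ℕ} (hr : 0 < gapE q η r)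
    (hs : 0 < gapE q η s) (hrs : r < s) : gapB η r < gapB η s := by
  obtain ⟨h1, h2⟩ := gap_E hr
  obtain ⟨h3, h4⟩ := gap_E hs
  by_contra hc
  rcases Nat.lt_or_ge (gapB η s) (gapB η r) with h | h
  · have := gap_Fmono hη (by rw [← h4]; exact hs) h
    rw [gap_FB h1, gap_FB h3] at this
    omega
  · have h5 : gapB η s = gapB η r := by omega
    have := gap_FB h1
    rw [← h5, gap_FB h3] at this
    omega

private lemma gap_LD {q : ℕ} {η : ℕ → ℕ} (hη : LD0 q η) : LD (gapQ q η) (gapE q η) := by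
  refine ⟨?_, ?_, ?_, ?_⟩
  · intro r hr
    unfold gapE
    rw [if_neg (by omega)]
  · intro i hi
    unfold gapE
    have h1 : 2 * i / 2 = i := by omega
    rw [if_pos (by omega)]
    have h2 : gapB η (2 * i) = 2 * Nat.nth (fun i => 0 < η (2 * i)) i := by
      unfold gapB
      rw [h1]; omega
    rw [h2]
    exact gap_n hi
  · intro r s hrs hs hr
    obtain ⟨h1, h2⟩ := gap_E hr
    obtain ⟨h3, h4⟩ := gap_E hs
    rw [h2, h4]
    exact hη.dec _ _ (gap_Bmono hη hr hs hrs) (by rw [← h4]; exact hs) (by rw [← h2]; exact hr)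
  · intro i
    by_cases hi : i < gapQ q η
    · have h1 : gapE q η (2 * i) = η (2 * Nat.nth (fun i => 0 < η (2 * i)) i) := by
        unfold gapE
        rw [if_pos (by omega)]
        congr 1
        unfold gapB
        have : 2 * i / 2 = i := by omega
        rw [this]; omega
      have h2 : gapE q η (2 * i + 1) = η (2 * Nat.nth (fun i => 0 < η (2 * i)) i + 1) := by
        unfold gapE
        rw [if_pos (by omega)]
        congr 1
        unfold gapB
        have : (2 * i + 1) / 2 = i := by omega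
        rw [this]; omega
      rw [h1, h2]
      exact hη.two _
    · left
      unfold gapE
      rw [if_neg (by omega)]

private lemma gap_total {q : ℕ} {η : ℕ → ℕ} (hη : LD0 q η) :
    total (gapQ q η) (gapE q η) = total q η := by
  unfold total
  refine Finset.sum_bij_ne_zero (fun r _ _ => gapB η r) ?_ ?_ ?_ ?_
  · intro r _ hr
    obtain ⟨h1, h2⟩ := gap_E (q := q) (Nat.pos_of_ne_zero hr)
    have h3 : 0 < η (gapB η r) := by rw [← h2]; exact Nat.pos_of_ne_zero hr
    have := gap_lt hη h3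
    rw [mem_range]; omega
  · intro r _ hr s _ hs hrs
    obtain ⟨h1, h2⟩ := gap_E (q := q) (Nat.pos_of_ne_zero hr)
    obtain ⟨h3, h4⟩ := gap_E (q := q) (Nat.pos_of_ne_zero hs)
    have := gap_FB h1
    rw [hrs, gap_FB h3] at this
    exact this.symm
  · intro r _ hr
    have hr' : 0 < η r := Nat.pos_of_ne_zero hr
    refine ⟨gapF η r, ?_, ?_, gap_BF hη hr'⟩
    · have := gap_Flt hη hr'
      rw [mem_range]; omega
    · rw [gap_EF hη hr']; exact hr
  · intro r _ hr
    exact (gap_E (q := q) (Nat.pos_of_ne_zero hr)).2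

private lemma gap_cnt {q : ℕ} {η : ℕ → ℕ} (hη : LD0 q η) (t : ℕ → Bool) (s : Bool) {r : ℕ}
    (hr : 0 < η r) :
    cnt (gapE q η) (fun j => t (Nat.nth (fun i => 0 < η (2 * i)) j)) s (gapF η r) =
      cnt η t s r := by
  classical
  unfold cnt
  symm
  refine card_bij (fun r' _ => gapF η r') ?_ ?_ ?_
  · intro a ha
    simp only [mem_filter, mem_range] at ha ⊢
    have hF : gapF η a / 2 = Nat.count (fun i => 0 < η (2 * i)) (a / 2) := by
      unfold gapF; omega
    refine ⟨gap_Fmono hη ha.2.1 ha.1, by rw [gap_EF hη ha.2.1]; exact ha.2.1, ?_⟩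
    rw [hF, Nat.nth_count (p := fun i => 0 < η (2 * i)) (gap_p hη ha.2.1)]
    exact ha.2.2
  · intro a ha b hb hab
    simp only [mem_filter, mem_range] at ha hb
    rw [← gap_BF hη ha.2.1, ← gap_BF hη hb.2.1]
    exact congrArg _ hab
  · intro b hb
    simp only [mem_filter, mem_range] at hb
    obtain ⟨h1, h2⟩ := gap_E hb.2.1
    have h3 : 0 < η (gapB η b) := by rw [← h2]; exact hb.2.1
    refine ⟨gapB η b, ?_, gap_FB h1⟩
    simp only [mem_filter, mem_range]
    refine ⟨?_, h3, ?_⟩
    · by_contra hc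
      rcases Nat.lt_or_ge r (gapB η b) with h | h
      · have := gap_Fmono hη hr h
        rw [gap_FB h1] at this
        omega
      · have h5 : gapB η b = r := by omega
        have := gap_FB h1
        rw [h5] at this
        omega
    · have hB : gapB η b / 2 = Nat.nth (fun i => 0 < η (2 * i)) (b / 2) := by
        unfold gapB; omega
      rw [hB]
      exact hb.2.2

/-- `glue_main` with `LD0` (empty groups allowed) instead of `LD`.
PROOF. Renumber the nonempty groups: `p i := 0 < η (2 i)`, `c i := Nat.count p i` (`= #{i' < i : p i'}`),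
`q' := c q`, `n j := Nat.nth p j` (the `j`-th nonempty group; for `j < q'` it is `< q`), and
`η' r := if r < 2 q' then η (2 * n (r/2) + r % 2) else 0`, `w₀' x := 2 * c (w₀ x / 2) + w₀ x % 2`,
`t₁ j := t (n j)`, `t₁' j := t' (n j)`. As `A x < η (w₀ x)`, the group of every letter is nonempty (`pos2`), so
`n (c (w₀ x / 2)) = w₀ x / 2` (`Nat.nth_count`), `η' (w₀' x) = η (w₀ x)`, `t₁ (w₀' x / 2) = t (w₀ x / 2)`.
`LD q' η'` (`n` strictly increasing on `j < q'`), `card X = total q' η'` (or deduce it from the bijection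
`x ↦ (A x, w₀ x)`: `total q η = ∑_i [p i] (η (2i) + η (2i+1))`), `PerpL η' A w₀'`,
`cnt η' t₁ s (w₀' x) = cnt η t s (w₀ x)` (bijection `r' ↦ 2 n (r'/2) + r' % 2` between the nonempty lines before),
so `rowT`, `colT` are the same words; `gw w₀' ∘ g = gw w₀' ↔ gw w₀ ∘ g = gw w₀` (`c` is injective on nonempty groups) and
`SemiInv` is the same. Apply `glue_main`. -/
theorem glue_gap {q : ℕ} {η : ℕ → ℕ} (hη : LD0 q η) (hX : Fintype.card X = total q η)
    {A w₀ : Word X} (hA : PerpL η A w₀) {t t' : ℕ → Bool}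
    (hv : IsTab (fun _ => 0) (rowT η t A w₀) (colT η t A w₀))
    (hconj : ∃ h : Perm X, rowT η t' A w₀ = rowT η t A w₀ ∘ h ∧ colT η t' A w₀ = colT η t A w₀ ∘ h)
    {cl : Word X} (hcl : ∀ x, cl x < 4) (hcl0 : ∀ x, η (2 * (w₀ x / 2) + 1) = 0 → cl x = 0)
    {W : Type} [AddCommGroup W] [Module ℂ W] [FiniteDimensional ℂ W]
    (σ : Representation ℂ (Perm X) W) (hσ : Representation.IsIrreducible σ) (w : W) (hw : w ≠ 0)
    (hsemi : SemiInv (gw w₀) cl (fun i => xor (t i) (t' i)) σ w) :
    Nontrivial (Representation.IntertwiningMap σ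
      (Representation.tprod (IVrep (rowT η t A w₀) (colT η t A w₀))
        (IVrep (rowT η t A w₀) (colT η t A w₀)))) := by
  classical
  have hpos : ∀ x, 0 < η (w₀ x) := fun x => lt_of_le_of_lt (Nat.zero_le _) (hA.2 x)
  set w₁ : Word X := fun x => gapF η (w₀ x) with hw₁
  set t₁ : ℕ → Bool := fun j => t (Nat.nth (fun i => 0 < η (2 * i)) j) with ht₁
  set t₁' : ℕ → Bool := fun j => t' (Nat.nth (fun i => 0 < η (2 * i)) j) with ht₁'
  have hdiv : ∀ x, Nat.nth (fun i => 0 < η (2 * i)) (w₁ x / 2) = w₀ x / 2 := by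
    intro x
    have h1 : w₁ x / 2 = Nat.count (fun i => 0 < η (2 * i)) (w₀ x / 2) := by
      rw [hw₁]; simp only [gapF]; omega
    rw [h1, Nat.nth_count (p := fun i => 0 < η (2 * i)) (gap_p hη (hpos x))]
  have hdiv' : ∀ x, w₁ x / 2 = Nat.count (fun i => 0 < η (2 * i)) (w₀ x / 2) := by
    intro x
    rw [hw₁]; simp only [gapF]; omega
  have hX' : Fintype.card X = total (gapQ q η) (gapE q η) := by rw [gap_total hη]; exact hX
  have hA' : PerpL (gapE q η) A w₁ := by
    refine ⟨?_, ?_⟩
    · intro x y hxy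
      apply hA.1
      simp only [Prod.mk.injEq] at hxy ⊢
      refine ⟨hxy.1, ?_⟩
      have h1 := gap_BF hη (hpos x)
      have h2 := gap_BF hη (hpos y)
      rw [← h1, ← h2]
      exact congrArg _ hxy.2
    · intro x
      change A x < gapE q η (gapF η (w₀ x))
      rw [gap_EF hη (hpos x)]
      exact hA.2 x
  have hrow : ∀ s : ℕ → Bool, rowT (gapE q η) (fun j => s (Nat.nth (fun i => 0 < η (2 * i)) j)) A w₁
      = rowT η s A w₀ := by
    intro s
    funext x
    simp only [rowT, hdiv x]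
    congr 1
    exact gap_cnt hη s false (hpos x)
  have hcol : ∀ s : ℕ → Bool, colT (gapE q η) (fun j => s (Nat.nth (fun i => 0 < η (2 * i)) j)) A w₁
      = colT η s A w₀ := by
    intro s
    funext x
    simp only [colT, hdiv x]
    congr 1
    exact gap_cnt hη s true (hpos x)
  have key := glue_main (gap_LD hη) hX' hA' (t := t₁) (t' := t₁')
    (by rw [ht₁, hrow t, hcol t]; exact hv)
    (by rw [ht₁, ht₁', hrow t, hcol t, hrow t', hcol t']; exact hconj)
    (cl := cl) hcl (by
      intro x hx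
      apply hcl0 x
      have h1 : (2 * (w₁ x / 2) + 1) / 2 = w₁ x / 2 := by omega
      have h2 : w₁ x / 2 < gapQ q η := gap_Flt hη (hpos x)
      have h3 : gapE q η (2 * (w₁ x / 2) + 1) = η (2 * (w₀ x / 2) + 1) := by
        unfold gapE
        rw [if_pos (by omega)]
        congr 1
        unfold gapB
        rw [h1, hdiv x]
        omega
      rw [← h3]; exact hx)
    σ hσ w hw (by
      intro g hg hcg
      have hg' : gw w₀ ∘ g = gw w₀ := by
        funext x
        have h1 := congrFun hg x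
        change w₁ (g x) / 2 = w₁ x / 2 at h1
        change w₀ (g x) / 2 = w₀ x / 2
        rw [← hdiv (g x), ← hdiv x, h1]
      have h2 := hsemi g hg' hcg
      have h3 : (fun x => xor (t₁ (gw w₁ x)) (t₁' (gw w₁ x))) =
          (fun x => xor (t (gw w₀ x)) (t' (gw w₀ x))) := by
        funext x
        change xor (t (Nat.nth (fun i => 0 < η (2 * i)) (w₁ x / 2)))
          (t' (Nat.nth (fun i => 0 < η (2 * i)) (w₁ x / 2))) = _
        rw [hdiv x]
        rfl
      rw [h3]
      exact h2)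
  rw [ht₁, hrow t, hcol t] at key
  exact key

end Crest.Agent.SaxlN
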