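import Crest.Agent.SaxlN.SysDefs

/-!
CHUNK IVCONJ (easy/medium, ~80 lines).
-/

set_option autoImplicit false

namespace Crest.Agent.SaxlN

open Finset Equiv TensorProduct
open Crest.Agent.Saxl

variable {X : Type} [Fintype X] [DecidableEq X]

/-- right multiplication by `h⁻¹` -/
private noncomputable def ivcE (R C : Word X) (h : Perm X) : IV (R ∘ h) (C ∘ h) ≃ₗ[ℂ] IV R C where
  toFun v := ⟨v.1 * MonoidAlgebra.of ℂ (Perm X) h⁻¹, by
    obtain ⟨a, ha⟩ := mem_IV.1 v.2
    refine mem_IV.2 ⟨a * MonoidAlgebra.of ℂ (Perm X) h⁻¹, ?_⟩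
    rw [← ha, ideal_EP_comp]
    simp only [mul_assoc]
    rw [← map_mul, mul_inv_cancel, map_one, mul_one]⟩
  invFun w := ⟨w.1 * MonoidAlgebra.of ℂ (Perm X) h, by
    obtain ⟨a, ha⟩ := mem_IV.1 w.2
    refine mem_IV.2 ⟨a * MonoidAlgebra.of ℂ (Perm X) h, ?_⟩
    rw [← ha, ideal_EP_comp]
    simp only [← mul_assoc]
    rw [mul_assoc a, ← map_mul, mul_inv_cancel, map_one, mul_one]⟩
  map_add' v w := Subtype.ext (by simp [add_mul])
  map_smul' z v := Subtype.ext (by simp)
  left_inv v := Subtype.ext (by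
    show v.1 * MonoidAlgebra.of ℂ (Perm X) h⁻¹ * MonoidAlgebra.of ℂ (Perm X) h = v.1
    rw [mul_assoc, ← map_mul, inv_mul_cancel, map_one, mul_one])
  right_inv v := Subtype.ext (by
    show v.1 * MonoidAlgebra.of ℂ (Perm X) h * MonoidAlgebra.of ℂ (Perm X) h⁻¹ = v.1
    rw [mul_assoc, ← map_mul, mul_inv_cancel, map_one, mul_one])

private theorem ivcE_equiv (R C : Word X) (h g : Perm X) (v : IV (R ∘ h) (C ∘ h)) :
    ivcE R C h (IVrep (R ∘ h) (C ∘ h) g v) = IVrep R C g (ivcE R C h v) := by
  apply Subtype.ext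
  show MonoidAlgebra.of ℂ (Perm X) g * v.1 * MonoidAlgebra.of ℂ (Perm X) h⁻¹ =
    MonoidAlgebra.of ℂ (Perm X) g * (v.1 * MonoidAlgebra.of ℂ (Perm X) h⁻¹)
  rw [mul_assoc]

/-- PROOF. `EP (R ∘ h) (C ∘ h) = h⁻¹ * EP R C * h` (up to the convention; `EP` is the Young symmetriser in
`MonoidAlgebra ℂ (Perm X)`), so `a ↦ a * h⁻¹` (or `a * h`) is an injective linear map
`IV (R ∘ h) (C ∘ h) → IV R C` commuting with left multiplication. The map `f ⊗ f` on the tensor square is equivariant
and injective (`TensorProduct.map` of injective maps over a field: use a linear left inverse, or make `f` a linear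
equivalence and use `TensorProduct.congr`), so composing a nonzero intertwining map with it gives a nonzero
intertwining map. (Saxl/Irr.lean, SaxlN/Ideal.lean contain the conjugation of `EP`.) -/
theorem nontrivial_conj (R C : Word X) (h : Perm X)
    {W : Type} [AddCommGroup W] [Module ℂ W] [FiniteDimensional ℂ W]
    (σ : Representation ℂ (Perm X) W)
    (hn : Nontrivial (Representation.IntertwiningMap σ
      (Representation.tprod (IVrep (R ∘ h) (C ∘ h)) (IVrep (R ∘ h) (C ∘ h))))) :
    Nontrivial (Representation.IntertwiningMap σ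
      (Representation.tprod (IVrep R C) (IVrep R C))) := by
  obtain ⟨f, hf⟩ := exists_ne (0 : Representation.IntertwiningMap σ
      (Representation.tprod (IVrep (R ∘ h) (C ∘ h)) (IVrep (R ∘ h) (C ∘ h))))
  let e := TensorProduct.congr (ivcE R C h) (ivcE R C h)
  have he : ∀ (g : Perm X) (x : TensorProduct ℂ (IV (R ∘ h) (C ∘ h)) (IV (R ∘ h) (C ∘ h))),
      e (Representation.tprod (IVrep (R ∘ h) (C ∘ h)) (IVrep (R ∘ h) (C ∘ h)) g x) =
        Representation.tprod (IVrep R C) (IVrep R C) g (e x) := by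
    intro g x
    induction x using TensorProduct.induction_on with
    | zero => simp
    | tmul x y =>
      rw [Representation.tprod_apply, TensorProduct.map_tmul, TensorProduct.congr_tmul,
        TensorProduct.congr_tmul, Representation.tprod_apply, TensorProduct.map_tmul,
        ivcE_equiv, ivcE_equiv]
    | add x y hx hy => rw [map_add, map_add, hx, hy, map_add, map_add]
  let F : Representation.IntertwiningMap σ (Representation.tprod (IVrep R C) (IVrep R C)) :=
    (e.toLinearMap ∘ₗ f.toLinearMap).intertwiningMap_of_isIntertwiningMap σ _ (by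
      intro g v
      show e (f (σ g v)) = _
      rw [f.isIntertwining, he]
      rfl)
  refine ⟨⟨F, 0, fun h0 => hf ?_⟩⟩
  apply Representation.IntertwiningMap.ext
  apply LinearMap.ext
  intro v
  have h1 : F v = 0 := by rw [h0]; rfl
  have h2 : e (f v) = 0 := h1
  show f v = 0
  exact (LinearEquiv.map_eq_zero_iff e).mp h2

end Crest.Agent.SaxlN
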