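import Crest.Agent.SaxlN.LayTab
import Crest.Agent.SaxlN.GlueGap
import Crest.Agent.SaxlN.IVConj

/-!
SYSMAIN: the main theorem of a system of lines.
-/

set_option autoImplicit false

namespace Crest.Agent.SaxlN

open Finset Equiv
open Crest.Agent.Saxl

/-- two injective words of cells with the same image differ by a permutation -/
theorem exists_perm_of_image {X : Type} {α : Type} (f g : X → α)
    (hf : Function.Injective f) (hg : Function.Injective g) (h : Set.range f = Set.range g) :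
    ∃ p : Perm X, g = f ∘ p := by
  let ef : X ≃ Set.range f := Equiv.ofInjective f hf
  let eg : X ≃ Set.range g := Equiv.ofInjective g hg
  let e : Set.range g ≃ Set.range f := Equiv.setCongr h.symm
  refine ⟨(eg.trans e).trans ef.symm, ?_⟩
  funext x
  have h1 : f (ef.symm (e (eg x))) = (e (eg x) : α) := by
    have := Equiv.apply_symm_apply ef (e (eg x))
    exact congrArg Subtype.val this
  show g x = f (ef.symm (e (eg x)))
  rw [h1]
  rfl

/-- a bijection of `X` onto the shape of `La` gives a tableau. -/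
theorem isTab_of_DD {X : Type} {La : Finset ℕ} {R C : Word X}
    (hinj : Function.Injective fun x => (R x, C x)) (him : (Set.range fun x => (R x, C x)) = DD La) :
    IsTab (fun _ => 0) R C := by
  refine ⟨fun x y hxy => hinj ?_, fun x i j hi hj => ?_⟩
  · simp only [Prod.mk.injEq, true_and] at hxy ⊢
    exact hxy
  · have h1 : (R x, C x) ∈ DD La := by
      rw [← him]; exact ⟨x, rfl⟩
    have h2 := DD_lower h1 hi hj
    rw [← him] at h2
    obtain ⟨y, hy⟩ := h2
    simp only [Prod.mk.injEq] at hy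
    exact ⟨y, rfl, hy.1, hy.2⟩

/-- reference words -/
theorem exists_ref {n : ℕ} {La : Finset ℕ} (h0 : 0 ∉ La) (hn : ∑ L ∈ La, L = n)
    (hex : ∃ t, Bal La t) : ∃ R₀ C₀ : Word (Fin n),
      (Function.Injective fun x => (R₀ x, C₀ x)) ∧ (Set.range fun x => (R₀ x, C₀ x)) = DD La := by
  obtain ⟨t, ht⟩ := hex
  set Sg : Finset (Σ _ : ℕ, ℕ) := La.sigma (fun L => range L) with hSg
  have hc : Sg.card = n := by
    rw [hSg, Finset.card_sigma, ← hn]
    simp
  let e : Fin n ≃ Sg := (Finset.equivFinOfCardEq hc).symm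
  have hmem : ∀ x, (e x : Σ _ : ℕ, ℕ).1 ∈ La ∧ (e x : Σ _ : ℕ, ℕ).2 < (e x : Σ _ : ℕ, ℕ).1 := by
    intro x
    have h5 : (e x : Σ _ : ℕ, ℕ) ∈ La.sigma (fun L => range L) := (e x).2
    have h6 := Finset.mem_sigma.1 h5
    exact ⟨h6.1, Finset.mem_range.1 h6.2⟩
  refine ⟨fun x => (cellOf La t (e x : Σ _ : ℕ, ℕ).1 (e x : Σ _ : ℕ, ℕ).2).1,
    fun x => (cellOf La t (e x : Σ _ : ℕ, ℕ).1 (e x : Σ _ : ℕ, ℕ).2).2, ?_, ?_⟩
  · intro x y hxy
    have h1 : cellOf La t (e x : Σ _ : ℕ, ℕ).1 (e x : Σ _ : ℕ, ℕ).2 =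
        cellOf La t (e y : Σ _ : ℕ, ℕ).1 (e y : Σ _ : ℕ, ℕ).2 := hxy
    have h2 := cell_inj t (hmem x).1 (hmem y).1 h1
    apply e.injective
    apply Subtype.ext
    exact Sigma.ext h2.1 (heq_of_eq h2.2)
  · ext c
    constructor
    · rintro ⟨x, rfl⟩
      exact cell_mem h0 ht (hmem x).1 (hmem x).2
    · intro hc'
      obtain ⟨L, hL, a, ha, hLa⟩ := cell_surj h0 ht hc'
      have hm : (⟨L, a⟩ : Σ _ : ℕ, ℕ) ∈ Sg := by
        rw [hSg, Finset.mem_sigma]
        exact ⟨hL, Finset.mem_range.2 ha⟩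
      refine ⟨e.symm ⟨⟨L, a⟩, hm⟩, ?_⟩
      simp only [Equiv.apply_symm_apply]
      exact hLa

/-- one representation: a vector gives an intertwining map to the tensor square of `IV R₀ C₀`. -/
theorem sys_W {X : Type} [Fintype X] [DecidableEq X] {La : Finset ℕ} (h0 : 0 ∉ La)
    {R₀ C₀ : Word X} (hinj : Function.Injective fun x => (R₀ x, C₀ x))
    (him : (Set.range fun x => (R₀ x, C₀ x)) = DD La)
    {W : Type} [AddCommGroup W] [Module ℂ W] [FiniteDimensional ℂ W]
    (σ : Representation ℂ (Perm X) W) (hσ : Representation.IsIrreducible σ) (h : HasSV La σ) :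
    Nontrivial (Representation.IntertwiningMap σ
      (Representation.tprod (IVrep R₀ C₀) (IVrep R₀ C₀))) := by
  obtain ⟨P, t, t', u, cl, w, hl, ⟨hb, hb'⟩, hw, hs⟩ := h
  set M := La.sup id with hM
  have hM' : ∀ L ∈ La, L ≤ M := fun L hL => Finset.le_sup (f := id) hL
  obtain ⟨hX, hu, A, w₀, hA, hww⟩ := exists_words h0 hl hM'
  have hLD := etaL_LD0 h0 hl hM'
  have key : ∀ s : ℕ → Bool, Bal La s → (∀ L ∈ P, s (L - 1) = s L) →
      (Function.Injective fun x => (rowT (etaL La P M) (fun i => s (M - i)) A w₀ x,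
        colT (etaL La P M) (fun i => s (M - i)) A w₀ x)) ∧
      (Set.range fun x => (rowT (etaL La P M) (fun i => s (M - i)) A w₀ x,
        colT (etaL La P M) (fun i => s (M - i)) A w₀ x)) = DD La := by
    intro s hbs hsP
    obtain ⟨h1, h2, h3, h4⟩ := cells h0 hl hM' hX hA hww hsP
    constructor
    · intro x y hxy
      simp only [h1] at hxy
      exact h3 (Prod.ext (cell_inj s (h2 x).1 (h2 y).1 hxy).1 (cell_inj s (h2 x).1 (h2 y).1 hxy).2)
    · ext c
      constructor
      · rintro ⟨x, rfl⟩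
        simp only [h1]
        exact cell_mem h0 hbs (h2 x).1 (h2 x).2
      · intro hc
        obtain ⟨L, hL, a, ha, hLa⟩ := cell_surj h0 hbs hc
        obtain ⟨x, hx1, hx2⟩ := h4 L hL a ha
        refine ⟨x, ?_⟩
        simp only [h1, hx1, hx2]
        exact hLa
  obtain ⟨hi1, hr1⟩ := key t hb (fun L hL => (hl.typ L hL).1)
  obtain ⟨hi2, hr2⟩ := key t' hb' (fun L hL => (hl.typ L hL).2)
  obtain ⟨p, hp⟩ := exists_perm_of_image _ _ hi1 hi2 (hr1.trans hr2.symm)
  obtain ⟨p', hp'⟩ := exists_perm_of_image _ _ hinj hi1 (him.trans hr1.symm)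
  have hconj : ∃ h : Perm X, rowT (etaL La P M) (fun i => t' (M - i)) A w₀ =
      rowT (etaL La P M) (fun i => t (M - i)) A w₀ ∘ h ∧
      colT (etaL La P M) (fun i => t' (M - i)) A w₀ =
      colT (etaL La P M) (fun i => t (M - i)) A w₀ ∘ h :=
    ⟨p, funext fun x => (Prod.ext_iff.1 (congrFun hp x)).1,
      funext fun x => (Prod.ext_iff.1 (congrFun hp x)).2⟩
  have hR : rowT (etaL La P M) (fun i => t (M - i)) A w₀ = R₀ ∘ p' :=
    funext fun x => (Prod.ext_iff.1 (congrFun hp' x)).1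
  have hC : colT (etaL La P M) (fun i => t (M - i)) A w₀ = C₀ ∘ p' :=
    funext fun x => (Prod.ext_iff.1 (congrFun hp' x)).2
  have hgw : ∀ x, gw w₀ x = M - u x := hww
  have hsemi : SemiInv (gw w₀) cl (fun i => xor (t (M - i)) (t' (M - i))) σ w := by
    intro g hg hcg
    have hug : u ∘ g = u := by
      funext x
      have h1 := congrFun hg x
      simp only [Function.comp_apply, hgw] at h1 ⊢
      have h2 := (hu x).1
      have h3 := (hu (g x)).1
      omega
    rw [hs g hug hcg]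
    congr 4
    funext x
    simp only [hgw]
    have h2 := (hu x).1
    have h3 : M - (M - u x) = u x := by omega
    rw [h3]
  have hcl0 : ∀ x, etaL La P M (2 * (w₀ x / 2) + 1) = 0 → cl x = 0 := by
    intro x hx
    apply hl.cl0
    intro hP
    rw [hww x] at hx
    have h2 := (hu x).1
    have e1 : (2 * (M - u x) + 1) % 2 = 1 := by omega
    have e2 : (2 * (M - u x) + 1) / 2 = M - u x := by omega
    have e3 : M - (M - u x) = u x := by omega
    have hL1 := (hl.sub _ hP).2
    have hne : u x - 1 ≠ 0 := fun h => h0 (h ▸ hL1)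
    unfold etaL at hx
    rw [e1, e2, e3] at hx
    simp only [one_ne_zero, if_false, if_pos hP] at hx
    exact hne hx
  have hfin := glue_gap hLD hX hA (t := fun i => t (M - i)) (t' := fun i => t' (M - i))
    (isTab_of_DD hi1 hr1) hconj hl.cl4 hcl0 σ hσ w hw hsemi
  rw [hR, hC] at hfin
  exact nontrivial_conj R₀ C₀ p' σ hfin

/-- THE MAIN THEOREM OF A SYSTEM. -/
theorem sys_main {n : ℕ} {La : Finset ℕ} (h0 : 0 ∉ La) (hn : ∑ L ∈ La, L = n)
    (hex : ∃ t, Bal La t)
    (H : ∀ (W : Type) [AddCommGroup W] [Module ℂ W] [FiniteDimensional ℂ W]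
      (σ : Representation ℂ (Perm (Fin n)) W), Representation.IsIrreducible σ → HasSV La σ) :
    S298 n := by
  obtain ⟨R₀, C₀, hinj, him⟩ := exists_ref h0 hn hex
  refine ⟨IV R₀ C₀, inferInstance, inferInstance, inferInstance, IVrep R₀ C₀,
    IV_irreducible (isTab_of_DD hinj him), ?_⟩
  intro W _ _ _ σ hσ
  exact sys_W h0 hinj him σ hσ (H W σ hσ)

/-- an irreducible representation is nontrivial. -/
theorem Good.s298 {n : ℕ} {La : Finset ℕ} (h0 : 0 ∉ La) (hn : ∑ L ∈ La, L = n)
    (hex : ∃ t, Bal La t) (h : Good La) : S298 n := by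
  refine sys_main h0 hn hex ?_
  intro W _ _ _ σ hσ
  have hnt : Nontrivial W := by
    by_contra hcon
    rw [not_nontrivial_iff_subsingleton] at hcon
    have hbt : (⊥ : Subrepresentation σ) = ⊤ := by
      refine Subrepresentation.toSubmodule_injective ?_
      exact Subsingleton.elim _ _
    have := hσ.toNontrivial
    exact bot_ne_top hbt
  exact h (Fin n) (by rw [Fintype.card_fin, hn]) W σ

end Crest.Agent.SaxlN
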