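import Crest.Agent.SaxlN.Peel
import Crest.Agent.SaxlN.Core
import Crest.Agent.SaxlN.SysMain
import Crest.Agent.SaxlN.PeelRC

/-!
# Row 195, S0298: closure rules and the tail induction
-/

set_option autoImplicit false

namespace Crest.Agent.SaxlN

open Finset Equiv
open Crest.Agent.Saxl

theorem okF_of {a n : ℕ} (ha : 4 ≤ a) (h1 : 4 * a ≤ n + 2) (h2 : 8 * a ≤ n + 20)
    (h3 : a * a < 4 * n) : OkF a n := by
  intro X _ _ hX ρ κ h
  subst hX
  rcases peel_RC h (by omega) h1 h2 h3 with ⟨h4, h5⟩ | ⟨h4, h5⟩
  · left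
    exact ⟨h4, by show 4 * a - 2 ≤ nlt ρ 8; omega⟩
  · right
    left
    exact ⟨h4, by show 4 * a - 2 ≤ nlt κ 8; omega⟩

/-- a good system of size `n` with all lines `≤ h` -/
def GS (n h : ℕ) : Prop :=
  ∃ La : Finset ℕ, 0 ∉ La ∧ ∑ L ∈ La, L = n ∧ (∀ L ∈ La, L ≤ h) ∧ (∃ t, Bal La t) ∧ Good La

/-- adding a pair of adjacent lines keeps the balance -/
theorem bal_pair {La : Finset ℕ} {m : ℕ} (hd : Disjoint ({m + 1, m} : Finset ℕ) La)
    (h : ∃ t, Bal La t) : ∃ t, Bal ({m + 1, m} ∪ La) t := by
  obtain ⟨t, ht⟩ := h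
  have hm1 : m + 1 ∉ La := fun hc => disjoint_left.1 hd (by simp) hc
  have hm : m ∉ La := fun hc => disjoint_left.1 hd (by simp) hc
  refine ⟨fun L => if L = m + 1 then false else if L = m then true else t L, fun L hL => ?_⟩
  have hLa : L + 1 ∉ La := fun hc => hL (by simp [hc])
  have hLm1 : L + 1 ≠ m + 1 := fun hc => hL (by simp [hc])
  have hLm : L + 1 ≠ m := fun hc => hL (by simp [hc])
  have key : ∀ s : Bool, cntL ({m + 1, m} ∪ La)
      (fun L => if L = m + 1 then false else if L = m then true else t L) s L =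
      cntL La t s L + (if L < m then 1 else 0) := by
    intro s
    unfold cntL
    rw [filter_union, card_union_of_disjoint (disjoint_filter_filter hd), add_comm]
    congr 1
    · congr 1
      apply filter_congr
      intro M hM
      have h1 : M ≠ m + 1 := fun hc => hm1 (hc ▸ hM)
      have h2 : M ≠ m := fun hc => hm (hc ▸ hM)
      simp [h1, h2]
    · by_cases hlt : L < m
      · rw [if_pos hlt]
        cases s
        · have : ({m + 1, m} : Finset ℕ).filter (fun M => L < M ∧
              (if M = m + 1 then false else if M = m then true else t M) = false) = {m + 1} := by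
            ext M
            simp only [mem_filter, mem_insert, mem_singleton]
            constructor
            · rintro ⟨rfl | rfl, h3, h4⟩
              · rfl
              · simp at h4
            · rintro rfl
              exact ⟨Or.inl rfl, by omega, by simp⟩
          rw [this, card_singleton]
        · have : ({m + 1, m} : Finset ℕ).filter (fun M => L < M ∧
              (if M = m + 1 then false else if M = m then true else t M) = true) = {m} := by
            ext M
            simp only [mem_filter, mem_insert, mem_singleton]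
            constructor
            · rintro ⟨rfl | rfl, h3, h4⟩
              · simp at h4
              · rfl
            · rintro rfl
              exact ⟨Or.inr rfl, by omega, by simp⟩
          rw [this, card_singleton]
      · rw [if_neg hlt, card_eq_zero, filter_eq_empty_iff]
        intro M hM hc
        rw [mem_insert, mem_singleton] at hM
        omega
  rw [key, key, ht L hLa]

theorem GS.core (k : ℕ) : GS (k * (k + 1) / 2) k := by
  refine ⟨Icc 1 k, by simp, ?_, fun L hL => (mem_Icc.1 hL).2, ⟨fun _ => false, bal_core k _⟩,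
    good_core k⟩
  have h := Finset.sum_range_id_mul_two (k + 1)
  have h2 : ∑ L ∈ Icc 1 k, L = ∑ i ∈ range (k + 1), i := by
    rw [Finset.sum_range_succ', add_zero]
    symm
    refine sum_bij (fun i _ => i + 1) ?_ ?_ ?_ ?_
    · intro i hi
      rw [mem_range] at hi
      rw [mem_Icc]
      omega
    · intro i _ j _ h
      omega
    · intro j hj
      rw [mem_Icc] at hj
      exact ⟨j - 1, by rw [mem_range]; omega, by omega⟩
    · intro i _
      rfl
  rw [h2]
  have h3 : k * (k + 1) = (∑ i ∈ range (k + 1), i) * 2 := by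
    rw [h]
    simp only [Nat.add_sub_cancel]
    ring
  rw [h3, Nat.mul_div_cancel _ (by norm_num)]

theorem GS.mono {n h h' : ℕ} (hg : GS n h) (hh : h ≤ h') : GS n h' := by
  obtain ⟨La, h0, hs, hm, hb, hG⟩ := hg
  exact ⟨La, h0, hs, fun L hL => (hm L hL).trans hh, hb, hG⟩

theorem GS.F {r h : ℕ} (hg : GS r h) (a : ℕ) (ha : 4 ≤ a) (hh : h + 3 ≤ a)
    (h1 : 4 * a ≤ r + 18) (h2 : a * a + 8 < 16 * a + 4 * r) : GS (4 * a - 2 + r) (a + 1) := by
  obtain ⟨La, h0, hs, hm, hb, hG⟩ := hg
  have hd : Disjoint ({a + 1, a, a - 1, a - 2} : Finset ℕ) La := by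
    rw [disjoint_left]
    intro L hL hL'
    have := hm L hL'
    simp only [mem_insert, mem_singleton] at hL
    omega
  refine ⟨{a + 1, a, a - 1, a - 2} ∪ La, ?_, ?_, ?_, ?_, ?_⟩
  · intro hc
    simp only [mem_union, mem_insert, mem_singleton] at hc
    rcases hc with hc | hc
    · omega
    · exact h0 hc
  · rw [sum_union hd, hs]
    congr 1
    rw [sum_insert, sum_insert, sum_insert, sum_singleton]
    · omega
    · simp only [mem_singleton]; omega
    · simp only [mem_insert, mem_singleton]; omega
    · simp only [mem_insert, mem_singleton]; omega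
  · intro L hL
    simp only [mem_union, mem_insert, mem_singleton] at hL
    rcases hL with hL | hL
    · omega
    · have := hm L hL
      omega
  · obtain ⟨b, rfl⟩ : ∃ b, a = b + 2 := ⟨a - 2, by omega⟩
    have e1 : ({b + 2 + 1, b + 2, b + 2 - 1, b + 2 - 2} : Finset ℕ) ∪ La =
        {b + 2 + 1, b + 2} ∪ ({b + 1, b} ∪ La) := by
      have e2 : b + 2 - 1 = b + 1 := by omega
      have e3 : b + 2 - 2 = b := by omega
      rw [e2, e3]
      ext L
      simp only [mem_union, mem_insert, mem_singleton]
      tauto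
    rw [e1]
    apply bal_pair
    · rw [disjoint_left]
      intro L hL hL'
      simp only [mem_union, mem_insert, mem_singleton] at hL hL'
      rcases hL' with hL' | hL'
      · omega
      · have := hm L hL'
        omega
    · apply bal_pair
      · rw [disjoint_left]
        intro L hL hL'
        have := hm L hL'
        simp only [mem_insert, mem_singleton] at hL
        omega
      · exact hb
  · apply good_F ha hd hG
    rw [hs]
    apply okF_of ha
    · omega
    · omega
    · have : 4 * (4 * a - 2 + r) + 8 = 16 * a + 4 * r := by omega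
      omega

theorem GS.s298 {n h : ℕ} (hg : GS n h) : S298 n := by
  obtain ⟨La, h0, hs, hm, hb, hG⟩ := hg
  exact Good.s298 h0 hs hb hG

/-- good system with the growth condition -/
def PG (n : ℕ) : Prop := ∃ h, (2 * h - 1) * (2 * h - 1) ≤ 10 * n ∧ GS n h

/-- the induction step -/
theorem PG.step {n : ℕ} (hn : 110 ≤ n) (ih : ∀ r, 48 ≤ r → r < n → PG r) : PG n := by
  -- choose a with (2a+1)^2 ≤ 10 n < (2a+3)^2
  obtain ⟨a, ha1, ha2⟩ : ∃ a : ℕ, (2 * a + 1) * (2 * a + 1) ≤ 10 * n ∧
      10 * n < (2 * a + 3) * (2 * a + 3) := by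
    have hex : ∃ b : ℕ, 10 * n < (2 * b + 3) * (2 * b + 3) := ⟨10 * n, by nlinarith⟩
    classical
    obtain ⟨b, hb, hmin⟩ : ∃ b, 10 * n < (2 * b + 3) * (2 * b + 3) ∧
        ∀ c < b, ¬ 10 * n < (2 * c + 3) * (2 * c + 3) :=
      ⟨Nat.find hex, Nat.find_spec hex, fun c hc => Nat.find_min hex hc⟩
    rcases Nat.eq_zero_or_pos b with rfl | hpos
    · exfalso
      omega
    · refine ⟨b, ?_, hb⟩
      have := hmin (b - 1) (by omega)
      obtain ⟨c, rfl⟩ : ∃ c, b = c + 1 := ⟨b - 1, by omega⟩
      simp only [Nat.add_sub_cancel] at this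
      have e : 2 * (c + 1) + 1 = 2 * c + 3 := by ring
      rw [e]
      omega
  have ha16 : 16 ≤ a := by
    by_contra hc
    have : 2 * a + 3 ≤ 33 := by omega
    have := Nat.mul_le_mul this this
    omega
  have h8 : 8 * a ≤ n + 20 := by
    by_contra hc
    have h9 : n + 21 ≤ 8 * a := by omega
    have h10 : (n + 25) * (n + 25) ≤ (8 * a + 4) * (8 * a + 4) :=
      Nat.mul_le_mul (by omega) (by omega)
    nlinarith
  have hr48 : 4 * a + 46 ≤ n := by
    by_contra hc
    have h9 : n ≤ 4 * a + 45 := by omega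
    obtain ⟨m, rfl⟩ : ∃ m, n = m + 43 := ⟨n - 43, by omega⟩
    have h10 : m * m ≤ (4 * a + 2) * (4 * a + 2) := Nat.mul_le_mul (by omega) (by omega)
    nlinarith
  obtain ⟨r, hr⟩ : ∃ r, n = 4 * a - 2 + r := ⟨n - (4 * a - 2), by omega⟩
  have hr' : n + 2 = 4 * a + r := by omega
  obtain ⟨h, hh, hg⟩ := ih r (by omega) (by omega)
  have hha : h + 3 ≤ a := by
    by_contra hc
    have h1 : a ≤ h + 2 := by omega
    have h2 : 2 * a - 5 ≤ 2 * h - 1 := by omega
    have h3 : (2 * a - 5) * (2 * a - 5) ≤ (2 * h - 1) * (2 * h - 1) := Nat.mul_le_mul h2 h2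
    obtain ⟨b, rfl⟩ : ∃ b, a = b + 3 := ⟨a - 3, by omega⟩
    have e : 2 * (b + 3) - 5 = 2 * b + 1 := by omega
    rw [e] at h3
    nlinarith
  refine ⟨a + 1, ?_, ?_⟩
  · have e : 2 * (a + 1) - 1 = 2 * a + 1 := by omega
    rw [e]
    exact ha1
  · rw [hr]
    apply hg.F a (by omega) hha
    · omega
    · have : 16 * a + 4 * r = 4 * n + 8 := by omega
      rw [this]
      nlinarith

end Crest.Agent.SaxlN
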