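import Crest.Agent.SaxlN.MKFast

/-!
Base systems, checked by the kernel.
-/

set_option autoImplicit false
set_option maxRecDepth 100000

namespace Crest.Agent.SaxlN.MK

theorem good54 : Good ([11,10,9,8,6,5,3,2] : List ℕ).toFinset :=
  good_of_tree (n := 54)
    (es := [(([11,9],[9,8,5,2],[9,8,6,3]),[(0,0),(5,26),(8,38)],[(0,0),(2,11),(4,16)]),
      (([11,9],[9,8,5,2],[9,8,5,2]),[(0,0),(3,17),(8,41),(11,52),(12,54)],[(0,0)]),
      (([11,9],[9,8,5,2],[11,10,5,2]),[(0,0),(2,11),(4,16)],[(0,0),(5,26),(8,38)]),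
      (([],[10,8,5,2],[10,9,6,2]),[(0,0),(2,21),(4,26)],[(0,0),(2,17),(4,28)]),
      (([11,9],[9,8,5,2],[11,10,6,3]),[(0,0)],[(0,0),(3,17),(8,41),(11,52),(12,54)])])
    (ms := [[(0,2,11),(0,4,16),(5,0,26),(5,2,37),(5,4,42),(8,0,38),(8,2,49),(8,4,54)],
      [(3,0,17),(8,0,41),(11,0,52),(12,0,54)],
      [(0,5,26),(0,8,38),(2,0,11),(2,5,37),(2,8,49),(4,0,16),(4,5,42),(4,8,54)],
      [(0,2,17),(0,4,28),(2,0,21),(2,2,38),(2,4,49),(4,0,26),(4,2,43),(4,4,54)],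
      [(0,3,17),(0,8,41),(0,11,52),(0,12,54)]])
    (by decide +kernel) (by decide +kernel) (by decide +kernel) (by decide +kernel)

theorem good56 : Good ([11,10,9,8,6,5,4,3] : List ℕ).toFinset :=
  good_of_tree (n := 56)
    (es := [(([11,9,6,4],[9,8,4,3],[9,8,6,5]),[(0,0),(5,26),(8,38)],[(0,0),(4,11),(8,18)]),
      (([11,9,6,4],[9,8,4,3],[9,8,4,3]),[(0,0),(5,26),(9,41),(12,49),(16,56)],[(0,0)]),
      (([11,9,6,4],[9,8,4,3],[11,10,4,3]),[(0,0),(4,11),(8,18)],[(0,0),(5,26),(8,38)]),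
      (([11,9,6,4],[9,8,4,3],[11,10,6,5]),[(0,0)],[(0,0),(5,26),(9,41),(12,49),(16,56)]),
      (([],[10,8,5,3],[11,8,5,4]),[(0,0),(2,17),(4,28)],[(0,0),(2,21),(4,28)])])
    (ms := [[(0,4,11),(0,8,18),(5,0,26),(5,4,37),(5,8,44),(8,0,38),(8,4,49),(8,8,56)],
      [(5,0,26),(9,0,41),(12,0,49),(16,0,56)],
      [(0,5,26),(0,8,38),(4,0,11),(4,5,37),(4,8,49),(8,0,18),(8,5,44),(8,8,56)],
      [(0,5,26),(0,9,41),(0,12,49),(0,16,56)],
      [(0,2,21),(0,4,28),(2,0,17),(2,2,38),(2,4,45),(4,0,28),(4,2,49),(4,4,56)]])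
    (by decide +kernel) (by decide +kernel) (by decide +kernel) (by decide +kernel)

end Crest.Agent.SaxlN.MK
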