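import Crest.Agent.SaxlN.MKFast

/-!
Base systems, checked by the kernel.
-/

set_option autoImplicit false
set_option maxRecDepth 100000

namespace Crest.Agent.SaxlN.MK

theorem good57 : Good ([12,11,10,9,5,4,3,2,1] : List ℕ).toFinset :=
  good_of_tree (n := 57)
    (es := [(([12,10,5,3],[10,9],[10,9,5,4,3,2,1]),[(0,0),(4,23),(8,42)],[(0,0),(5,11),(9,15)]),
      (([12,10,5,3],[10,9],[10,9]),[(0,0),(4,23),(8,42),(13,53),(17,57)],[(0,0)]),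
      (([12,10,5,2],[10,9],[12,11,2,1]),[(0,0),(3,8),(5,12)],[(0,0),(4,23),(8,42),(12,45)]),
      (([5,3],[11,9],[11,10,5,4,3,2]),[(0,0),(2,23),(3,24)],[(0,0),(2,19),(7,30),(10,33)]),
      (([12,10,5,3],[10,9],[12,11,5,4,3,2]),[(0,0),(1,1)],[(0,0),(4,23),(8,42),(13,53),(16,56)])])
    (ms := [[(0,5,11),(0,9,15),(4,0,23),(4,5,34),(4,9,38),(8,0,42),(8,5,53),(8,9,57)],
      [(4,0,23),(8,0,42),(13,0,53),(17,0,57)],
      [(0,4,23),(0,8,42),(0,12,45),(3,0,8),(3,4,31),(3,8,50),(3,12,53),(5,0,12),(5,4,35),(5,8,54),(5,12,57)],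
      [(0,2,19),(0,7,30),(0,10,33),(2,0,23),(2,2,42),(2,7,53),(2,10,56),(3,0,24),(3,2,43),(3,7,54),(3,10,57)],
      [(0,4,23),(0,8,42),(0,13,53),(0,16,56),(1,0,1),(1,4,24),(1,8,43),(1,13,54),(1,16,57)]])
    (by decide +kernel) (by decide +kernel) (by decide +kernel) (by decide +kernel)

theorem good58 : Good ([11,10,9,8,7,6,4,3] : List ℕ).toFinset :=
  good_of_tree (n := 58)
    (es := [(([11,9],[9,8,6,3],[11,10,6,3]),[(0,0),(2,13),(4,20)],[(0,0),(5,26),(8,38)]),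
      (([11,9],[9,8,6,3],[9,8,6,3]),[(0,0),(3,19),(8,43),(12,58)],[(0,0)]),
      (([9,7],[10,7,6,3],[10,9,8,4]),[(0,0),(2,21)],[(0,0),(6,25),(10,37)]),
      (([11,9],[9,8,6,3],[9,8,7,4]),[(0,0),(5,26),(8,38)],[(0,0),(2,13),(4,20)]),
      (([11,9],[9,8,6,3],[11,10,6,4]),[(0,0),(2,13)],[(0,0),(5,26),(10,45)]),
      (([11,9],[9,8,6,3],[9,8,6,4]),[(0,0),(3,19),(8,43),(10,51)],[(0,0),(2,7)]),
      (([11,9],[9,8,6,3],[11,10,7,4]),[(0,0)],[(0,0),(3,19),(8,43),(12,58)])])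
    (ms := [[(0,5,26),(0,8,38),(2,0,13),(2,5,39),(2,8,51),(4,0,20),(4,5,46),(4,8,58)],
      [(3,0,19),(8,0,43),(12,0,58)],
      [(0,6,25),(0,10,37),(2,0,21),(2,6,46),(2,10,58)],
      [(0,2,13),(0,4,20),(5,0,26),(5,2,39),(5,4,46),(8,0,38),(8,2,51),(8,4,58)],
      [(0,5,26),(0,10,45),(2,0,13),(2,5,39),(2,10,58)],
      [(0,2,7),(3,0,19),(3,2,26),(8,0,43),(8,2,50),(10,0,51),(10,2,58)],
      [(0,3,19),(0,8,43),(0,12,58)]])
    (by decide +kernel) (by decide +kernel) (by decide +kernel) (by decide +kernel)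

end Crest.Agent.SaxlN.MK
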