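import Crest.Agent.SaxlN.MKFast

/-!
Base systems, checked by the kernel.
-/

set_option autoImplicit false
set_option maxRecDepth 100000

namespace Crest.Agent.SaxlN.MK

theorem good62 : Good ([12,11,10,9,7,6,4,3] : List ℕ).toFinset :=
  good_of_tree (n := 62)
    (es := [(([12,10],[10,9,6,3],[10,9,7,4]),[(0,0),(4,23),(8,42)],[(0,0),(2,13),(4,20)]),
      (([12,10],[10,9,6,3],[10,9,6,3]),[(0,0),(5,31),(10,55),(12,62)],[(0,0)]),
      (([12,10],[10,9,6,3],[12,11,6,3]),[(0,0),(2,13),(4,20)],[(0,0),(4,23),(8,42)]),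
      (([12,10],[10,9,6,3],[12,11,6,4]),[(0,0),(2,13)],[(0,0),(4,23),(8,42),(10,49)]),
      (([12,10],[10,9,6,3],[10,9,6,4]),[(0,0),(5,31),(10,55)],[(0,0),(2,7)]),
      (([],[11,9,6,3],[11,10,7,3]),[(0,0),(2,23),(4,30)],[(0,0),(2,19),(4,32)]),
      (([12,10],[10,9,6,3],[12,11,7,4]),[(0,0)],[(0,0),(5,31),(10,55),(12,62)])])
    (ms := [[(0,2,13),(0,4,20),(4,0,23),(4,2,36),(4,4,43),(8,0,42),(8,2,55),(8,4,62)],
      [(5,0,31),(10,0,55),(12,0,62)],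
      [(0,4,23),(0,8,42),(2,0,13),(2,4,36),(2,8,55),(4,0,20),(4,4,43),(4,8,62)],
      [(0,4,23),(0,8,42),(0,10,49),(2,0,13),(2,4,36),(2,8,55),(2,10,62)],
      [(0,2,7),(5,0,31),(5,2,38),(10,0,55),(10,2,62)],
      [(0,2,19),(0,4,32),(2,0,23),(2,2,42),(2,4,55),(4,0,30),(4,2,49),(4,4,62)],
      [(0,5,31),(0,10,55),(0,12,62)]])
    (by decide +kernel) (by decide +kernel) (by decide +kernel) (by decide +kernel)

end Crest.Agent.SaxlN.MK
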