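import Crest.Agent.SaxlN.MKFast

/-!
Base systems, checked by the kernel.
-/

set_option autoImplicit false
set_option maxRecDepth 100000

namespace Crest.Agent.SaxlN.MK

theorem good67 : Good ([13,12,11,10,6,5,4,3,2,1] : List ℕ).toFinset :=
  good_of_tree (n := 67)
    (es := [(([13,11,6,4,2],[11,10],[11,10,6,5,4,3,2,1]),[(0,0),(5,31),(8,46)],[(0,0),(4,11),(8,18),(12,21)]),
      (([13,11,6,3],[11,10],[13,12,4]),[(0,0),(4,11),(9,17)],[(0,0),(5,31),(9,50)]),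
      (([13,11,6,4,2],[11,10],[11,10]),[(0,0),(5,31),(8,46),(12,57),(16,64),(20,67)],[(0,0)]),
      (([6,4,2],[12,10],[12,11,6,5,4,3,2,1]),[(0,0),(2,25)],[(0,0),(2,21),(6,32),(10,39),(14,42)]),
      (([13,11,6,4,2],[11,10],[13,12,6,5,4,3]),[(0,0),(4,3)],[(0,0),(5,31),(8,46),(12,57),(16,64)])])
    (ms := [[(0,4,11),(0,8,18),(0,12,21),(5,0,31),(5,4,42),(5,8,49),(5,12,52),(8,0,46),(8,4,57),(8,8,64),(8,12,67)],
      [(0,5,31),(0,9,50),(4,0,11),(4,5,42),(4,9,61),(9,0,17),(9,5,48),(9,9,67)],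
      [(5,0,31),(8,0,46),(12,0,57),(16,0,64),(20,0,67)],
      [(0,2,21),(0,6,32),(0,10,39),(0,14,42),(2,0,25),(2,2,46),(2,6,57),(2,10,64),(2,14,67)],
      [(0,5,31),(0,8,46),(0,12,57),(0,16,64),(4,0,3),(4,5,34),(4,8,49),(4,12,60),(4,16,67)]])
    (by decide +kernel) (by decide +kernel) (by decide +kernel) (by decide +kernel)

theorem good72 : Good ([12,11,10,9,8,7,5,4,3,2,1] : List ℕ).toFinset :=
  good_of_tree (n := 72)
    (es := [(([10,8,4,2],[11,8,7],[11,10,9,4,3,2,1]),[(0,0),(2,23),(3,28)],[(0,0),(4,19),(8,34),(12,41),(16,44)]),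
      (([12,10,5,3],[10,9,7],[10,9,7]),[(0,0),(2,15),(6,38),(10,57),(15,68),(19,72)],[(0,0)]),
      (([12,10,5,3],[10,9,7],[12,11,7,5,4,3,2,1]),[(0,0),(2,15)],[(0,0),(4,23),(8,42),(13,53),(17,57)]),
      (([12,10,5,3],[10,9,7],[12,11,8,5,4,3,2,1]),[(0,0)],[(0,0),(2,15),(6,38),(10,57),(15,68),(19,72)]),
      (([12,8,5,3],[9,8,7],[10,8,7]),[(0,0),(4,23),(8,38),(13,49),(17,53)],[(0,0),(2,19)])])
    (ms := [[(0,4,19),(0,8,34),(0,12,41),(0,16,44),(2,0,23),(2,4,42),(2,8,57),(2,12,64),(2,16,67),(3,0,28),(3,4,47),(3,8,62),(3,12,69),(3,16,72)],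
      [(2,0,15),(6,0,38),(10,0,57),(15,0,68),(19,0,72)],
      [(0,4,23),(0,8,42),(0,13,53),(0,17,57),(2,0,15),(2,4,38),(2,8,57),(2,13,68),(2,17,72)],
      [(0,2,15),(0,6,38),(0,10,57),(0,15,68),(0,19,72)],
      [(0,2,19),(4,0,23),(4,2,42),(8,0,38),(8,2,57),(13,0,49),(13,2,68),(17,0,53),(17,2,72)]])
    (by decide +kernel) (by decide +kernel) (by decide +kernel) (by decide +kernel)

end Crest.Agent.SaxlN.MK
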