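import Crest.Agent.SaxlN.MKFast

/-!
Base systems, checked by the kernel.
-/

set_option autoImplicit false
set_option maxRecDepth 100000

namespace Crest.Agent.SaxlN.MK

theorem good68 : Good ([12,11,10,9,8,7,6,5] : List ℕ).toFinset :=
  good_of_tree (n := 68)
    (es := [(([12,10,8,6],[8,7,6,5],[8,7,6,5]),[(0,0),(4,23),(8,42),(12,57),(16,68)],[(0,0)]),
      (([10,8],[11,8,7,5],[11,10,9,6]),[(0,0),(2,23)],[(0,0),(5,26),(10,45)]),
      (([12,10,8,6],[8,7,6,5],[12,11,10,9]),[(0,0)],[(0,0),(4,23),(8,42),(12,57),(16,68)]),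
      (([12,10],[10,9,6,5],[12,11,8,6]),[(0,0),(2,13)],[(0,0),(1,8),(5,31),(10,55)]),
      (([12,10,8,6],[8,7,6,5],[10,9,6,5]),[(0,0),(4,23),(8,34)],[(0,0),(4,19),(8,34)]),
      (([12,7],[8,7,6,5],[9,7,6,5]),[(0,0),(1,10),(5,33),(7,42),(10,51)],[(0,0),(2,17)])])
    (ms := [[(4,0,23),(8,0,42),(12,0,57),(16,0,68)],
      [(0,5,26),(0,10,45),(2,0,23),(2,5,49),(2,10,68)],
      [(0,4,23),(0,8,42),(0,12,57),(0,16,68)],
      [(0,1,8),(0,5,31),(0,10,55),(2,0,13),(2,1,21),(2,5,44),(2,10,68)],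
      [(0,4,19),(0,8,34),(4,0,23),(4,4,42),(4,8,57),(8,0,34),(8,4,53),(8,8,68)],
      [(0,2,17),(1,0,10),(1,2,27),(5,0,33),(5,2,50),(7,0,42),(7,2,59),(10,0,51),(10,2,68)]])
    (by decide +kernel) (by decide +kernel) (by decide +kernel) (by decide +kernel)

end Crest.Agent.SaxlN.MK
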