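import Crest.Agent.SaxlN.Defs

/-!
CHUNK BAS (easy; like Saxl/Pt.lean).
-/

set_option autoImplicit false
set_option linter.unusedSectionVars false

namespace Crest.Agent.SaxlN

open Finset Equiv
open Crest.Agent.Saxl

variable {X : Type} [Fintype X] [DecidableEq X]

/-- `(A, Y)` is a bijection onto the cells (injection between sets of the same size). -/
theorem PerpL.surj {q : ℕ} {η : ℕ → ℕ} (hz : ∀ r, 2 * q ≤ r → η r = 0)
    (hX : Fintype.card X = total q η) {A Y : Word X} (h : PerpL η A Y) (j r : ℕ) (hj : j < η r) :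
    ∃ x, A x = j ∧ Y x = r := by
  classical
  set S : Finset (Σ _ : ℕ, ℕ) := (range (2 * q)).sigma (fun r => range (η r)) with hS
  have hcard : S.card = total q η := by
    rw [hS, card_sigma]
    simp only [card_range]
    rfl
  set f : X → (Σ _ : ℕ, ℕ) := fun x => ⟨Y x, A x⟩ with hf
  have hinj : Function.Injective f := by
    intro x y hxy
    apply h.1
    simp only [hf, Sigma.mk.injEq, heq_eq_eq] at hxy
    exact Prod.ext hxy.2 hxy.1
  have hlt : ∀ x, Y x < 2 * q := by
    intro x
    by_contra hc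
    have h1 := hz (Y x) (not_lt.mp hc)
    have h2 := h.2 x
    omega
  have hsub : univ.image f ⊆ S := by
    intro y hy
    rw [mem_image] at hy
    obtain ⟨x, _, rfl⟩ := hy
    simp only [hS, hf, mem_sigma, mem_range]
    exact ⟨hlt x, h.2 x⟩
  have heq : univ.image f = S := by
    refine eq_of_subset_of_card_le hsub ?_
    rw [card_image_of_injective _ hinj, card_univ, hX, hcard]
  have hr : r < 2 * q := by
    by_contra hc
    have h1 := hz r (not_lt.mp hc)
    omega
  have hmem : (⟨r, j⟩ : Σ _ : ℕ, ℕ) ∈ univ.image f := by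
    rw [heq, hS]
    simp [hj, hr]
  rw [mem_image] at hmem
  obtain ⟨x, _, hx⟩ := hmem
  simp only [hf, Sigma.mk.injEq, heq_eq_eq] at hx
  exact ⟨x, hx.2, hx.1⟩

theorem PerpL.comp {X : Type} {η : ℕ → ℕ} {A Y : Word X} (h : PerpL η A Y) (g : Perm X) :
    PerpL η (A ∘ g) (Y ∘ g) := by
  refine ⟨fun x y hxy => g.injective (h.1 ?_), fun x => h.2 (g x)⟩
  simpa using hxy

/-- two perpendicular pairs are conjugate -/
theorem perpL_conj {q : ℕ} {η : ℕ → ℕ} (hz : ∀ r, 2 * q ≤ r → η r = 0)
    (hX : Fintype.card X = total q η) {A Y A' Y' : Word X} (h : PerpL η A Y)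
    (h' : PerpL η A' Y') : ∃ g : Perm X, A' = A ∘ g ∧ Y' = Y ∘ g := by
  classical
  have hex : ∀ x, ∃ y, A y = A' x ∧ Y y = Y' x := fun x => h.surj hz hX _ _ (h'.2 x)
  choose f hf using hex
  have hinj : Function.Injective f := by
    intro x y hxy
    apply h'.1
    simp only [Prod.mk.injEq]
    rw [← (hf x).1, ← (hf x).2, ← (hf y).1, ← (hf y).2, hxy]
    exact ⟨rfl, rfl⟩
  have hbij : Function.Bijective f := Finite.injective_iff_bijective.mp hinj
  refine ⟨Equiv.ofBijective f hbij, ?_, ?_⟩
  · funext x; exact (hf x).1.symm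
  · funext x; exact (hf x).2.symm

theorem PerpL.count {q : ℕ} {η : ℕ → ℕ} (hz : ∀ r, 2 * q ≤ r → η r = 0)
    (hX : Fintype.card X = total q η) {A Y : Word X} (h : PerpL η A Y) (r : ℕ) :
    (univ.filter (fun x => Y x = r)).card = η r := by
  have : (univ.filter (fun x => Y x = r)).card = (range (η r)).card := by
    refine card_bij (fun x _ => A x) ?_ ?_ ?_
    · intro x hx
      rw [mem_filter] at hx
      have := h.2 x
      rw [hx.2] at this
      rw [mem_range]; exact this
    · intro x hx y hy hxy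
      rw [mem_filter] at hx hy
      apply h.1
      simp only [Prod.mk.injEq]
      exact ⟨hxy, hx.2.trans hy.2.symm⟩
    · intro b hb
      rw [mem_range] at hb
      obtain ⟨x, hx1, hx2⟩ := h.surj hz hX b r hb
      exact ⟨x, by simp [hx2], hx1⟩
  rw [this, card_range]

theorem PerpL.isStripL {q : ℕ} {η : ℕ → ℕ} (hz : ∀ r, 2 * q ≤ r → η r = 0)
    (hX : Fintype.card X = total q η) {A Y : Word X} (h : PerpL η A Y) :
    IsStripL η (gw Y) := by
  intro i
  rw [← h.count hz hX (2 * i), ← h.count hz hX (2 * i + 1)]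
  rw [← card_union_of_disjoint]
  · congr 1
    ext x
    simp only [mem_filter, mem_univ, true_and, mem_union]
    change Y x / 2 = i ↔ _
    omega
  · rw [disjoint_left]
    intro x hx hy
    simp only [mem_filter, mem_univ, true_and] at hx hy
    omega

theorem perpL_rev {X : Type} {η : ℕ → ℕ} {A w₀ : Word X} (h : PerpL η A w₀) :
    PerpL η (rev η A w₀) w₀ := by
  refine ⟨?_, ?_⟩
  · intro x y hxy
    apply h.1
    simp only [Prod.mk.injEq, rev] at hxy ⊢
    have h1 := h.2 x
    have h2 := h.2 y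
    rw [hxy.2] at h1
    have h3 := hxy.1
    rw [hxy.2] at h3
    exact ⟨by omega, hxy.2⟩
  · intro x
    have h1 := h.2 x
    simp only [rev]
    omega

theorem rev_rev {X : Type} {η : ℕ → ℕ} {A w₀ : Word X} (h : PerpL η A w₀) :
    rev η (rev η A w₀) w₀ = A := by
  funext x
  have h1 := h.2 x
  simp only [rev]
  omega

/-- words of groups with the same block sizes are conjugate -/
theorem stripL_conj {η : ℕ → ℕ} {u u₀ : Word X} (hu : IsStripL η u) (hu₀ : IsStripL η u₀) :
    ∃ g : Perm X, u ∘ g = u₀ := by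
  classical
  have hcard : ∀ i : ℕ, Fintype.card {x : X // u₀ x = i} = Fintype.card {x : X // u x = i} := by
    intro i
    rw [Fintype.card_subtype, Fintype.card_subtype, hu i, hu₀ i]
  have e : ∀ i : ℕ, {x : X // u₀ x = i} ≃ {x : X // u x = i} := fun i =>
    Fintype.equivOfCardEq (hcard i)
  refine ⟨(Equiv.sigmaFiberEquiv u₀).symm.trans ((Equiv.sigmaCongrRight e).trans
    (Equiv.sigmaFiberEquiv u)), ?_⟩
  funext x
  simp only [Function.comp_apply, Equiv.trans_apply]
  have := ((e (u₀ x)) ⟨x, rfl⟩).2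
  exact this

end Crest.Agent.SaxlN
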