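import Crest.Agent.SaxlN.Defs

/-!
CHUNK CONTENT (medium): the sum of all transpositions acts on E by the content sum.
-/

set_option autoImplicit false

namespace Crest.Agent.SaxlN

open Finset Equiv
open Crest.Agent.Saxl

variable {X : Type} [Fintype X] [DecidableEq X]

private theorem TT_eq_pairs : TT X = ∑ p ∈ (univ : Finset (X × X)).filter (fun p => p.2 ≠ p.1),
    MonoidAlgebra.of ℂ (Perm X) (swap p.1 p.2) := by
  unfold TT
  rw [Finset.sum_filter, ← Finset.univ_product_univ, Finset.sum_product]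
  refine Finset.sum_congr rfl (fun x _ => ?_)
  rw [Finset.sum_filter]

theorem TT_central (g : Perm X) :
    MonoidAlgebra.of ℂ (Perm X) g * TT X = TT X * MonoidAlgebra.of ℂ (Perm X) g := by
  rw [TT_eq_pairs, Finset.mul_sum, Finset.sum_mul]
  refine Finset.sum_bij' (fun p _ => (g p.1, g p.2)) (fun p _ => (g⁻¹ p.1, g⁻¹ p.2)) ?_ ?_ ?_ ?_ ?_
  · intro p hp
    simp only [Finset.mem_filter, Finset.mem_univ, true_and] at hp ⊢
    exact fun h => hp (g.injective h)
  · intro p hp
    simp only [Finset.mem_filter, Finset.mem_univ, true_and] at hp ⊢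
    exact fun h => hp ((g⁻¹).injective h)
  · intro p _
    simp
  · intro p _
    simp
  · intro p _
    rw [← map_mul, ← map_mul]
    congr 1
    exact Equiv.mul_swap_eq_swap_mul g p.1 p.2

/-- the row sum -/
private noncomputable def RS (ρ : Word X) : MonoidAlgebra ℂ (Perm X) :=
  ∑ r ∈ Rs ρ, MonoidAlgebra.of ℂ (Perm X) r

/-- the signed column sum -/
private noncomputable def CS (κ : Word X) : MonoidAlgebra ℂ (Perm X) :=
  ∑ c ∈ Rs κ, (((Perm.sign c : ℤˣ) : ℤ) : ℂ) • MonoidAlgebra.of ℂ (Perm X) c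

private theorem EP_eq (ρ κ : Word X) : EP ρ κ = RS ρ * CS κ := by
  unfold EP RS CS
  rw [Finset.sum_mul_sum]
  refine Finset.sum_congr rfl (fun r _ => Finset.sum_congr rfl (fun c _ => ?_))
  rw [map_mul, mul_smul_comm]

private theorem mem_Rs' {w : Word X} {g : Perm X} : g ∈ Rs w ↔ ∀ x, w (g x) = w x := by
  unfold Rs
  simp only [Finset.mem_filter, Finset.mem_univ, true_and]
  constructor
  · intro h x
    exact congrFun h x
  · intro h
    funext x
    exact h x

private theorem swap_mem_Rs' {w : Word X} {x y : X} (h : w x = w y) : swap x y ∈ Rs w := by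
  rw [mem_Rs']
  intro z
  by_cases hzx : z = x
  · subst hzx
    rw [swap_apply_left]; exact h.symm
  · by_cases hzy : z = y
    · subst hzy
      rw [swap_apply_right]; exact h
    · rw [swap_apply_of_ne_of_ne hzx hzy]

private theorem RS_mul {ρ : Word X} {g : Perm X} (hg : g ∈ Rs ρ) :
    RS ρ * MonoidAlgebra.of ℂ (Perm X) g = RS ρ := by
  unfold RS
  rw [Finset.sum_mul]
  have hg' := mem_Rs'.1 hg
  refine Finset.sum_bij' (fun r _ => r * g) (fun r _ => r * g⁻¹) ?_ ?_ ?_ ?_ ?_
  · intro r hr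
    rw [mem_Rs'] at hr ⊢
    intro x
    rw [Perm.mul_apply, hr, hg']
  · intro r hr
    rw [mem_Rs'] at hr ⊢
    intro x
    rw [Perm.mul_apply, hr]
    have := hg' (g⁻¹ x)
    rw [← this]
    simp
  · intro r _
    simp
  · intro r _
    simp
  · intro r _
    rw [map_mul]

private theorem mul_CS {κ : Word X} {g : Perm X} (hg : g ∈ Rs κ) :
    MonoidAlgebra.of ℂ (Perm X) g * CS κ = (((Perm.sign g : ℤˣ) : ℤ) : ℂ) • CS κ := by
  unfold CS
  rw [Finset.mul_sum, Finset.smul_sum]
  have hg' := mem_Rs'.1 hg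
  refine Finset.sum_bij' (fun r _ => g * r) (fun r _ => g⁻¹ * r) ?_ ?_ ?_ ?_ ?_
  · intro r hr
    rw [mem_Rs'] at hr ⊢
    intro x
    rw [Perm.mul_apply, hg', hr]
  · intro r hr
    rw [mem_Rs'] at hr ⊢
    intro x
    rw [Perm.mul_apply, ← hg']
    simp [hr]
  · intro r _
    simp
  · intro r _
    simp
  · intro r _
    rw [mul_smul_comm, smul_smul, map_mul (MonoidAlgebra.of ℂ (Perm X))]
    congr 1
    have h1 : (((Perm.sign g : ℤˣ) : ℤ) : ℂ) * (((Perm.sign g : ℤˣ) : ℤ) : ℂ) = 1 := by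
      rcases Int.units_eq_one_or (Perm.sign g) with h | h <;> simp [h]
    rw [Perm.sign_mul, Units.val_mul, Int.cast_mul, ← mul_assoc, h1, one_mul]

private theorem swap_mul_CS {κ : Word X} {x y : X} (hxy : x ≠ y) (h : κ x = κ y) :
    MonoidAlgebra.of ℂ (Perm X) (swap x y) * CS κ = - CS κ := by
  rw [mul_CS (swap_mem_Rs' h), Perm.sign_swap hxy]
  simp

private theorem term_zero {ρ κ : Word X} (h : IsTab (fun _ => 0) ρ κ) {x y : X}
    (hρ : ρ x < ρ y) (hκ : κ x ≠ κ y) :
    RS ρ * MonoidAlgebra.of ℂ (Perm X) (swap x y) * CS κ = 0 := by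
  obtain ⟨z, -, hz1, hz2⟩ := h.lower y (ρ x) (κ y) hρ.le le_rfl
  have hxy : x ≠ y := by rintro rfl; exact hκ rfl
  have hzx : z ≠ x := by rintro rfl; exact hκ hz2
  have hzy : z ≠ y := by rintro rfl; omega
  have h1 : swap x y * swap z y = swap x z * swap x y := by
    have h2 := Equiv.mul_swap_eq_swap_mul (swap x y) z y
    rw [h2, swap_apply_of_ne_of_ne hzx hzy, swap_apply_right, swap_comm z x]
  have h3 : RS ρ * MonoidAlgebra.of ℂ (Perm X) (swap x y) * CS κ =
      - (RS ρ * MonoidAlgebra.of ℂ (Perm X) (swap x y) * CS κ) := by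
    calc RS ρ * MonoidAlgebra.of ℂ (Perm X) (swap x y) * CS κ
        = - (RS ρ * MonoidAlgebra.of ℂ (Perm X) (swap x y) *
            (MonoidAlgebra.of ℂ (Perm X) (swap z y) * CS κ)) := by
          rw [swap_mul_CS hzy hz2]; simp
      _ = - (RS ρ * MonoidAlgebra.of ℂ (Perm X) (swap x y * swap z y) * CS κ) := by
          rw [map_mul]; simp only [mul_assoc]
      _ = - (RS ρ * MonoidAlgebra.of ℂ (Perm X) (swap x z) *
            MonoidAlgebra.of ℂ (Perm X) (swap x y) * CS κ) := by
          rw [h1, map_mul]; simp only [mul_assoc]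
      _ = _ := by rw [RS_mul (swap_mem_Rs' hz1.symm)]
  have h4 : (2 : ℂ) • (RS ρ * MonoidAlgebra.of ℂ (Perm X) (swap x y) * CS κ) = 0 := by
    rw [two_smul]
    nth_rewrite 2 [h3]
    exact add_neg_cancel _
  exact (smul_eq_zero.1 h4).resolve_left two_ne_zero

private theorem term_eq {ρ κ : Word X} (h : IsTab (fun _ => 0) ρ κ) {x y : X} (hxy : y ≠ x) :
    RS ρ * MonoidAlgebra.of ℂ (Perm X) (swap x y) * CS κ =
      (((if ρ y = ρ x then 1 else 0) - (if κ y = κ x then 1 else 0) : ℤ) : ℂ) • EP ρ κ := by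
  by_cases h1 : ρ y = ρ x
  · have h2 : κ y ≠ κ x := by
      intro h2
      apply hxy
      apply h.inj
      simp [h1, h2]
    rw [RS_mul (swap_mem_Rs' h1.symm), EP_eq]
    simp [h1, h2]
  · by_cases h2 : κ y = κ x
    · rw [mul_assoc, swap_mul_CS hxy.symm h2.symm, EP_eq]
      simp [h1, h2]
    · rw [if_neg h1, if_neg h2]
      simp only [sub_self, Int.cast_zero, zero_smul]
      rcases lt_or_gt_of_ne h1 with h3 | h3
      · rw [swap_comm]
        exact term_zero h h3 h2
      · exact term_zero h h3 (Ne.symm h2)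

/-- the number of letters left of `x` in its line -/
private theorem card_below {a b : Word X} (hinj : Function.Injective (fun x => (a x, b x)))
    (hlow : ∀ x j, j ≤ b x → ∃ y, a y = a x ∧ b y = j) (x : X) :
    (univ.filter (fun y => a y = a x ∧ b y < b x)).card = b x := by
  conv_rhs => rw [← Finset.card_range (b x)]
  refine Finset.card_bij (fun y _ => b y) ?_ ?_ ?_
  · intro y hy
    simp only [Finset.mem_filter, Finset.mem_univ, true_and] at hy
    exact Finset.mem_range.2 (by simpa using hy.2)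
  · intro y hy z hz hyz
    simp only [Finset.mem_filter, Finset.mem_univ, true_and] at hy hz
    apply hinj
    simp only [Prod.mk.injEq]
    exact ⟨hy.1.trans hz.1.symm, hyz⟩
  · intro j hj
    rw [Finset.mem_range] at hj
    obtain ⟨y, hy1, hy2⟩ := hlow x j (by simpa using le_of_lt hj)
    refine ⟨y, ?_, hy2⟩
    simp only [Finset.mem_filter, Finset.mem_univ, true_and]
    exact ⟨hy1, by omega⟩

private theorem count_line {a b : Word X} (hinj : Function.Injective (fun x => (a x, b x)))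
    (hlow : ∀ x j, j ≤ b x → ∃ y, a y = a x ∧ b y = j) :
    ∑ x, ∑ y ∈ univ.filter (fun y => y ≠ x), (if a y = a x then (1 : ℤ) else 0) =
      2 * ∑ x, (b x : ℤ) := by
  have h1 : ∀ x, ∑ y ∈ univ.filter (fun y => y ≠ x), (if a y = a x then (1 : ℤ) else 0) =
      (b x : ℤ) + ∑ y, (if a y = a x ∧ b x < b y then (1 : ℤ) else 0) := by
    intro x
    have h2 : (b x : ℤ) = ∑ y, (if a y = a x ∧ b y < b x then (1 : ℤ) else 0) := by
      rw [Finset.sum_boole, card_below hinj hlow x]
    rw [h2, ← Finset.sum_add_distrib, Finset.sum_filter]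
    refine Finset.sum_congr rfl (fun y _ => ?_)
    by_cases hxy : y = x
    · subst hxy
      simp
    · rw [if_pos hxy]
      by_cases h3 : a y = a x
      · have h4 : b y ≠ b x := by
          intro h4
          apply hxy
          apply hinj
          simp [h3, h4]
        rcases lt_or_gt_of_ne h4 with h5 | h5
        · simp [h3, h5, not_lt.2 h5.le]
        · simp [h3, h5, not_lt.2 h5.le]
      · simp [h3]
  rw [Finset.sum_congr rfl (fun x _ => h1 x), Finset.sum_add_distrib, Finset.sum_comm]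
  have h5 : ∀ y, ∑ x, (if a y = a x ∧ b x < b y then (1 : ℤ) else 0) = (b y : ℤ) := by
    intro y
    rw [Finset.sum_boole]
    have h6 := card_below hinj hlow y
    rw [← h6]
    congr 2
    rw [h6]
    congr 2
    ext x
    simp [eq_comm]
  rw [Finset.sum_congr rfl (fun y _ => h5 y)]
  ring

private theorem RS_central (ρ : Word X) : RS ρ * TT X = TT X * RS ρ := by
  unfold RS
  rw [Finset.sum_mul, Finset.mul_sum]
  exact Finset.sum_congr rfl (fun r _ => TT_central r)

/-- PROOF. `TT` is central, so with `R = ∑_{r} r`, `C = ∑_c sgn(c) c`, `TT * (R C) = R * TT * C = ∑_{x ≠ y} R (x y) C`.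
If `ρ x = ρ y`: `R (x y) = R`, the term is `RC`; there are `2 ∑_x κ x` such ordered pairs (in each row
of length `l` the `κ` are `0..l-1`, `l(l-1)` ordered pairs `= 2 ∑ κ`). If `κ x = κ y`: `(x y) C = -C`,
`2 ∑_x ρ x` ordered pairs. Otherwise let `ρ x < ρ y` (both cases by symmetry): the cell
`(ρ x, κ y)` contains a letter `z` (`lower`), `z ≠ x, y`; `(z y) C = - C`, and
`(x y)(z y) = (x z)(x y)`, `R (x z) = R`: `R (x y) C = - R (x y)(z y) C = - R (x z)(x y) C = - R (x y) C`, so it is `0`. -/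
theorem TT_mul_EP {ρ κ : Word X} (h : IsTab (fun _ => 0) ρ κ) :
    TT X * EP ρ κ = ((2 * ct ρ κ : ℤ) : ℂ) • EP ρ κ := by
  have h1 : TT X * EP ρ κ = ∑ x : X, ∑ y ∈ univ.filter (fun y => y ≠ x),
      RS ρ * MonoidAlgebra.of ℂ (Perm X) (swap x y) * CS κ := by
    rw [EP_eq, ← mul_assoc, ← RS_central]
    unfold TT
    rw [Finset.mul_sum, Finset.sum_mul]
    refine Finset.sum_congr rfl (fun x _ => ?_)
    rw [Finset.mul_sum, Finset.sum_mul]
  have h2 : ∑ x : X, ∑ y ∈ univ.filter (fun y => y ≠ x),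
      RS ρ * MonoidAlgebra.of ℂ (Perm X) (swap x y) * CS κ =
      ∑ x : X, ∑ y ∈ univ.filter (fun y => y ≠ x),
        (((if ρ y = ρ x then 1 else 0) - (if κ y = κ x then 1 else 0) : ℤ) : ℂ) • EP ρ κ := by
    refine Finset.sum_congr rfl (fun x _ => Finset.sum_congr rfl (fun y hy => ?_))
    exact term_eq h (by simpa using hy)
  have h3 : ((2 * ct ρ κ : ℤ)) = ∑ x : X, ∑ y ∈ univ.filter (fun y => y ≠ x),
      ((if ρ y = ρ x then 1 else 0) - (if κ y = κ x then 1 else 0) : ℤ) := by
    have h4 := count_line (a := ρ) (b := κ) (fun x y hxy => h.inj (by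
        simp only [Prod.mk.injEq, true_and] at hxy ⊢
        exact hxy))
      (fun x j hj => by
        obtain ⟨y, -, hy1, hy2⟩ := h.lower x (ρ x) j le_rfl hj
        exact ⟨y, hy1, hy2⟩)
    have h5 := count_line (a := κ) (b := ρ) (fun x y hxy => h.inj (by
        simp only [Prod.mk.injEq, true_and] at hxy ⊢
        exact ⟨hxy.2, hxy.1⟩))
      (fun x j hj => by
        obtain ⟨y, -, hy1, hy2⟩ := h.lower x j (κ x) hj le_rfl
        exact ⟨y, hy2, hy1⟩)
    simp only [Finset.sum_sub_distrib]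
    rw [h4, h5]
    unfold ct
    rw [Finset.sum_sub_distrib]
    ring
  rw [h1, h2, h3]
  push_cast
  simp only [Finset.sum_smul]

theorem TT_mul_zP {ρ κ : Word X} (h : IsTab (fun _ => 0) ρ κ) :
    TT X * zP ρ κ = ((2 * ct ρ κ : ℤ) : ℂ) • zP ρ κ := by
  unfold zP
  rw [Finset.mul_sum, Finset.smul_sum]
  refine Finset.sum_congr rfl (fun g _ => ?_)
  rw [← mul_assoc, ← mul_assoc, ← TT_central, mul_assoc (MonoidAlgebra.of ℂ (Perm X) g),
    TT_mul_EP h]
  simp only [mul_smul_comm, smul_mul_assoc]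

end Crest.Agent.SaxlN
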