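import Crest.Agent.SaxlN.Basic

/-!
CHUNK UNIQL (medium): uniqueness of the word balanced for A and its reverse.
-/

set_option autoImplicit false

namespace Crest.Agent.SaxlN

open Finset Equiv
open Crest.Agent.Saxl

variable {X : Type} [Fintype X] [DecidableEq X]

/-- sums over a perpendicular pair do not depend on the pair -/
private theorem sum_perpL {q : ℕ} {η : ℕ → ℕ} (hz : ∀ r, 2 * q ≤ r → η r = 0)
    (hX : Fintype.card X = total q η) {A Y Y' : Word X} (h : PerpL η A Y) (h' : PerpL η A Y')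
    (F : ℕ → ℕ → ℤ) : ∑ x, F (A x) (Y x) = ∑ x, F (A x) (Y' x) := by
  obtain ⟨g, hA, hY⟩ := perpL_conj hz hX h h'
  have : ∀ x, F (A x) (Y' x) = F (A (g x)) (Y (g x)) := by
    intro x
    have e1 : A x = A (g x) := congrFun hA x
    have e2 : Y' x = Y (g x) := congrFun hY x
    rw [← e2, ← e1]
  rw [Finset.sum_congr rfl (fun x _ => this x)]
  exact (Equiv.sum_comp g (fun x => F (A x) (Y x))).symm

/-- lines of equal lengths are equal -/
private theorem line_eq {q : ℕ} {η : ℕ → ℕ} (hη : LD q η) {r s : ℕ} (hr : 0 < η r)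
    (h : η r = η s) : r = s := by
  rcases lt_trichotomy r s with h1 | h1 | h1
  · have := hη.dec r s h1 (h ▸ hr) hr
    omega
  · exact h1
  · have := hη.dec s r h1 hr (h ▸ hr)
    omega

omit [DecidableEq X] in
/-- expansion of the sum of `d (d - c)`, `d = f - a - b` -/
private theorem sum_expand (c : ℤ) (a b f : X → ℤ) :
    ∑ x, (f x - a x - b x) * (f x - a x - b x - c) =
      ∑ x, (a x + b x) * (a x + b x + c) + ∑ x, f x * (f x - c)
        - 2 * ∑ x, a x * f x - 2 * ∑ x, b x * f x := by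
  simp only [Finset.mul_sum, ← Finset.sum_add_distrib, ← Finset.sum_sub_distrib]
  refine Finset.sum_congr rfl fun x _ => ?_
  ring

/-- PROOF. `A x + rev x = η (w₀ x) - 1`. The joint distributions of `(A, Y)` and `(A, w₀)` agree, and so do
those of `(rev, Y)` and `(rev, w₀)`; hence the sum of `d ^ 2`, `d = η (Y x) - 1 - A x - rev x`, does not change
when `Y` is replaced with `w₀`, where it is `0`. So `η (Y x) = η (w₀ x)` for all `x`. -/
theorem uniq_line {q : ℕ} {η : ℕ → ℕ} (hη : LD q η) (hX : Fintype.card X = total q η)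
    {A w₀ Y : Word X} (h : PerpL η A w₀) (hY : PerpL η A Y) (hY' : PerpL η (rev η A w₀) Y) :
    Y = w₀ := by
  have hr : PerpL η (rev η A w₀) w₀ := perpL_rev h
  have hA : ∀ G : ℕ → ℕ → ℤ, ∑ x, G (A x) (Y x) = ∑ x, G (A x) (w₀ x) :=
    fun G => sum_perpL hη.zero hX hY h G
  have hB : ∀ G : ℕ → ℕ → ℤ, ∑ x, G (rev η A w₀ x) (Y x) = ∑ x, G (rev η A w₀ x) (w₀ x) :=
    fun G => sum_perpL hη.zero hX hY' hr G
  have hrev : ∀ x, ((η (w₀ x) : ℤ) - 1) - A x - rev η A w₀ x = 0 := by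
    intro x
    have h1 := h.2 x
    have h2 : rev η A w₀ x = η (w₀ x) - 1 - A x := rfl
    rw [h2]
    omega
  have e := sum_expand 0 (fun x => (A x : ℤ)) (fun x => (rev η A w₀ x : ℤ))
    (fun x => (η (Y x) : ℤ) - 1)
  have e' := sum_expand 0 (fun x => (A x : ℤ)) (fun x => (rev η A w₀ x : ℤ))
    (fun x => (η (w₀ x) : ℤ) - 1)
  have s1 := hA (fun _ y => ((η y : ℤ) - 1) * ((η y : ℤ) - 1 - 0))
  have s2 := hA (fun a y => (a : ℤ) * ((η y : ℤ) - 1))
  have s3 := hB (fun a y => (a : ℤ) * ((η y : ℤ) - 1))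
  have hz : ∑ x, ((η (Y x) : ℤ) - 1 - A x - rev η A w₀ x) *
      ((η (Y x) : ℤ) - 1 - A x - rev η A w₀ x - 0) = 0 := by
    rw [e, s1, s2, s3, ← e']
    refine Finset.sum_eq_zero fun x _ => ?_
    rw [hrev x]
    simp
  have hnn : ∀ x ∈ (univ : Finset X), 0 ≤ ((η (Y x) : ℤ) - 1 - A x - rev η A w₀ x) *
      ((η (Y x) : ℤ) - 1 - A x - rev η A w₀ x - 0) := by
    intro x _
    rw [sub_zero]
    exact mul_self_nonneg _
  have hz' := (Finset.sum_eq_zero_iff_of_nonneg hnn).mp hz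
  funext x
  have h1 := hz' x (mem_univ x)
  rw [sub_zero] at h1
  have h2 := mul_self_eq_zero.mp h1
  have h3 := hrev x
  have h4 : η (Y x) = η (w₀ x) := by omega
  exact line_eq hη (lt_of_le_of_lt (Nat.zero_le _) (hY.2 x)) h4

/-- PROOF. As `uniq_line`, with the sum of `d (d - 1)`, `d = η (2 i) - 1 - A x - rev x` where `i` is the
group of `x`: the sum is `0` for the groups of `w₀` (as the lengths of the lines of a group are consecutive)
and so for those of `Y`; this gives `η (w₀ x) ≤ η (2 (Y x / 2))`, hence `gw Y ≤ gw w₀`; the sums of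
the two sides are the same. -/
theorem uniq_words {q : ℕ} {η : ℕ → ℕ} (hη : LD q η) (hX : Fintype.card X = total q η)
    {A w₀ Y Y' : Word X} (h : PerpL η A w₀) (hY : PerpL η A Y)
    (hY' : PerpL η (rev η A w₀) Y') (hg : gw Y = gw Y') : gw Y = gw w₀ := by
  have hr : PerpL η (rev η A w₀) w₀ := perpL_rev h
  have hg' : ∀ x, Y' x / 2 = Y x / 2 := fun x => (congrFun hg x).symm
  have hA : ∀ G : ℕ → ℕ → ℤ, ∑ x, G (A x) (Y x / 2) = ∑ x, G (A x) (w₀ x / 2) :=
    fun G => sum_perpL hη.zero hX hY h (fun a y => G a (y / 2))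
  have hB : ∀ G : ℕ → ℕ → ℤ, ∑ x, G (rev η A w₀ x) (Y x / 2) =
      ∑ x, G (rev η A w₀ x) (w₀ x / 2) := by
    intro G
    have := sum_perpL hη.zero hX hY' hr (fun a y => G a (y / 2))
    simpa only [hg'] using this
  have hpos : ∀ {r : ℕ}, 0 < η r → 0 < η (2 * (r / 2)) := by
    intro r hr
    apply hη.pos
    by_contra hc
    have := hη.zero r (by omega)
    omega
  have hlen : ∀ {r : ℕ}, 0 < η r → η (2 * (r / 2)) = η r ∨ η (2 * (r / 2)) = η r + 1 := by
    intro r hr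
    rcases Nat.even_or_odd' r with ⟨c, hc | hc⟩
    · left
      congr 1
      omega
    · right
      have h1 : r / 2 = c := by omega
      rw [h1]
      rcases hη.two c with h2 | h2
      · rw [← hc] at h2
        omega
      · rw [← hc] at h2
        exact h2
  have hrev : ∀ x, ((η (w₀ x) : ℤ) - 1) - A x - rev η A w₀ x = 0 := by
    intro x
    have h1 := h.2 x
    have h2 : rev η A w₀ x = η (w₀ x) - 1 - A x := rfl
    rw [h2]
    omega
  have e := sum_expand 1 (fun x => (A x : ℤ)) (fun x => (rev η A w₀ x : ℤ))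
    (fun x => (η (2 * (Y x / 2)) : ℤ) - 1)
  have e' := sum_expand 1 (fun x => (A x : ℤ)) (fun x => (rev η A w₀ x : ℤ))
    (fun x => (η (2 * (w₀ x / 2)) : ℤ) - 1)
  have s1 := hA (fun _ y => ((η (2 * y) : ℤ) - 1) * ((η (2 * y) : ℤ) - 1 - 1))
  have s2 := hA (fun a y => (a : ℤ) * ((η (2 * y) : ℤ) - 1))
  have s3 := hB (fun a y => (a : ℤ) * ((η (2 * y) : ℤ) - 1))
  have hz : ∑ x, ((η (2 * (Y x / 2)) : ℤ) - 1 - A x - rev η A w₀ x) *
      ((η (2 * (Y x / 2)) : ℤ) - 1 - A x - rev η A w₀ x - 1) = 0 := by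
    rw [e, s1, s2, s3, ← e']
    refine Finset.sum_eq_zero fun x _ => ?_
    have h1 := hrev x
    have h2 : (η (2 * (w₀ x / 2)) : ℤ) - 1 - A x - rev η A w₀ x = 0 ∨
        (η (2 * (w₀ x / 2)) : ℤ) - 1 - A x - rev η A w₀ x - 1 = 0 := by
      rcases hlen (lt_of_le_of_lt (Nat.zero_le _) (h.2 x)) with h3 | h3 <;> omega
    rcases h2 with h2 | h2 <;> rw [h2] <;> simp
  have hnn : ∀ x ∈ (univ : Finset X), 0 ≤ ((η (2 * (Y x / 2)) : ℤ) - 1 - A x - rev η A w₀ x) *
      ((η (2 * (Y x / 2)) : ℤ) - 1 - A x - rev η A w₀ x - 1) := by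
    intro x _
    set d : ℤ := (η (2 * (Y x / 2)) : ℤ) - 1 - A x - rev η A w₀ x
    rcases le_or_gt d 0 with hd | hd
    · exact mul_nonneg_of_nonpos_of_nonpos hd (by omega)
    · exact mul_nonneg (by omega) (by omega)
  have hz' := (Finset.sum_eq_zero_iff_of_nonneg hnn).mp hz
  -- pointwise inequality
  have hle : ∀ x ∈ (univ : Finset X), Y x / 2 ≤ w₀ x / 2 := by
    intro x _
    have h1 := hz' x (mem_univ x)
    have h3 := hrev x
    have h4 : η (w₀ x) ≤ η (2 * (Y x / 2)) := by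
      rcases mul_eq_zero.mp h1 with h2 | h2 <;> omega
    by_contra hc
    have h5 : w₀ x < 2 * (Y x / 2) := by omega
    have h6 := hη.dec _ _ h5 (hpos (lt_of_le_of_lt (Nat.zero_le _) (hY.2 x)))
      (lt_of_le_of_lt (Nat.zero_le _) (h.2 x))
    omega
  have hsum : ∑ x, Y x / 2 = ∑ x, w₀ x / 2 := by
    have := hA (fun _ y => (y : ℤ))
    exact_mod_cast this
  have hfin := (Finset.sum_eq_sum_iff_of_le hle).mp hsum
  funext x
  exact hfin x (mem_univ x)

end Crest.Agent.SaxlN
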