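import Crest.Agent.SaxlN.RrF
import Crest.Agent.SaxlN.UniqL
import Crest.Agent.SaxlN.Dual

/-!
CHUNK CONV (medium): changing the symmetry type of a lift.
-/

set_option autoImplicit false

namespace Crest.Agent.SaxlN

open Finset Equiv
open Crest.Agent.Saxl

variable {X : Type} [Fintype X] [DecidableEq X]

private theorem conv_mem_Rs {A : Word X} {c : Perm X} : c ∈ Rs A ↔ A ∘ c = A := by
  simp [Rs]

omit [Fintype X] [DecidableEq X] in
private theorem conv_rowT_congr {η : ℕ → ℕ} {t : ℕ → Bool} {A A' w w' : Word X} {x y : X}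
    (hA : A x = A' y) (hw : w x = w' y) : rowT η t A w x = rowT η t A' w' y := by
  simp only [rowT, hA, hw]

omit [Fintype X] [DecidableEq X] in
private theorem conv_colT_congr {η : ℕ → ℕ} {t : ℕ → Bool} {A A' w w' : Word X} {x y : X}
    (hA : A x = A' y) (hw : w x = w' y) : colT η t A w x = colT η t A' w' y := by
  simp only [colT, hA, hw]

private theorem conv_yact_sum {ι V : Type} [AddCommGroup V] [Module ℂ V]
    (σ : Representation ℂ (Perm X) V) (ρ κ : Word X) (S : Finset ι) (a : ι → ℂ) (w : ι → V) :
    yact σ ρ κ (∑ i ∈ S, a i • w i) = ∑ i ∈ S, a i • yact σ ρ κ (w i) := by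
  have h : ∀ z, yact σ ρ κ z =
      (∑ r ∈ Rs ρ, ∑ c ∈ Rs κ, (((Perm.sign c : ℤˣ) : ℤ) : ℂ) • σ (r * c)) z := by
    intro z
    simp only [yact, LinearMap.sum_apply, LinearMap.smul_apply]
  simp only [h, map_sum, map_smul]

/-- the 0/1 matrix argument -/
private theorem conv_matrix {q : ℕ} {η : ℕ → ℕ} (hz : ∀ r, 2 * q ≤ r → η r = 0)
    (hX : Fintype.card X = total q η) {A w₀ Y : Word X} (hA : PerpL η A w₀)
    (hinj : Function.Injective (fun x => (A x, Y x)))
    (hcount : ∀ r, (univ.filter (fun x => Y x = r)).card = η r) : PerpL η A Y := by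
  refine ⟨hinj, ?_⟩
  by_contra hcon
  push Not at hcon
  obtain ⟨x₀, hx₀⟩ := hcon
  set j := η (Y x₀) with hj
  have hrange : ∀ {Z : Word X}, (∀ x, 0 < η (Z x)) → ∀ x, Z x ∈ range (2 * q) := by
    intro Z hZ x
    rw [mem_range]
    by_contra hc
    have h1 := hz (Z x) (by omega)
    have h2 := hZ x
    omega
  have hYpos : ∀ x, 0 < η (Y x) := by
    intro x
    rw [← hcount (Y x), card_pos]
    exact ⟨x, by simp⟩
  have hwpos : ∀ x, 0 < η (w₀ x) := fun x => lt_of_le_of_lt (Nat.zero_le _) (hA.2 x)
  have e1 : (univ.filter (fun x : X => A x < j)).card =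
      ∑ r ∈ range (2 * q), ((univ.filter (fun x : X => A x < j)).filter
        (fun x => w₀ x = r)).card :=
    card_eq_sum_card_fiberwise (fun x _ => hrange hwpos x)
  have e2 : (univ.filter (fun x : X => A x < j)).card =
      ∑ r ∈ range (2 * q), ((univ.filter (fun x : X => A x < j)).filter
        (fun x => Y x = r)).card :=
    card_eq_sum_card_fiberwise (fun x _ => hrange hYpos x)
  have i1 : ∑ r ∈ range (2 * q), min (η r) j ≤
      ∑ r ∈ range (2 * q), ((univ.filter (fun x : X => A x < j)).filter
        (fun x => w₀ x = r)).card := by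
    refine Finset.sum_le_sum fun r _ => ?_
    have h1 : range (min (η r) j) ⊆ ((univ.filter (fun x : X => A x < j)).filter
        (fun x => w₀ x = r)).image A := by
      intro i hi
      rw [mem_range] at hi
      obtain ⟨x, hx1, hx2⟩ := hA.surj hz hX i r (lt_of_lt_of_le hi (min_le_left _ _))
      refine mem_image.2 ⟨x, ?_, hx1⟩
      simp only [mem_filter, mem_univ, true_and]
      exact ⟨hx1 ▸ lt_of_lt_of_le hi (min_le_right _ _), hx2⟩
    calc min (η r) j = (range (min (η r) j)).card := (card_range _).symm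
      _ ≤ _ := card_le_card h1
      _ ≤ _ := card_image_le
  have i2 : ∑ r ∈ range (2 * q), ((univ.filter (fun x : X => A x < j)).filter
        (fun x => Y x = r)).card < ∑ r ∈ range (2 * q), min (η r) j := by
    refine Finset.sum_lt_sum (fun r _ => ?_) ⟨Y x₀, hrange hYpos x₀, ?_⟩
    · refine le_min ?_ ?_
      · rw [← hcount r]
        refine card_le_card ?_
        intro x hx
        simp only [mem_filter, mem_univ, true_and] at hx ⊢
        exact hx.2
      · rw [← card_range j]
        refine card_le_card_of_injOn A ?_ ?_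
        · intro x hx
          have hx' := hx
          simp only [coe_filter, mem_filter, mem_univ, true_and, Set.mem_ofPred_eq] at hx'
          simpa using hx'.1
        · intro x hx y hy hxy
          simp only [coe_filter, mem_filter, mem_univ, true_and, Set.mem_ofPred_eq] at hx hy
          apply hinj
          show (A x, Y x) = (A y, Y y)
          rw [hxy, hx.2, hy.2]
    · rw [← hj, min_self]
      have h1 : ((univ.filter (fun x : X => A x < j)).filter (fun x => Y x = Y x₀)) ⊂
          univ.filter (fun x => Y x = Y x₀) := by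
        rw [Finset.ssubset_iff_of_subset]
        · refine ⟨x₀, by simp, ?_⟩
          simp only [mem_filter, mem_univ, true_and, not_and]
          intro hc
          omega
        · intro x hx
          simp only [mem_filter, mem_univ, true_and] at hx ⊢
          exact hx.2
      have h2 := card_lt_card h1
      rw [hcount] at h2
      exact h2
  omega

/-- parity of a sum of integers -/
private theorem conv_odd_sum {ι : Type*} (S : Finset ι) (f : ι → ℤ) :
    Odd (∑ i ∈ S, f i) ↔ Odd (S.filter (fun i => Odd (f i))).card := by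
  classical
  induction S using Finset.induction_on with
  | empty => simp
  | insert a S ha ih =>
    rw [sum_insert ha, filter_insert, Int.odd_add]
    by_cases h : Odd (f a)
    · rw [if_pos h, card_insert_of_notMem (by simp [ha]), Nat.odd_add_one]
      rw [← ih, ← Int.not_odd_iff_even]
      tauto
    · rw [if_neg h, ← ih, ← Int.not_odd_iff_even]
      tauto

open Classical in
/-- the parity count -/
private theorem conv_parity {q : ℕ} {η : ℕ → ℕ} (hη : LD q η) (hX : Fintype.card X = total q η)
    {w₀ A Y : Word X} (hA : PerpL η A w₀) :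
    Odd ((Rs A).filter (fun c => PerpL η (rev η A w₀) (Y ∘ (c : Perm X)))).card ↔
      PerpL η A Y := by
  constructor
  · intro hodd
    by_contra hnot
    set S := (Rs A).filter (fun c => PerpL η (rev η A w₀) (Y ∘ (c : Perm X))) with hS
    have hne : S.Nonempty := by
      rw [← card_pos]
      exact hodd.pos
    obtain ⟨c₀, hc₀⟩ := hne
    have hc₀' := (mem_filter.1 hc₀).2
    have hcount : ∀ r, (univ.filter (fun x => Y x = r)).card = η r := by
      intro r
      rw [← PerpL.count hη.zero hX hc₀' r]
      refine (card_bij' (fun x _ => c₀ x) (fun x _ => c₀⁻¹ x) ?_ ?_ ?_ ?_).symm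
      · intro x hx
        simpa using hx
      · intro x hx
        simpa using hx
      · intro x hx
        simp
      · intro x hx
        simp
    have hninj : ¬ Function.Injective (fun x => (A x, Y x)) := fun hinj =>
      hnot (conv_matrix hη.zero hX hA hinj hcount)
    simp only [Function.Injective, Prod.mk.injEq] at hninj
    push Not at hninj
    obtain ⟨x, y, hxy, hne⟩ := hninj
    have hAs : A ∘ (swap x y : Perm X) = A := by
      funext z
      simp only [Function.comp_apply]
      rcases eq_or_ne z x with rfl | h1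
      · rw [swap_apply_left, hxy.1]
      rcases eq_or_ne z y with rfl | h2
      · rw [swap_apply_right, hxy.1]
      rw [swap_apply_of_ne_of_ne h1 h2]
    have hYs : Y ∘ (swap x y : Perm X) = Y := by
      funext z
      simp only [Function.comp_apply]
      rcases eq_or_ne z x with rfl | h1
      · rw [swap_apply_left, hxy.2]
      rcases eq_or_ne z y with rfl | h2
      · rw [swap_apply_right, hxy.2]
      rw [swap_apply_of_ne_of_ne h1 h2]
    have e1 : ∑ c ∈ S, (1 : ZMod 2) = 0 := by
      refine Finset.sum_involution (fun c _ => swap x y * c) ?_ ?_ ?_ ?_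
      · intro c _; decide
      · intro c _ _ hc
        have h1 : swap x y = 1 := by
          have := congrArg (· * c⁻¹) hc
          simpa [mul_assoc] using this
        exact hne (swap_eq_one_iff.1 h1)
      · intro c hc
        rw [hS, mem_filter, conv_mem_Rs] at hc ⊢
        have h2 : ∀ Z : Word X, Z ∘ ((swap x y * c : Perm X)) = (Z ∘ (swap x y : Perm X)) ∘ c :=
          fun Z => rfl
        rw [h2, h2, hAs, hYs]
        exact hc
      · intro c _
        simp [← mul_assoc]
    rw [Finset.sum_const, nsmul_eq_mul, mul_one] at e1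
    rw [ZMod.natCast_eq_zero_iff_even] at e1
    exact (Nat.not_odd_iff_even.2 e1) hodd
  · intro hY
    obtain ⟨c, hc1, hc2⟩ := perpL_conj hη.zero hX hY hA
    have hcR : c ∈ Rs A := conv_mem_Rs.2 hc1.symm
    have : (Rs A).filter (fun c => PerpL η (rev η A w₀) (Y ∘ (c : Perm X))) = {c} := by
      ext d
      rw [mem_filter, mem_singleton]
      constructor
      · rintro ⟨hd1, hd2⟩
        rw [conv_mem_Rs] at hd1
        have h1 : PerpL η A (Y ∘ d) := by
          have := PerpL.comp hY d
          rwa [hd1] at this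
        have h2 : Y ∘ d = w₀ := uniq_line hη hX hA h1 hd2
        ext x
        apply hY.1
        show (A (d x), Y (d x)) = (A (c x), Y (c x))
        have e1 : A (d x) = A x := congrFun hd1 x
        have e2 : A x = A (c x) := congrFun hc1 x
        have e3 : Y (d x) = w₀ x := congrFun h2 x
        have e4 : w₀ x = Y (c x) := congrFun hc2 x
        rw [e1, e2, e3, e4]
      · rintro rfl
        refine ⟨hcR, ?_⟩
        rw [← hc2]
        exact perpL_rev hA
    rw [this]
    simp

/-- PROOF. `v' := ∑_{c ∈ Rs A} ε(c) L_c v`, i.e. `v' g = ∑_{c ∈ Rs A} ε(c) v (c⁻¹ g)`, `ε = 1` if `s' = true`,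
`sign` otherwise. `right`, `left`: clear. `par`: `v' g ≡ #{c ∈ Rs A : PerpL η (rev) (w₀ ∘ g⁻¹ ∘ c)}` mod 2; put
`Y = w₀ ∘ g⁻¹`. If `PerpL η A Y` then `c ↦ Y ∘ c` is a bijection from `Rs A` onto `{Y' : PerpL η A Y'}`
(`perpL_conj`) and exactly one of these is perpendicular to `rev` (`uniq_line`, `perpL_rev`), so odd. If not
`PerpL η A Y`: if no `Y ∘ c` is perpendicular to `rev` the sum is even; otherwise the values of `Y` occur with the
right multiplicities (`PerpL.count`), so `(A, Y)` cannot be injective [if `(A,Y)` were injective: column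
`j` has `#{r : η r > j}` letters; by the 0/1 matrix argument `PerpL η A Y`]; so there are `x ≠ y` with
`A x = A y`, `Y x = Y y`, and `c ↦ swap x y * c`, i.e. `Y ∘ c = Y ∘ swap x y ∘ c`, pairs the terms.
[The 0/1 matrix argument: for each `j` the letters with `A < j`: line `r` (i.e. `Y = r`) contains at most
`min (η r) j` of them by injectivity, and the total number of letters with `A < j` is `∑_r min (η r) j`
(count with `w₀`); so equality for every `r`; for `j = η r` all letters with `Y = r` have `A < η r`.]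
`rest`: `Rr w₀ t (L_c v) g = Rr w₀ t v (c⁻¹ g)`, `EM` is a subgroup. `iso`: `v'` lies in the module generated by `v`
(if `yact (τ g v') ≠ 0` then `yact (τ (g c) v) ≠ 0` for some `c`), and
`(rowT, colT)` for `rev` are those for `A` composed with the permutation reversing every line (`perpL_conj`). -/
theorem Lifted.conv {q : ℕ} {η : ℕ → ℕ} (hη : LD q η) (hX : Fintype.card X = total q η)
    {t : ℕ → Bool} {w₀ A : Word X} (hA : PerpL η A w₀) {s : Bool} {v : Perm X → ℤ}
    (h : Lifted η t w₀ (rev η A w₀) s v) (s' : Bool) : ∃ v', Lifted η t w₀ A s' v' := by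
  classical
  set ε : Perm X → ℤ := fun c => if s' then 1 else ((Perm.sign c : ℤˣ) : ℤ) with hε
  have hεmul : ∀ a b, ε (a * b) = ε a * ε b := by
    intro a b
    simp only [hε]
    cases s' <;> simp
  have hεodd : ∀ c, Odd (ε c) := by
    intro c
    simp only [hε]
    cases s'
    · rcases Int.units_eq_one_or (Perm.sign c) with h1 | h1 <;> simp [h1]
    · simp
  refine ⟨fun g => ∑ c ∈ Rs A, ε c * v (c⁻¹ * g), ?_, ?_, ?_, ?_, ?_⟩
  · -- right
    intro g k hk
    show ∑ c ∈ Rs A, ε c * v (c⁻¹ * (g * k)) = _ * ∑ c ∈ Rs A, ε c * v (c⁻¹ * g)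
    rw [Finset.mul_sum]
    refine Finset.sum_congr rfl fun c _ => ?_
    rw [← mul_assoc c⁻¹ g k, h.right _ k hk]
    ring
  · -- left
    intro c₀ hc₀ g
    show ∑ c ∈ Rs A, ε c * v (c⁻¹ * (c₀ * g)) = ε c₀ * ∑ c ∈ Rs A, ε c * v (c⁻¹ * g)
    rw [Finset.mul_sum]
    refine Finset.sum_nbij' (fun c => c₀⁻¹ * c) (fun c => c₀ * c) ?_ ?_ ?_ ?_ ?_
    · intro c hc
      rw [conv_mem_Rs] at hc ⊢
      have h1 : A ∘ (c₀⁻¹ : Perm X) = A := by
        funext x
        have := congrFun hc₀ (c₀⁻¹ x)
        simp only [Function.comp_apply] at this ⊢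
        rw [← this]
        simp
      have h2 : A ∘ ((c₀⁻¹ * c : Perm X)) = (A ∘ (c₀⁻¹ : Perm X)) ∘ c := rfl
      rw [h2, h1, hc]
    · intro c hc
      rw [conv_mem_Rs] at hc ⊢
      have h2 : A ∘ ((c₀ * c : Perm X)) = (A ∘ c₀) ∘ c := rfl
      rw [h2, hc₀, hc]
    · intro c _
      simp
    · intro c _
      simp
    · intro c _
      rw [← mul_assoc (ε c₀), ← hεmul, mul_inv_cancel_left, mul_inv_rev, inv_inv, mul_assoc]
  · -- par
    intro g
    show Odd (∑ c ∈ Rs A, ε c * v (c⁻¹ * g)) ↔ _
    rw [conv_odd_sum, ← conv_parity hη hX hA]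
    have : (Rs A).filter (fun c => Odd (ε c * v (c⁻¹ * g))) =
        (Rs A).filter (fun c => PerpL η (rev η A w₀) ((w₀ ∘ (g⁻¹ : Perm X)) ∘ (c : Perm X))) := by
      refine Finset.filter_congr fun c _ => ?_
      rw [Int.odd_mul, h.par]
      have h1 : w₀ ∘ ((c⁻¹ * g)⁻¹ : Perm X) = (w₀ ∘ (g⁻¹ : Perm X)) ∘ (c : Perm X) := by
        rw [mul_inv_rev, inv_inv]
        rfl
      rw [h1]
      exact and_iff_right (hεodd c)
    rw [this]
  · -- rest
    intro g
    choose f hf1 hf2 using h.rest
    refine ⟨∑ c ∈ Rs A, ε c • f (c⁻¹ * g), ?_, ?_⟩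
    · exact sum_mem fun c _ => zsmul_mem (hf1 _) _
    · intro b
      have e1 : (((∑ c ∈ Rs A, ε c • f (c⁻¹ * g)) b : ℤ) : ℂ) =
          ∑ c ∈ Rs A, (ε c : ℂ) * Rr w₀ t (cx v) (c⁻¹ * g) b := by
        rw [Finset.sum_apply]
        push_cast
        refine Finset.sum_congr rfl fun c _ => ?_
        rw [hf2, Pi.smul_apply, smul_eq_mul]
        push_cast
        ring
      rw [e1]
      unfold Rr cx
      push_cast
      simp only [Finset.mul_sum]
      rw [Finset.sum_comm]
      refine Finset.sum_congr rfl fun c _ => ?_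
      refine Finset.sum_congr rfl fun k _ => ?_
      rw [mul_assoc c⁻¹ g k]
      ring
  · -- iso
    intro ρ κ hT hne
    obtain ⟨g, hg⟩ := hne
    have hlin : cx (fun g => ∑ c ∈ Rs A, ε c * v (c⁻¹ * g)) =
        ∑ c ∈ Rs A, (ε c : ℂ) • lreg X c (cx v) := by
      funext g
      rw [Finset.sum_apply]
      simp only [cx, Pi.smul_apply, lreg_apply, smul_eq_mul]
      push_cast
      rfl
    have hy : yact (lreg X) ρ κ (lreg X g (cx (fun g => ∑ c ∈ Rs A, ε c * v (c⁻¹ * g)))) =
        ∑ c ∈ Rs A, (ε c : ℂ) • yact (lreg X) ρ κ (lreg X (g * c) (cx v)) := by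
      rw [hlin]
      simp only [map_sum, map_smul]
      rw [conv_yact_sum]
      refine Finset.sum_congr rfl fun c _ => ?_
      rw [map_mul, Module.End.mul_apply]
    rw [hy] at hg
    obtain ⟨c, _, hc⟩ := Finset.exists_ne_zero_of_sum_ne_zero hg
    have hc' : yact (lreg X) ρ κ (lreg X (g * c) (cx v)) ≠ 0 := by
      intro h0
      rw [h0, smul_zero] at hc
      exact hc rfl
    obtain ⟨k, hk1, hk2⟩ := h.iso ρ κ hT ⟨g * c, hc'⟩
    obtain ⟨π, hπ1, hπ2⟩ := perpL_conj hη.zero hX hA (perpL_rev hA)
    refine ⟨π * k, ?_, ?_⟩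
    · rw [hk1]
      funext x
      exact conv_rowT_congr (congrFun hπ1 (k x)) (congrFun hπ2 (k x))
    · rw [hk2]
      funext x
      exact conv_colT_congr (congrFun hπ1 (k x)) (congrFun hπ2 (k x))

end Crest.Agent.SaxlN
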