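import Crest.Agent.Saxl.Irr
import Crest.Agent.Saxl.PathConj
import Crest.Agent.Saxl.GlueDefs

/-!
# Row 195, S0298: definitions for the general gluing theorem

`η r` = length of the line `r`; the lines `2i, 2i+1` form the group `i` (the second one may be empty).
`PerpL η A Y`: the letters `x ↦ (A x, Y x)` (column, line) are injective into the cells `A < η Y`
(bijective when `card X = total q η`).  A letter order (type) `t i = false / true` says that the
lines of group `i` are peeled as rows (e) / as columns (f) of the shape; `rowT, colT` are the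
coordinates of the letters in the shape.
-/

set_option autoImplicit false

namespace Crest.Agent.SaxlN

open Finset Equiv
open Crest.Agent.Saxl

section
variable {X : Type} [Fintype X] [DecidableEq X]

/-- `A ⊥ Y` for line lengths `η`. -/
def PerpL {X : Type} (η : ℕ → ℕ) (A Y : Word X) : Prop :=
  Function.Injective (fun x => (A x, Y x)) ∧ ∀ x, A x < η (Y x)

/-- Line data: `q` groups; nonempty lines have strictly decreasing lengths; a group has one line
or two lines of consecutive lengths. -/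
structure LD (q : ℕ) (η : ℕ → ℕ) : Prop where
  zero : ∀ r, 2 * q ≤ r → η r = 0
  pos : ∀ i, i < q → 0 < η (2 * i)
  dec : ∀ r s, r < s → 0 < η s → 0 < η r → η s < η r
  two : ∀ i, η (2 * i + 1) = 0 ∨ η (2 * i) = η (2 * i + 1) + 1

/-- number of cells -/
def total (q : ℕ) (η : ℕ → ℕ) : ℕ := ∑ r ∈ range (2 * q), η r

/-- number of nonempty lines of type `s` before `r` -/
def cnt (η : ℕ → ℕ) (t : ℕ → Bool) (s : Bool) (r : ℕ) : ℕ :=
  ((range r).filter (fun r' => 0 < η r' ∧ t (r' / 2) = s)).card

/-- row of a letter in the shape peeled in the order `t` -/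
def rowT {X : Type} (η : ℕ → ℕ) (t : ℕ → Bool) (A w₀ : Word X) : Word X := fun x =>
  cnt η t false (w₀ x) + (if t (w₀ x / 2) then A x else 0)

/-- column of a letter in the shape peeled in the order `t` -/
def colT {X : Type} (η : ℕ → ℕ) (t : ℕ → Bool) (A w₀ : Word X) : Word X := fun x =>
  cnt η t true (w₀ x) + (if t (w₀ x / 2) then 0 else A x)

/-- the reversed column word -/
def rev {X : Type} (η : ℕ → ℕ) (A w₀ : Word X) : Word X := fun x => η (w₀ x) - 1 - A x

/-- the group word -/
def gw {X : Type} (w₀ : Word X) : Word X := fun x => w₀ x / 2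

/-- sign of the restriction of `h` to the letters with `T x = true` (if `h` preserves this set; `1` otherwise) -/
noncomputable def sgnT (T : X → Bool) (h : Perm X) : ℤˣ := by
  classical
  exact if hh : ∀ x, T (h x) = T x then
    Perm.sign (h.subtypePerm (p := fun x => T x = true) (fun x => by simp only [hh])) else 1

/-- the sign character of the type `t` (for `h` preserving the group word) -/
noncomputable def chi (t : ℕ → Bool) (w₀ : Word X) (h : Perm X) : ℤˣ :=
  sgnT (fun x => t (w₀ x / 2)) h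

/-- generalised strip matchings: the block `i` has exactly `η (2i) - η (2i+1)` fixed points -/
structure SML (η : ℕ → ℕ) (u : Word X) (m : Perm X) (o : X → Bool) : Prop where
  invol : ∀ x, m (m x) = x
  pres : ∀ x, u (m x) = u x
  fix : ∀ i, (univ.filter (fun x => u x = i ∧ m x = x)).card = η (2 * i) - η (2 * i + 1)
  orient : ∀ x, m x ≠ x → o (m x) = !(o x)

/-- block sizes -/
def IsStripL (η : ℕ → ℕ) (u : Word X) : Prop :=
  ∀ i, (univ.filter (fun x => u x = i)).card = η (2 * i) + η (2 * i + 1)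

/-- the lattice spanned by the matching elements -/
def EM (η : ℕ → ℕ) (u : Word X) : AddSubgroup ((X → Fin 2) → ℤ) :=
  AddSubgroup.closure {f | ∃ (m : Perm X) (o : X → Bool), SML η u m o ∧ f = em m o}

/-- the word `2u+b` -/
def dw {X : Type} (u : Word X) (b : X → Fin 2) : Word X := fun x => 2 * u x + ((b x : Fin 2) : ℕ)

/-- the left regular representation on functions on the group -/
noncomputable def lreg (X : Type) : Representation ℂ (Perm X) (Perm X → ℂ) where
  toFun g :=
    { toFun := fun v x => v (g⁻¹ * x)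
      map_add' := fun _ _ => rfl
      map_smul' := fun _ _ => rfl }
  map_one' := by ext v x; simp
  map_mul' g h := by ext v x; simp [mul_assoc]

@[simp] lemma lreg_apply {X : Type} (g : Perm X) (v : Perm X → ℂ) (x : Perm X) :
    lreg X g v x = v (g⁻¹ * x) := rfl

/-- restriction of `v` at `g` to `0/1` words `b`: average of `χ_t(h) v(g h)` over the `h` with
`w₀ ∘ h⁻¹ = 2 (w₀/2) + b` (such `h` preserve the group word) -/
noncomputable def Rr (w₀ : Word X) (t : ℕ → Bool) (v : Perm X → ℂ) (g : Perm X) :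
    (X → Fin 2) → ℂ := fun b =>
  (1 / ((Rs w₀).card : ℂ)) *
    ∑ h ∈ (univ : Finset (Perm X)).filter (fun h => w₀ ∘ (h⁻¹ : Perm X) = dw (gw w₀) b),
      (((chi t w₀ h : ℤˣ) : ℤ) : ℂ) * v (g * h)

/-- the module generated by `v` is isotypic of the shape of the tableau `(R, C)` -/
def IsoV {V : Type} [AddCommGroup V] [Module ℂ V] (τ : Representation ℂ (Perm X) V) (v : V)
    (R C : Word X) : Prop :=
  ∀ ρ κ : Word X, IsTab (fun _ => 0) ρ κ → (∃ g, yact τ ρ κ (τ g v) ≠ 0) →
    ∃ h : Perm X, ρ = R ∘ h ∧ κ = C ∘ h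

/-- complexification -/
def cx {α : Type*} (f : α → ℤ) : α → ℂ := fun a => ((f a : ℤ) : ℂ)

/-- `v` is a lift of the polytabloid with columns `A` in the model of type `t`; `s = false`: alternating,
`s = true`: symmetric under the column group. -/
structure Lifted (η : ℕ → ℕ) (t : ℕ → Bool) (w₀ A : Word X) (s : Bool) (v : Perm X → ℤ) : Prop where
  right : ∀ g k : Perm X, w₀ ∘ k = w₀ → v (g * k) = ((chi t w₀ k : ℤˣ) : ℤ) * v g
  left : ∀ c : Perm X, A ∘ c = A → ∀ g,
    v (c * g) = (if s then 1 else ((Perm.sign c : ℤˣ) : ℤ)) * v g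
  par : ∀ g, Odd (v g) ↔ PerpL η A (w₀ ∘ (g⁻¹ : Perm X))
  rest : ∀ g, ∃ f ∈ EM η (gw w₀), ∀ b, Rr w₀ t (cx v) g b = ((f b : ℤ) : ℂ)
  iso : IsoV (lreg X) (cx v) (rowT η t A w₀) (colT η t A w₀)

/-- generalised path element: two-line blocks as in `zp`, single-line blocks: all letters isolated -/
def zq (η : ℕ → ℕ) (u p : Word X) (b b' : X → Fin 2) : ℤ :=
  ((∏ q ∈ (univ : Finset (X × X)).filter
      (fun q => 0 < η (2 * u q.1 + 1) ∧ u q.1 = u q.2 ∧ p q.2 = p q.1 + 1 ∧ Even (p q.1)),
      ((((b q.2 : Fin 2) : ℕ) : ℤ) - (((b q.1 : Fin 2) : ℕ) : ℤ))) *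
    (∏ x ∈ univ.filter (fun x => η (2 * u x + 1) = 0 ∨ p x + 1 = bsize u x),
      (1 - (((b x : Fin 2) : ℕ) : ℤ)))) *
  ((∏ q ∈ (univ : Finset (X × X)).filter
      (fun q => 0 < η (2 * u q.1 + 1) ∧ u q.1 = u q.2 ∧ p q.2 = p q.1 + 1 ∧ Odd (p q.1)),
      ((((b' q.2 : Fin 2) : ℕ) : ℤ) - (((b' q.1 : Fin 2) : ℕ) : ℤ))) *
    (∏ x ∈ univ.filter (fun x => η (2 * u x + 1) = 0 ∨ p x = 0),
      (1 - (((b' x : Fin 2) : ℕ) : ℤ))))

/-- complexified -/
def zqC (η : ℕ → ℕ) (u p : Word X) : FF X := fun b b' => ((zq η u p b b' : ℤ) : ℂ)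

/-- twice the sum of all transpositions -/
noncomputable def TT (X : Type) [Fintype X] [DecidableEq X] : MonoidAlgebra ℂ (Perm X) :=
  ∑ x : X, ∑ y ∈ univ.filter (fun y => y ≠ x), MonoidAlgebra.of ℂ (Perm X) (swap x y)

/-- content sum of a tableau -/
def ct (ρ κ : Word X) : ℤ := ∑ x, ((κ x : ℤ) - (ρ x : ℤ))

/-- semi-invariant vectors: `cl` = classes inside the groups `u`, `s` = sign twists of the groups -/
def SemiInv {V : Type} [AddCommGroup V] [Module ℂ V] (u cl : Word X) (s : ℕ → Bool)
    (σ : Representation ℂ (Perm X) V) (w : V) : Prop :=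
  ∀ g : Perm X, u ∘ g = u → cl ∘ g = cl →
    σ g w = (((sgnT (fun x => s (u x)) g : ℤˣ) : ℤ) : ℂ) • w

end

end Crest.Agent.SaxlN
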