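import Crest.Agent.SaxlN.Defs

/-!
CHUNK DOM (medium): the content sum is strictly monotone for dominance.
-/

set_option autoImplicit false

namespace Crest.Agent.SaxlN

open Finset Equiv
open Crest.Agent.Saxl

variable {X : Type} [Fintype X] [DecidableEq X]

/-- the sum of a word by layers -/
private theorem sum_layers (w : Word X) (N : ℕ) (hN : ∀ x, w x ≤ N) :
    ∑ x, w x = ∑ t ∈ range N, (univ.filter (fun x => t < w x)).card := by
  have h1 : ∀ x, w x = ∑ t ∈ range N, (if t < w x then 1 else 0) := by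
    intro x
    rw [Finset.sum_boole]
    have h2 : (range N).filter (fun t => t < w x) = range (w x) := by
      ext t
      simp only [Finset.mem_filter, Finset.mem_range]
      have := hN x
      omega
    rw [h2, Finset.card_range]
    rfl
  rw [Finset.sum_congr rfl (fun x _ => h1 x), Finset.sum_comm]
  refine Finset.sum_congr rfl (fun t _ => ?_)
  rw [Finset.sum_boole]
  rfl

/-- the number of cells in the first `j` rows is at most `j t` plus the number of cells in the columns `≥ t` -/
private theorem rows_le {ρ κ : Word X} (h : IsTab (fun _ => 0) ρ κ) (j t : ℕ) :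
    (univ.filter (fun x => ρ x < j)).card ≤ (univ.filter (fun x => t ≤ κ x)).card + j * t := by
  have h1 : (univ.filter (fun x => ρ x < j)) ⊆
      (univ.filter (fun x => t ≤ κ x)) ∪ (univ.filter (fun x => ρ x < j ∧ κ x < t)) := by
    intro x hx
    simp only [Finset.mem_filter, Finset.mem_univ, true_and, Finset.mem_union] at hx ⊢
    omega
  have h2 : (univ.filter (fun x => ρ x < j ∧ κ x < t)).card ≤ j * t := by
    have h3 : ((range j) ×ˢ (range t)).card = j * t := by
      rw [Finset.card_product, Finset.card_range, Finset.card_range]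
    rw [← h3]
    refine Finset.card_le_card_of_injOn (fun x => (ρ x, κ x)) ?_ ?_
    · intro x hx
      simp only [Finset.coe_filter, Finset.mem_univ, true_and, Set.mem_setOf_eq] at hx
      simp only [Finset.coe_product, Finset.coe_range, Set.mem_prod, Set.mem_Iio]
      exact hx
    · intro x _ y _ hxy
      apply h.inj
      simp only [Prod.mk.injEq, true_and] at hxy ⊢
      exact hxy
  calc (univ.filter (fun x => ρ x < j)).card ≤ _ := Finset.card_le_card h1
    _ ≤ _ := Finset.card_union_le _ _
    _ ≤ _ := by omega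

/-- equality for the height of the column `t` -/
private theorem rows_eq {ρ κ : Word X} (h : IsTab (fun _ => 0) ρ κ) (t : ℕ) :
    ∃ j, (univ.filter (fun x => ρ x < j)).card =
      (univ.filter (fun x => t ≤ κ x)).card + j * t := by
  classical
  have hex : ∃ j, ¬ ∃ x, ρ x = j ∧ κ x = t := by
    refine ⟨∑ x, ρ x + 1, ?_⟩
    rintro ⟨x, hx, -⟩
    have := Finset.single_le_sum (f := ρ) (fun i _ => Nat.zero_le _) (Finset.mem_univ x)
    omega
  obtain ⟨j, hj, hmin⟩ : ∃ j, (¬ ∃ x, ρ x = j ∧ κ x = t) ∧ ∀ i < j, ∃ x, ρ x = i ∧ κ x = t := by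
    refine ⟨Nat.find hex, Nat.find_spec hex, fun i hi => ?_⟩
    have := Nat.find_min hex hi
    exact not_not.1 this
  refine ⟨j, ?_⟩
  have hlt : ∀ x, t ≤ κ x → ρ x < j := by
    intro x hx
    by_contra hcon
    obtain ⟨y, -, hy1, hy2⟩ := h.lower x j t (by omega) hx
    exact hj ⟨y, hy1, hy2⟩
  have h1 : (univ.filter (fun x => ρ x < j)) =
      (univ.filter (fun x => t ≤ κ x)) ∪ (univ.filter (fun x => ρ x < j ∧ κ x < t)) := by
    ext x
    simp only [Finset.mem_filter, Finset.mem_univ, true_and, Finset.mem_union]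
    constructor
    · intro hx
      omega
    · rintro (hx | hx)
      · exact hlt x hx
      · exact hx.1
  have h2 : (univ.filter (fun x => ρ x < j ∧ κ x < t)).card = j * t := by
    have h3 : ((range j) ×ˢ (range t)).card = j * t := by
      rw [Finset.card_product, Finset.card_range, Finset.card_range]
    rw [← h3]
    refine Finset.card_bij (fun x _ => (ρ x, κ x)) ?_ ?_ ?_
    · intro x hx
      simp only [Finset.mem_filter, Finset.mem_univ, true_and] at hx
      simp only [Finset.mem_product, Finset.mem_range]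
      exact hx
    · intro x _ y _ hxy
      apply h.inj
      simp only [Prod.mk.injEq, true_and] at hxy ⊢
      exact hxy
    · rintro ⟨i, s⟩ his
      simp only [Finset.mem_product, Finset.mem_range] at his
      obtain ⟨x, hx1, hx2⟩ := hmin i his.1
      obtain ⟨y, -, hy1, hy2⟩ := h.lower x i s hx1.ge (by omega)
      refine ⟨y, ?_, ?_⟩
      · simp only [Finset.mem_filter, Finset.mem_univ, true_and]
        omega
      · simp only [hy1, hy2]
  rw [h1, Finset.card_union_of_disjoint, h2]
  rw [Finset.disjoint_left]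
  intro x hx hx'
  simp only [Finset.mem_filter, Finset.mem_univ, true_and] at hx hx'
  omega

/-- PROOF. Put `S_t = #{ρ < t}`, `S'_t = #{ρ' < t}`, `S' ≤ S`. `∑_x ρ x = ∑_{t ≥ 1} #{ρ ≥ t} = ∑_{t≥1} (n - S_t)`, so
`∑ ρ ≤ ∑ ρ'`. `#{κ ≥ t} = ∑_i (λ_i - t)⁺ = max_j (S_j - j t)` (`λ_i` = number of letters of row `i`, decreasing), so
`#{κ ≥ t} ≥ #{κ' ≥ t}` and `∑ κ ≥ ∑ κ'`. With `ct ρ κ = ct ρ' κ'` all are equalities, so `∑_t (S_t - S'_t) = 0` and
`S_t = S'_t` for all `t`. -/
theorem dom_ct {ρ κ ρ' κ' : Word X} (h : IsTab (fun _ => 0) ρ κ)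
    (h' : IsTab (fun _ => 0) ρ' κ')
    (hdom : ∀ t, (univ.filter (fun x => ρ' x < t)).card ≤ (univ.filter (fun x => ρ x < t)).card)
    (hct : ct ρ κ = ct ρ' κ') (t : ℕ) :
    (univ.filter (fun x => ρ' x < t)).card = (univ.filter (fun x => ρ x < t)).card := by
  have hκ : ∀ t, (univ.filter (fun x => t ≤ κ' x)).card ≤ (univ.filter (fun x => t ≤ κ x)).card := by
    intro t
    obtain ⟨j, hj⟩ := rows_eq h' t
    have h1 := rows_le h j t
    have h2 := hdom j
    omega
  set N : ℕ := t + ∑ x, ρ x + ∑ x, κ x + ∑ x, ρ' x + ∑ x, κ' x with hN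
  have hle : ∀ (w : Word X) (x : X), w x ≤ ∑ x, w x := fun w x =>
    Finset.single_le_sum (f := w) (fun i _ => Nat.zero_le _) (Finset.mem_univ x)
  have e1 := sum_layers ρ N (fun x => (hle ρ x).trans (by omega))
  have e2 := sum_layers κ N (fun x => (hle κ x).trans (by omega))
  have e3 := sum_layers ρ' N (fun x => (hle ρ' x).trans (by omega))
  have e4 := sum_layers κ' N (fun x => (hle κ' x).trans (by omega))
  have hcompl : ∀ (w : Word X) (s : ℕ), (univ.filter (fun x => s < w x)).card +
      (univ.filter (fun x => w x < s + 1)).card = Fintype.card X := by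
    intro w s
    rw [← Finset.card_univ (α := X), ← Finset.card_filter_add_card_filter_not (s := univ)
      (fun x => s < w x)]
    congr 2
    ext x
    simp only [Finset.mem_filter, Finset.mem_univ, true_and]
    omega
  have hκ' : ∑ x, κ' x ≤ ∑ x, κ x := by
    rw [e2, e4]
    refine Finset.sum_le_sum fun s _ => ?_
    have := hκ (s + 1)
    simpa [Nat.succ_le_iff] using this
  have hρs : ∀ s ∈ range N, (univ.filter (fun x => s < ρ x)).card ≤
      (univ.filter (fun x => s < ρ' x)).card := by
    intro s _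
    have h1 := hcompl ρ s
    have h2 := hcompl ρ' s
    have h3 := hdom (s + 1)
    omega
  have hρ' : ∑ x, ρ x ≤ ∑ x, ρ' x := by
    rw [e1, e3]
    exact Finset.sum_le_sum hρs
  have hsum : ∑ x, ρ x = ∑ x, ρ' x := by
    unfold ct at hct
    rw [Finset.sum_sub_distrib, Finset.sum_sub_distrib] at hct
    have h1 : (((∑ x, κ x : ℕ) : ℤ) - ((∑ x, ρ x : ℕ) : ℤ)) =
        (((∑ x, κ' x : ℕ) : ℤ) - ((∑ x, ρ' x : ℕ) : ℤ)) := by
      push_cast
      exact hct
    omega
  rcases Nat.eq_zero_or_pos t with ht | ht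
  · subst ht
    simp
  · rw [e1, e3] at hsum
    have h1 := (Finset.sum_eq_sum_iff_of_le hρs).1 hsum (t - 1) (Finset.mem_range.2 (by omega))
    have h2 := hcompl ρ (t - 1)
    have h3 := hcompl ρ' (t - 1)
    have h4 : t - 1 + 1 = t := by omega
    rw [h4] at h2 h3
    omega

end Crest.Agent.SaxlN
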