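import Crest.Agent.SaxlN.Basic

/-!
CHUNK EMAB (medium): the matchings of A and of its reverse form the path.
-/

set_option autoImplicit false

namespace Crest.Agent.SaxlN

open Finset Equiv
open Crest.Agent.Saxl

variable {X : Type} [Fintype X] [DecidableEq X]

namespace EAB

/-- the partner of `x`: same group, same `K` -/
noncomputable def ptn {X : Type} (K w₀ : Word X) (x : X) : X := by
  classical
  exact if h : ∃ y, y ≠ x ∧ w₀ y / 2 = w₀ x / 2 ∧ K y = K x then h.choose else x

theorem ptn_eq {X : Type} {η : ℕ → ℕ} {K w₀ : Word X} (h : PerpL η K w₀) {x y : X} (hne : y ≠ x)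
    (hu : w₀ y / 2 = w₀ x / 2) (hK : K y = K x) : ptn K w₀ x = y := by
  have hex : ∃ y, y ≠ x ∧ w₀ y / 2 = w₀ x / 2 ∧ K y = K x := ⟨y, hne, hu, hK⟩
  have e : ptn K w₀ x = hex.choose := by
    unfold ptn
    rw [dif_pos hex]
  rw [e]
  obtain ⟨h1, h2, h3⟩ := hex.choose_spec
  have a1 : w₀ hex.choose ≠ w₀ x := fun e' => h1 (h.1 (Prod.ext h3 e'))
  have a2 : w₀ y ≠ w₀ x := fun e' => hne (h.1 (Prod.ext hK e'))
  apply h.1
  refine Prod.ext (h3.trans hK.symm) ?_
  show w₀ hex.choose = w₀ y
  omega

theorem ptn_spec {X : Type} {K w₀ : Word X} (x : X) :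
    w₀ (ptn K w₀ x) / 2 = w₀ x / 2 ∧ K (ptn K w₀ x) = K x := by
  by_cases hex : ∃ y, y ≠ x ∧ w₀ y / 2 = w₀ x / 2 ∧ K y = K x
  · have e : ptn K w₀ x = hex.choose := by
      unfold ptn
      rw [dif_pos hex]
    rw [e]
    exact hex.choose_spec.2
  · have e : ptn K w₀ x = x := by
      unfold ptn
      rw [dif_neg hex]
    rw [e]
    exact ⟨rfl, rfl⟩

theorem ptn_invol {X : Type} {η : ℕ → ℕ} {K w₀ : Word X} (h : PerpL η K w₀) (x : X) :
    ptn K w₀ (ptn K w₀ x) = x := by
  by_cases c : ptn K w₀ x = x
  · rw [c, c]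
  · obtain ⟨h1, h2⟩ := ptn_spec (K := K) (w₀ := w₀) x
    exact ptn_eq h (fun e => c e.symm) h1.symm h2.symm

theorem LD.le {q : ℕ} {η : ℕ → ℕ} (hη : LD q η) (i : ℕ) : η (2 * i + 1) ≤ η (2 * i) := by
  rcases hη.two i with h | h <;> omega

theorem ptn_fix {q : ℕ} {η : ℕ → ℕ} (hη : LD q η) (hX : Fintype.card X = total q η)
    {K w₀ : Word X} (h : PerpL η K w₀) (x : X) :
    ptn K w₀ x = x ↔ w₀ x % 2 = 0 ∧ η (2 * (w₀ x / 2) + 1) ≤ K x := by
  have hle := LD.le hη (w₀ x / 2)
  have hx := h.2 x
  constructor
  · intro hf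
    by_contra hcon
    rcases Nat.mod_two_eq_zero_or_one (w₀ x) with c | c
    · have hw : w₀ x = 2 * (w₀ x / 2) := by omega
      have hlt : K x < η (2 * (w₀ x / 2) + 1) := by
        by_contra h'
        exact hcon ⟨c, by omega⟩
      obtain ⟨y, hy1, hy2⟩ := PerpL.surj hη.zero hX h _ _ hlt
      have hne : y ≠ x := by
        rintro rfl
        omega
      have := ptn_eq h hne (by omega) hy1
      exact hne (this.symm.trans hf)
    · have hw : w₀ x = 2 * (w₀ x / 2) + 1 := by omega
      have hlt : K x < η (2 * (w₀ x / 2)) := by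
        rw [hw] at hx
        omega
      obtain ⟨y, hy1, hy2⟩ := PerpL.surj hη.zero hX h _ _ hlt
      have hne : y ≠ x := by
        rintro rfl
        omega
      have := ptn_eq h hne (by omega) hy1
      exact hne (this.symm.trans hf)
  · rintro ⟨c1, c2⟩
    by_contra hne
    obtain ⟨h1, h2⟩ := ptn_spec (K := K) (w₀ := w₀) x
    have a1 : w₀ (ptn K w₀ x) ≠ w₀ x := fun e' => hne (h.1 (Prod.ext h2 e'))
    have a2 : w₀ (ptn K w₀ x) = 2 * (w₀ x / 2) + 1 := by omega
    have a3 := h.2 (ptn K w₀ x)
    rw [a2, h2] at a3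
    omega

/-- the matching -/
noncomputable def mt {X : Type} {η : ℕ → ℕ} {K w₀ : Word X} (h : PerpL η K w₀) : Perm X :=
  Function.Involutive.toPerm (ptn K w₀) (ptn_invol h)

theorem mt_apply {X : Type} {η : ℕ → ℕ} {K w₀ : Word X} (h : PerpL η K w₀) (x : X) :
    mt h x = ptn K w₀ x := rfl

theorem mt_ne {X : Type} {η : ℕ → ℕ} {K w₀ : Word X} (h : PerpL η K w₀) {x : X}
    (hne : mt h x ≠ x) : w₀ (mt h x) % 2 ≠ w₀ x % 2 := by
  obtain ⟨h1, h2⟩ := ptn_spec (K := K) (w₀ := w₀) x
  have a1 : w₀ (ptn K w₀ x) ≠ w₀ x := fun e' => hne (h.1 (Prod.ext h2 e'))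
  rw [mt_apply]
  omega

/-- orientation by the parity of the line -/
def od {X : Type} (w₀ : Word X) (a : ℕ) (x : X) : Bool := decide (w₀ x % 2 = a)

theorem sml {q : ℕ} {η : ℕ → ℕ} (hη : LD q η) (hX : Fintype.card X = total q η)
    {K w₀ : Word X} (h : PerpL η K w₀) {a : ℕ} (ha : a = 0 ∨ a = 1) :
    SML η (gw w₀) (mt h) (od w₀ a) := by
  constructor
  · intro x
    exact ptn_invol h x
  · intro x
    exact (ptn_spec (K := K) (w₀ := w₀) x).1
  · intro i
    have hle := LD.le hη i
    have e : (univ.filter (fun x => gw w₀ x = i ∧ mt h x = x)).card =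
        (Finset.Ico (η (2 * i + 1)) (η (2 * i))).card := by
      apply Finset.card_bij (fun x _ => K x)
      · intro x hx
        rw [Finset.mem_filter] at hx
        obtain ⟨_, hx1, hx2⟩ := hx
        have hx1' : w₀ x / 2 = i := hx1
        rw [mt_apply, ptn_fix hη hX h, hx1'] at hx2
        have hx3 := h.2 x
        have hx4 : w₀ x = 2 * i := by omega
        rw [hx4] at hx3
        rw [Finset.mem_Ico]
        exact ⟨hx2.2, hx3⟩
      · intro x hx y hy hxy
        rw [Finset.mem_filter] at hx hy
        obtain ⟨_, hx1, hx2⟩ := hx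
        obtain ⟨_, hy1, hy2⟩ := hy
        have hx1' : w₀ x / 2 = i := hx1
        have hy1' : w₀ y / 2 = i := hy1
        rw [mt_apply, ptn_fix hη hX h] at hx2 hy2
        apply h.1
        refine Prod.ext hxy ?_
        show w₀ x = w₀ y
        omega
      · intro j hj
        rw [Finset.mem_Ico] at hj
        obtain ⟨y, hy1, hy2⟩ := PerpL.surj hη.zero hX h _ _ hj.2
        refine ⟨y, ?_, hy1⟩
        rw [Finset.mem_filter]
        have hy3 : w₀ y / 2 = i := by omega
        refine ⟨Finset.mem_univ _, hy3, ?_⟩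
        rw [mt_apply, ptn_fix hη hX h, hy3]
        exact ⟨by omega, by omega⟩
    rw [e, Nat.card_Ico]
  · intro x hx
    have := mt_ne h hx
    unfold od
    rcases ha with rfl | rfl
    · by_cases c : w₀ x % 2 = 0
      · have c' : w₀ (mt h x) % 2 = 1 := by omega
        simp [c, c']
      · have c' : w₀ (mt h x) % 2 = 0 := by omega
        simp [c, c']
    · by_cases c : w₀ x % 2 = 1
      · have c' : w₀ (mt h x) % 2 = 0 := by omega
        simp [c, c']
      · have c' : w₀ (mt h x) % 2 = 1 := by omega
        simp [c, c']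

theorem odd_prod {ι : Type*} [DecidableEq ι] (s : Finset ι) (f : ι → ℤ) :
    Odd (∏ i ∈ s, f i) ↔ ∀ i ∈ s, Odd (f i) := by
  induction s using Finset.induction_on with
  | empty => simp
  | insert a s ha ih =>
    rw [Finset.prod_insert ha, Int.odd_mul, ih]
    simp

theorem fin2_cases (a : Fin 2) : a = 0 ∨ a = 1 := by omega

theorem odd_sub (a b : Fin 2) : Odd (((a : ℕ) : ℤ) - ((b : ℕ) : ℤ)) ↔ a ≠ b := by
  revert a b
  decide

theorem odd_one_sub (a : Fin 2) : Odd (1 - ((a : ℕ) : ℤ)) ↔ a = 0 := by
  revert a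
  decide

theorem odd_em {m : Perm X} {o : X → Bool} (hinv : ∀ x, m (m x) = x)
    (ho : ∀ x, m x ≠ x → o (m x) = !(o x)) (b : X → Fin 2) :
    Odd (em m o b) ↔ (∀ x, m x ≠ x → b (m x) ≠ b x) ∧ ∀ x, m x = x → b x = 0 := by
  unfold Saxl.em
  rw [Int.odd_mul, odd_prod, odd_prod]
  constructor
  · rintro ⟨h1, h2⟩
    constructor
    · intro x hx
      rcases Bool.eq_false_or_eq_true (o x) with c | c
      · have := h1 x (by simp [hx, c])
        rwa [odd_sub] at this
      · have hmx : m (m x) ≠ m x := by
          rw [hinv]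
          exact fun e => hx e.symm
        have := h1 (m x) (by
          rw [Finset.mem_filter]
          exact ⟨Finset.mem_univ _, hmx, by rw [ho x hx, c]; rfl⟩)
        rw [odd_sub, hinv] at this
        exact fun e => this e.symm
    · intro x hx
      have := h2 x (by simp [hx])
      rwa [odd_one_sub] at this
  · rintro ⟨h1, h2⟩
    constructor
    · intro x hx
      rw [Finset.mem_filter] at hx
      rw [odd_sub]
      exact h1 x hx.2.1
    · intro x hx
      rw [Finset.mem_filter] at hx
      rw [odd_one_sub]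
      exact h2 x hx.2

theorem odd_em_iff {q : ℕ} {η : ℕ → ℕ} (hη : LD q η) (hX : Fintype.card X = total q η)
    {K w₀ : Word X} (h : PerpL η K w₀) {a : ℕ} (ha : a = 0 ∨ a = 1) (b : X → Fin 2) :
    Odd (em (mt h) (od w₀ a) b) ↔ PerpL η K (dw (gw w₀) b) := by
  have hs := sml hη hX h ha
  rw [odd_em hs.invol hs.orient]
  constructor
  · rintro ⟨h1, h2⟩
    constructor
    · intro x y hxy
      simp only [Prod.mk.injEq, dw, gw] at hxy
      obtain ⟨hxy1, hxy2⟩ := hxy
      by_contra hne
      have hb1 := (b x).2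
      have hb2 := (b y).2
      have e1 : mt h x = y := ptn_eq h (fun e => hne e.symm) (by omega) hxy1.symm
      have e2 := h1 x (by rw [e1]; exact fun e => hne e.symm)
      rw [e1] at e2
      apply e2
      apply Fin.ext
      omega
    · intro x
      have hle := LD.le hη (w₀ x / 2)
      have hx := h.2 x
      have hcase : w₀ x = 2 * (w₀ x / 2) ∨ w₀ x = 2 * (w₀ x / 2) + 1 := by omega
      simp only [dw, gw]
      rcases fin2_cases (b x) with c | c
      · rw [c]
        simp only [Fin.val_zero, add_zero]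
        rcases hcase with hc | hc
        · rw [← hc]; exact hx
        · rw [hc] at hx; omega
      · rw [c]
        simp only [Fin.val_one]
        have hnf : ¬ mt h x = x := by
          intro e
          have := h2 x e
          rw [c] at this
          exact absurd this (by decide)
        rw [mt_apply, ptn_fix hη hX h] at hnf
        rcases hcase with hc | hc
        · by_contra hcon
          exact hnf ⟨by omega, by omega⟩
        · rw [hc] at hx; exact hx
  · rintro ⟨h1, h2⟩
    constructor
    · intro x hx e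
      apply hx
      apply h1
      obtain ⟨s1, s2⟩ := ptn_spec (K := K) (w₀ := w₀) x
      simp only [Prod.mk.injEq, dw, gw]
      refine ⟨s2, ?_⟩
      rw [e, mt_apply, s1]
    · intro x hx
      rw [mt_apply, ptn_fix hη hX h] at hx
      have h3 := h2 x
      simp only [dw, gw] at h3
      rcases fin2_cases (b x) with c | c
      · exact c
      · rw [c] at h3
        simp only [Fin.val_one] at h3
        omega

/-- the positions -/
def pos {X : Type} (η : ℕ → ℕ) (A w₀ : Word X) : Word X := fun x =>
  if 0 < η (2 * (w₀ x / 2) + 1) then 2 * A x + w₀ x % 2 else A x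

theorem bs {q : ℕ} {η : ℕ → ℕ} (hη : LD q η) (hX : Fintype.card X = total q η)
    {A w₀ : Word X} (h : PerpL η A w₀) (x : X) :
    bsize (gw w₀) x = η (2 * (w₀ x / 2)) + η (2 * (w₀ x / 2) + 1) := by
  have := PerpL.isStripL hη.zero hX h (w₀ x / 2)
  exact this

theorem isPath_pos {q : ℕ} {η : ℕ → ℕ} (hη : LD q η) (hX : Fintype.card X = total q η)
    {A w₀ : Word X} (h : PerpL η A w₀) : IsPath (gw w₀) (pos η A w₀) := by
  constructor
  · intro x y hxy
    simp only [Prod.mk.injEq, gw, pos] at hxy
    obtain ⟨h1, h2⟩ := hxy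
    have hx := h.2 x
    have hy := h.2 y
    apply h.1
    by_cases c : 0 < η (2 * (w₀ x / 2) + 1)
    · have c' : 0 < η (2 * (w₀ y / 2) + 1) := by rw [← h1]; exact c
      rw [if_pos c, if_pos c'] at h2
      refine Prod.ext ?_ ?_
      · show A x = A y
        omega
      · show w₀ x = w₀ y
        omega
    · have c' : ¬ 0 < η (2 * (w₀ y / 2) + 1) := by rw [← h1]; exact c
      rw [if_neg c, if_neg c'] at h2
      have hc : w₀ x = 2 * (w₀ x / 2) := by
        by_contra hcon
        have e : w₀ x = 2 * (w₀ x / 2) + 1 := by omega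
        rw [e] at hx
        omega
      have hc' : w₀ y = 2 * (w₀ y / 2) := by
        by_contra hcon
        have e : w₀ y = 2 * (w₀ y / 2) + 1 := by omega
        rw [e] at hy
        omega
      refine Prod.ext h2 ?_
      show w₀ x = w₀ y
      omega
  · intro x
    rw [bs hη hX h]
    have hx := h.2 x
    have hle := LD.le hη (w₀ x / 2)
    have h2 := hη.two (w₀ x / 2)
    have hcase : w₀ x = 2 * (w₀ x / 2) ∨ w₀ x = 2 * (w₀ x / 2) + 1 := by omega
    simp only [pos]
    by_cases c : 0 < η (2 * (w₀ x / 2) + 1)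
    · rw [if_pos c]
      rcases hcase with hc | hc
      · rw [hc] at hx
        have : w₀ x % 2 = 0 := by omega
        omega
      · rw [hc] at hx
        have : w₀ x % 2 = 1 := by omega
        omega
    · rw [if_neg c]
      rcases hcase with hc | hc
      · rw [hc] at hx
        omega
      · rw [hc] at hx
        omega

/-- rewriting `em` as a product over a set of pairs -/
theorem em_eq {m : Perm X} {o : X → Bool} (b : X → Fin 2) (Q : Finset (X × X)) (Z : Finset X)
    (hQ : ∀ q : X × X, q ∈ Q ↔ q.2 = m q.1 ∧ m q.1 ≠ q.1 ∧ o q.1 = true)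
    (hZ : ∀ x, x ∈ Z ↔ m x = x) :
    em m o b = (∏ q ∈ Q, ((((b q.2 : Fin 2) : ℕ) : ℤ) - (((b q.1 : Fin 2) : ℕ) : ℤ))) *
      ∏ x ∈ Z, (1 - (((b x : Fin 2) : ℕ) : ℤ)) := by
  unfold Saxl.em
  congr 1
  · apply Finset.prod_bij' (fun x _ => (x, m x)) (fun q _ => q.1)
    · intro x hx
      rw [Finset.mem_filter] at hx
      rw [hQ]
      exact ⟨rfl, hx.2⟩
    · intro q hq
      rw [hQ] at hq
      rw [Finset.mem_filter]
      exact ⟨Finset.mem_univ _, hq.2⟩
    · intro x hx
      rfl
    · intro q hq
      rw [hQ] at hq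
      exact Prod.ext rfl hq.1.symm
    · intro x hx
      rfl
  · apply Finset.prod_congr _ (fun _ _ => rfl)
    ext x
    rw [hZ, Finset.mem_filter]
    simp

end EAB

/-- PROOF. Position `p`: for a letter `x` in a two-line group (`η (2u+1) > 0`) `p x = 2 A x` if `w₀ x` is even (first
line) and `2 A x + 1` if `w₀ x` is odd (second line); in a single-line group `p x = A x`. The `A`-matching `m`: the
letters of a group in the same column (positions `2j, 2j+1`), the last position `2 η(2i+1) = bsize - 1` is
unpaired. `rev`: `rev x = η (2i) - 1 - A x` on the first line and `η (2i+1) - 1 - A x` on the second one; as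
`η (2i) = η (2i+1) + 1` the letters with the same `rev` are (second line, `A = j`) and (first line, `A = j+1`):
positions `2j+1, 2j+2`; position `0` is unpaired. Orientations: choose them so that the factors of `em` are those of
`zq` (`o x = true` for the lower position of each pair: the factor in `em` is `b (m x) - b x`).
`Odd (em m o b)` iff every pair has different values and the unpaired letters have value `0`, iff `dw (gw w₀) b` is
perpendicular to the column word. -/
theorem em_AB {q : ℕ} {η : ℕ → ℕ} (hη : LD q η) (hX : Fintype.card X = total q η)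
    {A w₀ : Word X} (hA : PerpL η A w₀) :
    ∃ (p : Word X) (m : Perm X) (o : X → Bool) (m' : Perm X) (o' : X → Bool),
      IsPath (gw w₀) p ∧ SML η (gw w₀) m o ∧ SML η (gw w₀) m' o' ∧
      (∀ b, Odd (em m o b) ↔ PerpL η A (dw (gw w₀) b)) ∧
      (∀ b, Odd (em m' o' b) ↔ PerpL η (rev η A w₀) (dw (gw w₀) b)) ∧
      ∀ b b', em m o b * em m' o' b' = zq η (gw w₀) p b b' := by
  have hR := perpL_rev hA
  refine ⟨EAB.pos η A w₀, EAB.mt hA, EAB.od w₀ 0, EAB.mt hR, EAB.od w₀ 1, EAB.isPath_pos hη hX hA,
    EAB.sml hη hX hA (Or.inl rfl), EAB.sml hη hX hR (Or.inr rfl),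
    EAB.odd_em_iff hη hX hA (Or.inl rfl), EAB.odd_em_iff hη hX hR (Or.inr rfl), ?_⟩
  intro b b'
  unfold zq
  congr 1
  · apply EAB.em_eq
    · rintro ⟨x, y⟩
      rw [Finset.mem_filter]
      simp only [Finset.mem_univ, true_and, EAB.od, decide_eq_true_eq, EAB.mt_apply]
      have hx := hA.2 x
      have hy := hA.2 y
      constructor
      · rintro ⟨h1, h2, h3, h4⟩
        simp only [gw] at h1 h2
        have h1' : 0 < η (2 * (w₀ y / 2) + 1) := by rw [← h2]; exact h1
        simp only [EAB.pos] at h3 h4
        rw [if_pos h1] at h3 h4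
        rw [if_pos h1'] at h3
        rw [Nat.even_iff] at h4
        have a1 : w₀ x % 2 = 0 := by omega
        have a2 : w₀ y % 2 = 1 := by omega
        have a3 : A y = A x := by omega
        have hne : y ≠ x := by
          rintro rfl
          omega
        have := EAB.ptn_eq hA hne h2.symm a3
        rw [this]
        exact ⟨rfl, hne, a1⟩
      · rintro ⟨h1, h2, h3⟩
        obtain ⟨s1, s2⟩ := EAB.ptn_spec (K := A) (w₀ := w₀) x
        have s3 := EAB.mt_ne hA h2
        rw [EAB.mt_apply] at s3
        rw [← h1] at s1 s2 s3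
        have e : w₀ y = 2 * (w₀ x / 2) + 1 := by omega
        rw [e] at hy
        have c : 0 < η (2 * (w₀ x / 2) + 1) := by omega
        refine ⟨c, s1.symm, ?_, ?_⟩
        · simp only [EAB.pos]
          rw [s1, if_pos c, if_pos c]
          omega
        · simp only [EAB.pos]
          rw [if_pos c, Nat.even_iff]
          omega
    · intro x
      have hx := hA.2 x
      have hle := EAB.LD.le hη (w₀ x / 2)
      have h2 := hη.two (w₀ x / 2)
      rw [Finset.mem_filter, EAB.mt_apply, EAB.ptn_fix hη hX hA, EAB.bs hη hX hA]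
      simp only [Finset.mem_univ, true_and, gw, EAB.pos]
      have hcase : w₀ x = 2 * (w₀ x / 2) ∨ w₀ x = 2 * (w₀ x / 2) + 1 := by omega
      by_cases c : 0 < η (2 * (w₀ x / 2) + 1)
      · rw [if_pos c]
        rcases hcase with hc | hc
        · rw [hc] at hx
          omega
        · rw [hc] at hx
          omega
      · rw [if_neg c]
        rcases hcase with hc | hc
        · omega
        · rw [hc] at hx
          omega
  · apply EAB.em_eq
    · rintro ⟨x, y⟩
      rw [Finset.mem_filter]
      simp only [Finset.mem_univ, true_and, EAB.od, decide_eq_true_eq, EAB.mt_apply]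
      have hx := hA.2 x
      have hy := hA.2 y
      have h2' := hη.two (w₀ x / 2)
      constructor
      · rintro ⟨h1, h2, h3, h4⟩
        simp only [gw] at h1 h2
        have h1' : 0 < η (2 * (w₀ y / 2) + 1) := by rw [← h2]; exact h1
        simp only [EAB.pos] at h3 h4
        rw [if_pos h1] at h3 h4
        rw [if_pos h1'] at h3
        rw [Nat.odd_iff] at h4
        have a1 : w₀ x % 2 = 1 := by omega
        have a2 : w₀ y % 2 = 0 := by omega
        have a3 : A y = A x + 1 := by omega
        have e1 : w₀ x = 2 * (w₀ x / 2) + 1 := by omega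
        have e2 : w₀ y = 2 * (w₀ x / 2) := by omega
        have hne : y ≠ x := by
          rintro rfl
          omega
        have hrev : rev η A w₀ y = rev η A w₀ x := by
          simp only [rev]
          rw [e1] at hx
          rw [e2] at hy
          rw [e1, e2]
          omega
        have := EAB.ptn_eq hR hne h2.symm hrev
        rw [this]
        exact ⟨rfl, hne, a1⟩
      · rintro ⟨h1, h2, h3⟩
        obtain ⟨s1, s2⟩ := EAB.ptn_spec (K := rev η A w₀) (w₀ := w₀) x
        have s3 := EAB.mt_ne hR h2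
        rw [EAB.mt_apply] at s3
        rw [← h1] at s1 s2 s3
        have e1 : w₀ x = 2 * (w₀ x / 2) + 1 := by omega
        have e2 : w₀ y = 2 * (w₀ x / 2) := by omega
        simp only [rev] at s2
        rw [e1] at hx
        rw [e2] at hy
        rw [e1, e2] at s2
        have c : 0 < η (2 * (w₀ x / 2) + 1) := by omega
        refine ⟨c, s1.symm, ?_, ?_⟩
        · simp only [EAB.pos]
          rw [s1, if_pos c, if_pos c]
          omega
        · simp only [EAB.pos]
          rw [if_pos c, Nat.odd_iff]
          omega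
    · intro x
      have hx := hA.2 x
      have hle := EAB.LD.le hη (w₀ x / 2)
      have h2 := hη.two (w₀ x / 2)
      rw [Finset.mem_filter, EAB.mt_apply, EAB.ptn_fix hη hX hR]
      simp only [Finset.mem_univ, true_and, gw, EAB.pos, rev]
      have hcase : w₀ x = 2 * (w₀ x / 2) ∨ w₀ x = 2 * (w₀ x / 2) + 1 := by omega
      by_cases c : 0 < η (2 * (w₀ x / 2) + 1)
      · rw [if_pos c]
        rcases hcase with hc | hc
        · have e : η (w₀ x) = η (2 * (w₀ x / 2)) := congrArg η hc
          omega
        · rw [hc] at hx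
          omega
      · rw [if_neg c]
        rcases hcase with hc | hc
        · omega
        · rw [hc] at hx
          omega

end Crest.Agent.SaxlN
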