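import Crest.Agent.SaxlN.Defs
import Crest.Agent.Saxl.Evz

/-!
CHUNK EVQ (medium, from Saxl/Evz, CliffA, CliffB).
-/

set_option autoImplicit false

namespace Crest.Agent.SaxlN

open Finset Equiv
open Crest.Agent.Saxl

variable {X : Type} [Fintype X] [DecidableEq X]

namespace EvQ

/-- letters of the two-line blocks -/
abbrev X2 {X : Type} (η : ℕ → ℕ) (u : Word X) : Type := {x : X // 0 < η (2 * u x + 1)}

/-- letters of the one-line blocks -/
abbrev X1 {X : Type} (η : ℕ → ℕ) (u : Word X) : Type := {x : X // ¬ 0 < η (2 * u x + 1)}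

/-- restriction of a function to the two-line blocks -/
abbrev r2 {X : Type} {β : Type} (η : ℕ → ℕ) (u : Word X) (f : X → β) : X2 η u → β := fun x => f x.1

/-- Evaluation of the generalised path element at a word of matrices. -/
def PhiQ (η : ℕ → ℕ) (u p : Word X) (ρ : X → Fin 4) : ℤ :=
  ∑ b : X → Fin 2, ∑ b' : X → Fin 2, zq η u p b b' * ∏ x, Mq (ρ x) (b x) (b' x)

theorem bsize_r2 (η : ℕ → ℕ) (u : Word X) (x : X2 η u) : bsize (r2 η u u) x = bsize u x.1 := by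
  unfold bsize
  refine Finset.card_bij (fun y _ => y.1) ?_ ?_ ?_
  · intro y hy
    rw [Finset.mem_filter] at hy ⊢
    exact ⟨Finset.mem_univ _, hy.2⟩
  · intro a _ b _ h
    exact Subtype.ext h
  · intro y hy
    rw [Finset.mem_filter] at hy
    refine ⟨⟨y, ?_⟩, ?_, rfl⟩
    · rw [hy.2]; exact x.2
    · rw [Finset.mem_filter]; exact ⟨Finset.mem_univ _, hy.2⟩

theorem prod_pairs (η : ℕ → ℕ) (u : Word X) (P : X × X → Prop) [DecidablePred P] (f : X × X → ℤ) :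
    (∏ q ∈ (univ : Finset (X × X)).filter
      (fun q => 0 < η (2 * u q.1 + 1) ∧ u q.1 = u q.2 ∧ P q), f q) =
    ∏ q ∈ (univ : Finset (X2 η u × X2 η u)).filter
      (fun q => r2 η u u q.1 = r2 η u u q.2 ∧ P (q.1.1, q.2.1)), f (q.1.1, q.2.1) := by
  symm
  refine Finset.prod_bij (fun q _ => (q.1.1, q.2.1)) ?_ ?_ ?_ ?_
  · intro q hq
    rw [Finset.mem_filter] at hq ⊢
    exact ⟨Finset.mem_univ _, q.1.2, hq.2.1, hq.2.2⟩
  · intro a _ b _ h
    simp only [Prod.mk.injEq] at h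
    exact Prod.ext (Subtype.ext h.1) (Subtype.ext h.2)
  · intro q hq
    rw [Finset.mem_filter] at hq
    refine ⟨(⟨q.1, hq.2.1⟩, ⟨q.2, ?_⟩), ?_, rfl⟩
    · rw [← hq.2.2.1]; exact hq.2.1
    · rw [Finset.mem_filter]; exact ⟨Finset.mem_univ _, hq.2.2.1, hq.2.2.2⟩
  · intro q _
    rfl

theorem prod_single (η : ℕ → ℕ) (u : Word X) (Q : X → Prop) [DecidablePred Q] (g : X → ℤ) :
    (∏ x ∈ univ.filter (fun x => η (2 * u x + 1) = 0 ∨ Q x), g x) =
    (∏ x ∈ (univ : Finset (X2 η u)).filter (fun x => Q x.1), g x.1) * ∏ x : X1 η u, g x.1 := by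
  rw [Finset.prod_filter, Finset.prod_filter,
    ← Fintype.prod_subtype_mul_prod_subtype (fun x => 0 < η (2 * u x + 1))]
  congr 1
  · refine Finset.prod_congr rfl fun x _ => ?_
    have := x.2
    have h0 : η (2 * u x.1 + 1) ≠ 0 := by omega
    simp [h0]
  · refine Finset.prod_congr rfl fun x _ => ?_
    have := x.2
    have h0 : η (2 * u x.1 + 1) = 0 := by omega
    simp [h0]

theorem zq_eq (η : ℕ → ℕ) (u p : Word X) (b b' : X → Fin 2) :
    zq η u p b b' = zp (r2 η u u) (r2 η u p) (r2 η u b) (r2 η u b') *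
      ((∏ x : X1 η u, (1 - (((b x.1 : Fin 2) : ℕ) : ℤ))) *
        (∏ x : X1 η u, (1 - (((b' x.1 : Fin 2) : ℕ) : ℤ)))) := by
  unfold zq zp
  rw [prod_pairs η u (fun q => p q.2 = p q.1 + 1 ∧ Even (p q.1)),
    prod_pairs η u (fun q => p q.2 = p q.1 + 1 ∧ Odd (p q.1)),
    prod_single η u (fun x => p x + 1 = bsize u x), prod_single η u (fun x => p x = 0)]
  simp only [bsize_r2]
  ring

theorem sum_split (η : ℕ → ℕ) (u : Word X) (F : (X2 η u → Fin 2) → (X1 η u → Fin 2) → ℤ) :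
    ∑ b : X → Fin 2, F (r2 η u b) (fun x => b x.1) =
      ∑ b₂ : X2 η u → Fin 2, ∑ b₁ : X1 η u → Fin 2, F b₂ b₁ := by
  rw [← Fintype.sum_prod_type']
  exact Fintype.sum_equiv (Equiv.piEquivPiSubtypeProd (fun x => 0 < η (2 * u x + 1))
    (fun _ => Fin 2)) _ _ (fun b => rfl)

theorem prod_one_sub {Y : Type} [Fintype Y] (b : Y → Fin 2) (hb : b ≠ 0) :
    (∏ x : Y, (1 - (((b x : Fin 2) : ℕ) : ℤ))) = 0 := by
  obtain ⟨x, hx⟩ : ∃ x, b x ≠ 0 := by
    by_contra h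
    push Not at h
    exact hb (funext h)
  refine Finset.prod_eq_zero (Finset.mem_univ x) ?_
  have : b x = 1 := by omega
  rw [this]; rfl

theorem PhiQ_eq (η : ℕ → ℕ) (u p : Word X) (ρ : X → Fin 4) :
    PhiQ η u p ρ = Phi (r2 η u u) (r2 η u p) (r2 η u ρ) * ∏ x : X1 η u, Mq (ρ x.1) 0 0 := by
  unfold PhiQ
  have h1 : ∀ b b' : X → Fin 2, zq η u p b b' * ∏ x, Mq (ρ x) (b x) (b' x) =
      (fun (b₂ b₂' : X2 η u → Fin 2) (b₁ b₁' : X1 η u → Fin 2) =>
        (zp (r2 η u u) (r2 η u p) b₂ b₂' * ∏ x : X2 η u, Mq (r2 η u ρ x) (b₂ x) (b₂' x)) *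
        (((∏ x : X1 η u, (1 - (((b₁ x : Fin 2) : ℕ) : ℤ))) *
          (∏ x : X1 η u, (1 - (((b₁' x : Fin 2) : ℕ) : ℤ)))) *
          ∏ x : X1 η u, Mq (ρ x.1) (b₁ x) (b₁' x))) (r2 η u b) (r2 η u b') (fun x => b x.1)
          (fun x => b' x.1) := by
    intro b b'
    rw [zq_eq, ← Fintype.prod_subtype_mul_prod_subtype (fun x => 0 < η (2 * u x + 1))
      (fun x => Mq (ρ x) (b x) (b' x))]
    ring
  simp only [h1]
  have h2 : ∀ b : X → Fin 2, ∑ b' : X → Fin 2,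
      ((zp (r2 η u u) (r2 η u p) (r2 η u b) (r2 η u b') *
        ∏ x : X2 η u, Mq (r2 η u ρ x) (r2 η u b x) (r2 η u b' x)) *
        (((∏ x : X1 η u, (1 - (((b x.1 : Fin 2) : ℕ) : ℤ))) *
          (∏ x : X1 η u, (1 - (((b' x.1 : Fin 2) : ℕ) : ℤ)))) *
          ∏ x : X1 η u, Mq (ρ x.1) (b x.1) (b' x.1))) =
      ∑ b₂' : X2 η u → Fin 2, ∑ b₁' : X1 η u → Fin 2,
      ((zp (r2 η u u) (r2 η u p) (r2 η u b) b₂' *
        ∏ x : X2 η u, Mq (r2 η u ρ x) (r2 η u b x) (b₂' x)) *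
        (((∏ x : X1 η u, (1 - (((b x.1 : Fin 2) : ℕ) : ℤ))) *
          (∏ x : X1 η u, (1 - (((b₁' x : Fin 2) : ℕ) : ℤ)))) *
          ∏ x : X1 η u, Mq (ρ x.1) (b x.1) (b₁' x))) := fun b =>
    sum_split η u (fun b₂' b₁' =>
      ((zp (r2 η u u) (r2 η u p) (r2 η u b) b₂' *
        ∏ x : X2 η u, Mq (r2 η u ρ x) (r2 η u b x) (b₂' x)) *
        (((∏ x : X1 η u, (1 - (((b x.1 : Fin 2) : ℕ) : ℤ))) *
          (∏ x : X1 η u, (1 - (((b₁' x : Fin 2) : ℕ) : ℤ)))) *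
          ∏ x : X1 η u, Mq (ρ x.1) (b x.1) (b₁' x))))
  simp only [h2]
  have h3 : ∀ b : X → Fin 2, ∑ b₂' : X2 η u → Fin 2, ∑ b₁' : X1 η u → Fin 2,
      ((zp (r2 η u u) (r2 η u p) (r2 η u b) b₂' *
        ∏ x : X2 η u, Mq (r2 η u ρ x) (r2 η u b x) (b₂' x)) *
        (((∏ x : X1 η u, (1 - (((b x.1 : Fin 2) : ℕ) : ℤ))) *
          (∏ x : X1 η u, (1 - (((b₁' x : Fin 2) : ℕ) : ℤ)))) *
          ∏ x : X1 η u, Mq (ρ x.1) (b x.1) (b₁' x))) =
      ∑ b₂' : X2 η u → Fin 2, 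
      ((zp (r2 η u u) (r2 η u p) (r2 η u b) b₂' *
        ∏ x : X2 η u, Mq (r2 η u ρ x) (r2 η u b x) (b₂' x)) *
        ((∏ x : X1 η u, (1 - (((b x.1 : Fin 2) : ℕ) : ℤ))) *
          ∏ x : X1 η u, Mq (ρ x.1) (b x.1) 0)) := by
    intro b
    refine Finset.sum_congr rfl fun b₂' _ => ?_
    rw [Finset.sum_eq_single (0 : X1 η u → Fin 2)]
    · simp
    · intro b₁' _ hb
      rw [prod_one_sub b₁' hb]
      ring
    · intro h
      exact absurd (Finset.mem_univ _) h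
  simp only [h3]
  rw [sum_split η u (fun b₂ b₁ => ∑ b₂' : X2 η u → Fin 2, 
      ((zp (r2 η u u) (r2 η u p) b₂ b₂' *
        ∏ x : X2 η u, Mq (r2 η u ρ x) (b₂ x) (b₂' x)) *
        ((∏ x : X1 η u, (1 - (((b₁ x : Fin 2) : ℕ) : ℤ))) *
          ∏ x : X1 η u, Mq (ρ x.1) (b₁ x) 0)))]
  unfold Phi
  rw [Finset.sum_mul]
  refine Finset.sum_congr rfl fun b₂ _ => ?_
  rw [Finset.sum_eq_single (0 : X1 η u → Fin 2)]
  · rw [Finset.sum_mul]
    simp
  · intro b₁' _ hb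
    rw [prod_one_sub b₁' hb]
    simp
  · intro h
    exact absurd (Finset.mem_univ _) h

theorem isPath_r2 {η : ℕ → ℕ} {u p : Word X} (hp : IsPath u p) :
    IsPath (r2 η u u) (r2 η u p) := by
  constructor
  · intro a b h
    exact Subtype.ext (hp.1 h)
  · intro x
    rw [bsize_r2]
    exact hp.2 x.1

theorem odd_r2 {q : ℕ} {η : ℕ → ℕ} (hη : LD q η) {u : Word X} (hu : IsStripL η u) (x : X2 η u) :
    Odd (bsize (r2 η u u) x) := by
  rw [bsize_r2]
  unfold bsize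
  rw [hu (u x.1)]
  have h1 := x.2
  rcases hη.two (u x.1) with h | h
  · omega
  · rw [h]
    exact ⟨η (2 * u x.1 + 1), by ring⟩

theorem PhiQ_ne_zero {q : ℕ} {η : ℕ → ℕ} (hη : LD q η) {u p : Word X} (hu : IsStripL η u)
    (hp : IsPath u p) (ρ : X → Fin 4) (h0 : ∀ x, η (2 * u x + 1) = 0 → ρ x = 0) :
    PhiQ η u p ρ ≠ 0 := by
  rw [PhiQ_eq]
  refine mul_ne_zero (Phi_ne_zero (odd_r2 hη hu) (isPath_r2 hp) _) ?_
  refine Finset.prod_ne_zero_iff.2 fun x _ => ?_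
  have h1 : ρ x.1 = 0 := h0 x.1 (by have := x.2; omega)
  rw [h1]
  decide

theorem PhiQ_swap {q : ℕ} {η : ℕ → ℕ} (hη : LD q η) {u p : Word X} (hu : IsStripL η u)
    (hp : IsPath u p) (ρ : X → Fin 4) (h0 : ∀ x, η (2 * u x + 1) = 0 → ρ x = 0) (x y : X)
    (hxu : u x = u y) (hxy : p y = p x + 1) (hne : ρ x ≠ ρ y) :
    PhiQ η u p (ρ ∘ (swap x y : Perm X)) = - PhiQ η u p ρ := by
  have hx : 0 < η (2 * u x + 1) := by
    by_contra h
    have h1 : η (2 * u x + 1) = 0 := by omega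
    have h2 : η (2 * u y + 1) = 0 := by rw [← hxu]; exact h1
    exact hne ((h0 x h1).trans (h0 y h2).symm)
  have hy : 0 < η (2 * u y + 1) := by rw [← hxu]; exact hx
  rw [PhiQ_eq, PhiQ_eq]
  have e1 : r2 η u (ρ ∘ (swap x y : Perm X)) =
      (r2 η u ρ) ∘ (swap (⟨x, hx⟩ : X2 η u) ⟨y, hy⟩ : Perm (X2 η u)) := by
    funext z
    simp only [Function.comp_apply]
    rcases eq_or_ne z ⟨x, hx⟩ with rfl | h1
    · simp [swap_apply_left]
    · rcases eq_or_ne z ⟨y, hy⟩ with rfl | h2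
      · simp [swap_apply_right]
      · rw [swap_apply_of_ne_of_ne h1 h2, swap_apply_of_ne_of_ne]
        · intro h; exact h1 (Subtype.ext h)
        · intro h; exact h2 (Subtype.ext h)
  have e2 : ∀ z : X1 η u, (ρ ∘ (swap x y : Perm X)) z.1 = ρ z.1 := by
    intro z
    have hz := z.2
    simp only [Function.comp_apply]
    rw [swap_apply_of_ne_of_ne]
    · rintro h; rw [h] at hz; exact hz hx
    · rintro h; rw [h] at hz; exact hz hy
  rw [e1, Phi_swap (odd_r2 hη hu) (isPath_r2 hp) (r2 η u ρ) ⟨x, hx⟩ ⟨y, hy⟩ hxu hxy hne]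
  simp only [e2]
  ring

/-- Sign rule. -/
def SRQ (η : ℕ → ℕ) (u κ p : Word X) (ρ₄ : X → Fin 4) (c : Perm X) : Prop :=
  ∀ d : Perm X, Evz.InC u κ d →
    PhiQ η u p (ρ₄ ∘ d ∘ c) = ((Perm.sign c : ℤˣ) : ℤ) * PhiQ η u p (ρ₄ ∘ d)

theorem SRQ_mul {η : ℕ → ℕ} {u κ p : Word X} {ρ₄ : X → Fin 4} {a b : Perm X}
    (hC : Evz.InC u κ a) (ha : SRQ η u κ p ρ₄ a) (hb : SRQ η u κ p ρ₄ b) :
    SRQ η u κ p ρ₄ (a * b) := by
  intro d hd
  have h1 := hb (d * a) (Evz.InC_mul hd hC)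
  have h2 := ha d hd
  rw [Perm.coe_mul] at h1 ⊢
  rw [← Function.comp_assoc d, h1, h2]
  rw [Perm.sign_mul]
  push_cast
  ring

theorem SRQ_swap {q : ℕ} {η : ℕ → ℕ} (hη : LD q η) {u ρ κ : Word X} (hu : IsStripL η u)
    (hT : IsTab u ρ κ) (hρ : ∀ x, ρ x < 4) (hρ0 : ∀ x, η (2 * u x + 1) = 0 → ρ x = 0) :
    ∀ (k : ℕ) (x y : X), u x = u y → κ x = κ y → Evz.pos u ρ κ x < Evz.pos u ρ κ y →
      Evz.pos u ρ κ y ≤ Evz.pos u ρ κ x + k →
      SRQ η u κ (Evz.pos u ρ κ) (fun x => (⟨ρ x, hρ x⟩ : Fin 4)) (swap x y) := by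
  intro k
  induction k with
  | zero => intro x y _ _ h1 h2; omega
  | succ k ih =>
    intro x y hxu hκ h1 h2
    have hp := Evz.isPath_pos hT
    have hxy : x ≠ y := by rintro rfl; omega
    rcases Nat.lt_or_ge (Evz.pos u ρ κ x + 1) (Evz.pos u ρ κ y) with h3 | h3
    · obtain ⟨z, hz1, hz2⟩ := Evz.exists_pos hp x (i := Evz.pos u ρ κ x + 1)
        (by
          have := hp.2 y
          have h4 : bsize u y = bsize u x := by unfold bsize; rw [hxu]
          omega)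
      have hzκ : κ z = κ x := by
        have a1 : Evz.Lx ρ κ x z := Evz.Lx_of_pos_lt hT hz1.symm (by omega)
        have a2 : Evz.Lx ρ κ z y := Evz.Lx_of_pos_lt hT (hz1.trans hxu) (by omega)
        unfold Evz.Lx at a1 a2
        omega
      have hxz : x ≠ z := by rintro rfl; omega
      have hyz : y ≠ z := by rintro rfl; omega
      have e : swap x y = swap x z * (swap z y * swap x z) := by
        rw [← mul_assoc]
        rw [swap_comm x z, swap_comm z y, swap_mul_swap_mul_swap hyz hxy.symm]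
      have s1 := ih x z hz1.symm hzκ.symm (by omega) (by omega)
      have s2 := ih z y (hz1.trans hxu) (hzκ.trans hκ) (by omega) (by omega)
      rw [e]
      exact SRQ_mul (Evz.InC_swap hz1.symm hzκ.symm) s1
        (SRQ_mul (Evz.InC_swap (hz1.trans hxu) (hzκ.trans hκ)) s2 s1)
    · have h4 : Evz.pos u ρ κ y = Evz.pos u ρ κ x + 1 := by omega
      intro d hd
      rw [Perm.sign_swap hxy]
      have hne : ((fun x => (⟨ρ x, hρ x⟩ : Fin 4)) ∘ d) x ≠
          ((fun x => (⟨ρ x, hρ x⟩ : Fin 4)) ∘ d) y := by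
        simp only [Function.comp_apply, ne_eq, Fin.mk.injEq]
        intro h5
        have h6 : u (d x) = u (d y) := by
          have := congrFun hd.1 x
          have := congrFun hd.1 y
          simp only [Function.comp_apply] at *
          omega
        have h7 : κ (d x) = κ (d y) := by
          have := congrFun hd.2 x
          have := congrFun hd.2 y
          simp only [Function.comp_apply] at *
          omega
        exact hxy (d.injective (hT.inj (by simp [h5, h6, h7])))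
      have h0 : ∀ z, η (2 * u z + 1) = 0 → ((fun x => (⟨ρ x, hρ x⟩ : Fin 4)) ∘ d) z = 0 := by
        intro z hz
        have h8 := congrFun hd.1 z
        simp only [Function.comp_apply] at h8
        simp only [Function.comp_apply]
        apply Fin.ext
        exact hρ0 (d z) (by rw [h8]; exact hz)
      have := PhiQ_swap hη hu hp ((fun x => (⟨ρ x, hρ x⟩ : Fin 4)) ∘ d) h0 x y hxu h4 hne
      rw [Function.comp_assoc] at this
      rw [this]
      simp

theorem SRQ_swap' {q : ℕ} {η : ℕ → ℕ} (hη : LD q η) {u ρ κ : Word X} (hu : IsStripL η u)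
    (hT : IsTab u ρ κ) (hρ : ∀ x, ρ x < 4) (hρ0 : ∀ x, η (2 * u x + 1) = 0 → ρ x = 0)
    (x y : X) (hxu : u x = u y) (hκ : κ x = κ y) (hxy : x ≠ y) :
    SRQ η u κ (Evz.pos u ρ κ) (fun x => (⟨ρ x, hρ x⟩ : Fin 4)) (swap x y) := by
  rcases lt_trichotomy (Evz.pos u ρ κ x) (Evz.pos u ρ κ y) with h | h | h
  · exact SRQ_swap hη hu hT hρ hρ0 (Evz.pos u ρ κ y) x y hxu hκ h (by omega)
  · exact absurd ((Evz.isPath_pos hT).1 (by simp [hxu, h])) hxy
  · rw [swap_comm]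
    exact SRQ_swap hη hu hT hρ hρ0 (Evz.pos u ρ κ x) y x hxu.symm hκ.symm h (by omega)

theorem SRQ_all {q : ℕ} {η : ℕ → ℕ} (hη : LD q η) {u ρ κ : Word X} (hu : IsStripL η u)
    (hT : IsTab u ρ κ) (hρ : ∀ x, ρ x < 4) (hρ0 : ∀ x, η (2 * u x + 1) = 0 → ρ x = 0) :
    ∀ (k : ℕ) (c : Perm X), c.support.card ≤ k → Evz.InC u κ c →
      SRQ η u κ (Evz.pos u ρ κ) (fun x => (⟨ρ x, hρ x⟩ : Fin 4)) c := by
  intro k
  induction k with
  | zero =>
    intro c hc _ d _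
    have : c = 1 := by
      rw [Nat.le_zero, Finset.card_eq_zero, Perm.support_eq_empty_iff] at hc
      exact hc
    subst this
    simp
  | succ k ih =>
    intro c hc hC
    by_cases h1 : c = 1
    · subst h1
      intro d _
      simp
    · obtain ⟨x, hx⟩ : ∃ x, c x ≠ x := by
        by_contra hcon
        push Not at hcon
        exact h1 (Perm.ext hcon)
      have hxu : u x = u (c x) := (congrFun hC.1 x).symm
      have hκ : κ x = κ (c x) := (congrFun hC.2 x).symm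
      have hlt := Perm.card_support_swap_mul hx
      have hC' : Evz.InC u κ (swap x (c x) * c) := Evz.InC_mul (Evz.InC_swap hxu hκ) hC
      have s1 := ih (swap x (c x) * c) (by omega) hC'
      have s2 := SRQ_swap' hη hu hT hρ hρ0 x (c x) hxu hκ (Ne.symm hx)
      have e : c = swap x (c x) * (swap x (c x) * c) := by
        rw [← mul_assoc, swap_mul_self, one_mul]
      rw [e]
      exact SRQ_mul (Evz.InC_swap hxu hκ) s2 s1

theorem om_zqC (η : ℕ → ℕ) (u p : Word X) (ρ₄ : X → Fin 4) :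
    Evz.om ρ₄ (zqC η u p) = ((PhiQ η u p ρ₄ : ℤ) : ℂ) := by
  simp only [Evz.om, LinearMap.coe_mk, AddHom.coe_mk, zqC, PhiQ]
  push_cast
  rfl

end EvQ

/-- PROOF. As `exists_path_YE_ne` (Saxl/Evz): the functional `ω(F) = ∑_{b,b'} F b b' ∏_x Mq (ρ x) (b x) (b' x)`. The value
of `ω` on `zq η u p` factorises: over the two-line letters `X₂ = {x // 0 < η (2 * u x + 1)}` it is `Phi` of the
subtype (nonzero, alternating under swaps of neighbours in a column), over the single-line letters (`ρ = 0` there)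
it is `∏ Mq 0 0 0 = ∏ 3 ≠ 0`. Column preserving permutations are trivial on the single-line blocks (`ρ = 0` and
`(ρ, κ)` injective), so the argument of Evz.lean goes through (either redo it with `zq` instead of `zp`, or deduce it from the
result for the subtype `X₂`: `Hs u` is the product of the `Hs` of the two subtypes). -/
theorem exists_pathQ {q : ℕ} {η : ℕ → ℕ} (hη : LD q η) {u ρ κ : Word X} (hu : IsStripL η u)
    (hT : IsTab u ρ κ) (hρ : ∀ x, ρ x < 4) (hρ0 : ∀ x, η (2 * u x + 1) = 0 → ρ x = 0) :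
    ∃ p, IsPath u p ∧ (frepH u).asAlgebraHom (YE u ρ κ) (zqC η u p) ≠ 0 := by
  refine ⟨Evz.pos u ρ κ, Evz.isPath_pos hT, ?_⟩
  intro h0
  set ρ₄ : X → Fin 4 := fun x => (⟨ρ x, hρ x⟩ : Fin 4) with hρ₄
  have h1 := congrArg (Evz.om ρ₄) h0
  rw [map_zero] at h1
  unfold YE at h1
  simp only [map_sum, map_smul, Representation.asAlgebraHom_of, LinearMap.sum_apply,
    LinearMap.smul_apply, smul_eq_mul] at h1
  have hterm : ∀ r ∈ (univ : Finset (Hs u)).filter (fun r : Hs u => ρ ∘ (r : Perm X) = ρ),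
      ∀ c ∈ (univ : Finset (Hs u)).filter (fun c : Hs u => κ ∘ (c : Perm X) = κ),
      (((Perm.sign (c : Perm X) : ℤˣ) : ℤ) : ℂ) *
        Evz.om ρ₄ ((frepH u) (r * c) (zqC η u (Evz.pos u ρ κ))) =
      ((EvQ.PhiQ η u (Evz.pos u ρ κ) ρ₄ : ℤ) : ℂ) := by
    intro r hr c hc
    rw [Finset.mem_filter] at hr hc
    have e1 : (frepH u) (r * c) (zqC η u (Evz.pos u ρ κ)) =
        frep X ((r : Perm X) * (c : Perm X)) (zqC η u (Evz.pos u ρ κ)) := rfl
    rw [e1, Evz.om_frep, EvQ.om_zqC]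
    have e2 : ρ₄ ∘ ((r : Perm X) * (c : Perm X) : Perm X) = ρ₄ ∘ (c : Perm X) := by
      funext x
      simp only [Function.comp_apply, Perm.mul_apply, hρ₄, Fin.mk.injEq]
      exact congrFun hr.2 ((c : Perm X) x)
    rw [e2]
    have hInC : Evz.InC u κ (c : Perm X) := ⟨c.2, hc.2⟩
    have h2 := EvQ.SRQ_all hη hu hT hρ hρ0 _ (c : Perm X) le_rfl hInC 1 ⟨rfl, rfl⟩
    simp only [Perm.coe_one, Function.id_comp, Function.comp_id] at h2
    rw [← hρ₄] at h2
    rw [h2]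
    push_cast
    rw [← mul_assoc]
    have h3 : (((Perm.sign (c : Perm X) : ℤˣ) : ℤ) : ℂ) *
        (((Perm.sign (c : Perm X) : ℤˣ) : ℤ) : ℂ) = 1 := by
      have := Int.units_mul_self (Perm.sign (c : Perm X))
      have h4 : ((Perm.sign (c : Perm X) : ℤˣ) : ℤ) * ((Perm.sign (c : Perm X) : ℤˣ) : ℤ) = 1 := by
        rw [← Units.val_mul, this]; rfl
      exact_mod_cast h4
    rw [h3, one_mul]
  rw [Finset.sum_congr rfl fun r hr => Finset.sum_congr rfl fun c hc => hterm r hr c hc] at h1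
  simp only [Finset.sum_const, nsmul_eq_mul] at h1
  have hne : EvQ.PhiQ η u (Evz.pos u ρ κ) ρ₄ ≠ 0 :=
    EvQ.PhiQ_ne_zero hη hu (Evz.isPath_pos hT) ρ₄ (fun x hx => Fin.ext (hρ0 x hx))
  have hR : ((univ : Finset (Hs u)).filter (fun r : Hs u => ρ ∘ (r : Perm X) = ρ)).card ≠ 0 := by
    rw [Finset.card_ne_zero]
    exact ⟨1, by simp⟩
  have hC : ((univ : Finset (Hs u)).filter (fun c : Hs u => κ ∘ (c : Perm X) = κ)).card ≠ 0 := by
    rw [Finset.card_ne_zero]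
    exact ⟨1, by simp⟩
  rcases mul_eq_zero.1 h1 with h | h
  · exact hR (by exact_mod_cast h)
  · rcases mul_eq_zero.1 h with h | h
    · exact hC (by exact_mod_cast h)
    · exact hne (by exact_mod_cast h)

end Crest.Agent.SaxlN
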