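import Crest.Agent.SaxlN.RrF
import Crest.Agent.SaxlN.Basic

/-!
CHUNK FDEF (medium): the bilinear map.
-/

set_option autoImplicit false

namespace Crest.Agent.SaxlN

open Finset Equiv
open Crest.Agent.Saxl

variable {X : Type} [Fintype X] [DecidableEq X]

variable {W : Type} [AddCommGroup W] [Module ℂ W]

/-- the term of `g` -/
noncomputable def Fterm (w₀ : Word X) (t t' : ℕ → Bool) (σ : Representation ℂ (Perm X) W)
    (ψ : FF X →ₗ[ℂ] W) (v v' : Perm X → ℂ) (g : Perm X) : W :=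
  σ g (ψ (fun b b' => Rr w₀ t v g b * Rr w₀ t' v' g b'))

private lemma fd_Rr_add (w₀ : Word X) (t : ℕ → Bool) (v v' : Perm X → ℂ) (g : Perm X)
    (b : X → Fin 2) : Rr w₀ t (v + v') g b = Rr w₀ t v g b + Rr w₀ t v' g b := by
  unfold Rr
  rw [← mul_add, ← sum_add_distrib]
  congr 1
  refine sum_congr rfl fun h _ => ?_
  rw [Pi.add_apply, mul_add]

private lemma fd_Rr_smul (w₀ : Word X) (t : ℕ → Bool) (c : ℂ) (v : Perm X → ℂ) (g : Perm X)
    (b : X → Fin 2) : Rr w₀ t (c • v) g b = c * Rr w₀ t v g b := by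
  unfold Rr
  rw [mul_sum, mul_sum, mul_sum]
  refine sum_congr rfl fun h _ => ?_
  rw [Pi.smul_apply, smul_eq_mul]
  ring

private lemma fd_add_left (w₀ : Word X) (t t' : ℕ → Bool) (σ : Representation ℂ (Perm X) W)
    (ψ : FF X →ₗ[ℂ] W) (v₁ v₂ v' : Perm X → ℂ) (g : Perm X) :
    Fterm w₀ t t' σ ψ (v₁ + v₂) v' g = Fterm w₀ t t' σ ψ v₁ v' g + Fterm w₀ t t' σ ψ v₂ v' g := by
  unfold Fterm
  rw [← map_add, ← map_add]
  congr 2
  funext b b'
  rw [fd_Rr_add, add_mul]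
  rfl

private lemma fd_add_right (w₀ : Word X) (t t' : ℕ → Bool) (σ : Representation ℂ (Perm X) W)
    (ψ : FF X →ₗ[ℂ] W) (v v₁ v₂ : Perm X → ℂ) (g : Perm X) :
    Fterm w₀ t t' σ ψ v (v₁ + v₂) g = Fterm w₀ t t' σ ψ v v₁ g + Fterm w₀ t t' σ ψ v v₂ g := by
  unfold Fterm
  rw [← map_add, ← map_add]
  congr 2
  funext b b'
  rw [fd_Rr_add, mul_add]
  rfl

private lemma fd_smul_left (w₀ : Word X) (t t' : ℕ → Bool) (σ : Representation ℂ (Perm X) W)
    (ψ : FF X →ₗ[ℂ] W) (c : ℂ) (v v' : Perm X → ℂ) (g : Perm X) :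
    Fterm w₀ t t' σ ψ (c • v) v' g = c • Fterm w₀ t t' σ ψ v v' g := by
  unfold Fterm
  rw [← map_smul, ← map_smul]
  congr 2
  funext b b'
  rw [fd_Rr_smul, mul_assoc]
  rfl

private lemma fd_smul_right (w₀ : Word X) (t t' : ℕ → Bool) (σ : Representation ℂ (Perm X) W)
    (ψ : FF X →ₗ[ℂ] W) (c : ℂ) (v v' : Perm X → ℂ) (g : Perm X) :
    Fterm w₀ t t' σ ψ v (c • v') g = c • Fterm w₀ t t' σ ψ v v' g := by
  unfold Fterm
  rw [← map_smul, ← map_smul]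
  congr 2
  funext b b'
  rw [fd_Rr_smul, mul_left_comm]
  rfl

/-- The bilinear map `F(v, v') = ∑_g σ(g) ψ(res_g v ⊗ res_g v')` (unnormalised). -/
theorem exists_F (w₀ : Word X) (t t' : ℕ → Bool) (σ : Representation ℂ (Perm X) W)
    (ψ : FF X →ₗ[ℂ] W) :
    ∃ F : (Perm X → ℂ) →ₗ[ℂ] (Perm X → ℂ) →ₗ[ℂ] W,
      (∀ v v', F v v' = ∑ g : Perm X, Fterm w₀ t t' σ ψ v v' g) ∧
      ∀ (x : Perm X) v v', F (lreg X x v) (lreg X x v') = σ x (F v v') := by
  refine ⟨LinearMap.mk₂ ℂ (fun v v' => ∑ g : Perm X, Fterm w₀ t t' σ ψ v v' g) ?_ ?_ ?_ ?_,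
    ?_, ?_⟩
  · intro v₁ v₂ v'
    rw [← sum_add_distrib]
    exact sum_congr rfl fun g _ => fd_add_left w₀ t t' σ ψ v₁ v₂ v' g
  · intro c v v'
    rw [smul_sum]
    exact sum_congr rfl fun g _ => fd_smul_left w₀ t t' σ ψ c v v' g
  · intro v v₁ v₂
    rw [← sum_add_distrib]
    exact sum_congr rfl fun g _ => fd_add_right w₀ t t' σ ψ v v₁ v₂ g
  · intro c v v'
    rw [smul_sum]
    exact sum_congr rfl fun g _ => fd_smul_right w₀ t t' σ ψ c v v' g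
  · intro v v'
    rfl
  · intro x v v'
    change ∑ g : Perm X, Fterm w₀ t t' σ ψ (lreg X x v) (lreg X x v') g =
      σ x (∑ g : Perm X, Fterm w₀ t t' σ ψ v v' g)
    rw [map_sum]
    refine (Fintype.sum_equiv (Equiv.mulLeft x) _ _ ?_).symm
    intro g
    unfold Fterm
    rw [Rr_lreg, Rr_lreg]
    simp only [Equiv.coe_mulLeft, inv_mul_cancel_left, map_mul]
    rfl

/-- the term only depends on the coset of `g` modulo the group word. PROOF: `Rr_mul`,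
`chi t k * chi t' k = ε k` (`sgnT_xor`), equivariance of `ψ`. -/
theorem Fterm_mul {w₀ : Word X} {t t' : ℕ → Bool} {σ : Representation ℂ (Perm X) W}
    {ψ : FF X →ₗ[ℂ] W}
    (hψ : ∀ h : Perm X, gw w₀ ∘ h = gw w₀ → ∀ F, ψ (frep X h F) =
      (((sgnT (fun x => xor (t (w₀ x / 2)) (t' (w₀ x / 2))) h : ℤˣ) : ℤ) : ℂ) • σ h (ψ F))
    (v v' : Perm X → ℂ) (g k : Perm X) (hk : gw w₀ ∘ k = gw w₀) :
    Fterm w₀ t t' σ ψ v v' (g * k) = Fterm w₀ t t' σ ψ v v' g := by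
  have hki : gw w₀ ∘ (k⁻¹ : Perm X) = gw w₀ := (Hs (gw w₀)).inv_mem hk
  have hT : ∀ s : ℕ → Bool, ∀ h : Perm X, gw w₀ ∘ h = gw w₀ →
      (fun x => s (w₀ x / 2)) ∘ h = (fun x => s (w₀ x / 2)) := by
    intro s h hh
    funext x
    exact congrArg s (congrFun hh x)
  have h1 : (fun b b' : X → Fin 2 => Rr w₀ t v (g * k) b * Rr w₀ t' v' (g * k) b') =
      ((((chi t w₀ k * chi t' w₀ k : ℤˣ) : ℤ)) : ℂ) •
        frep X k⁻¹ (fun b b' => Rr w₀ t v g b * Rr w₀ t' v' g b') := by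
    funext b b'
    rw [Rr_mul v g k hk b, Rr_mul v' g k hk b']
    simp only [Pi.smul_apply, frep_apply, smul_eq_mul]
    push_cast
    ring
  unfold Fterm
  rw [h1, map_smul, hψ k⁻¹ hki, map_smul, map_smul, smul_smul]
  have h2 : ((((chi t w₀ k * chi t' w₀ k : ℤˣ) : ℤ)) : ℂ) *
      (((sgnT (fun x => xor (t (w₀ x / 2)) (t' (w₀ x / 2))) k⁻¹ : ℤˣ) : ℤ) : ℂ) = 1 := by
    rw [sgnT_xor (T := fun x => t (w₀ x / 2)) (T' := fun x => t' (w₀ x / 2))
      (hT t _ hki) (hT t' _ hki), sgnT_inv (hT t _ hk), sgnT_inv (hT t' _ hk)]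
    change ((((chi t w₀ k * chi t' w₀ k : ℤˣ) : ℤ)) : ℂ) *
      ((((chi t w₀ k * chi t' w₀ k : ℤˣ) : ℤ)) : ℂ) = 1
    rw [← Int.cast_mul, ← Units.val_mul, Int.units_mul_self]
    simp
  rw [h2, one_smul]
  change (σ (g * k) * σ k⁻¹) _ = _
  rw [← map_mul, mul_inv_cancel_right]

/-- PROOF. The cosets `g · Hs (gw w₀)` correspond to the words `u = gw w₀ ∘ g⁻¹`, i.e. to the words with the block
sizes of `gw w₀`; `gu (gw w₀) u` (Saxl/GlueDefs) satisfies `u ∘ gu = gw w₀`, so it lies in the coset of `u`. -/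
theorem sum_Fterm {w₀ : Word X} {t t' : ℕ → Bool} {σ : Representation ℂ (Perm X) W}
    {ψ : FF X →ₗ[ℂ] W}
    (hψ : ∀ h : Perm X, gw w₀ ∘ h = gw w₀ → ∀ F, ψ (frep X h F) =
      (((sgnT (fun x => xor (t (w₀ x / 2)) (t' (w₀ x / 2))) h : ℤˣ) : ℤ) : ℂ) • σ h (ψ F))
    (v v' : Perm X → ℂ) :
    ∑ g : Perm X, Fterm w₀ t t' σ ψ v v' g =
      ((Rs (gw w₀)).card : ℂ) • ∑ u ∈ (univ : Finset (Perm X)).image (fun g : Perm X => gw w₀ ∘ (g : X → X)),
        Fterm w₀ t t' σ ψ v v' (gu (gw w₀) u) := by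
  classical
  set S := (univ : Finset (Perm X)).image (fun g : Perm X => gw w₀ ∘ (g : X → X)) with hS
  have hmaps : ∀ g ∈ (univ : Finset (Perm X)), gw w₀ ∘ (g⁻¹ : Perm X) ∈ S := by
    intro g _
    rw [hS, mem_image]
    exact ⟨g⁻¹, mem_univ _, rfl⟩
  rw [← sum_fiberwise_of_maps_to hmaps, smul_sum]
  refine sum_congr rfl fun u hu => ?_
  have hex : ∃ g : Perm X, u ∘ g = gw w₀ := by
    rw [hS, mem_image] at hu
    obtain ⟨g, _, rfl⟩ := hu
    refine ⟨g⁻¹, ?_⟩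
    funext z
    simp
  have hg := gu_spec hex
  have hai : ∀ (f : Perm X) (z : X), f (f⁻¹ z) = z := fun f z => by simp
  have hia : ∀ (f : Perm X) (z : X), f⁻¹ (f z) = z := fun f z => by simp
  have hfib : (univ.filter (fun g : Perm X => gw w₀ ∘ (g⁻¹ : Perm X) = u)) =
      (Rs (gw w₀)).image (fun k => gu (gw w₀) u * k) := by
    ext g
    simp only [mem_filter, mem_univ, true_and, mem_image, Rs]
    constructor
    · intro hgu
      refine ⟨(gu (gw w₀) u)⁻¹ * g, ?_, by group⟩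
      funext z
      have e1 := congrFun hg ((gu (gw w₀) u)⁻¹ (g z))
      have e2 := congrFun hgu (g z)
      simp only [Function.comp_apply, hai, hia] at e1 e2
      simp only [Function.comp_apply, Perm.mul_apply]
      rw [← e1, ← e2]
    · rintro ⟨k, hk, rfl⟩
      funext z
      have e1 := congrFun hg (k⁻¹ ((gu (gw w₀) u)⁻¹ z))
      have e2 := congrFun hk (k⁻¹ ((gu (gw w₀) u)⁻¹ z))
      have e3 := congrFun hg ((gu (gw w₀) u)⁻¹ z)
      simp only [Function.comp_apply, hai] at e1 e2 e3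
      simp only [Function.comp_apply, mul_inv_rev, Perm.mul_apply]
      rw [← e2, ← e3]
  rw [hfib, sum_image (fun a _ b _ hab => mul_left_cancel hab)]
  rw [sum_congr rfl (fun k hk => Fterm_mul hψ v v' (gu (gw w₀) u) k (by
    simpa [Rs] using hk)), sum_const, ← Nat.cast_smul_eq_nsmul ℂ]

end Crest.Agent.SaxlN
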