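import Crest.Agent.SaxlN.Defs
import Crest.Agent.Saxl.Merge

/-!
CHUNK MERGEQ (medium): merging lemma with single-line blocks, from Saxl/Merge.
-/

set_option autoImplicit false

namespace Crest.Agent.SaxlN

open Finset Equiv
open Crest.Agent.Saxl

variable {X : Type} [Fintype X] [DecidableEq X]

/-! ### restriction to the two-line blocks -/

/-- the letters in two-line blocks -/
abbrev MX2 {X : Type} (η : ℕ → ℕ) (u : Word X) : Type := {x : X // 0 < η (2 * u x + 1)}

/-- the block word on the two-line letters -/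
def mu2 {X : Type} (η : ℕ → ℕ) (u : Word X) : Word (MX2 η u) := fun x => u x.1

private lemma mq_single (η : ℕ → ℕ) (u : Word X) (P : X → Prop) [DecidablePred P] (f : X → ℤ) :
    ∏ x ∈ univ.filter (fun x => 0 < η (2 * u x + 1) ∧ P x), f x =
      ∏ x ∈ (univ : Finset (MX2 η u)).filter (fun x => P x.1), f x.1 := by
  refine Finset.prod_bij' (fun x hx => ⟨x, ((Finset.mem_filter.1 hx).2).1⟩) (fun x _ => x.1)
    ?_ ?_ ?_ ?_ ?_
  · intro x hx
    simp only [Finset.mem_filter, Finset.mem_univ, true_and] at hx ⊢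
    exact hx.2
  · intro x hx
    simp only [Finset.mem_filter, Finset.mem_univ, true_and] at hx ⊢
    exact ⟨x.2, hx⟩
  · intro x _; rfl
  · intro x _; rfl
  · intro x _; rfl

private lemma mq_pair (η : ℕ → ℕ) (u : Word X) (P : X → X → Prop) [∀ x y, Decidable (P x y)]
    (f : X → X → ℤ) :
    ∏ q ∈ (univ : Finset (X × X)).filter
        (fun q => 0 < η (2 * u q.1 + 1) ∧ u q.1 = u q.2 ∧ P q.1 q.2), f q.1 q.2 =
      ∏ q ∈ (univ : Finset (MX2 η u × MX2 η u)).filter
        (fun q => mu2 η u q.1 = mu2 η u q.2 ∧ P q.1.1 q.2.1), f q.1.1 q.2.1 := by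
  refine Finset.prod_bij' (fun q hq => (⟨q.1, ((Finset.mem_filter.1 hq).2).1⟩,
    ⟨q.2, by
      have h := (Finset.mem_filter.1 hq).2
      rw [← h.2.1]; exact h.1⟩)) (fun q _ => (q.1.1, q.2.1)) ?_ ?_ ?_ ?_ ?_
  · intro q hq
    simp only [Finset.mem_filter, Finset.mem_univ, true_and] at hq ⊢
    exact hq.2
  · intro q hq
    simp only [Finset.mem_filter, Finset.mem_univ, true_and] at hq ⊢
    exact ⟨q.1.2, hq⟩
  · intro q _; rfl
  · intro q _; rfl
  · intro q _; rfl

private lemma mq_bsize (η : ℕ → ℕ) (u : Word X) (x : MX2 η u) :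
    bsize (mu2 η u) x = bsize u x.1 := by
  unfold bsize
  refine Finset.card_bij (fun y _ => y.1) ?_ ?_ ?_
  · intro y hy
    simp only [Finset.mem_filter, Finset.mem_univ, true_and] at hy ⊢
    exact hy
  · intro y _ z _ h
    exact Subtype.ext h
  · intro y hy
    simp only [Finset.mem_filter, Finset.mem_univ, true_and] at hy
    refine ⟨⟨y, by rw [hy]; exact x.2⟩, ?_, rfl⟩
    simp only [Finset.mem_filter, Finset.mem_univ, true_and]
    exact hy

/-- the factor of the single-line letters -/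
def mD (η : ℕ → ℕ) (u : Word X) (b : X → Fin 2) : ℤ :=
  ∏ x ∈ univ.filter (fun x => η (2 * u x + 1) = 0), (1 - (((b x : Fin 2) : ℕ) : ℤ))

private lemma mq_split (η : ℕ → ℕ) (u : Word X) (P : X → Prop) [DecidablePred P] (f : X → ℤ) :
    ∏ x ∈ univ.filter (fun x => η (2 * u x + 1) = 0 ∨ P x), f x =
      (∏ x ∈ univ.filter (fun x => η (2 * u x + 1) = 0), f x) *
      ∏ x ∈ (univ : Finset (MX2 η u)).filter (fun x => P x.1), f x.1 := by
  rw [← mq_single, ← Finset.prod_union]
  · refine Finset.prod_congr ?_ fun _ _ => rfl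
    ext x
    simp only [Finset.mem_filter, Finset.mem_univ, true_and, Finset.mem_union]
    constructor
    · rintro (h | h)
      · exact Or.inl h
      · rcases Nat.eq_zero_or_pos (η (2 * u x + 1)) with h0 | h0
        · exact Or.inl h0
        · exact Or.inr ⟨h0, h⟩
    · rintro (h | h)
      · exact Or.inl h
      · exact Or.inr h.2
  · rw [Finset.disjoint_left]
    intro x hx hx'
    simp only [Finset.mem_filter, Finset.mem_univ, true_and] at hx hx'
    omega

private lemma mq_zq (η : ℕ → ℕ) (u p : Word X) (b b' : X → Fin 2) :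
    zq η u p b b' = zp (mu2 η u) (fun x => p x.1) (fun x => b x.1) (fun x => b' x.1) *
      (mD η u b * mD η u b') := by
  unfold zq zp mD
  rw [mq_split η u (fun x => p x + 1 = bsize u x), mq_split η u (fun x => p x = 0)]
  rw [mq_pair η u (fun x y => p y = p x + 1 ∧ Even (p x))
    (fun x y => ((((b y : Fin 2) : ℕ) : ℤ) - (((b x : Fin 2) : ℕ) : ℤ))),
    mq_pair η u (fun x y => p y = p x + 1 ∧ Odd (p x))
    (fun x y => ((((b' y : Fin 2) : ℕ) : ℤ) - (((b' x : Fin 2) : ℕ) : ℤ)))]
  simp only [mq_bsize]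
  ring

/-- the extension map -/
private def mPhi (η : ℕ → ℕ) (u : Word X) :
    ((MX2 η u → Fin 2) → (MX2 η u → Fin 2) → ℤ) →+ ((X → Fin 2) → (X → Fin 2) → ℤ) where
  toFun f := fun b b' => f (fun x => b x.1) (fun x => b' x.1) * (mD η u b * mD η u b')
  map_zero' := by funext b b'; simp
  map_add' f g := by
    funext b b'
    simp only [Pi.add_apply]
    ring

private lemma mq_res {q : ℕ} {η : ℕ → ℕ} (hη : LD q η) {u : Word X} (hu : IsStripL η u)
    {m : Perm X} {o : X → Bool} (h : SML η u m o) :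
    ∃ m₂ : Perm (MX2 η u), SM (mu2 η u) m₂ (fun x => o x.1) ∧
      ∀ b, em m o b = em m₂ (fun x => o x.1) (fun x => b x.1) * mD η u b := by
  classical
  have hT : ∀ x, 0 < η (2 * u (m x) + 1) ↔ 0 < η (2 * u x + 1) := fun x => by rw [h.pres]
  set m₂ : Perm (MX2 η u) := m.subtypePerm hT with hm₂
  have hm₂v : ∀ x : MX2 η u, (m₂ x).1 = m x.1 := fun x => rfl
  have hm₂e : ∀ x : MX2 η u, m₂ x = x ↔ m x.1 = x.1 := fun x => by
    rw [Subtype.ext_iff, hm₂v]
  -- the single-line letters are fixed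
  have hfixed : ∀ x, η (2 * u x + 1) = 0 → m x = x := by
    intro x hx
    have h1 := h.fix (u x)
    have h2 := hu (u x)
    rw [hx] at h1 h2
    have hsub : univ.filter (fun y => u y = u x ∧ m y = y) ⊆ univ.filter (fun y => u y = u x) := by
      intro y hy
      simp only [Finset.mem_filter, Finset.mem_univ, true_and] at hy ⊢
      exact hy.1
    have h3 := Finset.eq_of_subset_of_card_le hsub (by rw [h1, h2]; omega)
    have h4 : x ∈ univ.filter (fun y => u y = u x ∧ m y = y) := by
      rw [h3]; simp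
    exact ((Finset.mem_filter.1 h4).2).2
  refine ⟨m₂, ⟨?_, ?_, ?_, ?_⟩, ?_⟩
  · intro x
    apply Subtype.ext
    rw [hm₂v, hm₂v, h.invol]
  · intro x
    exact h.pres x.1
  · intro x
    have h1 := h.fix (u x.1)
    have h2 := hη.two (u x.1)
    have h3 : η (2 * u x.1) - η (2 * u x.1 + 1) = 1 := by
      have := x.2
      rcases h2 with h2 | h2
      · omega
      · omega
    rw [h3, Finset.card_eq_one] at h1
    obtain ⟨y, hy⟩ := h1
    have hy1 : u y = u x.1 ∧ m y = y := by
      have : y ∈ univ.filter (fun z => u z = u x.1 ∧ m z = z) := by rw [hy]; simp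
      simpa using this
    refine ⟨⟨y, by rw [hy1.1]; exact x.2⟩, ⟨hy1.1, (hm₂e _).2 hy1.2⟩, ?_⟩
    rintro z ⟨hz1, hz2⟩
    apply Subtype.ext
    have : z.1 ∈ univ.filter (fun z => u z = u x.1 ∧ m z = z) := by
      simp only [Finset.mem_filter, Finset.mem_univ, true_and]
      exact ⟨hz1, (hm₂e z).1 hz2⟩
    rw [hy] at this
    simpa using this
  · intro x hx
    exact h.orient x.1 (fun hh => hx ((hm₂e x).2 hh))
  · intro b
    unfold Saxl.em mD
    have e1 : univ.filter (fun x => m x ≠ x ∧ o x = true) =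
        univ.filter (fun x => 0 < η (2 * u x + 1) ∧ (m x ≠ x ∧ o x = true)) := by
      ext x
      simp only [Finset.mem_filter, Finset.mem_univ, true_and]
      constructor
      · intro hx
        refine ⟨?_, hx⟩
        rcases Nat.eq_zero_or_pos (η (2 * u x + 1)) with h0 | h0
        · exact absurd (hfixed x h0) hx.1
        · exact h0
      · intro hx
        exact hx.2
    have e2 : univ.filter (fun x => m x = x) =
        univ.filter (fun x => η (2 * u x + 1) = 0 ∨ m x = x) := by
      ext x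
      simp only [Finset.mem_filter, Finset.mem_univ, true_and]
      constructor
      · intro hx
        exact Or.inr hx
      · rintro (hx | hx)
        · exact hfixed x hx
        · exact hx
    rw [e1, e2, mq_single, mq_split]
    simp only [ne_eq, hm₂e, hm₂v]
    ring

/-- PROOF. Apply `Crest.Agent.Saxl.merge` to the subtype `X₂ = {x // 0 < η (2 * u x + 1)}` (two-line blocks; block sizes
`2 η(2i+1) + 1` odd; `SML` restricts to `SM`), and extend by the factor `∏ (1 - b x) ∏ (1 - b' x)` over the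
single-line letters (there `m x = x` for all letters: the number of fixed points is `η (2i)` = block size). A path
`p₂` on `X₂` extends to a path on `X` (choose any numbering on the single-line blocks, `exists_path`). -/
theorem mergeQ {q : ℕ} {η : ℕ → ℕ} (hη : LD q η) {u : Word X} (hu : IsStripL η u)
    {m m' : Perm X} {o o' : X → Bool} (h : SML η u m o) (h' : SML η u m' o') :
    (fun b b' => em m o b * em m' o' b') ∈
      AddSubgroup.closure {f : (X → Fin 2) → (X → Fin 2) → ℤ | ∃ p, IsPath u p ∧ f = zq η u p} := by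
  classical
  obtain ⟨m₂, hm₂, hem⟩ := mq_res hη hu h
  obtain ⟨m₂', hm₂', hem'⟩ := mq_res hη hu h'
  have hodd : ∀ x : MX2 η u, Odd (bsize (mu2 η u) x) := by
    intro x
    rw [mq_bsize]
    have h1 : bsize u x.1 = η (2 * u x.1) + η (2 * u x.1 + 1) := hu (u x.1)
    have h2 := x.2
    rw [h1]
    rcases hη.two (u x.1) with h3 | h3
    · omega
    · exact ⟨η (2 * u x.1 + 1), by omega⟩
  have key := merge hodd hm₂ hm₂'
  have hgen : ∀ g ∈ AddSubgroup.closure {f : (MX2 η u → Fin 2) → (MX2 η u → Fin 2) → ℤ |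
        ∃ p, IsPath (mu2 η u) p ∧ f = zp (mu2 η u) p},
      mPhi η u g ∈ AddSubgroup.closure
        {f : (X → Fin 2) → (X → Fin 2) → ℤ | ∃ p, IsPath u p ∧ f = zq η u p} := by
    intro g hg
    induction hg using AddSubgroup.closure_induction with
    | mem f hf =>
      obtain ⟨p₂, hp₂, rfl⟩ := hf
      obtain ⟨p₀, hp₀⟩ := exists_path u
      refine AddSubgroup.subset_closure
        ⟨fun x => if hx : 0 < η (2 * u x + 1) then p₂ ⟨x, hx⟩ else p₀ x, ⟨?_, ?_⟩, ?_⟩
      · intro x y hxy
        simp only [Prod.mk.injEq] at hxy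
        obtain ⟨h1, h2⟩ := hxy
        by_cases hx : 0 < η (2 * u x + 1)
        · have hy : 0 < η (2 * u y + 1) := by rw [← h1]; exact hx
          rw [dif_pos hx, dif_pos hy] at h2
          have := @hp₂.1 ⟨x, hx⟩ ⟨y, hy⟩ (Prod.ext h1 h2)
          exact congrArg Subtype.val this
        · have hy : ¬ 0 < η (2 * u y + 1) := by rw [← h1]; exact hx
          rw [dif_neg hx, dif_neg hy] at h2
          exact hp₀.1 (Prod.ext h1 h2)
      · intro x
        by_cases hx : 0 < η (2 * u x + 1)
        · simp only [dif_pos hx]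
          have := hp₂.2 ⟨x, hx⟩
          rwa [mq_bsize] at this
        · simp only [dif_neg hx]
          exact hp₀.2 x
      · funext b b'
        rw [mq_zq]
        have : (fun x : MX2 η u => (if hx : 0 < η (2 * u x.1 + 1) then p₂ ⟨x.1, hx⟩ else p₀ x.1)) =
            p₂ := by
          funext x
          rw [dif_pos x.2]
        rw [this]
        rfl
    | zero => rw [map_zero]; exact AddSubgroup.zero_mem _
    | add f g _ _ hf hg => rw [map_add]; exact AddSubgroup.add_mem _ hf hg
    | neg f _ hf => rw [map_neg]; exact AddSubgroup.neg_mem _ hf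
  have hfin := hgen _ key
  refine (congrArg (· ∈ AddSubgroup.closure
    {f : (X → Fin 2) → (X → Fin 2) → ℤ | ∃ p, IsPath u p ∧ f = zq η u p}) ?_).mpr hfin
  funext b b'
  show em m o b * em m' o' b' = em m₂ (fun x => o x.1) (fun x => b x.1) *
    em m₂' (fun x => o' x.1) (fun x => b' x.1) * (mD η u b * mD η u b')
  rw [hem, hem']
  ring

theorem zq_comp {η : ℕ → ℕ} {u p : Word X} (h : Perm X) (hh : u ∘ h = u) (b b' : X → Fin 2) :
    zq η u p (b ∘ h) (b' ∘ h) = zq η u (p ∘ (h⁻¹ : Perm X)) b b' := by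
  have hu : ∀ x, u (h x) = u x := fun x => congrFun hh x
  have hb : ∀ x, bsize u (h x) = bsize u x := fun x => by
    unfold bsize
    rw [hu]
  have key1 : ∀ (P : ℕ → Prop) [DecidablePred P] (c : X → Fin 2),
      (∏ q ∈ (univ : Finset (X × X)).filter
        (fun q => 0 < η (2 * u q.1 + 1) ∧ u q.1 = u q.2 ∧ p q.2 = p q.1 + 1 ∧ P (p q.1)),
        (((((c ∘ h) q.2 : Fin 2) : ℕ) : ℤ) - ((((c ∘ h) q.1 : Fin 2) : ℕ) : ℤ))) =
      ∏ q ∈ (univ : Finset (X × X)).filter
        (fun q => 0 < η (2 * u q.1 + 1) ∧ u q.1 = u q.2 ∧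
          (p ∘ (h⁻¹ : Perm X)) q.2 = (p ∘ (h⁻¹ : Perm X)) q.1 + 1 ∧
          P ((p ∘ (h⁻¹ : Perm X)) q.1)),
        ((((c q.2 : Fin 2) : ℕ) : ℤ) - (((c q.1 : Fin 2) : ℕ) : ℤ)) := by
    intro P _ c
    refine Finset.prod_equiv (Equiv.prodCongr h h) ?_ ?_
    · intro q
      simp [hu]
    · intro q _
      simp
  have key2 : ∀ (c : X → Fin 2),
      (∏ x ∈ univ.filter (fun x => η (2 * u x + 1) = 0 ∨ p x + 1 = bsize u x),
        (1 - ((((c ∘ h) x : Fin 2) : ℕ) : ℤ))) =
      ∏ x ∈ univ.filter (fun x => η (2 * u x + 1) = 0 ∨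
          (p ∘ (h⁻¹ : Perm X)) x + 1 = bsize u x),
        (1 - (((c x : Fin 2) : ℕ) : ℤ)) := by
    intro c
    refine Finset.prod_equiv h ?_ ?_
    · intro x
      simp [hb, hu]
    · intro x _
      simp
  have key3 : ∀ (c : X → Fin 2),
      (∏ x ∈ univ.filter (fun x => η (2 * u x + 1) = 0 ∨ p x = 0),
        (1 - ((((c ∘ h) x : Fin 2) : ℕ) : ℤ))) =
      ∏ x ∈ univ.filter (fun x => η (2 * u x + 1) = 0 ∨ (p ∘ (h⁻¹ : Perm X)) x = 0),
        (1 - (((c x : Fin 2) : ℕ) : ℤ)) := by
    intro c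
    refine Finset.prod_equiv h ?_ ?_
    · intro x
      simp [hu]
    · intro x _
      simp
  unfold zq
  rw [key1 Even b, key1 Odd b', key2, key3]

end Crest.Agent.SaxlN
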