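import Crest.Agent.SaxlN.Defs
import Crest.Agent.Saxl.Merge

/-!
CHUNK PURE: the lattice of matching elements is pure.

The proof: order the words `b` by the binary weight of the set of the `1`'s for a numbering `ps` of `X`; the leading
word of `em m o` is the indicator `bm m` of the right ends of the arcs.  Two matchings with the same set of right ends
have equal elements up to sign modulo elements with smaller leading words (three-term relation, `star`).
-/

set_option autoImplicit false
set_option linter.unusedSectionVars false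

namespace Crest.Agent.SaxlN

open Finset Equiv
open Crest.Agent.Saxl

variable {X : Type} [Fintype X] [DecidableEq X]

namespace Pure

/-- a numbering of `X` -/
noncomputable def ps (x : X) : ℕ := (Fintype.equivFin X x : ℕ)

lemma ps_inj {x y : X} (h : ps x = ps y) : x = y :=
  (Fintype.equivFin X).injective (Fin.ext h)

/-- weight of the leading word -/
noncomputable def Wt (m : Perm X) : ℕ := ∑ x, if ps (m x) < ps x then 2 ^ ps x else 0

/-- weight of a word -/
noncomputable def Wb (b : X → Fin 2) : ℕ := ∑ x, if b x = 1 then 2 ^ ps x else 0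

/-- leading word -/
noncomputable def bm (m : Perm X) : X → Fin 2 := fun x => if ps (m x) < ps x then 1 else 0

lemma Wb_bm (m : Perm X) : Wb (bm m) = Wt m := by
  unfold Wb Wt bm
  refine Finset.sum_congr rfl fun x _ => ?_
  by_cases h : ps (m x) < ps x <;> simp [h]

lemma em_ne_zero {m : Perm X} {o : X → Bool} (hi : ∀ x, m (m x) = x)
    (ho : ∀ x, m x ≠ x → o (m x) = !(o x)) {b : X → Fin 2} (h : em m o b ≠ 0) :
    (∀ x, m x = x → b x = 0) ∧ (∀ x, m x ≠ x → b (m x) ≠ b x) := by
  unfold Saxl.em at h
  have h1 := left_ne_zero_of_mul h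
  have h2 := right_ne_zero_of_mul h
  rw [Finset.prod_ne_zero_iff] at h1 h2
  have key : ∀ x, m x ≠ x → o x = true → b (m x) ≠ b x := by
    intro x hx hox hb
    refine h1 x (by simp [hx, hox]) ?_
    rw [hb, sub_self]
  constructor
  · intro x hx
    have := h2 x (by simp [hx])
    by_contra hb
    have hb1 : b x = 1 := by
      have := Fin.exists_fin_two.1 ⟨b x, rfl⟩
      omega
    apply this
    rw [hb1]
    rfl
  · intro x hx
    cases hox : o x
    · have hx' : m (m x) ≠ m x := fun hh => hx (m.injective hh)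
      have h3 := key (m x) hx' (by rw [ho x hx, hox]; rfl)
      rw [hi] at h3
      exact h3.symm
    · exact key x hx hox

lemma fin2_cases (a : Fin 2) : a = 0 ∨ a = 1 := by omega

lemma Wb_le {m : Perm X} (hi : ∀ x, m (m x) = x) {b : X → Fin 2}
    (h1 : ∀ x, m x = x → b x = 0) (h2 : ∀ x, m x ≠ x → b (m x) ≠ b x) : Wb b ≤ Wt m := by
  have e1 : Wb b = ∑ x, if b (m x) = 1 then 2 ^ ps (m x) else 0 :=
    (Equiv.sum_comp m (fun x => if b x = 1 then 2 ^ ps x else 0)).symm
  have e2 : Wt m = ∑ x, if ps x < ps (m x) then 2 ^ ps (m x) else 0 := by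
    unfold Wt
    rw [← Equiv.sum_comp m]
    refine Finset.sum_congr rfl fun x _ => ?_
    rw [hi]
  have : Wb b + Wb b ≤ Wt m + Wt m := by
    nth_rewrite 2 [e1, e2]
    unfold Wb Wt
    rw [← Finset.sum_add_distrib, ← Finset.sum_add_distrib]
    refine Finset.sum_le_sum fun x _ => ?_
    by_cases hx : m x = x
    · simp [hx, h1 x hx]
    · have hb := h2 x hx
      have hp : ps (m x) ≠ ps x := fun hh => hx (ps_inj hh)
      rcases fin2_cases (b x) with hb0 | hb1
      · have hb1 : b (m x) = 1 := by
          rcases fin2_cases (b (m x)) with h | h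
          · exact absurd (h.trans hb0.symm) hb
          · exact h
        rw [hb0, hb1]
        simp only [zero_ne_one, if_false, if_true, zero_add]
        rcases lt_or_gt_of_ne hp with hlt | hlt
        · rw [if_pos hlt, if_neg (by omega), add_zero]
          exact Nat.pow_le_pow_right (by norm_num) hlt.le
        · rw [if_neg (by omega), if_pos hlt, zero_add]
      · have hb0 : b (m x) = 0 := by
          rcases fin2_cases (b (m x)) with h | h
          · exact h
          · exact absurd (h.trans hb1.symm) hb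
        rw [hb0, hb1]
        simp only [zero_ne_one, if_false, if_true, add_zero]
        rcases lt_or_gt_of_ne hp with hlt | hlt
        · rw [if_pos hlt, if_neg (by omega), add_zero]
        · rw [if_neg (by omega), if_pos hlt, zero_add]
          exact Nat.pow_le_pow_right (by norm_num) hlt.le
  omega

lemma em_bm {m : Perm X} {o : X → Bool} (hi : ∀ x, m (m x) = x) : IsUnit (em m o (bm m)) := by
  unfold Saxl.em
  refine IsUnit.mul ?_ ?_
  · refine Finset.prod_induction _ (fun z : ℤ => IsUnit z) (fun a b ha hb => ha.mul hb) isUnit_one ?_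
    intro x hx
    rw [Finset.mem_filter] at hx
    have hp : ps (m x) ≠ ps x := fun hh => hx.2.1 (ps_inj hh)
    unfold bm
    rw [hi]
    rcases lt_or_gt_of_ne hp with hlt | hlt
    · rw [if_neg (by omega), if_pos hlt]
      simp
    · rw [if_pos hlt, if_neg (by omega)]
      simp
  · refine Finset.prod_induction _ (fun z : ℤ => IsUnit z) (fun a b ha hb => ha.mul hb) isUnit_one ?_
    intro x hx
    rw [Finset.mem_filter] at hx
    unfold bm
    rw [if_neg (by rw [hx.2]; omega)]
    simp

/-! ### relations -/

lemma em_conj (m s : Perm X) (hs : ∀ x, s (s x) = x) (o : X → Bool) (b : X → Fin 2) :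
    em (s * m * s) (o ∘ s) b = em m o (b ∘ s) := by
  rw [em_eq_prod, em_eq_prod, ← Equiv.prod_comp s]
  refine Finset.prod_congr rfl fun x _ => ?_
  unfold mloc
  simp only [Perm.mul_apply, Function.comp_apply, hs]
  have e : (s (m x) = s x) ↔ m x = x := s.injective.eq_iff
  simp only [ne_eq, e]

lemma em_orientL {m : Perm X} {o o₀ : X → Bool} (hi : ∀ x, m (m x) = x)
    (ho : ∀ x, m x ≠ x → o (m x) = !(o x)) (ho₀ : ∀ x, m x ≠ x → o₀ (m x) = !(o₀ x)) :
    ∃ ε : ℤ, ∀ b, em m o b = ε * em m o₀ b := by
  refine ⟨∏ x : X, (if m x ≠ x ∧ o x = false ∧ o₀ x = true then (-1 : ℤ) else 1), ?_⟩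
  intro b
  set D : X → ℤ := fun x => (((b (m x) : Fin 2) : ℕ) : ℤ) - (((b x : Fin 2) : ℕ) : ℤ) with hD
  have hDm : ∀ x, D (m x) = - D x := by
    intro x
    simp only [hD, hi]
    ring
  have e0 : ∀ o' : X → Bool, em m o' b =
      (∏ x, (if m x ≠ x ∧ o' x = true then D x else 1)) *
        ∏ x ∈ univ.filter (fun x => m x = x), (1 - (((b x : Fin 2) : ℕ) : ℤ)) := by
    intro o'
    unfold Saxl.em
    rw [Finset.prod_filter (fun x => m x ≠ x ∧ o' x = true)]
  rw [e0 o, e0 o₀, ← mul_assoc]
  congr 1
  have e1 : ∏ x, (if m x ≠ x ∧ o x = true then D x else 1) =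
      (∏ x, (if m x ≠ x ∧ o x = true ∧ o₀ x = true then D x else 1)) *
        ∏ x, (if m x ≠ x ∧ o x = true ∧ o₀ x = false then D x else 1) := by
    rw [← Finset.prod_mul_distrib]
    refine Finset.prod_congr rfl fun x _ => ?_
    by_cases hx : m x = x
    · simp [hx]
    · cases hox : o x <;> cases hox' : o₀ x <;> simp [hx]
  have e2 : ∏ x, (if m x ≠ x ∧ o₀ x = true then D x else 1) =
      (∏ x, (if m x ≠ x ∧ o x = true ∧ o₀ x = true then D x else 1)) *
        ∏ x, (if m x ≠ x ∧ o x = false ∧ o₀ x = true then D x else 1) := by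
    rw [← Finset.prod_mul_distrib]
    refine Finset.prod_congr rfl fun x _ => ?_
    by_cases hx : m x = x
    · simp [hx]
    · cases hox : o x <;> cases hox' : o₀ x <;> simp [hx]
  have e3 : ∏ x, (if m x ≠ x ∧ o x = true ∧ o₀ x = false then D x else 1) =
      (∏ x : X, (if m x ≠ x ∧ o x = false ∧ o₀ x = true then (-1 : ℤ) else 1)) *
        ∏ x, (if m x ≠ x ∧ o x = false ∧ o₀ x = true then D x else 1) := by
    rw [← Finset.prod_mul_distrib, ← Equiv.prod_comp m]
    refine Finset.prod_congr rfl fun x _ => ?_
    by_cases hx : m x = x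
    · simp [hx]
    · have hx' : m (m x) ≠ m x := fun hh => hx (m.injective hh)
      have h1 := ho x hx
      have h2 := ho₀ x hx
      rw [h1, h2, hDm]
      cases hox : o x <;> cases hox' : o₀ x <;> simp [hx, hx']
  rw [e1, e2, e3]
  ring

/-- antisymmetry in an arc -/
lemma em_swap {m : Perm X} {o : X → Bool} (hi : ∀ x, m (m x) = x)
    (ho : ∀ x, m x ≠ x → o (m x) = !(o x)) {y w : X} (hy : m y = w) (hyw : y ≠ w) (b : X → Fin 2) :
    em m o (b ∘ swap y w) = - em m o b := by
  have hw : m w = y := by rw [← hy, hi]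
  set T : Finset X := {y, w} with hT
  have hprod : ∀ f : X → ℤ, ∏ x, f x = (f y * f w) * ∏ x ∈ Tᶜ, f x := by
    intro f
    rw [← Finset.prod_mul_prod_compl T f]
    congr 1
    rw [hT, Finset.prod_insert (by simp [hyw]), Finset.prod_singleton]
  rw [em_eq_prod, em_eq_prod, hprod, hprod]
  have e1 : ∏ x ∈ Tᶜ, mloc m o (b ∘ swap y w) x = ∏ x ∈ Tᶜ, mloc m o b x := by
    refine Finset.prod_congr rfl fun x hx => ?_
    have hx' : x ≠ y ∧ x ≠ w := by simpa [hT] using hx
    have h1 : m x ≠ y := fun h => hx'.2 (m.injective (h.trans hw.symm))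
    have h2 : m x ≠ w := fun h => hx'.1 (m.injective (h.trans hy.symm))
    unfold mloc
    simp only [Function.comp_apply, swap_apply_of_ne_of_ne hx'.1 hx'.2, swap_apply_of_ne_of_ne h1 h2]
  rw [e1, ← neg_mul]
  congr 1
  have hoy := ho y (by rw [hy]; exact hyw.symm)
  rw [hy] at hoy
  unfold mloc
  simp only [Function.comp_apply, hy, hw, swap_apply_left, swap_apply_right, hoy]
  cases o y <;> simp [hyw, hyw.symm]

lemma em_three {m : Perm X} {o : X → Bool} (hi : ∀ x, m (m x) = x)
    (ho : ∀ x, m x ≠ x → o (m x) = !(o x)) {y w w' : X} (hy : m y = w) (hyw : y ≠ w) (h1 : w' ≠ y)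
    (h2 : w' ≠ w) (b : X → Fin 2) :
    em m o b = em m o (b ∘ swap w w') + em m o (b ∘ swap y w') := by
  have hw : m w = y := by rw [← hy, hi]
  have hz : ∀ b : X → Fin 2, b y = b w → em m o b = 0 := by
    intro b hb
    by_contra hne
    refine (em_ne_zero hi ho hne).2 y (by rw [hy]; exact hyw.symm) ?_
    rw [hy, hb]
  have hsw : ∀ p q : X, b p = b q → b ∘ swap p q = b := by
    intro p q hpq
    funext x
    simp only [Function.comp_apply]
    rcases eq_or_ne x p with rfl | hp
    · rw [swap_apply_left, hpq]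
    rcases eq_or_ne x q with rfl | hq
    · rw [swap_apply_right, hpq]
    rw [swap_apply_of_ne_of_ne hp hq]
  by_cases c1 : b w = b w'
  · rw [hsw _ _ c1, hz (b ∘ swap y w'), add_zero]
    simp only [Function.comp_apply, swap_apply_left]
    rw [swap_apply_of_ne_of_ne hyw.symm h2.symm, c1]
  by_cases c2 : b y = b w'
  · rw [hsw _ _ c2, hz (b ∘ swap w w'), zero_add]
    simp only [Function.comp_apply, swap_apply_left]
    rw [swap_apply_of_ne_of_ne hyw h1.symm, c2]
  have c3 : b y = b w := by
    have := fin2_cases (b y)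
    have := fin2_cases (b w)
    have := fin2_cases (b w')
    omega
  rw [hz b c3]
  have : b ∘ swap y w' = (b ∘ swap w w') ∘ swap y w := by
    funext x
    simp only [Function.comp_apply]
    rcases eq_or_ne x y with rfl | hxy
    · rw [swap_apply_left, swap_apply_left, swap_apply_left]
    rcases eq_or_ne x w with rfl | hxw
    · rw [swap_apply_of_ne_of_ne hyw.symm h2.symm, swap_apply_right,
        swap_apply_of_ne_of_ne hyw h1.symm, c3]
    rw [swap_apply_of_ne_of_ne (a := y) (b := w) hxy hxw]
    rcases eq_or_ne x w' with rfl | hxw'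
    · rw [swap_apply_right, swap_apply_right, c3]
    rw [swap_apply_of_ne_of_ne hxy hxw', swap_apply_of_ne_of_ne hxw hxw']
  rw [this, em_swap hi ho hy hyw]
  ring

lemma SML_conj {η : ℕ → ℕ} {u : Word X} {m : Perm X} {o : X → Bool} (h : SML η u m o) {p q : X}
    (hpq : u p = u q) : SML η u (swap p q * m * swap p q) (o ∘ swap p q) := by
  have hu : ∀ x, u (swap p q x) = u x := by
    intro x
    rcases eq_or_ne x p with rfl | hp
    · rw [swap_apply_left, hpq]
    rcases eq_or_ne x q with rfl | hq
    · rw [swap_apply_right, hpq]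
    rw [swap_apply_of_ne_of_ne hp hq]
  refine ⟨?_, ?_, ?_, ?_⟩
  · intro x
    simp only [Perm.mul_apply, swap_apply_self, h.invol]
  · intro x
    simp only [Perm.mul_apply, hu, h.pres]
  · intro i
    rw [← h.fix i]
    refine Finset.card_nbij' (fun x => swap p q x) (fun x => swap p q x) ?_ ?_ ?_ ?_
    · intro x hx
      obtain ⟨hx1, hx2⟩ := (Finset.mem_filter.1 hx).2
      refine Finset.mem_filter.2 ⟨Finset.mem_univ _, (hu x).trans hx1, ?_⟩
      simp only [Perm.mul_apply] at hx2
      have := congrArg (swap p q) hx2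
      rwa [swap_apply_self] at this
    · intro x hx
      obtain ⟨hx1, hx2⟩ := (Finset.mem_filter.1 hx).2
      refine Finset.mem_filter.2 ⟨Finset.mem_univ _, (hu x).trans hx1, ?_⟩
      simp only [Perm.mul_apply]
      rw [swap_apply_self, hx2]
    · intro x _
      exact swap_apply_self _ _ _
    · intro x _
      exact swap_apply_self _ _ _
  · intro x hx
    simp only [Perm.mul_apply, Function.comp_apply, swap_apply_self] at hx ⊢
    apply h.orient
    intro hh
    exact hx (by rw [hh, swap_apply_self])

/-- the lattice of the matchings with small leading word -/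
noncomputable def LN (η : ℕ → ℕ) (u : Word X) (N : ℕ) : AddSubgroup ((X → Fin 2) → ℤ) :=
  AddSubgroup.closure {f | ∃ (m : Perm X) (o : X → Bool), SML η u m o ∧ Wt m < N ∧ f = em m o}

lemma LN_le_EM (η : ℕ → ℕ) (u : Word X) (N : ℕ) : LN η u N ≤ EM η u := by
  unfold LN EM
  apply AddSubgroup.closure_mono
  rintro f ⟨m, o, h, _, rfl⟩
  exact ⟨m, o, h, rfl⟩

lemma eval_zero {η : ℕ → ℕ} {u : Word X} {N : ℕ} {f : (X → Fin 2) → ℤ} (hf : f ∈ LN η u N)
    {b : X → Fin 2} (hb : N ≤ Wb b) : f b = 0 := by
  unfold LN at hf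
  induction hf using AddSubgroup.closure_induction with
  | mem f h =>
    obtain ⟨m, o, h, hlt, rfl⟩ := h
    by_contra hne
    obtain ⟨h1, h2⟩ := em_ne_zero h.invol h.orient hne
    have := Wb_le h.invol h1 h2
    omega
  | zero => rfl
  | add f g _ _ h1 h2 => rw [Pi.add_apply, h1, h2, add_zero]
  | neg f _ h1 => rw [Pi.neg_apply, h1, neg_zero]

/-- agreement on the right ends -/
lemma eq_of_agree {m m' : Perm X} (hi : ∀ x, m (m x) = x) (hi' : ∀ x, m' (m' x) = x)
    (hR : ∀ x, ps (m x) < ps x ↔ ps (m' x) < ps x) (h : ∀ x, ps (m x) < ps x → m x = m' x) :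
    m = m' := by
  have key : ∀ n n' : Perm X, (∀ x, n (n x) = x) → (∀ x, n' (n' x) = x) →
      (∀ x, ps (n x) < ps x → n x = n' x) → ∀ x, ps x < ps (n x) → n x = n' x := by
    intro n n' hn hn' hag x hx
    have h1 := hag (n x) (by rw [hn]; exact hx)
    rw [hn] at h1
    have h2 := congrArg n' h1
    rw [hn'] at h2
    exact h2.symm
  ext x
  rcases lt_trichotomy (ps (m x)) (ps x) with h1 | h1 | h1
  · exact h x h1
  · have hx := ps_inj h1
    rcases lt_trichotomy (ps (m' x)) (ps x) with h2 | h2 | h2
    · exact h x ((hR x).2 h2)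
    · rw [hx, ps_inj h2]
    · have := key m' m hi' hi (fun z hz => (h z ((hR z).2 hz)).symm) x h2
      exact this.symm
  · exact key m m' hi hi' h x h1

theorem star {η : ℕ → ℕ} {u : Word X} {m' : Perm X} {o' : X → Bool} (h' : SML η u m' o') :
    ∀ (D : ℕ) (m : Perm X) (o : X → Bool), SML η u m o →
      (∀ x, ps (m x) < ps x ↔ ps (m' x) < ps x) →
      (univ.filter (fun x => ps (m x) < ps x ∧ m x ≠ m' x)).card = D →
      ∃ ε : ℤ, (em m o - ε • em m' o') ∈ LN η u (Wt m) := by
  intro D
  induction D using Nat.strong_induction_on with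
  | _ D ih =>
  intro m o h hR hD
  by_cases hne : (univ.filter (fun x => ps (m x) < ps x ∧ m x ≠ m' x)).Nonempty
  swap
  · rw [Finset.not_nonempty_iff_eq_empty] at hne
    have hmm : m = m' := by
      refine eq_of_agree h.invol h'.invol hR fun x hx => ?_
      by_contra hc
      have : x ∈ univ.filter (fun x => ps (m x) < ps x ∧ m x ≠ m' x) := by simp [hx, hc]
      rw [hne] at this
      simp at this
    subst hmm
    obtain ⟨ε, hε⟩ := em_orientL h.invol h.orient h'.orient
    refine ⟨ε, ?_⟩
    have : em m o - ε • em m o' = 0 := by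
      funext b
      simp [hε b]
    rw [this]
    exact zero_mem _
  obtain ⟨y, hy, hymin⟩ := Finset.exists_min_image _ ps hne
  simp only [Finset.mem_filter, Finset.mem_univ, true_and] at hy hymin
  obtain ⟨hy1, hy2⟩ := hy
  obtain ⟨w, hw⟩ : ∃ w, m y = w := ⟨_, rfl⟩
  obtain ⟨w', hw'⟩ : ∃ w', m' y = w' := ⟨_, rfl⟩
  obtain ⟨z, hz⟩ : ∃ z, m w' = z := ⟨_, rfl⟩
  have hpw : ps w < ps y := by rw [← hw]; exact hy1
  have hpw' : ps w' < ps y := by rw [← hw']; exact (hR y).1 hy1
  have hww' : w ≠ w' := by rw [← hw, ← hw']; exact hy2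
  have hyw : y ≠ w := by rintro rfl; omega
  have hyw' : y ≠ w' := by rintro rfl; omega
  have hmw : m w = y := by rw [← hw, h.invol]
  have hmw' : m' w' = y := by rw [← hw', h'.invol]
  have hmz : m z = w' := by rw [← hz, h.invol]
  have hRw' : ¬ ps (m w') < ps w' := by
    rw [hR, hmw']
    omega
  have hzy : z ≠ y := by
    rintro rfl
    exact hww' (hw.symm.trans hmz)
  have hzw : z ≠ w := by
    rintro rfl
    exact hyw' (hmw.symm.trans hmz)
  -- `z = w'` or `ps y < ps z`
  have hzc : z = w' ∨ ps y < ps z := by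
    by_cases hzw' : z = w'
    · exact Or.inl hzw'
    right
    have hp1 : ps z ≠ ps w' := fun hh => hzw' (ps_inj hh)
    rw [hz] at hRw'
    have hp2 : ps w' < ps z := by omega
    have hzR : ps (m z) < ps z := by rw [hmz]; exact hp2
    have hzne : m z ≠ m' z := by
      rw [hmz]
      intro hh
      exact hzy (m'.injective (hh.symm.trans hw'.symm))
    have := hymin z ⟨hzR, hzne⟩
    have hp3 : ps y ≠ ps z := fun hh => hzy (ps_inj hh).symm
    omega
  have hu1 : u w = u w' := by
    have e1 := h.pres y
    have e2 := h'.pres y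
    rw [hw] at e1
    rw [hw'] at e2
    rw [e1, e2]
  have hu2 : u y = u w' := by
    have e2 := h'.pres y
    rw [hw'] at e2
    exact e2.symm
  set m₁ : Perm X := swap w w' * m * swap w w' with hm₁
  set m₂ : Perm X := swap y w' * m * swap y w' with hm₂
  have S1 := SML_conj h hu1
  have S2 := SML_conj h hu2
  rw [← hm₁] at S1
  rw [← hm₂] at S2
  -- values of `m₁`
  have v1y : m₁ y = w' := by
    simp only [hm₁, Perm.mul_apply]
    rw [swap_apply_of_ne_of_ne hyw hyw', hw, swap_apply_left]
  have v1w' : m₁ w' = y := by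
    simp only [hm₁, Perm.mul_apply]
    rw [swap_apply_right, hmw, swap_apply_of_ne_of_ne hyw hyw']
  have v1w : m₁ w = if z = w' then w else z := by
    simp only [hm₁, Perm.mul_apply]
    rw [swap_apply_left, hz]
    split_ifs with hc
    · rw [hc, swap_apply_right]
    · rw [swap_apply_of_ne_of_ne hzw hc]
  have v1z : z ≠ w' → m₁ z = w := by
    intro hc
    simp only [hm₁, Perm.mul_apply]
    rw [swap_apply_of_ne_of_ne hzw hc, hmz, swap_apply_right]
  have v1o : ∀ x, x ≠ y → x ≠ w → x ≠ w' → x ≠ z → m₁ x = m x := by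
    intro x a1 a2 a3 a4
    simp only [hm₁, Perm.mul_apply]
    rw [swap_apply_of_ne_of_ne a2 a3, swap_apply_of_ne_of_ne]
    · intro hh
      exact a1 (m.injective (hh.trans hw.symm))
    · intro hh
      exact a4 (m.injective (hh.trans hmz.symm))
  -- values of `m₂`
  have v2y : m₂ y = if z = w' then y else z := by
    simp only [hm₂, Perm.mul_apply]
    rw [swap_apply_left, hz]
    split_ifs with hc
    · rw [hc, swap_apply_right]
    · rw [swap_apply_of_ne_of_ne hzy hc]
  have v2w : m₂ w = w' := by
    simp only [hm₂, Perm.mul_apply]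
    rw [swap_apply_of_ne_of_ne hyw.symm hww', hmw, swap_apply_left]
  have v2w' : m₂ w' = w := by
    simp only [hm₂, Perm.mul_apply]
    rw [swap_apply_right, hw, swap_apply_of_ne_of_ne hyw.symm hww']
  have v2z : z ≠ w' → m₂ z = y := by
    intro hc
    simp only [hm₂, Perm.mul_apply]
    rw [swap_apply_of_ne_of_ne hzy hc, hmz, swap_apply_right]
  have v2o : ∀ x, x ≠ y → x ≠ w → x ≠ w' → x ≠ z → m₂ x = m x := by
    intro x a1 a2 a3 a4
    simp only [hm₂, Perm.mul_apply]
    rw [swap_apply_of_ne_of_ne a1 a3, swap_apply_of_ne_of_ne]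
    · intro hh
      exact a2 (m.injective (hh.trans hmw.symm))
    · intro hh
      exact a4 (m.injective (hh.trans hmz.symm))
  -- right ends of `m₁`
  have hR1 : ∀ x, ps (m₁ x) < ps x ↔ ps (m x) < ps x := by
    intro x
    rcases eq_or_ne x y with rfl | a1
    · rw [v1y, hw]
      exact ⟨fun _ => hpw, fun _ => hpw'⟩
    rcases eq_or_ne x w with rfl | a2
    · rw [v1w, hmw]
      constructor
      · intro hh
        exfalso
        split_ifs at hh with hc
        · omega
        · rcases hzc with hc' | hc'
          · exact hc hc'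
          · omega
      · intro hh
        omega
    rcases eq_or_ne x w' with rfl | a3
    · rw [v1w']
      constructor
      · intro hh; omega
      · intro hh; exact absurd hh hRw'
    rcases eq_or_ne x z with rfl | a4
    · rw [v1z a3, hmz]
      rcases hzc with hc | hc
      · exact absurd hc a3
      · constructor <;> intro _ <;> omega
    rw [v1o x a1 a2 a3 a4]
  have hW1 : Wt m₁ = Wt m := by
    unfold Wt
    refine Finset.sum_congr rfl fun x _ => ?_
    by_cases hx : ps (m x) < ps x
    · rw [if_pos hx, if_pos ((hR1 x).2 hx)]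
    · rw [if_neg hx, if_neg (fun hh => hx ((hR1 x).1 hh))]
  -- `m₂` has smaller weight
  have hW2 : Wt m₂ < Wt m := by
    unfold Wt
    set T : Finset X := {y, w, w'} with hT
    have hsum : ∀ f : X → ℕ, ∑ x, f x = (f y + (f w + f w')) + ∑ x ∈ Tᶜ, f x := by
      intro f
      rw [← Finset.sum_add_sum_compl T f]
      congr 1
      rw [hT, Finset.sum_insert (by simp [hyw, hyw']), Finset.sum_insert (by simp [hww']),
        Finset.sum_singleton]
    rw [hsum, hsum]
    have e1 : ∑ x ∈ Tᶜ, (if ps (m₂ x) < ps x then 2 ^ ps x else 0) =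
        ∑ x ∈ Tᶜ, (if ps (m x) < ps x then 2 ^ ps x else 0) := by
      refine Finset.sum_congr rfl fun x hx => ?_
      obtain ⟨a1, a2, a3⟩ : x ≠ y ∧ x ≠ w ∧ x ≠ w' := by simpa [hT] using hx
      rcases eq_or_ne x z with rfl | a4
      · rw [v2z a3, hmz]
        rcases hzc with hc | hc
        · exact absurd hc a3
        · rw [if_pos hc, if_pos (by omega)]
      rw [v2o x a1 a2 a3 a4]
    rw [e1]
    apply Nat.add_lt_add_right
    rw [v2y, v2w, v2w', hw, hmw, if_pos hpw, if_neg (by omega : ¬ ps y < ps w), if_neg hRw']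
    have t1 : (if ps (if z = w' then y else z) < ps y then 2 ^ ps y else 0) = 0 := by
      rw [if_neg]
      split_ifs with hc
      · omega
      · rcases hzc with hc' | hc'
        · exact absurd hc' hc
        · omega
    rw [t1]
    have t2 : (2 : ℕ) ^ ps w < 2 ^ ps y := Nat.pow_lt_pow_right (by norm_num) hpw
    have t3 : (2 : ℕ) ^ ps w' < 2 ^ ps y := Nat.pow_lt_pow_right (by norm_num) hpw'
    have t4 : 0 < (2 : ℕ) ^ ps y := by positivity
    split_ifs <;> omega
  -- the number of disagreements decreases
  have hcard : (univ.filter (fun x => ps (m₁ x) < ps x ∧ m₁ x ≠ m' x)).card < D := by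
    rw [← hD]
    apply Finset.card_lt_card
    rw [Finset.ssubset_iff_of_subset]
    · refine ⟨y, by simp only [Finset.mem_filter, Finset.mem_univ, true_and]; exact ⟨hy1, hy2⟩, ?_⟩
      simp only [Finset.mem_filter, Finset.mem_univ, true_and, not_and, not_not]
      intro _
      rw [v1y, hw']
    · intro x hx
      simp only [Finset.mem_filter, Finset.mem_univ, true_and] at hx ⊢
      obtain ⟨hx1, hx2⟩ := hx
      have hx3 := (hR1 x).1 hx1
      refine ⟨hx3, ?_⟩
      rcases eq_or_ne x y with rfl | a1
      · exact hy2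
      rcases eq_or_ne x w with rfl | a2
      · rw [hmw] at hx3
        omega
      rcases eq_or_ne x w' with rfl | a3
      · exact absurd hx3 hRw'
      rcases eq_or_ne x z with rfl | a4
      · rw [hmz]
        intro hh
        exact hzy (m'.injective (hh.symm.trans hw'.symm))
      rwa [v1o x a1 a2 a3 a4] at hx2
  obtain ⟨ε, hε⟩ := ih _ hcard m₁ (o ∘ swap w w') S1 (fun x => (hR1 x).trans (hR x)) rfl
  refine ⟨ε, ?_⟩
  rw [hW1] at hε
  have h2mem : em m₂ (o ∘ swap y w') ∈ LN η u (Wt m) :=
    AddSubgroup.subset_closure ⟨m₂, _, S2, hW2, rfl⟩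
  have : em m o - ε • em m' o' = (em m₁ (o ∘ swap w w') - ε • em m' o') + em m₂ (o ∘ swap y w') := by
    funext b
    simp only [Pi.sub_apply, Pi.add_apply, Pi.smul_apply]
    rw [em_three h.invol h.orient hw hyw hyw'.symm hww'.symm b,
      hm₁, hm₂, em_conj _ _ (swap_apply_self _ _), em_conj _ _ (swap_apply_self _ _)]
    ring
  rw [this]
  exact add_mem hε h2mem

lemma R_eq {m m' : Perm X} (h : Wt m = Wt m') : ∀ x, ps (m x) < ps x ↔ ps (m' x) < ps x := by
  have key : ∀ n : Perm X, Wt n =
      ∑ i ∈ (univ.filter (fun x => ps (n x) < ps x)).image (ps : X → ℕ), 2 ^ i := by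
    intro n
    rw [Finset.sum_image (fun x _ y _ hxy => ps_inj hxy), Finset.sum_filter]
    rfl
  rw [key m, key m'] at h
  have h2 := Finset.geomSum_injective (n := 2) le_rfl h
  have h3 := Finset.image_injective (f := (ps : X → ℕ)) (fun x y hxy => ps_inj hxy) h2
  intro x
  have := congrArg (fun s => x ∈ s) h3
  simpa using this

theorem main {η : ℕ → ℕ} {u : Word X} : ∀ (N : ℕ) (f : (X → Fin 2) → ℤ), f ∈ LN η u N →
    (∀ b, Even (f b)) → ∃ f' ∈ EM η u, f = f' + f' := by
  intro N
  induction N with
  | zero =>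
    intro f hf _
    have : LN η u 0 = ⊥ := by
      unfold LN
      rw [AddSubgroup.closure_eq_bot_iff]
      rintro g ⟨m, o, _, hlt, _⟩
      omega
    rw [this, AddSubgroup.mem_bot] at hf
    exact ⟨0, zero_mem _, by rw [hf, add_zero]⟩
  | succ N ih =>
    intro f hf hev
    by_cases hex : ∃ (m₀ : Perm X) (o₀ : X → Bool), SML η u m₀ o₀ ∧ Wt m₀ = N
    · obtain ⟨m₀, o₀, h₀, hN⟩ := hex
      have key : ∀ g ∈ LN η u (N + 1), ∃ c : ℤ, (g - c • em m₀ o₀) ∈ LN η u N := by
        intro g hg
        unfold LN at hg
        induction hg using AddSubgroup.closure_induction with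
        | mem g h =>
          obtain ⟨m, o, h, hlt, rfl⟩ := h
          by_cases hm : Wt m < N
          · refine ⟨0, ?_⟩
            rw [zero_smul, sub_zero]
            exact AddSubgroup.subset_closure ⟨m, o, h, hm, rfl⟩
          · have hm' : Wt m = N := by omega
            rw [← hm']
            exact star h₀ _ m o h (R_eq (hm'.trans hN.symm)) rfl
        | zero => exact ⟨0, by simp [zero_mem]⟩
        | add g g' _ _ h1 h2 =>
          obtain ⟨c, hc⟩ := h1
          obtain ⟨c', hc'⟩ := h2
          refine ⟨c + c', ?_⟩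
          have : g + g' - (c + c') • em m₀ o₀ = (g - c • em m₀ o₀) + (g' - c' • em m₀ o₀) := by
            rw [add_smul]; abel
          rw [this]
          exact add_mem hc hc'
        | neg g _ h1 =>
          obtain ⟨c, hc⟩ := h1
          refine ⟨-c, ?_⟩
          have : -g - (-c) • em m₀ o₀ = -(g - c • em m₀ o₀) := by
            rw [neg_smul]; abel
          rw [this]
          exact neg_mem hc
      obtain ⟨c, hc⟩ := key f hf
      have hz : (f - c • em m₀ o₀) (bm m₀) = 0 := eval_zero hc (by rw [Wb_bm, hN])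
      have hcev : Even c := by
        have h1 := hev (bm m₀)
        simp only [Pi.sub_apply, Pi.smul_apply, smul_eq_mul] at hz
        have h2 : f (bm m₀) = c * em m₀ o₀ (bm m₀) := by linarith
        rcases Int.isUnit_iff.1 (em_bm (o := o₀) h₀.invol) with h3 | h3
        · rw [h2, h3, mul_one] at h1
          exact h1
        · rw [h2, h3] at h1
          have : c = -(c * -1) := by ring
          rw [this]
          exact h1.neg
      obtain ⟨c', hc'⟩ := hcev
      obtain ⟨f', hf', hff⟩ := ih (f - c • em m₀ o₀) hc (by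
        intro b
        simp only [Pi.sub_apply, Pi.smul_apply, smul_eq_mul]
        exact (hev b).sub (Even.mul_right ⟨c', hc'⟩ _))
      refine ⟨f' + c' • em m₀ o₀, ?_, ?_⟩
      · refine add_mem hf' (zsmul_mem ?_ _)
        exact AddSubgroup.subset_closure ⟨m₀, o₀, h₀, rfl⟩
      · have : f = (f - c • em m₀ o₀) + c • em m₀ o₀ := by abel
        rw [this, hff, hc', add_smul]
        abel
    · apply ih f _ hev
      have : LN η u (N + 1) ≤ LN η u N := by
        unfold LN
        apply AddSubgroup.closure_mono
        rintro g ⟨m, o, h, hlt, rfl⟩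
        refine ⟨m, o, h, ?_, rfl⟩
        have : Wt m ≠ N := fun hh => hex ⟨m, o, h, hh⟩
        omega
      exact this hf

end Pure

/-- PROOF. Fix a linear order on `X` inside the blocks. For a matching `m` (`SML`) of a two-line block think of the unique
fixed point as matched with an extra last point `∞` with `b ∞ = 1`, so that `em m o b` is a product of factors
`b(y) - b(x)` over the arcs `{x, y}` (one arc `{s, ∞}` per two-line block: `1 - b s`), up to sign; single-line
blocks: only the factor `∏ (1 - b x)`.
(a) Uncrossing: for points `w < x < y < z` of a block (possibly `z = ∞`)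
`(b_y - b_w)(b_z - b_x) = (b_x - b_w)(b_z - b_y) + (b_z - b_w)(b_y - b_x)`; replacing crossing arcs `{w,y}, {x,z}`
decreases the sum over the arcs of the squares of their lengths or another measure (e.g. the number of crossing
pairs; or the sum of lengths `(y-w)+(z-x)` is `≥` both new sums, `= (z-w)+(y-x)`, use the number of crossings: both new
matchings have fewer crossings). So `EM` is spanned by the `em m o` with `m` noncrossing.
(b) For a noncrossing matching let `b_m` be the word with value `0` at the left end and `1` at the right end of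
every arc (value `0` on single-line blocks). The map `m ↦ b_m` is injective (ballot words), `em m o b_m = ± 1`, and
`em m' o' b_m ≠ 0` implies that every arc of `m'` has one end with `b_m = 0` and one with `b_m = 1`; order the
noncrossing matchings by the lexicographic order of `b_m`: among all `b` with `em m' o' b ≠ 0` the word `b_{m'}` is the
lexicographically smallest one (each arc has its left end `0`). So the system is unitriangular:
if `∑ c_m em m` is even everywhere, take `m` with `c_m` odd and `b_m` lexicographically SMALLEST [check the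
direction]: evaluating at `b_m` only `m'` with `b_{m'} ≤ b_m` contribute, all with even coefficient except `m`:
contradiction. So all `c_m` are even.
(Any other proof is fine, e.g. by induction on the size of `X` removing an adjacent pair.) -/
theorem EM_pure {q : ℕ} {η : ℕ → ℕ} (hη : LD q η) {u : Word X} (hu : IsStripL η u)
    {f : (X → Fin 2) → ℤ} (hf : f ∈ EM η u) (hev : ∀ b, Even (f b)) :
    ∃ f' ∈ EM η u, f = f' + f' := by
  refine Pure.main (∑ x : X, 2 ^ Pure.ps x + 1) f ?_ hev
  have : EM η u ≤ Pure.LN η u (∑ x : X, 2 ^ Pure.ps x + 1) := by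
    unfold EM Pure.LN
    apply AddSubgroup.closure_mono
    rintro g ⟨m, o, h, rfl⟩
    refine ⟨m, o, h, ?_, rfl⟩
    refine Nat.lt_succ_of_le ?_
    unfold Pure.Wt
    refine Finset.sum_le_sum fun x _ => ?_
    split_ifs
    · exact le_rfl
    · exact Nat.zero_le _
  exact this hf

end Crest.Agent.SaxlN
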