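import Crest.Agent.SaxlN.FDef
import Crest.Agent.SaxlN.UniqL
import Crest.Agent.SaxlN.Pure
import Crest.Agent.SaxlN.EmAB
import Crest.Agent.SaxlN.MergeQ
import Crest.Agent.Saxl.Naka

/-!
CHUNK FVAL (hard, ~250 lines): nonvanishing modulo 2.
-/

set_option autoImplicit false

namespace Crest.Agent.SaxlN

open Finset Equiv
open Crest.Agent.Saxl

variable {X : Type} [Fintype X] [DecidableEq X]

variable {W : Type} [AddCommGroup W] [Module ℂ W]

set_option linter.unusedSectionVars false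

/-- complexification of functions of two words -/
private def fvC2 : ((X → Fin 2) → (X → Fin 2) → ℤ) →+ FF X where
  toFun F := fun b b' => ((F b b' : ℤ) : ℂ)
  map_zero' := by funext b b'; simp
  map_add' F G := by funext b b'; simp

private theorem fvC2_apply (F : (X → Fin 2) → (X → Fin 2) → ℤ) (b b' : X → Fin 2) :
    fvC2 F b b' = ((F b b' : ℤ) : ℂ) := rfl

private theorem fv_smul_mem_LZ (σ : Representation ℂ (Perm X) W) (w : W) (e : ℤˣ) (g : Perm X) :
    (((e : ℤˣ) : ℤ) : ℂ) • σ g w ∈ LZ σ w := by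
  have h1 : σ g w ∈ LZ σ w := AddSubgroup.subset_closure ⟨g, rfl⟩
  rcases Int.units_eq_one_or e with h | h
  · subst h; simpa using h1
  · subst h; simpa using (LZ σ w).neg_mem h1

private theorem fv_stable (σ : Representation ℂ (Perm X) W) (w : W) (g : Perm X) {x : W}
    (hx : x ∈ LZ σ w) : σ g x ∈ LZ σ w := by
  unfold LZ at hx
  induction hx using AddSubgroup.closure_induction with
  | mem x hx =>
    obtain ⟨k, rfl⟩ := hx
    refine AddSubgroup.subset_closure ⟨g * k, ?_⟩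
    simp [map_mul]
  | zero => rw [map_zero]; exact zero_mem _
  | add x y _ _ hx hy => rw [map_add]; exact add_mem hx hy
  | neg x _ hx => rw [map_neg]; exact neg_mem hx

/-- integral combinations of path elements -/
private theorem fv_closure_mem {η : ℕ → ℕ} {u p₀ : Word X} (hp₀ : IsPath u p₀)
    (σ : Representation ℂ (Perm X) W)
    (ψ : FF X →ₗ[ℂ] W) (ε : Perm X → ℤˣ)
    (hψ : ∀ h : Perm X, u ∘ h = u →
      ∀ F, ψ (frep X h F) = (((ε h : ℤˣ) : ℤ) : ℂ) • σ h (ψ F))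
    {F : (X → Fin 2) → (X → Fin 2) → ℤ}
    (hF : F ∈ AddSubgroup.closure {f : (X → Fin 2) → (X → Fin 2) → ℤ |
      ∃ p, IsPath u p ∧ f = zq η u p}) :
    ψ (fvC2 F) ∈ LZ σ (ψ (zqC η u p₀)) := by
  induction hF using AddSubgroup.closure_induction with
  | mem F hF =>
    obtain ⟨p, hp, rfl⟩ := hF
    obtain ⟨h, hh, hp2⟩ := path_conj hp hp₀
    have hh' : u ∘ (h⁻¹ : Perm X) = u := by
      funext x
      have := congrFun hh ((h⁻¹ : Perm X) x)
      simp only [Function.comp_apply] at this ⊢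
      rw [← this]; simp
    have h1 : fvC2 (zq η u p) = frep X h⁻¹ (zqC η u p₀) := by
      funext b b'
      rw [fvC2_apply, frep_apply]
      unfold zqC
      rw [zq_comp (p := p₀) h⁻¹ hh' b b', inv_inv, hp2]
    rw [h1, hψ _ hh']
    exact fv_smul_mem_LZ σ _ _ _
  | zero =>
    rw [map_zero, map_zero]
    exact zero_mem _
  | add F G _ _ hF hG =>
    rw [map_add, map_add]
    exact add_mem hF hG
  | neg F _ hF =>
    rw [map_neg, map_neg]
    exact neg_mem hF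

/-- the bilinear term -/
private def fvB (f f' : (X → Fin 2) → ℤ) : FF X :=
  fun b b' => ((f b : ℤ) : ℂ) * ((f' b' : ℤ) : ℂ)

private theorem fvB_zero_left (f' : (X → Fin 2) → ℤ) : fvB (X := X) 0 f' = 0 := by
  funext b b'; simp [fvB]

private theorem fvB_zero_right (f : (X → Fin 2) → ℤ) : fvB (X := X) f 0 = 0 := by
  funext b b'; simp [fvB]

private theorem fvB_add_left (f g f' : (X → Fin 2) → ℤ) :
    fvB (f + g) f' = fvB f f' + fvB g f' := by
  funext b b'; simp [fvB, add_mul]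

private theorem fvB_add_right (f f' g' : (X → Fin 2) → ℤ) :
    fvB f (f' + g') = fvB f f' + fvB f g' := by
  funext b b'; simp [fvB, mul_add]

private theorem fvB_neg_left (f f' : (X → Fin 2) → ℤ) : fvB (-f) f' = -fvB f f' := by
  funext b b'; simp [fvB]

private theorem fvB_neg_right (f f' : (X → Fin 2) → ℤ) : fvB f (-f') = -fvB f f' := by
  funext b b'; simp [fvB]

/-- bilinear integrality: `ψ (f ⊗ f')` lies in the lattice generated by `ψ(path)`. -/
theorem psi_mem {q : ℕ} {η : ℕ → ℕ} (hη : LD q η) {u : Word X} (hu : IsStripL η u)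
    {σ : Representation ℂ (Perm X) W} {ψ : FF X →ₗ[ℂ] W} {ε : Perm X → ℤˣ}
    (hψ : ∀ h : Perm X, u ∘ h = u → ∀ F, ψ (frep X h F) = (((ε h : ℤˣ) : ℤ) : ℂ) • σ h (ψ F))
    {p₀ : Word X} (hp₀ : IsPath u p₀) {f f' : (X → Fin 2) → ℤ} (hf : f ∈ EM η u)
    (hf' : f' ∈ EM η u) :
    ψ (fun b b' => ((f b : ℤ) : ℂ) * ((f' b' : ℤ) : ℂ)) ∈ LZ σ (ψ (zqC η u p₀)) := by
  show ψ (fvB f f') ∈ LZ σ (ψ (zqC η u p₀))
  unfold EM at hf
  induction hf using AddSubgroup.closure_induction with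
  | mem f hf =>
    obtain ⟨m, o, hm, rfl⟩ := hf
    unfold EM at hf'
    induction hf' using AddSubgroup.closure_induction with
    | mem f' hf' =>
      obtain ⟨m', o', hm', rfl⟩ := hf'
      have h1 := fv_closure_mem hp₀ σ ψ ε hψ (mergeQ hη hu hm hm')
      have h2 : fvC2 (fun b b' => em m o b * em m' o' b') = fvB (em m o) (em m' o') := by
        funext b b'
        rw [fvC2_apply]
        simp [fvB]
      rwa [h2] at h1
    | zero => rw [fvB_zero_right, map_zero]; exact zero_mem _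
    | add y y' _ _ h1 h2 => rw [fvB_add_right, map_add]; exact add_mem h1 h2
    | neg y _ h1 => rw [fvB_neg_right, map_neg]; exact neg_mem h1
  | zero => rw [fvB_zero_left, map_zero]; exact zero_mem _
  | add x x' _ _ h1 h2 => rw [fvB_add_left, map_add]; exact add_mem h1 h2
  | neg x _ h1 => rw [fvB_neg_left, map_neg]; exact neg_mem h1

private theorem fv_gw_dw {X : Type} (u : Word X) (b : X → Fin 2) : gw (dw u b) = u := by
  funext x
  unfold gw dw
  have := (b x).isLt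
  omega

private theorem fv_odd_unit (e : ℤˣ) (a : ℤ) : Odd (((e : ℤˣ) : ℤ) * a) ↔ Odd a := by
  rcases Int.units_eq_one_or e with h | h
  · subst h; simp
  · subst h; simp

/-- parity of the restriction of a lifted vector -/
private theorem fv_odd_iff {q : ℕ} {η : ℕ → ℕ} (hη : LD q η) (hX : Fintype.card X = total q η)
    {A w₀ : Word X} (hA : PerpL η A w₀) {t : ℕ → Bool} {s : Bool} {v : Perm X → ℤ}
    (hv : Lifted η t w₀ A s v) {g : Perm X} {f : (X → Fin 2) → ℤ}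
    (hf : ∀ b, Rr w₀ t (cx v) g b = ((f b : ℤ) : ℂ)) (b : X → Fin 2) :
    Odd (f b) ↔ PerpL η A (dw (gw w₀) b ∘ (g⁻¹ : Perm X)) := by
  by_cases hex : ∃ h : Perm X, w₀ ∘ (h⁻¹ : Perm X) = dw (gw w₀) b
  · obtain ⟨h, hh⟩ := hex
    have hright : ∀ g k : Perm X, w₀ ∘ k = w₀ →
        cx v (g * k) = (((chi t w₀ k : ℤˣ) : ℤ) : ℂ) * cx v g := by
      intro g k hk
      unfold cx
      rw [hv.right g k hk]
      push_cast
      rfl
    have h1 := Rr_val (t := t) (v := cx v) hright (g := g) hh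
    rw [hf b] at h1
    have h2 : f b = ((chi t w₀ h : ℤˣ) : ℤ) * v (g * h) := by
      unfold cx at h1
      exact_mod_cast h1
    rw [h2, fv_odd_unit, hv.par (g * h)]
    have h3 : w₀ ∘ ((g * h)⁻¹ : Perm X) = dw (gw w₀) b ∘ (g⁻¹ : Perm X) := by
      rw [← hh, mul_inv_rev]
      rfl
    rw [h3]
  · have hne : ∀ h : Perm X, w₀ ∘ (h⁻¹ : Perm X) ≠ dw (gw w₀) b := by
      intro h hh
      exact hex ⟨h, hh⟩
    have h1 := Rr_eq_zero (t := t) (cx v) g b hne
    rw [hf b] at h1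
    have h2 : f b = 0 := by exact_mod_cast h1
    constructor
    · intro ho
      rw [h2] at ho
      simp at ho
    · intro hP
      exfalso
      obtain ⟨k, -, hk⟩ := perpL_conj hη.zero hX hA hP
      refine hne (k * g)⁻¹ ?_
      rw [inv_inv]
      funext x
      have h3 := congrFun hk (g x)
      have h4 : (g⁻¹ : Perm X) (g x) = x := by simp
      simp only [Function.comp_apply] at h3
      rw [h4] at h3
      exact h3.symm

/-- PROOF. `em_AB`: `p, m, o, m', o'`; `w₁ := ψ (zqC η u p) ≠ 0`, `L = LZ σ w₁`. For a word `u` let `g = gu (gw w₀) u`, and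
`f_u, f'_u ∈ EM` the restrictions (`rest`) of `v`, `v'` at `g`. `Fterm g = σ g ψ(f_u ⊗ f'_u) ∈ L` (`psi_mem`).
If both `f_u` and `f'_u` take an odd value, say at `b`, `b'`: by `Rr_val`, `par` there are `h, h'` with
`PerpL η A (w₀ ∘ h⁻¹ ∘ g⁻¹)`, `PerpL η (rev) (w₀ ∘ h'⁻¹ ∘ g⁻¹)` and both words have group word `gw w₀ ∘ g⁻¹`; by `uniq_words`
`gw w₀ ∘ g⁻¹ = gw w₀`, i.e. `u = gw w₀`. So for `u ≠ gw w₀` one of `f_u, f'_u` is even everywhere, hence in `2 EM`
(`EM_pure`), and `Fterm ∈ 2L`. For `u = gw w₀` replace `gu` by `1` (`Fterm_mul`): `f(b)` is odd iff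
`PerpL η A (dw (gw w₀) b)` iff `em m o b` odd, so `f - em m o` is even everywhere, in `2 EM`; same for `f'`; so
`Fterm ≡ ψ(em m o ⊗ em m' o') = w₁` mod `2L`. So `∑_u Fterm = w₁ + 2 s`, `s ∈ L`; if it were `0` then `w₁ ∈ 2L` and
`naka` gives `w₁ = 0`, contradiction. -/
theorem F_ne_zero {q : ℕ} {η : ℕ → ℕ} (hη : LD q η) (hX : Fintype.card X = total q η)
    {A w₀ : Word X} (hA : PerpL η A w₀) {t t' : ℕ → Bool}
    {σ : Representation ℂ (Perm X) W} {ψ : FF X →ₗ[ℂ] W}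
    (hψ : ∀ h : Perm X, gw w₀ ∘ h = gw w₀ → ∀ F, ψ (frep X h F) =
      (((sgnT (fun x => xor (t (w₀ x / 2)) (t' (w₀ x / 2))) h : ℤˣ) : ℤ) : ℂ) • σ h (ψ F))
    (hψ0 : ∀ p, IsPath (gw w₀) p → ψ (zqC η (gw w₀) p) ≠ 0)
    {s s' : Bool} {v v' : Perm X → ℤ} (hv : Lifted η t w₀ A s v)
    (hv' : Lifted η t' w₀ (rev η A w₀) s' v') :
    ∑ g : Perm X, Fterm w₀ t t' σ ψ (cx v) (cx v') g ≠ 0 := by
  classical
  obtain ⟨p, m, o, m', o', hp, hm, hm', hodd, hodd', hprod⟩ := em_AB hη hX hA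
  have hA' : PerpL η (rev η A w₀) w₀ := perpL_rev hA
  have hu₀ : IsStripL η (gw w₀) := hA.isStripL hη.zero hX
  obtain ⟨w₁, hw₁⟩ : ∃ w₁, w₁ = ψ (zqC η (gw w₀) p) := ⟨_, rfl⟩
  have hpsi : ∀ {f f' : (X → Fin 2) → ℤ}, f ∈ EM η (gw w₀) → f' ∈ EM η (gw w₀) →
      ψ (fvB f f') ∈ LZ σ w₁ := by
    intro f f' hf hf'
    rw [hw₁]
    exact psi_mem hη hu₀ hψ hp hf hf'
  have hem : em m o ∈ EM η (gw w₀) := AddSubgroup.subset_closure ⟨m, o, hm, rfl⟩
  have hem' : em m' o' ∈ EM η (gw w₀) := AddSubgroup.subset_closure ⟨m', o', hm', rfl⟩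
  have hFt : ∀ (g : Perm X) (f f' : (X → Fin 2) → ℤ),
      (∀ b, Rr w₀ t (cx v) g b = ((f b : ℤ) : ℂ)) →
      (∀ b, Rr w₀ t' (cx v') g b = ((f' b : ℤ) : ℂ)) →
      Fterm w₀ t t' σ ψ (cx v) (cx v') g = σ g (ψ (fvB f f')) := by
    intro g f f' hf hf'
    unfold Fterm
    congr 2
    funext b b'
    rw [hf, hf']
    rfl
  -- the term of `1`
  have hone : ∃ x ∈ LZ σ w₁, Fterm w₀ t t' σ ψ (cx v) (cx v') 1 = w₁ + (x + x) := by
    obtain ⟨f, hfE, hf⟩ := hv.rest 1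
    obtain ⟨f', hfE', hf'⟩ := hv'.rest 1
    have h1 : ∀ b, Odd (f b) ↔ Odd (em m o b) := by
      intro b
      rw [fv_odd_iff hη hX hA hv hf b, hodd b, inv_one]
      rfl
    have h1' : ∀ b, Odd (f' b) ↔ Odd (em m' o' b) := by
      intro b
      rw [fv_odd_iff hη hX hA' hv' hf' b, hodd' b, inv_one]
      rfl
    obtain ⟨f₁, hf₁, e1⟩ := EM_pure hη hu₀ (sub_mem hfE hem) (by
      intro b
      rw [Pi.sub_apply, Int.even_sub', h1 b])
    obtain ⟨f₁', hf₁', e1'⟩ := EM_pure hη hu₀ (sub_mem hfE' hem') (by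
      intro b
      rw [Pi.sub_apply, Int.even_sub', h1' b])
    have e2 : f = em m o + (f₁ + f₁) := by rw [← e1]; abel
    have e2' : f' = em m' o' + (f₁' + f₁') := by rw [← e1']; abel
    refine ⟨ψ (fvB f₁ f') + ψ (fvB (em m o) f₁'), add_mem (hpsi hf₁ hfE') (hpsi hem hf₁'), ?_⟩
    rw [hFt 1 f f' hf hf']
    have e3 : σ (1 : Perm X) (ψ (fvB f f')) = ψ (fvB f f') := by
      rw [map_one]; rfl
    have e4 : fvB (em m o) (em m' o') = zqC η (gw w₀) p := by
      funext b b'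
      unfold fvB zqC
      rw [← hprod]
      push_cast
      rfl
    have e5 : ψ (fvB f f') = ψ (fvB (em m o) f') + (ψ (fvB f₁ f') + ψ (fvB f₁ f')) := by
      conv_lhs => rw [e2]
      rw [fvB_add_left, fvB_add_left, map_add, map_add]
    have e6 : ψ (fvB (em m o) f') = w₁ + (ψ (fvB (em m o) f₁') + ψ (fvB (em m o) f₁')) := by
      rw [hw₁, ← e4]
      conv_lhs => rw [e2']
      rw [fvB_add_right, fvB_add_right, map_add, map_add]
    rw [e3, e5, e6]
    abel
  -- the other terms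
  have hother : ∀ g : Perm X, gw w₀ ∘ (g⁻¹ : Perm X) ≠ gw w₀ →
      ∃ x ∈ LZ σ w₁, Fterm w₀ t t' σ ψ (cx v) (cx v') g = x + x := by
    intro g hg
    obtain ⟨f, hfE, hf⟩ := hv.rest g
    obtain ⟨f', hfE', hf'⟩ := hv'.rest g
    rw [hFt g f f' hf hf']
    have hor : (∀ b, Even (f b)) ∨ ∀ b, Even (f' b) := by
      by_contra hcon
      push Not at hcon
      obtain ⟨⟨b, hb⟩, b', hb'⟩ := hcon
      rw [Int.not_even_iff_odd] at hb hb'
      rw [fv_odd_iff hη hX hA hv hf b] at hb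
      rw [fv_odd_iff hη hX hA' hv' hf' b'] at hb'
      apply hg
      have h1 : gw (dw (gw w₀) b ∘ (g⁻¹ : Perm X)) = gw w₀ ∘ (g⁻¹ : Perm X) := by
        conv_rhs => rw [← fv_gw_dw (gw w₀) b]
        rfl
      have h2 : gw (dw (gw w₀) b' ∘ (g⁻¹ : Perm X)) = gw w₀ ∘ (g⁻¹ : Perm X) := by
        conv_rhs => rw [← fv_gw_dw (gw w₀) b']
        rfl
      have h3 := uniq_words hη hX hA hb hb' (h1.trans h2.symm)
      rw [← h1, h3]
    rcases hor with hev | hev
    · obtain ⟨f₁, hf₁, e1⟩ := EM_pure hη hu₀ hfE hev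
      refine ⟨σ g (ψ (fvB f₁ f')), fv_stable σ w₁ g (hpsi hf₁ hfE'), ?_⟩
      conv_lhs => rw [e1]
      rw [fvB_add_left, map_add, map_add]
    · obtain ⟨f₁, hf₁, e1⟩ := EM_pure hη hu₀ hfE' hev
      refine ⟨σ g (ψ (fvB f f₁)), fv_stable σ w₁ g (hpsi hfE hf₁), ?_⟩
      conv_lhs => rw [e1]
      rw [fvB_add_right, map_add, map_add]
  intro hzero
  rw [sum_Fterm hψ] at hzero
  have hcard : ((Rs (gw w₀)).card : ℂ) ≠ 0 := by
    have : 0 < (Rs (gw w₀)).card := by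
      refine Finset.card_pos.mpr ⟨1, ?_⟩
      unfold Rs
      rw [Finset.mem_filter]
      exact ⟨Finset.mem_univ _, rfl⟩
    exact_mod_cast this.ne'
  have hsum := (smul_eq_zero.1 hzero).resolve_left hcard
  set U : Finset (Word X) := (univ : Finset (Perm X)).image
    (fun g : Perm X => gw w₀ ∘ (g : X → X)) with hU
  have hgu : ∀ u ∈ U, u ∘ gu (gw w₀) u = gw w₀ := by
    intro u hu
    rw [hU, Finset.mem_image] at hu
    obtain ⟨g, -, rfl⟩ := hu
    refine gu_spec ⟨g⁻¹, ?_⟩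
    funext x
    simp
  have hmem₀ : gw w₀ ∈ U := by
    rw [hU, Finset.mem_image]
    exact ⟨1, Finset.mem_univ _, rfl⟩
  have hall : ∀ u ∈ U, ∃ x ∈ LZ σ w₁, Fterm w₀ t t' σ ψ (cx v) (cx v') (gu (gw w₀) u) =
      (if u = gw w₀ then w₁ else 0) + (x + x) := by
    intro u hu
    by_cases huw : u = gw w₀
    · subst huw
      rw [if_pos rfl]
      have h1 := Fterm_mul hψ (cx v) (cx v') 1 (gu (gw w₀) (gw w₀)) (hgu _ hu)
      rw [one_mul] at h1
      rw [h1]
      exact hone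
    · rw [if_neg huw]
      obtain ⟨x, hx, hx2⟩ := hother (gu (gw w₀) u) (by
        intro hcon
        apply huw
        funext y
        have h1 := congrFun (hgu u hu) ((gu (gw w₀) u)⁻¹ y)
        have h4 : (gu (gw w₀) u) ((gu (gw w₀) u)⁻¹ y) = y := by simp
        have h5 := congrFun hcon y
        simp only [Function.comp_apply] at h1 h5
        rw [h4] at h1
        rw [h1, h5])
      exact ⟨x, hx, by rw [hx2, zero_add]⟩
  choose! x hx hx2 using hall
  have h1 : ∑ u ∈ U, Fterm w₀ t t' σ ψ (cx v) (cx v') (gu (gw w₀) u) =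
      w₁ + (∑ u ∈ U, x u + ∑ u ∈ U, x u) := by
    rw [Finset.sum_congr rfl hx2, Finset.sum_add_distrib, Finset.sum_ite_eq' U (gw w₀),
      if_pos hmem₀, Finset.sum_add_distrib]
  rw [h1] at hsum
  have h2 : w₁ = (-∑ u ∈ U, x u) + (-∑ u ∈ U, x u) := by
    rw [← sub_eq_zero]
    rw [← hsum]
    abel
  have h3 : w₁ = 0 := naka σ w₁ ⟨-∑ u ∈ U, x u, neg_mem (sum_mem fun u hu => hx u hu), h2⟩
  exact hψ0 p hp (hw₁ ▸ h3)

end Crest.Agent.SaxlN
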