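import Crest.Agent.SaxlN.Ideal
import Crest.Agent.Saxl.Final

/-!
CHUNK FINSTEP (medium): from the bilinear map to the statement.
-/

set_option autoImplicit false

namespace Crest.Agent.SaxlN

open Finset Equiv
open Crest.Agent.Saxl

variable {X : Type} [Fintype X] [DecidableEq X]

/-- PROOF. Expand `v` and `v'` by `IsoV.mem_span` (`(R', C') = (R, C) ∘ h`; `IsoV τ' v' R' C'` implies
`IsoV τ' v' R C`): some `F (f a) (f' a') ≠ 0`, so `(x, y) ↦ F (f x) (f' y)` is a nonzero equivariant bilinear map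
`IV × IV → W`; it gives a nonzero intertwiner `IVrep ⊗ IVrep → σ`, surjective because `σ` is irreducible; Maschke gives a
section, a nonzero element of `IntertwiningMap σ (tprod ..)` (see Saxl/Final.lean for the same argument). -/
theorem final_step {W : Type} [AddCommGroup W] [Module ℂ W] [FiniteDimensional ℂ W]
    (σ : Representation ℂ (Perm X) W) (hσ : Representation.IsIrreducible σ)
    {R C R' C' : Word X} (hRC : IsTab (fun _ => 0) R C) (hconj : ∃ h : Perm X, R' = R ∘ h ∧ C' = C ∘ h)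
    (F : (Perm X → ℂ) →ₗ[ℂ] (Perm X → ℂ) →ₗ[ℂ] W)
    (hF : ∀ (x : Perm X) v v', F (lreg X x v) (lreg X x v') = σ x (F v v'))
    {v v' : Perm X → ℂ} (hv : IsoV (lreg X) v R C) (hv' : IsoV (lreg X) v' R' C')
    (hne : F v v' ≠ 0) :
    Nontrivial (Representation.IntertwiningMap σ (Representation.tprod (IVrep R C) (IVrep R C))) := by
  classical
  obtain ⟨h0, hR', hC'⟩ := hconj
  have hv'2 : IsoV (lreg X) v' R C := by
    intro ρ κ hρκ hg
    obtain ⟨h, h1, h2⟩ := hv' ρ κ hρκ hg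
    refine ⟨h0 * h, ?_, ?_⟩
    · rw [h1, hR']; rfl
    · rw [h2, hC']; rfl
  have hs := IsoV.mem_span hv hRC
  have hs' := IsoV.mem_span hv'2 hRC
  -- some pair has a nonzero image
  have hex : ∃ (f f' : IV R C →ₗ[ℂ] (Perm X → ℂ)) (a a' : IV R C),
      (∀ g b, f (IVrep R C g b) = lreg X g (f b)) ∧
      (∀ g b, f' (IVrep R C g b) = lreg X g (f' b)) ∧ F (f a) (f' a') ≠ 0 := by
    by_contra hcon
    apply hne
    have hall : ∀ x ∈ {x : Perm X → ℂ | ∃ (f : IV R C →ₗ[ℂ] (Perm X → ℂ)) (a : IV R C),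
        (∀ g b, f (IVrep R C g b) = lreg X g (f b)) ∧ x = f a},
        ∀ y ∈ {x : Perm X → ℂ | ∃ (f : IV R C →ₗ[ℂ] (Perm X → ℂ)) (a : IV R C),
        (∀ g b, f (IVrep R C g b) = lreg X g (f b)) ∧ x = f a}, F x y = 0 := by
      rintro x ⟨f, a, hf, rfl⟩ y ⟨f', a', hf', rfl⟩
      by_contra h0
      exact hcon ⟨f, f', a, a', hf, hf', h0⟩
    have h1 : ∀ x ∈ {x : Perm X → ℂ | ∃ (f : IV R C →ₗ[ℂ] (Perm X → ℂ)) (a : IV R C),
        (∀ g b, f (IVrep R C g b) = lreg X g (f b)) ∧ x = f a}, F x v' = 0 := by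
      intro x hx
      have h2 : v' ∈ LinearMap.ker (F x) := by
        refine (Submodule.span_le.2 ?_) hs'
        intro y hy
        exact hall x hx y hy
      exact h2
    have h3 : v ∈ LinearMap.ker (F.flip v') := by
      refine (Submodule.span_le.2 ?_) hs
      intro x hx
      exact h1 x hx
    exact h3
  obtain ⟨f, f', a, a', hf, hf', h0⟩ := hex
  let T : TensorProduct ℂ (IV R C) (IV R C) →ₗ[ℂ] W := TensorProduct.lift (F.compl₁₂ f f')
  have hTt : ∀ x y, T (x ⊗ₜ[ℂ] y) = F (f x) (f' y) := fun x y => rfl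
  refine fin_maschke _ σ hσ T ?_ (a ⊗ₜ[ℂ] a') ?_
  · intro g w
    induction w using TensorProduct.induction_on with
    | zero => simp
    | tmul x y =>
      rw [Representation.tprod_apply, TensorProduct.map_tmul, hTt, hTt, hf, hf', hF]
    | add x y hx hy => rw [map_add, map_add, hx, hy, map_add, map_add]
  · rw [hTt]
    exact h0

end Crest.Agent.SaxlN
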