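import Crest.Agent.SaxlN.EvQ
import Crest.Agent.SaxlN.MergeQ
import Crest.Agent.Saxl.YS
import Crest.Agent.Saxl.Young

/-!
CHUNK PSIQ (easy assembly, like Saxl/Psi).
-/

set_option autoImplicit false

namespace Crest.Agent.SaxlN

open Finset Equiv
open Crest.Agent.Saxl

variable {X : Type} [Fintype X] [DecidableEq X]

/-- PROOF. `exists_pathQ` gives `p₀`; `exists_intertwiner` for `G = Hs u`, `E = YE u ρ κ` (`YE_sandwich`, `YE_sq`),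
`V = FF X` (`frepH u`), `W` with `twist σ u ε`; for another path `p`: `path_conj`, `zq_comp`. -/
theorem psiQ {q : ℕ} {η : ℕ → ℕ} (hη : LD q η) {u ρ κ : Word X} (hu : IsStripL η u)
    (hT : IsTab u ρ κ) (hρ : ∀ x, ρ x < 4) (hρ0 : ∀ x, η (2 * u x + 1) = 0 → ρ x = 0)
    {W : Type} [AddCommGroup W] [Module ℂ W] (σ : Representation ℂ (Perm X) W)
    (ε : Hs u →* ℤˣ) (w : W) (hw : (twist σ u ε).asAlgebraHom (YE u ρ κ) w ≠ 0) :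
    ∃ ψ : FF X →ₗ[ℂ] W,
      (∀ h : Hs u, ∀ F, ψ (frep X h F) = (((ε h : ℤˣ) : ℤ) : ℂ) • σ h (ψ F)) ∧
      ∀ p, IsPath u p → ψ (zqC η u p) ≠ 0 := by
  classical
  obtain ⟨p₀, hp₀, hz⟩ := exists_pathQ hη hu hT hρ hρ0
  obtain ⟨γ, hγ, hE2⟩ := YE_sq hT
  obtain ⟨f, hf, hf0⟩ := exists_intertwiner (YE u ρ κ) (YE_sandwich hT) γ hγ hE2
    (frepH u) (twist σ u ε) (zqC η u p₀) w hz hw
  refine ⟨f, ?_, ?_⟩
  · intro h F
    exact hf h F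
  · intro p hp hzero
    obtain ⟨h, hh, hph⟩ := path_conj hp hp₀
    have hhi : u ∘ (h⁻¹ : Perm X) = u := (Hs u).inv_mem (x := h) hh
    have e1 : zqC η u p = frep X h⁻¹ (zqC η u p₀) := by
      funext b b'
      rw [frep_apply]
      unfold zqC
      rw [zq_comp h⁻¹ hhi, inv_inv, hph]
    have h1 := hf ⟨h⁻¹, hhi⟩ (zqC η u p₀)
    have h2 : frepH u ⟨h⁻¹, hhi⟩ (zqC η u p₀) = frep X h⁻¹ (zqC η u p₀) := rfl
    rw [h2, ← e1, hzero] at h1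
    have h3 : (0 : W) = (((ε ⟨h⁻¹, hhi⟩ : ℤˣ) : ℤ) : ℂ) • σ h⁻¹ (f (zqC η u p₀)) := h1
    have h4 : (((ε ⟨h⁻¹, hhi⟩ : ℤˣ) : ℤ) : ℂ) ≠ 0 := by
      exact_mod_cast (ε ⟨h⁻¹, hhi⟩).ne_zero
    have h5 : σ h⁻¹ (f (zqC η u p₀)) = 0 := (smul_eq_zero.1 h3.symm).resolve_left h4
    apply hf0
    have h6 : σ h (σ h⁻¹ (f (zqC η u p₀))) = f (zqC η u p₀) := by
      rw [← Module.End.mul_apply, ← map_mul, mul_inv_cancel, map_one, Module.End.one_apply]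
    rw [← h6, h5, map_zero]

end Crest.Agent.SaxlN
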