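import Crest.Agent.SaxlN.Sgn
import Crest.Agent.Saxl.RowFour

/-!
CHUNK SYSSEMI (hard, ~250 lines; see Saxl/Dk.lean for the same kind of gluing).
-/

set_option autoImplicit false

namespace Crest.Agent.SaxlN

open Finset Equiv
open Crest.Agent.Saxl

section rows

variable {X : Type} [Fintype X] [DecidableEq X]

/-- `exists_four_rows` with `m` rows, and with an explicit translate of `w` -/
private theorem exists_m_rows {W : Type} [AddCommGroup W] [Module ℂ W] (m : ℕ)
    (σ : Representation ℂ (Perm X) W) (q : X → Fin m) (w : W) (hw : w ≠ 0)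
    (hinv : ∀ g ∈ Rs q, σ g w = w) :
    ∃ ρ κ : Word X, IsTab (fun _ => 0) ρ κ ∧ (∀ x, ρ x < m) ∧ ∃ g, yactL σ ρ κ (σ g w) ≠ 0 := by
  classical
  set W' : Submodule ℂ W := Submodule.span ℂ (Set.range fun g : Perm X => σ g w) with hW'
  have hmem : ∀ g, σ g w ∈ W' := fun g => Submodule.subset_span ⟨g, rfl⟩
  have hinvW : ∀ g, ∀ x ∈ W', σ g x ∈ W' := by
    intro g x hx
    refine Submodule.span_induction (p := fun x _ => σ g x ∈ W') ?_ ?_ ?_ ?_ hx
    · rintro _ ⟨g', rfl⟩
      have : σ g (σ g' w) = σ (g * g') w := by rw [map_mul]; rfl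
      simp only
      rw [this]; exact hmem _
    · rw [map_zero]; exact W'.zero_mem
    · intro x y _ _ hx hy
      rw [map_add]; exact W'.add_mem hx hy
    · intro a x _ hx
      rw [map_smul]; exact W'.smul_mem a hx
  have hw1 : w ∈ W' := by
    have := hmem 1
    rwa [map_one] at this
  have hnt : Nontrivial W' := ⟨⟨⟨w, hw1⟩, 0, fun h => hw (congrArg Subtype.val h)⟩⟩
  obtain ⟨ρ, κ, htab, x, hx⟩ := exists_yact_ne_zero (subRep σ W' hinvW)
  have hx' : yactL σ ρ κ (x : W) ≠ 0 := by
    rw [yactL_apply, ← yact_subRep σ W' hinvW]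
    intro h
    exact hx (Subtype.ext h)
  obtain ⟨g, hg0⟩ : ∃ g : Perm X, yactL σ ρ κ (σ g w) ≠ 0 := by
    by_contra hcon
    push Not at hcon
    apply hx'
    have hle : W' ≤ LinearMap.ker (yactL σ ρ κ) := by
      rw [hW', Submodule.span_le]
      rintro _ ⟨g, rfl⟩
      exact hcon g
    exact hle x.2
  have hg := hg0
  rw [yactL_apply] at hg
  refine ⟨ρ, κ, htab, ?_, g, hg0⟩
  intro x
  by_contra hx4
  push Not at hx4
  apply hg
  -- the letters of one column
  have hy : ∀ i : Fin (m + 1), ∃ y, ρ y = i ∧ κ y = κ x := by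
    intro i
    obtain ⟨y, _, h1, h2⟩ := htab.lower x i (κ x) (by have := i.2; omega) le_rfl
    exact ⟨y, h1, h2⟩
  choose y hy1 hy2 using hy
  obtain ⟨i, i', hne, hq⟩ := Fintype.exists_ne_map_eq_of_card_lt
    (fun i : Fin (m + 1) => q (g⁻¹ (y i))) (by simp)
  have hyne : y i ≠ y i' := by
    intro h
    apply hne
    apply Fin.ext
    rw [← hy1 i, ← hy1 i', h]
  set τ : Perm X := swap (y i) (y i') with hτ
  have hτκ : κ ∘ τ = κ := by
    funext z
    simp only [Function.comp_apply, hτ]
    rcases eq_or_ne z (y i) with h | h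
    · rw [h, swap_apply_left, hy2, hy2]
    · rcases eq_or_ne z (y i') with h' | h'
      · rw [h', swap_apply_right, hy2, hy2]
      · rw [swap_apply_of_ne_of_ne h h']
  have hτv : σ τ (σ g w) = σ g w := by
    have h1 : τ * g = g * swap (g⁻¹ (y i)) (g⁻¹ (y i')) := by
      rw [hτ]
      ext z
      simp only [Perm.mul_apply]
      rcases eq_or_ne (g z) (y i) with h | h
      · have hz : z = g⁻¹ (y i) := by rw [← h]; simp
        rw [h, swap_apply_left, hz, swap_apply_left]; simp
      · rcases eq_or_ne (g z) (y i') with h' | h'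
        · have hz : z = g⁻¹ (y i') := by rw [← h']; simp
          rw [h', swap_apply_right, hz, swap_apply_right]; simp
        · rw [swap_apply_of_ne_of_ne h h', swap_apply_of_ne_of_ne]
          · rintro rfl; exact h (by simp)
          · rintro rfl; exact h' (by simp)
    have h2 : σ τ (σ g w) = σ (τ * g) w := by rw [map_mul]; rfl
    have h3 : σ (g * swap (g⁻¹ (y i)) (g⁻¹ (y i'))) w =
        σ g (σ (swap (g⁻¹ (y i)) (g⁻¹ (y i'))) w) := by rw [map_mul]; rfl
    rw [h2, h1, h3, hinv]
    simp only [Rs, mem_filter, mem_univ, true_and]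
    funext z
    simp only [Function.comp_apply]
    rcases eq_or_ne z (g⁻¹ (y i)) with h | h
    · rw [h, swap_apply_left, hq]
    · rcases eq_or_ne z (g⁻¹ (y i')) with h' | h'
      · rw [h', swap_apply_right, hq]
      · rw [swap_apply_of_ne_of_ne h h']
  set v : W := σ g w with hv
  have hS : ∑ c ∈ Rs κ, (((Perm.sign c : ℤˣ) : ℤ) : ℂ) • σ c v = 0 := by
    have h1 : ∑ c ∈ Rs κ, (((Perm.sign c : ℤˣ) : ℤ) : ℂ) • σ c v =
        ∑ c ∈ Rs κ, (((Perm.sign (c * τ) : ℤˣ) : ℤ) : ℂ) • σ (c * τ) v := by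
      refine (sum_equiv (Equiv.mulRight τ) ?_ ?_).symm
      · intro c
        simp only [Rs, mem_filter, mem_univ, true_and, Equiv.coe_mulRight]
        constructor
        · intro h
          funext z
          have e1 := congrFun h (τ z)
          have e2 := congrFun hτκ z
          simp only [Function.comp_apply] at e1 e2
          simp only [Function.comp_apply, Perm.mul_apply]
          rw [e1, e2]
        · intro h
          funext z
          have e1 := congrFun h (τ z)
          have e2 := congrFun hτκ z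
          have e3 : τ (τ z) = z := by rw [hτ]; simp
          simp only [Function.comp_apply, Perm.mul_apply, e3] at e1 e2
          simp only [Function.comp_apply]
          rw [e1, e2]
      · intro c _
        rfl
    have h2 : ∑ c ∈ Rs κ, (((Perm.sign (c * τ) : ℤˣ) : ℤ) : ℂ) • σ (c * τ) v =
        - ∑ c ∈ Rs κ, (((Perm.sign c : ℤˣ) : ℤ) : ℂ) • σ c v := by
      rw [← sum_neg_distrib]
      refine sum_congr rfl fun c _ => ?_
      have e1 : σ (c * τ) v = σ c v := by
        rw [map_mul]
        change σ c (σ τ v) = σ c v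
        rw [hτv]
      rw [e1, Perm.sign_mul, hτ, Perm.sign_swap hyne]
      simp
    have h3 := h1.trans h2
    have h4 : (2 : ℂ) • ∑ c ∈ Rs κ, (((Perm.sign c : ℤˣ) : ℤ) : ℂ) • σ c v = 0 := by
      rw [two_smul]
      nth_rewrite 1 [h3]
      simp
    exact (smul_eq_zero.mp h4).resolve_left two_ne_zero
  unfold yact
  refine sum_eq_zero fun r _ => ?_
  have : ∑ c ∈ Rs κ, (((Perm.sign c : ℤˣ) : ℤ) : ℂ) • σ (r * c) v =
      σ r (∑ c ∈ Rs κ, (((Perm.sign c : ℤˣ) : ℤ) : ℂ) • σ c v) := by
    rw [map_sum]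
    refine sum_congr rfl fun c _ => ?_
    rw [map_smul, map_mul]
    rfl
  rw [this, hS, map_zero]

end rows

section glue

set_option linter.unusedSectionVars false

variable {X : Type} [Fintype X] [DecidableEq X]

/-- gluing of words along the block `u = i` -/
private def gl (u : Word X) (i : ℕ) (a : Word {x // u x = i}) (b : Word {x // ¬ u x = i}) :
    Word X :=
  fun x => if h : u x = i then a ⟨x, h⟩ else b ⟨x, h⟩

private theorem gl_of_eq {u : Word X} {i : ℕ} (a : Word {x // u x = i})
    (b : Word {x // ¬ u x = i}) {x : X} (h : u x = i) : gl u i a b x = a ⟨x, h⟩ := by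
  simp [gl, h]

private theorem gl_of_ne {u : Word X} {i : ℕ} (a : Word {x // u x = i})
    (b : Word {x // ¬ u x = i}) {x : X} (h : ¬ u x = i) : gl u i a b x = b ⟨x, h⟩ := by
  simp [gl, h]

private theorem gl_inj {u : Word X} {i : ℕ} {a a' : Word {x // u x = i}}
    {b b' : Word {x // ¬ u x = i}} :
    gl u i a b = gl u i a' b' ↔ a = a' ∧ b = b' := by
  constructor
  · intro h
    constructor
    · funext x
      have := congrFun h x.1
      rwa [gl_of_eq a b x.2, gl_of_eq a' b' x.2] at this
    · funext x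
      have := congrFun h x.1
      rwa [gl_of_ne a b x.2, gl_of_ne a' b' x.2] at this
  · rintro ⟨rfl, rfl⟩
    rfl

/-- the blocks of the remaining part -/
private def ur (u : Word X) (i : ℕ) : Word {x // ¬ u x = i} := fun x => u x.1

private theorem gl_comp (u : Word X) (i : ℕ) (a : Word {x // u x = i})
    (b : Word {x // ¬ u x = i}) (g : Perm {x // u x = i}) (h : Perm {x // ¬ u x = i}) :
    gl u i a b ∘ (Perm.subtypeCongr g h : Perm X) = gl u i (a ∘ g) (b ∘ h) := by
  funext x
  by_cases hx : u x = i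
  · rw [Function.comp_apply, Perm.subtypeCongr.left_apply g h hx,
      gl_of_eq a b (g ⟨x, hx⟩).2, gl_of_eq (a ∘ g) (b ∘ h) hx]
    rfl
  · rw [Function.comp_apply, Perm.subtypeCongr.right_apply g h hx,
      gl_of_ne a b (h ⟨x, hx⟩).2, gl_of_ne (a ∘ g) (b ∘ h) hx]
    rfl

private theorem sc_mem (u : Word X) (i : ℕ) (g : Perm {x // u x = i})
    (h : Perm {x // ¬ u x = i}) (hh : h ∈ Hs (ur u i)) :
    (Perm.subtypeCongr g h : Perm X) ∈ Hs u := by
  rw [mem_Hs] at hh ⊢
  funext x
  by_cases hx : u x = i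
  · rw [Function.comp_apply, Perm.subtypeCongr.left_apply g h hx, (g ⟨x, hx⟩).2, hx]
  · rw [Function.comp_apply, Perm.subtypeCongr.right_apply g h hx]
    have h1 := congrFun hh ⟨x, hx⟩
    simpa only [Function.comp_apply, ur] using h1

/-- the group isomorphism `Perm S × Hs u' ≃ Hs u`, as a homomorphism -/
private def glHom (u : Word X) (i : ℕ) : Perm {x // u x = i} × Hs (ur u i) →* Hs u where
  toFun p := ⟨Perm.subtypeCongr p.1 (p.2 : Perm _), sc_mem u i p.1 _ p.2.2⟩
  map_one' := by
    apply Subtype.ext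
    exact (Perm.subtypeCongrHom (fun x => u x = i)).map_one
  map_mul' p q := by
    apply Subtype.ext
    exact (Perm.subtypeCongrHom (fun x => u x = i)).map_mul
      (p.1, (p.2 : Perm _)) (q.1, (q.2 : Perm _))

private theorem glHom_coe (u : Word X) (i : ℕ) (p : Perm {x // u x = i} × Hs (ur u i)) :
    ((glHom u i p : Hs u) : Perm X) = Perm.subtypeCongr p.1 (p.2 : Perm _) := rfl

private theorem glHom_bij (u : Word X) (i : ℕ) : Function.Bijective (glHom u i) := by
  constructor
  · rintro ⟨a, b⟩ ⟨a', b'⟩ h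
    have h1 : (Perm.subtypeCongr a (b : Perm _) : Perm X) = Perm.subtypeCongr a' (b' : Perm _) :=
      congrArg Subtype.val h
    have h2 : (a, (b : Perm {x // ¬ u x = i})) = (a', (b' : Perm {x // ¬ u x = i})) :=
      Perm.subtypeCongrHom_injective (fun x => u x = i) h1
    rw [Prod.mk.injEq] at h2 ⊢
    exact ⟨h2.1, Subtype.ext h2.2⟩
  · rintro ⟨g, hg⟩
    have hg' : ∀ x, u (g x) = u x := fun x => congrFun hg x
    have h0 : ∀ x, u (g x) = i ↔ u x = i := fun x => by rw [hg']
    have h1 : ∀ x, ¬ u (g x) = i ↔ ¬ u x = i := fun x => by rw [hg']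
    have hm : g.subtypePerm h1 ∈ Hs (ur u i) := by
      rw [mem_Hs]
      funext x
      exact hg' x
    refine ⟨(g.subtypePerm h0, ⟨g.subtypePerm h1, hm⟩), ?_⟩
    apply Subtype.ext
    rw [glHom_coe]
    change (g.subtypePerm h0).subtypeCongr (g.subtypePerm h1) = g
    ext x
    by_cases hx : u x = i
    · rw [Perm.subtypeCongr.left_apply (p := fun x => u x = i) (a := x) _ _ hx]
      rfl
    · rw [Perm.subtypeCongr.right_apply (p := fun x => u x = i) (a := x) _ _ hx]
      rfl

private noncomputable def glEquiv (u : Word X) (i : ℕ) :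
    Perm {x // u x = i} × Hs (ur u i) ≃* Hs u :=
  MulEquiv.ofBijective (glHom u i) (glHom_bij u i)

private theorem sum_gl {M : Type*} [AddCommMonoid M] (u : Word X) (i : ℕ)
    (a : Word {x // u x = i}) (b : Word {x // ¬ u x = i}) (F : Hs u → M) :
    ∑ r ∈ (univ : Finset (Hs u)).filter
        (fun r : Hs u => gl u i a b ∘ (r : Perm X) = gl u i a b), F r =
      ∑ g ∈ Rs a, ∑ h ∈ (univ : Finset (Hs (ur u i))).filter
        (fun h : Hs (ur u i) => b ∘ (h : Perm _) = b), F (glHom u i (g, h)) := by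
  rw [← Finset.sum_product']
  symm
  refine Finset.sum_equiv (glEquiv u i).toEquiv ?_ ?_
  · rintro ⟨g, h⟩
    have e : ((glEquiv u i).toEquiv (g, h) : Hs u) = glHom u i (g, h) := rfl
    rw [e]
    simp only [mem_product, mem_filter, mem_univ, true_and, Rs, glHom_coe, gl_comp, gl_inj]
  · rintro ⟨g, h⟩ _
    rfl

private theorem subtypeCongr_eq (u : Word X) (i : ℕ) (g : Perm {x // u x = i})
    (h : Perm {x // ¬ u x = i}) :
    (Perm.subtypeCongr g h : Perm X) = Perm.ofSubtype h * Perm.ofSubtype g := by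
  ext x
  by_cases hx : u x = i
  · rw [Perm.subtypeCongr.left_apply (p := fun x => u x = i) (a := x) _ _ hx, Perm.mul_apply,
      Perm.ofSubtype_apply_of_mem g hx,
      Perm.ofSubtype_apply_of_not_mem h (not_not.2 (g ⟨x, hx⟩).2)]
  · rw [Perm.subtypeCongr.right_apply (p := fun x => u x = i) (a := x) _ _ hx, Perm.mul_apply,
      Perm.ofSubtype_apply_of_not_mem g hx, Perm.ofSubtype_apply_of_mem h hx]

private theorem ofSubtype_comm (u : Word X) (i : ℕ) (g : Perm {x // u x = i})
    (h : Perm {x // ¬ u x = i}) :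
    (Perm.ofSubtype h * Perm.ofSubtype g : Perm X) = Perm.ofSubtype g * Perm.ofSubtype h := by
  ext x
  by_cases hx : u x = i
  · rw [Perm.mul_apply, Perm.mul_apply, Perm.ofSubtype_apply_of_mem g hx,
      Perm.ofSubtype_apply_of_not_mem h (not_not.2 (g ⟨x, hx⟩).2),
      Perm.ofSubtype_apply_of_not_mem h (not_not.2 hx), Perm.ofSubtype_apply_of_mem g hx]
  · rw [Perm.mul_apply, Perm.mul_apply, Perm.ofSubtype_apply_of_not_mem g hx,
      Perm.ofSubtype_apply_of_mem h hx, Perm.ofSubtype_apply_of_not_mem g (h ⟨x, hx⟩).2]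

/-- the twisted Young symmetriser acting in a representation -/
private theorem asAlg_YE' {W : Type} [AddCommGroup W] [Module ℂ W]
    (σ : Representation ℂ (Perm X) W) (u : Word X) (ε : Hs u →* ℤˣ) (ρ κ : Word X) (w : W) :
    (twist σ u ε).asAlgebraHom (YE u ρ κ) w =
      ∑ r ∈ (univ : Finset (Hs u)).filter (fun r : Hs u => ρ ∘ (r : Perm X) = ρ),
        ∑ c ∈ (univ : Finset (Hs u)).filter (fun c : Hs u => κ ∘ (c : Perm X) = κ),
          (((Perm.sign (c : Perm X) : ℤˣ) : ℤ) : ℂ) •
            ((((ε (r * c) : ℤˣ) : ℤ) : ℂ) • σ ((r * c : Hs u) : Perm X) w) := by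
  unfold YE
  simp only [map_sum, map_smul, Representation.asAlgebraHom_of, LinearMap.sum_apply,
    LinearMap.smul_apply]
  rfl

/-- the action of the permutations of one block, twisted by the sign if `tw` -/
private noncomputable def bl {W : Type} [AddCommGroup W] [Module ℂ W] (u : Word X) (i : ℕ)
    (tw : Bool) (σ : Representation ℂ (Perm X) W) :
    Representation ℂ (Perm {x // u x = i}) W where
  toFun g := (((if tw then Perm.sign g else (1 : ℤˣ) : ℤˣ) : ℤ) : ℂ) • σ (Perm.ofSubtype g)
  map_one' := by cases tw <;> simp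
  map_mul' g h := by
    ext w
    cases tw
    · simp
    · simp only [if_true, map_mul, Units.val_mul, Int.cast_mul, LinearMap.smul_apply,
        Module.End.mul_apply, map_smul, smul_smul]
      rw [mul_comm]

private theorem bl_apply {W : Type} [AddCommGroup W] [Module ℂ W] (u : Word X) (i : ℕ)
    (tw : Bool) (σ : Representation ℂ (Perm X) W) (g : Perm {x // u x = i}) (w : W) :
    bl u i tw σ g w =
      (((if tw then Perm.sign g else (1 : ℤˣ) : ℤˣ) : ℤ) : ℂ) • σ (Perm.ofSubtype g) w := rfl

/-- the action of the permutations of the other blocks -/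
private noncomputable def rt {W : Type} [AddCommGroup W] [Module ℂ W] (u : Word X) (i : ℕ)
    (σ : Representation ℂ (Perm X) W) :
    Representation ℂ (Perm {x // ¬ u x = i}) W where
  toFun g := σ (Perm.ofSubtype g)
  map_one' := by simp
  map_mul' g h := by simp

private theorem rt_apply {W : Type} [AddCommGroup W] [Module ℂ W] (u : Word X) (i : ℕ)
    (σ : Representation ℂ (Perm X) W) (g : Perm {x // ¬ u x = i}) (w : W) :
    rt u i σ g w = σ (Perm.ofSubtype g) w := rfl

private theorem bl_comm {W : Type} [AddCommGroup W] [Module ℂ W] (u : Word X) (i : ℕ)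
    (tw : Bool) (σ : Representation ℂ (Perm X) W) (g : Perm {x // u x = i})
    (h : Perm {x // ¬ u x = i}) (w : W) :
    rt u i σ h (bl u i tw σ g w) = bl u i tw σ g (rt u i σ h w) := by
  rw [bl_apply, bl_apply, rt_apply, rt_apply, map_smul]
  congr 1
  rw [← Module.End.mul_apply, ← map_mul σ, ofSubtype_comm u i g h, map_mul σ,
    Module.End.mul_apply]

private theorem yactL_bl_comm {W : Type} [AddCommGroup W] [Module ℂ W] (u : Word X) (i : ℕ)
    (tw : Bool) (σ : Representation ℂ (Perm X) W) (ρ κ : Word {x // u x = i})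
    (h : Perm {x // ¬ u x = i}) (w : W) :
    rt u i σ h (yactL (bl u i tw σ) ρ κ w) = yactL (bl u i tw σ) ρ κ (rt u i σ h w) := by
  simp only [yactL, LinearMap.sum_apply, LinearMap.smul_apply, map_sum, map_smul, bl_comm]

private theorem oS (u : Word X) (i : ℕ) (g : Perm {x // u x = i}) {x : X} (hx : u x = i) :
    (Perm.ofSubtype g : Perm X) x = g ⟨x, hx⟩ :=
  Perm.ofSubtype_apply_of_mem (p := fun x => u x = i) g hx

private theorem oS' (u : Word X) (i : ℕ) (g : Perm {x // u x = i}) {x : X} (hx : ¬ u x = i) :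
    (Perm.ofSubtype g : Perm X) x = x :=
  Perm.ofSubtype_apply_of_not_mem (p := fun x => u x = i) g hx

private theorem oN (u : Word X) (i : ℕ) (g : Perm {x // ¬ u x = i}) {x : X} (hx : ¬ u x = i) :
    (Perm.ofSubtype g : Perm X) x = g ⟨x, hx⟩ :=
  Perm.ofSubtype_apply_of_mem (p := fun x => ¬ u x = i) g hx

private theorem oN' (u : Word X) (i : ℕ) (g : Perm {x // ¬ u x = i}) {x : X} (hx : u x = i) :
    (Perm.ofSubtype g : Perm X) x = x :=
  Perm.ofSubtype_apply_of_not_mem (p := fun x => ¬ u x = i) g (not_not.2 hx)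

/-- words preserved by the restrictions -/
private theorem oS_comp (u w : Word X) (i : ℕ) (g : Perm {x // u x = i})
    (hg : ∀ x : {x // u x = i}, w (g x) = w x) : w ∘ (Perm.ofSubtype g : Perm X) = w := by
  funext x
  rw [Function.comp_apply]
  by_cases hx : u x = i
  · rw [oS u i g hx]
    exact hg ⟨x, hx⟩
  · rw [oS' u i g hx]

private theorem oN_comp (u w : Word X) (i : ℕ) (g : Perm {x // ¬ u x = i})
    (hg : ∀ x : {x // ¬ u x = i}, w (g x) = w x) : w ∘ (Perm.ofSubtype g : Perm X) = w := by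
  funext x
  rw [Function.comp_apply]
  by_cases hx : u x = i
  · rw [oN' u i g hx]
  · rw [oN u i g hx]
    exact hg ⟨x, hx⟩

/-- the sign twist on the block and on the rest -/
private theorem sgn_glHom (u : Word X) (i : ℕ) (s : ℕ → Bool) (g : Perm {x // u x = i})
    (h : Hs (ur u i)) :
    sgnT (fun x => s (u x)) ((glHom u i (g, h) : Hs u) : Perm X) =
      (if s i then Perm.sign g else 1) * sgnT (fun x => s (ur u i x)) (h : Perm _) := by
  have hh : ur u i ∘ (h : Perm {x // ¬ u x = i}) = ur u i := h.2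
  have hh' : ∀ x, ur u i ((h : Perm {x // ¬ u x = i}) x) = ur u i x := fun x => congrFun hh x
  have e0 : ((glHom u i (g, h) : Hs u) : Perm X) =
      Perm.ofSubtype (h : Perm {x // ¬ u x = i}) * Perm.ofSubtype g := subtypeCongr_eq u i g _
  have p1 : u ∘ (Perm.ofSubtype (h : Perm {x // ¬ u x = i}) : Perm X) = u :=
    oN_comp u u i _ hh'
  have p2 : u ∘ (Perm.ofSubtype g : Perm X) = u :=
    oS_comp u u i g fun x => by rw [(g x).2, x.2]
  have q1 : (fun x => s (u x)) ∘ (Perm.ofSubtype (h : Perm {x // ¬ u x = i}) : Perm X) =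
      fun x => s (u x) := by
    funext x
    exact congrArg s (congrFun p1 x)
  have q2 : (fun x => s (u x)) ∘ (Perm.ofSubtype g : Perm X) = fun x => s (u x) := by
    funext x
    exact congrArg s (congrFun p2 x)
  rw [e0, sgnT_mul q1 q2, mul_comm]
  congr 1
  · rw [sgnT_ofSubtype (T := fun x => s (u x)) (fun x => u x = i) g]
    · have e : (fun x : {x // u x = i} => s (u x)) = fun _ => s i := by
        funext x
        rw [x.2]
      rw [e]
      cases hs : s i
      · rw [sgnT_false]; simp
      · rw [sgnT_true]; simp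
    · funext x
      change s (u (g x)) = s (u x)
      rw [(g x).2, x.2]
  · rw [sgnT_ofSubtype (T := fun x => s (u x)) (fun x => ¬ u x = i) (h : Perm {x // ¬ u x = i})]
    · rfl
    · funext x
      exact congrArg s (hh' x)

/-- the twisted symmetriser of the glued system -/
private theorem glue_step' {W : Type} [AddCommGroup W] [Module ℂ W]
    (σ : Representation ℂ (Perm X) W) (u : Word X) (i : ℕ) (s : ℕ → Bool)
    (ε : Hs u →* ℤˣ) (hε : ∀ h : Hs u, ε h = sgnT (fun x => s (u x)) (h : Perm X))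
    (ε' : Hs (ur u i) →* ℤˣ)
    (hε' : ∀ h : Hs (ur u i), ε' h = sgnT (fun x => s (ur u i x)) (h : Perm _))
    (ρ₀ κ₀ : Word {x // u x = i}) (ρ' κ' : Word {x // ¬ u x = i}) (w : W) :
    (twist σ u ε).asAlgebraHom (YE u (gl u i ρ₀ ρ') (gl u i κ₀ κ')) w =
      (twist (rt u i σ) (ur u i) ε').asAlgebraHom (YE (ur u i) ρ' κ')
        (yactL (bl u i (s i) σ) ρ₀ κ₀ w) := by
  have hεg : ∀ (g : Perm {x // u x = i}) (h : Hs (ur u i)),
      ε (glHom u i (g, h)) = (if s i then Perm.sign g else 1) * ε' h := by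
    intro g h
    rw [hε, hε', sgn_glHom]
  rw [asAlg_YE', asAlg_YE', sum_gl]
  rw [Finset.sum_comm]
  refine Finset.sum_congr rfl fun h _ => ?_
  have e1 : ∀ g : Perm {x // u x = i},
      (∑ c ∈ (univ : Finset (Hs u)).filter
        (fun c : Hs u => gl u i κ₀ κ' ∘ (c : Perm X) = gl u i κ₀ κ'),
          (((Perm.sign (c : Perm X) : ℤˣ) : ℤ) : ℂ) •
            ((((ε (glHom u i (g, h) * c) : ℤˣ) : ℤ) : ℂ) •
              σ ((glHom u i (g, h) * c : Hs u) : Perm X) w)) =
      ∑ h' ∈ (univ : Finset (Hs (ur u i))).filter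
          (fun h' : Hs (ur u i) => κ' ∘ (h' : Perm {x // ¬ u x = i}) = κ'),
        ∑ g' ∈ Rs κ₀,
          (((Perm.sign (h' : Perm {x // ¬ u x = i}) : ℤˣ) : ℤ) : ℂ) •
            ((((ε' (h * h') : ℤˣ) : ℤ) : ℂ) •
              rt u i σ ((h * h' : Hs (ur u i)) : Perm {x // ¬ u x = i})
              ((((Perm.sign g' : ℤˣ) : ℤ) : ℂ) • bl u i (s i) σ (g * g') w)) := by
    intro g
    rw [sum_gl, Finset.sum_comm]
    refine Finset.sum_congr rfl fun h' _ => Finset.sum_congr rfl fun g' _ => ?_
    have e2 : glHom u i (g, h) * glHom u i (g', h') = glHom u i (g * g', h * h') := by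
      rw [← map_mul]
      rfl
    have e3 : ((glHom u i (g * g', h * h') : Hs u) : Perm X) =
        Perm.ofSubtype ((h * h' : Hs (ur u i)) : Perm {x // ¬ u x = i}) *
          Perm.ofSubtype (g * g') := by
      rw [glHom_coe]
      exact subtypeCongr_eq u i (g * g') _
    have e4 : Perm.sign ((glHom u i (g', h') : Hs u) : Perm X) =
        Perm.sign g' * Perm.sign (h' : Perm {x // ¬ u x = i}) := by
      rw [glHom_coe]
      exact Perm.sign_subtypeCongr g' (h' : Perm {x // ¬ u x = i})
    rw [e2, e3, e4, hεg, map_mul σ, Module.End.mul_apply, bl_apply, rt_apply]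
    simp only [map_smul, smul_smul, Units.val_mul, Int.cast_mul]
    congr 1
    ring
  rw [Finset.sum_congr rfl fun g _ => e1 g, Finset.sum_comm]
  refine Finset.sum_congr rfl fun h' _ => ?_
  unfold yactL
  simp only [LinearMap.sum_apply, LinearMap.smul_apply, map_sum, Finset.smul_sum]

/-- gluing of tableaux -/
private theorem tab_gl (u : Word X) (i : ℕ) {ρ₀ κ₀ : Word {x // u x = i}}
    {ρ' κ' : Word {x // ¬ u x = i}} (h0 : IsTab (fun _ => 0) ρ₀ κ₀)
    (h' : IsTab (ur u i) ρ' κ') : IsTab u (gl u i ρ₀ ρ') (gl u i κ₀ κ') := by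
  constructor
  · intro x y hxy
    simp only [Prod.mk.injEq] at hxy
    obtain ⟨h1, h2, h3⟩ := hxy
    by_cases hx : u x = i
    · have hy : u y = i := by rw [← h1, hx]
      rw [gl_of_eq _ _ hx, gl_of_eq _ _ hy] at h2 h3
      have := h0.inj (a₁ := ⟨x, hx⟩) (a₂ := ⟨y, hy⟩) (by simp only [h2, h3])
      exact congrArg Subtype.val this
    · have hy : ¬ u y = i := by rw [← h1]; exact hx
      rw [gl_of_ne _ _ hx, gl_of_ne _ _ hy] at h2 h3
      have := h'.inj (a₁ := ⟨x, hx⟩) (a₂ := ⟨y, hy⟩) (by simp only [ur, h1, h2, h3])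
      exact congrArg Subtype.val this
  · intro x k j hi hj
    by_cases hx : u x = i
    · rw [gl_of_eq _ _ hx] at hi hj
      obtain ⟨y, _, h2, h3⟩ := h0.lower ⟨x, hx⟩ k j hi hj
      refine ⟨y.1, by rw [y.2, hx], ?_, ?_⟩
      · rw [gl_of_eq _ _ y.2]; exact h2
      · rw [gl_of_eq _ _ y.2]; exact h3
    · rw [gl_of_ne _ _ hx] at hi hj
      obtain ⟨y, h1, h2, h3⟩ := h'.lower ⟨x, hx⟩ k j hi hj
      refine ⟨y.1, h1, ?_, ?_⟩
      · rw [gl_of_ne _ _ y.2]; exact h2
      · rw [gl_of_ne _ _ y.2]; exact h3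

end glue

/-- the induction -/
private theorem sys_aux (n : ℕ) : ∀ (X : Type) [Fintype X] [DecidableEq X]
    (_ : Fintype.card X = n) (u cl : Word X) (s : ℕ → Bool) (_ : ∀ x, cl x < 4)
    (W : Type) [AddCommGroup W] [Module ℂ W] (σ : Representation ℂ (Perm X) W) (w : W)
    (_ : w ≠ 0) (_ : SemiInv u cl s σ w)
    (ε : Hs u →* ℤˣ) (_ : ∀ h : Hs u, ε h = sgnT (fun x => s (u x)) (h : Perm X)),
    ∃ (ρ κ : Word X), IsTab u ρ κ ∧ (∀ x, ρ x < 4) ∧
      (∀ x, (∀ y, u y = u x → cl y = 0) → ρ x = 0) ∧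
      ∃ g : Perm X, (twist σ u ε).asAlgebraHom (YE u ρ κ) (σ g w) ≠ 0 := by
  induction n using Nat.strong_induction_on with
  | _ n ih =>
  intro X _ _ hX u cl s hcl W _ _ σ w hw hsemi ε hε
  rcases isEmpty_or_nonempty X with hE | ⟨⟨x₀⟩⟩
  · refine ⟨fun _ => 0, fun _ => 0, ⟨fun x => (hE.false x).elim, fun x => (hE.false x).elim⟩,
      fun x => (hE.false x).elim, fun x => (hE.false x).elim, 1, ?_⟩
    rw [asAlg_YE']
    have h1 : ∀ r : Hs u, r = 1 := fun r => Subtype.ext (Equiv.ext fun x => (hE.false x).elim)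
    have hu1 : (univ : Finset (Hs u)) = {1} := by
      ext r
      simp [h1 r]
    rw [hu1]
    have hf : ({1} : Finset (Hs u)).filter
        (fun r : Hs u => (fun _ : X => 0) ∘ (r : Perm X) = fun _ => 0) = {1} := by
      ext r
      simp only [mem_filter, mem_singleton, and_iff_left_iff_imp]
      intro _
      rfl
    rw [hf, Finset.sum_singleton, Finset.sum_singleton]
    simpa using hw
  · set i : ℕ := u x₀ with hi
    -- the vector is fixed by the twisted permutations of the block preserving the classes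
    have hblk : ∀ g : Perm {x // u x = i}, (fun x : {x // u x = i} => cl x) ∘ g =
        (fun x : {x // u x = i} => cl x) → bl u i (s i) σ g w = w := by
      intro g hg
      have p2 : u ∘ (Perm.ofSubtype g : Perm X) = u :=
        oS_comp u u i g fun x => by rw [(g x).2, x.2]
      have p3 : cl ∘ (Perm.ofSubtype g : Perm X) = cl :=
        oS_comp u cl i g fun x => congrFun hg x
      rw [bl_apply, hsemi _ p2 p3, sgnT_ofSubtype (T := fun x => s (u x)) (fun x => u x = i) g]
      · have e : (fun x : {x // u x = i} => s (u x)) = fun _ => s i := by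
          funext x
          rw [x.2]
        rw [e, smul_smul]
        cases hs : s i
        · rw [sgnT_false]; simp
        · rw [sgnT_true, if_pos rfl, ← Int.cast_mul, ← Units.val_mul]
          simp
      · funext x
        change s (u (g x)) = s (u x)
        rw [(g x).2, x.2]
    -- the tableau of the block
    obtain ⟨ρ₀, κ₀, htab, hρ4, hρ0, g, hg⟩ : ∃ ρ₀ κ₀ : Word {x // u x = i},
        IsTab (fun _ => 0) ρ₀ κ₀ ∧ (∀ x, ρ₀ x < 4) ∧
        ((∀ y, u y = i → cl y = 0) → ∀ x, ρ₀ x = 0) ∧
        ∃ g, yactL (bl u i (s i) σ) ρ₀ κ₀ (bl u i (s i) σ g w) ≠ 0 := by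
      by_cases hc : ∀ y, u y = i → cl y = 0
      · obtain ⟨ρ₀, κ₀, h1, h2, h3⟩ := exists_m_rows 1 (bl u i (s i) σ)
          (fun _ : {x // u x = i} => (0 : Fin 1)) w hw (by
            intro g _
            apply hblk
            funext x
            change cl (g x) = cl x
            rw [hc _ (g x).2, hc _ x.2])
        refine ⟨ρ₀, κ₀, h1, fun x => ?_, fun _ x => ?_, h3⟩
        · have := h2 x
          omega
        · have := h2 x
          omega
      · obtain ⟨ρ₀, κ₀, h1, h2, h3⟩ := exists_m_rows 4 (bl u i (s i) σ)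
          (fun x : {x // u x = i} => (⟨cl x, hcl x⟩ : Fin 4)) w hw (by
            intro g hg
            apply hblk
            funext x
            simp only [Rs, mem_filter, mem_univ, true_and] at hg
            have := congrFun hg x
            simpa only [Function.comp_apply, Fin.mk.injEq] using this)
        exact ⟨ρ₀, κ₀, h1, h2, fun h => absurd h hc, h3⟩
    -- the rest
    have hcard : Fintype.card {x // ¬ u x = i} < n := by
      rw [← hX]
      exact Fintype.card_subtype_lt (x := x₀) (by simp [hi])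
    obtain ⟨ε', hε'⟩ := exists_chiH (ur u i) s
    have hsemi' : SemiInv (ur u i) (fun x => cl x) s (rt u i σ)
        (yactL (bl u i (s i) σ) ρ₀ κ₀ (bl u i (s i) σ g w)) := by
      intro h hh hh2
      rw [yactL_bl_comm, bl_comm]
      have p1 : u ∘ (Perm.ofSubtype h : Perm X) = u :=
        oN_comp u u i h fun x => congrFun hh x
      have p2 : cl ∘ (Perm.ofSubtype h : Perm X) = cl :=
        oN_comp u cl i h fun x => congrFun hh2 x
      rw [rt_apply, hsemi _ p1 p2, sgnT_ofSubtype (T := fun x => s (u x)) (fun x => ¬ u x = i) h]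
      · rw [map_smul, map_smul]
        rfl
      · funext x
        exact congrArg s (congrFun hh x)
    obtain ⟨ρ', κ', htab', h4', h0', h, hv⟩ :=
      ih _ hcard {x // ¬ u x = i} rfl (ur u i) (fun x => cl x) s (fun x => hcl x) W (rt u i σ)
        _ hg hsemi' ε' hε'
    refine ⟨gl u i ρ₀ ρ', gl u i κ₀ κ', tab_gl u i htab htab', ?_, ?_,
      Perm.ofSubtype h * Perm.ofSubtype g, ?_⟩
    · intro x
      by_cases hx : u x = i
      · rw [gl_of_eq _ _ hx]; exact hρ4 _
      · rw [gl_of_ne _ _ hx]; exact h4' _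
    · intro x hx0
      by_cases hx : u x = i
      · rw [gl_of_eq _ _ hx]
        exact hρ0 (fun y hy => hx0 y (by rw [hy, hx])) _
      · rw [gl_of_ne _ _ hx]
        refine h0' _ fun y hy => hx0 y hy
    · rw [glue_step' σ u i s ε hε ε' hε']
      intro hzero
      apply hv
      rw [yactL_bl_comm, bl_comm]
      have e : σ (Perm.ofSubtype h * Perm.ofSubtype g) w =
          (((if s i then Perm.sign g else (1 : ℤˣ) : ℤˣ) : ℤ) : ℂ) •
            bl u i (s i) σ g (rt u i σ h w) := by
        rw [bl_apply, rt_apply, smul_smul, ofSubtype_comm, map_mul, Module.End.mul_apply,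
          ← Int.cast_mul, ← Units.val_mul]
        cases s i <;> simp
      rw [e, map_smul, map_smul] at hzero
      rcases smul_eq_zero.1 hzero with h1 | h1
      · exfalso
        have : ((if s i then Perm.sign g else (1 : ℤˣ) : ℤˣ) : ℤ) ≠ 0 := Units.ne_zero _
        exact this (by exact_mod_cast h1)
      · exact h1

variable {X : Type} [Fintype X] [DecidableEq X]

/-- From a semi-invariant vector to a system of tableaux.
PROOF by induction on the number of groups (or on `Fintype.card X`, removing the block of one value `i` of `u`; as in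
Saxl/Dk.lean for block 0). Let `S` be the block `u = i`. The restriction of `W` (twisted by the sign if `s i`) to
`Perm S` has the vector `w`, fixed by the permutations preserving the classes `cl` (`< 4`), so `exists_four_rows` gives a
tableau on `S` with at most four rows, whose symmetriser is nonzero on the module generated by `w`, hence on some
`σ(g) w`, `g ∈ Perm S`. Let `W₀` be the image of the (twisted) symmetriser `e_S` on the span of the
`σ(g) w'`, ...: precisely the vector `w₁ = e_S σ(g) w ≠ 0` is still semi-invariant for the remaining blocks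
(`Perm S` commutes with `Perm (X∖S)`). Induction for `X∖S` and `w₁`. If all letters of `S` have class `0` then the vector
is fixed by all of `Perm S` (twisted); take the one row tableau `ρ = 0`, `κ` = numbering directly. -/
theorem exists_system (u cl : Word X) (s : ℕ → Bool) (hcl : ∀ x, cl x < 4)
    {W : Type} [AddCommGroup W] [Module ℂ W] (σ : Representation ℂ (Perm X) W) (w : W)
    (hw : w ≠ 0) (hsemi : SemiInv u cl s σ w) :
    ∃ (ε : Hs u →* ℤˣ) (ρ κ : Word X), (∀ h : Hs u, ε h = sgnT (fun x => s (u x)) (h : Perm X)) ∧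
      IsTab u ρ κ ∧ (∀ x, ρ x < 4) ∧ (∀ x, (∀ y, u y = u x → cl y = 0) → ρ x = 0) ∧
      ∃ w' : W, (twist σ u ε).asAlgebraHom (YE u ρ κ) w' ≠ 0 := by
  obtain ⟨ε, hε⟩ := exists_chiH u s
  obtain ⟨ρ, κ, h1, h2, h3, g, h4⟩ := sys_aux _ X rfl u cl s hcl W σ w hw hsemi ε hε
  exact ⟨ε, ρ, κ, hε, h1, h2, h3, _, h4⟩

end Crest.Agent.SaxlN
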