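import Crest.Agent.SaxlN.Lift
import Crest.Agent.SaxlN.PsiQ
import Crest.Agent.SaxlN.FVal
import Crest.Agent.SaxlN.Final
import Crest.Agent.SaxlN.SysSemi

/-!
CHUNK GLUEMAIN (medium assembly; all imports are black boxes).
-/

set_option autoImplicit false

namespace Crest.Agent.SaxlN

open Finset Equiv
open Crest.Agent.Saxl

variable {X : Type} [Fintype X] [DecidableEq X]

private theorem isTab_comp {R C : Word X} (h : IsTab (fun _ => 0) R C) (g : Perm X) :
    IsTab (fun _ => 0) (R ∘ g) (C ∘ g) := by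
  refine ⟨?_, ?_⟩
  · intro x y hxy
    exact g.injective (h.inj hxy)
  · intro x i j hi hj
    obtain ⟨y, _, h1, h2⟩ := h.lower (g x) i j hi hj
    exact ⟨g.symm y, rfl, by simpa using h1, by simpa using h2⟩

/-- THE GLUING THEOREM.
PROOF. `exists_system` for `u = gw w₀` gives `ε, ρ, κ`; `psiQ` gives `ψ` (the condition on single-line blocks: if
`η (2 * u x + 1) = 0` then all letters of the block have class `0`, so `ρ x = 0`); `lift` gives `v` for `(A, t)` and `v'` for
`(rev η A w₀, t')` (its tableau `(rowT η t' (rev ..), ..)` is the one of `A` up to the permutation reversing the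
lines, `perpL_conj`); `exists_F`, `F_ne_zero`; `final_step` with `R = rowT η t A w₀`, `C = colT η t A w₀`. -/
theorem glue_main {q : ℕ} {η : ℕ → ℕ} (hη : LD q η) (hX : Fintype.card X = total q η)
    {A w₀ : Word X} (hA : PerpL η A w₀) {t t' : ℕ → Bool}
    (hv : IsTab (fun _ => 0) (rowT η t A w₀) (colT η t A w₀))
    (hconj : ∃ h : Perm X, rowT η t' A w₀ = rowT η t A w₀ ∘ h ∧ colT η t' A w₀ = colT η t A w₀ ∘ h)
    {cl : Word X} (hcl : ∀ x, cl x < 4) (hcl0 : ∀ x, η (2 * (w₀ x / 2) + 1) = 0 → cl x = 0)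
    {W : Type} [AddCommGroup W] [Module ℂ W] [FiniteDimensional ℂ W]
    (σ : Representation ℂ (Perm X) W) (hσ : Representation.IsIrreducible σ) (w : W) (hw : w ≠ 0)
    (hsemi : SemiInv (gw w₀) cl (fun i => xor (t i) (t' i)) σ w) :
    Nontrivial (Representation.IntertwiningMap σ
      (Representation.tprod (IVrep (rowT η t A w₀) (colT η t A w₀))
        (IVrep (rowT η t A w₀) (colT η t A w₀)))) := by
  have hz := hη.zero
  have hu : IsStripL η (gw w₀) := PerpL.isStripL hz hX hA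
  obtain ⟨ε, ρ, κ, hε, hT, hρ4, hρ0, w', hw'⟩ :=
    exists_system (gw w₀) cl (fun i => xor (t i) (t' i)) hcl σ w hw hsemi
  obtain ⟨ψ, hψ1, hψ0⟩ := psiQ hη hu hT hρ4 (by
    intro x hx
    refine hρ0 x fun y hy => hcl0 y ?_
    have hy' : w₀ y / 2 = w₀ x / 2 := hy
    rw [hy']
    exact hx) σ ε w' hw'
  have hψ : ∀ h : Perm X, gw w₀ ∘ h = gw w₀ → ∀ F, ψ (frep X h F) =
      (((sgnT (fun x => xor (t (w₀ x / 2)) (t' (w₀ x / 2))) h : ℤˣ) : ℤ) : ℂ) • σ h (ψ F) := by
    intro h hh F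
    have h1 := hψ1 ⟨h, hh⟩ F
    rw [hε] at h1
    exact h1
  obtain ⟨v, hvl⟩ := lift q η hη X hX t w₀ A hA hv false
  have hA' : PerpL η (rev η A w₀) w₀ := perpL_rev hA
  obtain ⟨g, hg1, hg2⟩ := perpL_conj hz hX hA hA'
  obtain ⟨h, hh1, hh2⟩ := hconj
  have hR : rowT η t' (rev η A w₀) w₀ = rowT η t A w₀ ∘ (h * g : Perm X) := by
    have : rowT η t' (rev η A w₀) w₀ = rowT η t' A w₀ ∘ g := by
      funext x
      simp only [rowT, Function.comp]
      have e1 := congrFun hg1 x
      have e2 := congrFun hg2 x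
      simp only [Function.comp] at e1 e2
      rw [e1, ← e2]
    rw [this, hh1]
    rfl
  have hC : colT η t' (rev η A w₀) w₀ = colT η t A w₀ ∘ (h * g : Perm X) := by
    have : colT η t' (rev η A w₀) w₀ = colT η t' A w₀ ∘ g := by
      funext x
      simp only [colT, Function.comp]
      have e1 := congrFun hg1 x
      have e2 := congrFun hg2 x
      simp only [Function.comp] at e1 e2
      rw [e1, ← e2]
    rw [this, hh2]
    rfl
  have hv' : IsTab (fun _ => 0) (rowT η t' (rev η A w₀) w₀) (colT η t' (rev η A w₀) w₀) := by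
    rw [hR, hC]
    exact isTab_comp hv _
  obtain ⟨v', hvl'⟩ := lift q η hη X hX t' w₀ (rev η A w₀) hA' hv' false
  obtain ⟨F, hF1, hF2⟩ := exists_F w₀ t t' σ ψ
  have hne := F_ne_zero hη hX hA hψ hψ0 hvl hvl'
  rw [← hF1] at hne
  exact final_step σ hσ hv ⟨h * g, hR, hC⟩ F hF2 hvl.iso hvl'.iso hne

end Crest.Agent.SaxlN
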