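import Crest.Agent.SaxlN.Orth
import Crest.Agent.SaxlN.Dual
import Crest.Agent.Saxl.RowFour

/-!
CHUNK IDEAL (medium/hard, ~200 lines): the irreducible module of a shape.
-/

set_option autoImplicit false

namespace Crest.Agent.SaxlN

open Finset Equiv
open Crest.Agent.Saxl

variable {X : Type} [Fintype X] [DecidableEq X]

/-- The left ideal `ℂG · EP R C`. -/
noncomputable def IV (R C : Word X) : Submodule ℂ (MonoidAlgebra ℂ (Perm X)) :=
  Submodule.map (LinearMap.mulRight ℂ (EP R C)) ⊤

/-- left multiplication on `IV R C` -/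
noncomputable def IVrep (R C : Word X) : Representation ℂ (Perm X) (IV R C) where
  toFun g :=
    { toFun := fun v => ⟨MonoidAlgebra.of ℂ (Perm X) g * v.1, by
        obtain ⟨a, _, ha⟩ := Submodule.mem_map.1 v.2
        refine Submodule.mem_map.2 ⟨MonoidAlgebra.of ℂ (Perm X) g * a, trivial, ?_⟩
        simp only [LinearMap.mulRight_apply] at ha ⊢
        rw [mul_assoc, ha]⟩
      map_add' := fun v w => Subtype.ext (by simp [mul_add])
      map_smul' := fun z v => Subtype.ext (by simp) }
  map_one' := by ext v; simp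
  map_mul' g h := by
    apply LinearMap.ext; intro v; apply Subtype.ext
    show MonoidAlgebra.of ℂ (Perm X) (g * h) * v.1 = _
    rw [map_mul, mul_assoc]
    rfl

/-- Maschke: invariant complements. -/
theorem ideal_exists_compl {V : Type} [AddCommGroup V] [Module ℂ V]
    (τ : Representation ℂ (Perm X) V) (S : Submodule ℂ V) (hS : ∀ g, ∀ x ∈ S, τ g x ∈ S) :
    ∃ Q : Submodule ℂ V, (∀ g, ∀ x ∈ Q, τ g x ∈ Q) ∧ S ⊔ Q = ⊤ ∧ S ⊓ Q = ⊥ := by
  haveI : NeZero (Nat.card (Perm X) : ℂ) :=
    ⟨by rw [Nat.card_eq_fintype_card]; exact_mod_cast Fintype.card_ne_zero⟩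
  have hss : Representation.IsSemisimpleRepresentation τ := inferInstance
  obtain ⟨q, hq⟩ := hss.exists_isCompl (⟨S, fun g x hx => hS g x hx⟩ : Subrepresentation τ)
  refine ⟨q.toSubmodule, fun g x hx => q.apply_mem_toSubmodule g hx, ?_, ?_⟩
  · have h1 := congrArg Subrepresentation.toSubmodule hq.sup_eq_top
    rw [Subrepresentation.toSubmodule_sup] at h1
    exact h1
  · have h1 := congrArg Subrepresentation.toSubmodule hq.inf_eq_bot
    rw [Subrepresentation.toSubmodule_inf] at h1
    exact h1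

/-- the left regular representation on the group algebra -/
noncomputable def idealRep (X : Type) [Fintype X] [DecidableEq X] :
    Representation ℂ (Perm X) (MonoidAlgebra ℂ (Perm X)) where
  toFun g := LinearMap.mulLeft ℂ (MonoidAlgebra.of ℂ (Perm X) g)
  map_one' := by ext v; simp
  map_mul' g h := by
    apply LinearMap.ext; intro v
    simp only [LinearMap.mulLeft_apply, Module.End.mul_apply, map_mul, mul_assoc]

theorem ideal_left_closed {P : Submodule ℂ (MonoidAlgebra ℂ (Perm X))}
    (hP : ∀ g : Perm X, ∀ v ∈ P, MonoidAlgebra.of ℂ (Perm X) g * v ∈ P)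
    (a v : MonoidAlgebra ℂ (Perm X)) (hv : v ∈ P) : a * v ∈ P := by
  induction a using MonoidAlgebra.induction_on with
  | of g => exact hP g v hv
  | add a b ha hb => rw [add_mul]; exact P.add_mem ha hb
  | smul r a ha => rw [smul_mul_assoc]; exact P.smul_mem r ha

theorem mem_IV {R C : Word X} {v : MonoidAlgebra ℂ (Perm X)} :
    v ∈ IV R C ↔ ∃ a, a * EP R C = v := by
  unfold IV
  rw [Submodule.mem_map]
  simp

/-- PROOF (`EP_sandwich`, `EP_sq`, `EP_ne_zero`, semiprimeness of `ℂG` as in Orth.lean). -/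
theorem IV_irreducible {R C : Word X} (h : IsTab (fun _ => 0) R C) :
    Representation.IsIrreducible (IVrep R C) := by
  classical
  have hEmem : EP R C ∈ IV R C := mem_IV.2 ⟨1, one_mul _⟩
  have hE0 : EP R C ≠ 0 := EP_ne_zero h
  refine { exists_pair_ne := ⟨⊥, ⊤, ?_⟩, eq_bot_or_eq_top := ?_ }
  · intro hbt
    have h1 : (⟨EP R C, hEmem⟩ : IV R C) ∈ (⊤ : Subrepresentation (IVrep R C)).toSubmodule := by
      show _ ∈ (⊤ : Submodule ℂ (IV R C))
      trivial
    rw [← hbt] at h1
    have h2 : (⟨EP R C, hEmem⟩ : IV R C) ∈ (⊥ : Submodule ℂ (IV R C)) := h1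
    rw [Submodule.mem_bot] at h2
    exact hE0 (congrArg Subtype.val h2)
  · intro p
    set P : Submodule ℂ (MonoidAlgebra ℂ (Perm X)) := p.toSubmodule.map (IV R C).subtype with hPdef
    have hPinv : ∀ g : Perm X, ∀ v ∈ P, MonoidAlgebra.of ℂ (Perm X) g * v ∈ P := by
      intro g v hv
      obtain ⟨w, hw, rfl⟩ := Submodule.mem_map.1 hv
      exact Submodule.mem_map.2 ⟨IVrep R C g w, p.apply_mem_toSubmodule g hw, rfl⟩
    have hPIV : ∀ v ∈ P, v ∈ IV R C := by
      intro v hv
      obtain ⟨w, hw, rfl⟩ := Submodule.mem_map.1 hv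
      exact w.2
    by_cases hex : ∃ v ∈ P, EP R C * v ≠ 0
    · right
      obtain ⟨v, hv, hne⟩ := hex
      obtain ⟨a, ha⟩ := mem_IV.1 (hPIV v hv)
      obtain ⟨z, hz⟩ := EP_sandwich h a
      have h1 : EP R C * v = z • EP R C := by rw [← ha, ← mul_assoc, hz]
      have hz0 : z ≠ 0 := by
        intro h0
        rw [h0, zero_smul] at h1
        exact hne h1
      have h2 : EP R C ∈ P := by
        have h3 := P.smul_mem z⁻¹ (ideal_left_closed hPinv (EP R C) v hv)
        rwa [h1, smul_smul, inv_mul_cancel₀ hz0, one_smul] at h3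
      refine Subrepresentation.toSubmodule_injective ?_
      show p.toSubmodule = (⊤ : Submodule ℂ (IV R C))
      rw [eq_top_iff]
      intro w _
      obtain ⟨b, hb⟩ := mem_IV.1 w.2
      have h3 : (w : MonoidAlgebra ℂ (Perm X)) ∈ P := by
        rw [← hb]; exact ideal_left_closed hPinv b _ h2
      obtain ⟨w', hw', hww⟩ := Submodule.mem_map.1 h3
      have : w' = w := Subtype.ext hww
      rwa [← this]
    · left
      push Not at hex
      obtain ⟨Q, hQ, hsup, hinf⟩ := ideal_exists_compl (idealRep X) P hPinv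
      have hzero : ∀ v ∈ P, ∀ w ∈ P, v * w = 0 := by
        intro v hv w hw
        obtain ⟨a, ha⟩ := mem_IV.1 (hPIV v hv)
        rw [← ha, mul_assoc, hex w hw, mul_zero]
      have h1 : (1 : MonoidAlgebra ℂ (Perm X)) ∈ P ⊔ Q := by rw [hsup]; trivial
      obtain ⟨x, hx, y, hy, hxy⟩ := Submodule.mem_sup.1 h1
      have hP0 : ∀ v ∈ P, v = 0 := by
        intro v hv
        have h2 : v = v * y := by
          calc v = v * 1 := (mul_one v).symm
            _ = v * x + v * y := by rw [← hxy, mul_add]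
            _ = v * y := by rw [hzero v hv x hx, zero_add]
        have h3 : v ∈ Q := by
          rw [h2]; exact ideal_left_closed (fun g u hu => hQ g u hu) v y hy
        have h4 : v ∈ P ⊓ Q := ⟨hv, h3⟩
        rw [hinf, Submodule.mem_bot] at h4
        exact h4
      refine Subrepresentation.toSubmodule_injective ?_
      show p.toSubmodule = (⊥ : Submodule ℂ (IV R C))
      rw [eq_bot_iff]
      intro w hw
      rw [Submodule.mem_bot]
      exact Subtype.ext (hP0 w.1 (Submodule.mem_map.2 ⟨w, hw, rfl⟩))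

theorem ideal_EP_comp (R C : Word X) (k : Perm X) :
    EP (R ∘ k) (C ∘ k) =
      MonoidAlgebra.of ℂ (Perm X) k⁻¹ * EP R C * MonoidAlgebra.of ℂ (Perm X) k := by
  have hmem : ∀ (w : Word X) (g : Perm X), g ∈ Rs (w ∘ k) ↔ k * g * k⁻¹ ∈ Rs w := by
    intro w g
    simp only [Rs, Finset.mem_filter, Finset.mem_univ, true_and]
    constructor
    · intro h1
      funext x
      have h2 := congrFun h1 (k⁻¹ x)
      have h3 : k (k⁻¹ x) = x := by rw [← Perm.mul_apply, mul_inv_cancel, Perm.one_apply]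
      simp only [Function.comp_apply, h3] at h2
      simpa [Perm.mul_apply] using h2
    · intro h1
      funext x
      have h2 := congrFun h1 (k x)
      have h3 : k⁻¹ (k x) = x := by rw [← Perm.mul_apply, inv_mul_cancel, Perm.one_apply]
      simp only [Function.comp_apply, Perm.mul_apply, h3] at h2
      simpa using h2
  unfold EP
  rw [Finset.mul_sum, Finset.sum_mul]
  refine Finset.sum_equiv (MulAut.conj k).toEquiv (fun g => ?_) (fun r _ => ?_)
  · rw [hmem]
    rfl
  · rw [Finset.mul_sum, Finset.sum_mul]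
    refine Finset.sum_equiv (MulAut.conj k).toEquiv (fun g => ?_) (fun c _ => ?_)
    · rw [hmem]
      rfl
    · have e1 : (MulAut.conj k).toEquiv r = k * r * k⁻¹ := rfl
      have e2 : (MulAut.conj k).toEquiv c = k * c * k⁻¹ := rfl
      rw [e1, e2, mul_smul_comm, smul_mul_assoc, ← map_mul, ← map_mul]
      have e3 : Perm.sign (k * c * k⁻¹) = Perm.sign c := by
        rw [Perm.sign_mul, Perm.sign_mul, Perm.sign_inv, mul_comm (Perm.sign k), mul_assoc,
          Int.units_mul_self, mul_one]
      rw [e3]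
      congr 2
      group

/-- conjugate tableaux give isomorphic modules: `IV (R∘h) (C∘h)` and `IV R C` (right multiplication by `h`).
An isotypic module is a sum of images of `IV R C`.
PROOF. Let `N` be the module generated by `v` and `M ≤ N` the sum of the images of all equivariant maps `IV R C → V`
contained in `N`. If `M ≠ N` take an equivariant complement `N' ≠ 0` of `M` in `N`; `exists_yact_ne_zero` gives a tableau
with `yact τ ρ κ w ≠ 0`, `w ∈ N'`; by `IsoV` (for a translate of `v`: `yact` is nonzero on `N`, hence on some `τ g v`)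
`(ρ, κ) = (R∘h, C∘h)`, so `EP ρ κ = h⁻¹ EP R C h`, `EP R C • (h • w) ≠ 0`, and `a EP R C ↦ a EP R C h w` is a nonzero
equivariant map `IV R C → N'` (well defined: `a E = a' E` implies the images agree), contradiction. So `v ∈ M`. -/
theorem IsoV.mem_span {V : Type} [AddCommGroup V] [Module ℂ V]
    {τ : Representation ℂ (Perm X) V} {v : V} {R C : Word X} (h : IsoV τ v R C)
    (hRC : IsTab (fun _ => 0) R C) :
    v ∈ Submodule.span ℂ {x : V | ∃ (f : IV R C →ₗ[ℂ] V) (a : IV R C),
      (∀ g b, f (IVrep R C g b) = τ g (f b)) ∧ x = f a} := by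
  classical
  set T : Set V := {x : V | ∃ (f : IV R C →ₗ[ℂ] V) (a : IV R C),
      (∀ g b, f (IVrep R C g b) = τ g (f b)) ∧ x = f a} with hT
  set S := Submodule.span ℂ T with hS
  have hSinv : ∀ g, ∀ x ∈ S, τ g x ∈ S := by
    intro g x hx
    induction hx using Submodule.span_induction with
    | mem x hx =>
      obtain ⟨f, a, hf, rfl⟩ := hx
      rw [← hf]
      exact Submodule.subset_span ⟨f, IVrep R C g a, hf, rfl⟩
    | zero => rw [map_zero]; exact S.zero_mem
    | add x y _ _ hx hy => rw [map_add]; exact S.add_mem hx hy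
    | smul z x _ hx => rw [map_smul]; exact S.smul_mem z hx
  obtain ⟨Q, hQ, hsup, hinf⟩ := ideal_exists_compl τ S hSinv
  by_contra hv
  have h1 : v ∈ S ⊔ Q := by rw [hsup]; trivial
  obtain ⟨s, hs, w, hw, hsw⟩ := Submodule.mem_sup.1 h1
  have hw0 : w ≠ 0 := by
    intro h0
    rw [h0, add_zero] at hsw
    exact hv (hsw ▸ hs)
  -- the module generated by `w`
  set N : Submodule ℂ V := Submodule.span ℂ (Set.range fun g : Perm X => τ g w) with hN
  have hmem : ∀ g, τ g w ∈ N := fun g => Submodule.subset_span ⟨g, rfl⟩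
  have hNinv : ∀ g, ∀ x ∈ N, τ g x ∈ N := by
    intro g x hx
    induction hx using Submodule.span_induction with
    | mem x hx =>
      obtain ⟨k, rfl⟩ := hx
      have : τ g (τ k w) = τ (g * k) w := by rw [map_mul]; rfl
      show τ g (τ k w) ∈ N
      rw [this]; exact hmem _
    | zero => rw [map_zero]; exact N.zero_mem
    | add x y _ _ hx hy => rw [map_add]; exact N.add_mem hx hy
    | smul z x _ hx => rw [map_smul]; exact N.smul_mem z hx
  have hwN : w ∈ N := by simpa using hmem 1
  haveI : Nontrivial N := ⟨⟨⟨w, hwN⟩, 0, fun h0 => hw0 (congrArg Subtype.val h0)⟩⟩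
  obtain ⟨ρ, κ, htab, w', hw'⟩ := exists_yact_ne_zero (subRep τ N hNinv)
  have hy : yact τ ρ κ (w' : V) ≠ 0 := by
    rw [← yact_subRep τ N hNinv]
    exact fun h0 => hw' (Subtype.ext h0)
  -- some translate
  have hex : ∃ g : Perm X, yact τ ρ κ (τ g w) ≠ 0 := by
    by_contra hcon
    push Not at hcon
    apply hy
    have : N ≤ LinearMap.ker (yactL τ ρ κ) := by
      rw [hN, Submodule.span_le]
      rintro _ ⟨g, rfl⟩
      show yactL τ ρ κ (τ g w) = 0
      rw [yactL_apply]; exact hcon g
    have h2 : yactL τ ρ κ (w' : V) = 0 := this w'.2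
    rwa [yactL_apply] at h2
  obtain ⟨g, hg⟩ := hex
  have hyS : ∀ (P : Submodule ℂ V), (∀ g, ∀ x ∈ P, τ g x ∈ P) → ∀ x ∈ P, yact τ ρ κ x ∈ P := by
    intro P hP x hx
    unfold yact
    exact P.sum_mem fun r _ => P.sum_mem fun c _ => P.smul_mem _ (hP _ x hx)
  have hgv : yact τ ρ κ (τ g v) ≠ 0 := by
    rw [← hsw, map_add, ← yactL_apply, map_add, yactL_apply, yactL_apply]
    intro h0
    have h2 : yact τ ρ κ (τ g w) ∈ S := by
      rw [eq_neg_of_add_eq_zero_right h0]
      exact S.neg_mem (hyS S hSinv _ (hSinv g s hs))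
    have h3 : yact τ ρ κ (τ g w) ∈ S ⊓ Q := ⟨h2, hyS Q hQ _ (hQ g w hw)⟩
    rw [hinf, Submodule.mem_bot] at h3
    exact hg h3
  obtain ⟨k, hk1, hk2⟩ := h ρ κ htab ⟨g, hgv⟩
  -- the intertwiner
  set u : V := τ (k * g) w with hu
  have huQ : u ∈ Q := hQ _ w hw
  have hEu : τ.asAlgebraHom (EP R C) u ≠ 0 := by
    intro h0
    apply hg
    rw [yact_eq, hk1, hk2, ideal_EP_comp, map_mul, map_mul, Representation.asAlgebraHom_of,
      Representation.asAlgebraHom_of, Module.End.mul_apply, Module.End.mul_apply]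
    have h2 : τ k (τ g w) = u := by rw [hu, map_mul]; rfl
    rw [h2, h0, map_zero]
  let f : IV R C →ₗ[ℂ] V :=
    { toFun := fun b => τ.asAlgebraHom (b : MonoidAlgebra ℂ (Perm X)) u
      map_add' := fun a b => by
        show τ.asAlgebraHom ((a : MonoidAlgebra ℂ (Perm X)) + b) u = _
        rw [map_add]; rfl
      map_smul' := fun z a => by
        show τ.asAlgebraHom (z • (a : MonoidAlgebra ℂ (Perm X))) u = _
        rw [map_smul]; rfl }
  have hf : ∀ g b, f (IVrep R C g b) = τ g (f b) := by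
    intro g b
    show τ.asAlgebraHom (MonoidAlgebra.of ℂ (Perm X) g * (b : MonoidAlgebra ℂ (Perm X))) u = _
    rw [map_mul, Representation.asAlgebraHom_of]
    rfl
  have hEmem : EP R C ∈ IV R C := mem_IV.2 ⟨1, one_mul _⟩
  have hS1 : τ.asAlgebraHom (EP R C) u ∈ S :=
    Submodule.subset_span ⟨f, ⟨EP R C, hEmem⟩, hf, rfl⟩
  have hQ1 : τ.asAlgebraHom (EP R C) u ∈ Q := by
    rw [← yact_eq]
    unfold yact
    exact Q.sum_mem fun r _ => Q.sum_mem fun c _ => Q.smul_mem _ (hQ _ u huQ)
  have h5 : τ.asAlgebraHom (EP R C) u ∈ S ⊓ Q := ⟨hS1, hQ1⟩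
  rw [hinf, Submodule.mem_bot] at h5
  exact hEu h5

end Crest.Agent.SaxlN
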