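import Crest.Agent.SaxlN.Orth
import Crest.Agent.SaxlN.Content

/-!
CHUNK ISOT (medium): the sum of transpositions acts as a scalar on isotypic modules.
-/

set_option autoImplicit false

namespace Crest.Agent.SaxlN

open Finset Equiv
open Crest.Agent.Saxl

variable {X : Type} [Fintype X] [DecidableEq X]

/-- `1` is a linear combination of the central elements `zP` of tableaux. -/
private theorem one_mem_span_zP (X : Type) [Fintype X] [DecidableEq X] :
    ∃ ρ κ : (Fintype.card X).Partition → Word X,
      (∀ P, IsTab (fun _ => 0) (ρ P) (κ P)) ∧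
      (1 : MonoidAlgebra ℂ (Perm X)) ∈
        Submodule.span ℂ (Set.range fun P => zP (ρ P) (κ P)) := by
  classical
  choose ρ κ hT hsize using exists_tab_of_partition (X := X)
  refine ⟨ρ, κ, hT, ?_⟩
  set f : (Fintype.card X).Partition → ℕ → ℕ :=
    fun P t => (univ.filter (fun x => ρ P x < t)).card with hf
  have hrow : ∀ P i, f P (i + 1) = f P i + (univ.filter (fun x => ρ P x = i)).card := by
    intro P i
    simp only [hf]
    rw [← Finset.card_union_of_disjoint]
    · congr 1
      ext x
      simp only [mem_filter, mem_univ, true_and, mem_union]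
      omega
    · rw [Finset.disjoint_left]
      intro x hx hx'
      simp only [mem_filter, mem_univ, true_and] at hx hx'
      omega
  have hanti : ∀ P Q, f P ≤ f Q → f Q ≤ f P → P = Q := by
    intro P Q h1 h2
    have h3 : f P = f Q := le_antisymm h1 h2
    apply partition_eq_of_cnt
    intro i
    rw [← hsize P i, ← hsize Q i]
    have h4 := hrow P i
    have h5 := hrow Q i
    rw [h3] at h4
    omega
  have hli : LinearIndependent ℂ (fun P => zP (ρ P) (κ P)) := by
    rw [Fintype.linearIndependent_iff]
    intro g hg
    by_contra hne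
    push Not at hne
    obtain ⟨P0, hP0⟩ := hne
    obtain ⟨P, hP⟩ := Finset.exists_maximalFor f
      ((univ : Finset (Fintype.card X).Partition).filter (fun P => g P ≠ 0))
      ⟨P0, by simp [hP0]⟩
    have hgP : g P ≠ 0 := by
      have := hP.prop
      simpa using this
    have h1 : ∑ Q, g Q • (zP (ρ Q) (κ Q) * EP (ρ P) (κ P)) = 0 := by
      have h2 := congrArg (fun a => a * EP (ρ P) (κ P)) hg
      simp only [zero_mul, Finset.sum_mul, smul_mul_assoc] at h2
      exact h2
    rw [Finset.sum_eq_single P] at h1
    · obtain ⟨c, hc, hcE⟩ := zP_mul_EP (hT P)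
      rw [hcE, smul_smul] at h1
      rcases smul_eq_zero.1 h1 with h | h
      · exact (mul_ne_zero hgP hc) h
      · exact EP_ne_zero (hT P) h
    · intro Q _ hQP
      by_cases hgQ : g Q = 0
      · rw [hgQ, zero_smul]
      · by_cases hz : zP (ρ Q) (κ Q) * EP (ρ P) (κ P) = 0
        · rw [hz, smul_zero]
        · exfalso
          have h3 : f P ≤ f Q := fun t => zP_mul_EP_other (hT Q) (hT P) hz t
          have h4 : f Q ≤ f P := hP.le_of_le (by simpa using hgQ) h3
          exact hQP (hanti Q P h4 h3)
    · intro h
      exact absurd (mem_univ _) h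
  exact one_mem_span_of_central (X := X) (ι := (Fintype.card X).Partition) le_rfl
    (fun P => zP (ρ P) (κ P)) (fun P g => zP_central (ρ P) (κ P) g) hli

/-- the content sum is invariant under renaming the letters -/
private theorem ct_comp (R C : Word X) (h : Perm X) : ct (R ∘ h) (C ∘ h) = ct R C := by
  unfold ct
  exact Equiv.sum_comp h (fun x => ((C x : ℤ) - (R x : ℤ)))

/-- PROOF. By the proof of `exists_yact_ne_zero` (Saxl/Irr) `1` is a linear combination of the `z_P = zP ρ_P κ_P`
for tableaux `(ρ_P, κ_P)`: [use `one_mem_span_of_central` again, or: let `M` be the set of `w` in the module generated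
by `v` with `TT w = 2 ct R C w`; it is invariant; if it is not everything, take an equivariant complement `N' ≠ 0`
(Maschke), `exists_yact_ne_zero` gives a tableau with `yact ρ κ w ≠ 0` for some `w ∈ N'`, `w = ∑ c_g τ g v`
projected..., so `(ρ, κ) = (R, C) ∘ h` by `IsoV` (of the projection of `v`, `IsoV.map` style argument) and
`TT • (yact ρ κ w) = 2 ct ρ κ • yact ρ κ w`, `ct ρ κ = ct R C`, so `0 ≠ yact ρ κ w ∈ M ∩ N'`, contradiction]. -/
theorem IsoV.TT {V : Type} [AddCommGroup V] [Module ℂ V] {τ : Representation ℂ (Perm X) V} {v : V}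
    {R C : Word X} (h : IsoV τ v R C) :
    τ.asAlgebraHom (Crest.Agent.SaxlN.TT X) v = ((2 * ct R C : ℤ) : ℂ) • v := by
  obtain ⟨ρ, κ, hT, hspan⟩ := one_mem_span_zP X
  set c : ℂ := ((2 * ct R C : ℤ) : ℂ) with hc
  have key : ∀ a ∈ Submodule.span ℂ (Set.range fun P => zP (ρ P) (κ P)),
      τ.asAlgebraHom (Crest.Agent.SaxlN.TT X * a) v = c • τ.asAlgebraHom a v := by
    intro a ha
    induction ha using Submodule.span_induction with
    | mem a ha =>
      obtain ⟨P, rfl⟩ := ha
      simp only []
      by_cases hz : τ.asAlgebraHom (zP (ρ P) (κ P)) v = 0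
      · rw [map_mul, Module.End.mul_apply, hz, map_zero, smul_zero]
      · have h1 : ∃ g : Perm X, yact τ (ρ P) (κ P) (τ g v) ≠ 0 := by
          by_contra hcon
          push Not at hcon
          apply hz
          unfold zP
          rw [map_sum, LinearMap.sum_apply]
          refine Finset.sum_eq_zero fun g _ => ?_
          rw [map_mul, map_mul, Module.End.mul_apply, Module.End.mul_apply,
            Representation.asAlgebraHom_of, Representation.asAlgebraHom_of, asAlgebraHom_EP,
            hcon g⁻¹, map_zero]
        obtain ⟨g, h2, h3⟩ := h _ _ (hT P) h1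
        rw [TT_mul_zP (hT P), map_smul, LinearMap.smul_apply, h2, h3, ct_comp, hc]
    | zero => simp
    | add a b _ _ ha hb =>
      rw [mul_add, map_add, LinearMap.add_apply, ha, hb, map_add, LinearMap.add_apply, smul_add]
    | smul r a _ ha =>
      rw [mul_smul_comm, map_smul, LinearMap.smul_apply, ha, map_smul, LinearMap.smul_apply,
        smul_comm]
  have h1 := key 1 hspan
  rw [mul_one, map_one, Module.End.one_apply] at h1
  exact h1

end Crest.Agent.SaxlN
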