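import Crest.Agent.SaxlN.ShapeD

/-!
CHUNK LAYTAB (medium, ~250 lines): from a layout to the data of the gluing theorem.
-/

set_option autoImplicit false
set_option linter.unusedSectionVars false
set_option linter.unusedVariables false

namespace Crest.Agent.SaxlN

open Finset Equiv
open Crest.Agent.Saxl

variable {X : Type} [Fintype X] [DecidableEq X]

/-- the line lengths: group `i` has the label `L = M - i` -/
noncomputable def etaL (La P : Finset ℕ) (M : ℕ) : ℕ → ℕ := fun r =>
  if r % 2 = 0 then (if M - r / 2 ∈ P ∨ (M - r / 2 ∈ La ∧ M - r / 2 + 1 ∉ P) then M - r / 2 else 0)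
  else (if M - r / 2 ∈ P then M - r / 2 - 1 else 0)

/-- the number of the line of length `L` -/
private def lineOf (P : Finset ℕ) (M L : ℕ) : ℕ :=
  if L + 1 ∈ P then 2 * (M - (L + 1)) + 1 else 2 * (M - L)

private lemma etaL_even (La P : Finset ℕ) (M i : ℕ) : etaL La P M (2 * i) =
    if M - i ∈ P ∨ (M - i ∈ La ∧ M - i + 1 ∉ P) then M - i else 0 := by
  have h1 : (2 * i) % 2 = 0 := by omega
  have h2 : (2 * i) / 2 = i := by omega
  simp only [etaL, h1, h2, if_true]

private lemma etaL_odd (La P : Finset ℕ) (M i : ℕ) : etaL La P M (2 * i + 1) =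
    if M - i ∈ P then M - i - 1 else 0 := by
  have h1 : ¬ ((2 * i + 1) % 2 = 0) := by omega
  have h2 : (2 * i + 1) / 2 = i := by omega
  simp only [etaL, h1, h2, if_false]

private lemma lineOf_lt {P : Finset ℕ} {M L L' : ℕ} (h : L < L') (hM : L' ≤ M)
    (hP : ∀ L ∈ P, L ≤ M) : lineOf P M L' < lineOf P M L := by
  unfold lineOf
  split_ifs with h1 h2 h2
  · have := hP _ h1
    omega
  · have := hP _ h1
    omega
  · omega
  · omega

private lemma etaL_lineOf {La P : Finset ℕ} {t t' : ℕ → Bool} {u cl : Word X}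
    (h : Lay La P t t' u cl) {M : ℕ} (hM : ∀ L ∈ La, L ≤ M) {L : ℕ} (hL : L ∈ La) :
    etaL La P M (lineOf P M L) = L := by
  unfold lineOf
  split_ifs with h1
  · have h2 := hM _ (h.sub _ h1).1
    have h3 : M - (M - (L + 1)) = L + 1 := by omega
    rw [etaL_odd, h3, if_pos h1]
    omega
  · have h2 := hM _ hL
    have h3 : M - (M - L) = L := by omega
    rw [etaL_even, h3, if_pos (Or.inr ⟨hL, h1⟩)]

private lemma etaL_pos {La P : Finset ℕ} {t t' : ℕ → Bool} {u cl : Word X}
    (h : Lay La P t t' u cl) {M : ℕ} {r : ℕ} (hr : 0 < etaL La P M r) :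
    etaL La P M r ∈ La ∧ lineOf P M (etaL La P M r) = r := by
  obtain ⟨i, hi | hi⟩ : ∃ i, r = 2 * i ∨ r = 2 * i + 1 := ⟨r / 2, by omega⟩
  · subst hi
    rw [etaL_even] at hr ⊢
    split_ifs at hr ⊢ with h1
    · rcases h1 with h1 | ⟨h1, h2⟩
      · refine ⟨(h.sub _ h1).1, ?_⟩
        unfold lineOf
        rw [if_neg (h.sep _ h1)]
        omega
      · refine ⟨h1, ?_⟩
        unfold lineOf
        rw [if_neg h2]
        omega
    · omega
  · subst hi
    rw [etaL_odd] at hr ⊢
    split_ifs at hr ⊢ with h1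
    · refine ⟨(h.sub _ h1).2, ?_⟩
      unfold lineOf
      have h3 : M - i - 1 + 1 = M - i := by omega
      rw [h3, if_pos h1]
      omega
    · omega

/-- PROOF. Let `M` be a bound for `La`. `zero`: for `r / 2 ≥ M` the label is `0 ∉ La`. `dec`: let `r < s` be nonempty. Same
group: `L - 1 < L`. Otherwise `Ls < Lr` for the labels; `η s ≤ Ls`; if `r` is even `η r = Lr`. If `r` is odd, `Lr ∈ P`,
`η r = Lr - 1`; if `Ls = Lr - 1` then the group `Ls` is empty: `Ls ∉ P` by `sep` (`Ls + 1 = Lr ∈ P`) and it is not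
single, contradiction; so `Ls < Lr - 1`. `two`: `L - 1 ∈ La`, so `L ≥ 2`. -/
theorem etaL_LD0 {La P : Finset ℕ} {t t' : ℕ → Bool} {u cl : Word X} (h0 : 0 ∉ La)
    (h : Lay La P t t' u cl) {M : ℕ} (hM : ∀ L ∈ La, L ≤ M) : LD0 M (etaL La P M) := by
  refine ⟨?_, ?_, ?_, ?_⟩
  · intro r hr
    have h1 : M - r / 2 = 0 := by omega
    simp only [etaL, h1]
    split_ifs <;> rfl
  · intro i hi
    rw [etaL_even] at hi
    rw [etaL_odd]
    by_cases h1 : M - i ∈ P
    · rw [if_pos (Or.inl h1)] at hi
      rw [if_pos h1]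
      omega
    · rw [if_neg h1]
  · intro r s hrs hs hr
    obtain ⟨hs1, hs2⟩ := etaL_pos h hs
    obtain ⟨hr1, hr2⟩ := etaL_pos h hr
    by_contra hc
    rcases (not_lt.mp hc).eq_or_lt with hc | hc
    · rw [hc, hs2] at hr2
      omega
    · have h3 := lineOf_lt (P := P) hc (hM _ hs1) (fun L hL => hM _ (h.sub _ hL).1)
      rw [hs2, hr2] at h3
      omega
  · intro i
    rw [etaL_even, etaL_odd]
    by_cases h1 : M - i ∈ P
    · rw [if_pos (Or.inl h1), if_pos h1]
      omega
    · rw [if_neg h1]
      exact Or.inl rfl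

private lemma sum_range_two (f : ℕ → ℕ) (q : ℕ) :
    ∑ r ∈ range (2 * q), f r = ∑ i ∈ range q, (f (2 * i) + f (2 * i + 1)) := by
  induction q with
  | zero => simp
  | succ q ih =>
    rw [sum_range_succ, ← ih, show 2 * (q + 1) = 2 * q + 1 + 1 by ring, sum_range_succ,
      sum_range_succ, add_assoc]

/-- The words `A, w₀`: choose a numbering `pos` of every label class (`pos x < #{y | u y = u x}`, `(u, pos)` injective), and
`w₀ x = 2 (M - u x) + [u x ≤ pos x]`, `A x = pos x` if `pos x < u x`, `pos x - u x` otherwise.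
PROOF. `PerpL`: injectivity clear (`u x ≤ M`, as the label classes of other values are empty);
if `pos x < u x` then `η (w₀ x) = u x`. Otherwise the class has more than `u x` letters, so `u x ∈ P`,
`pos x < 2 u x - 1`, `η (w₀ x) = u x - 1`.
`card X = ∑_L #{u = L} = ∑_{i < M} (η (2i) + η (2i+1))`. -/
theorem exists_words {La P : Finset ℕ} {t t' : ℕ → Bool} {u cl : Word X} (h0 : 0 ∉ La)
    (h : Lay La P t t' u cl) {M : ℕ} (hM : ∀ L ∈ La, L ≤ M) :
    Fintype.card X = total M (etaL La P M) ∧ (∀ x, u x ≤ M ∧ 1 ≤ u x) ∧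
    ∃ A w₀ : Word X, PerpL (etaL La P M) A w₀ ∧ ∀ x, w₀ x / 2 = M - u x := by
  classical
  have h0P : 0 ∉ P := fun h1 => h0 (h.sub _ h1).1
  have hMP : ∀ L ∈ P, L ≤ M := fun L hL => hM _ (h.sub _ hL).1
  -- the class of `x` is not empty
  have hcpos : ∀ x, 0 < (univ.filter (fun y => u y = u x)).card := fun x =>
    card_pos.mpr ⟨x, by simp⟩
  have hmem : ∀ x, u x ∈ P ∨ (u x ∈ La ∧ u x + 1 ∉ P) := by
    intro x
    have h1 := hcpos x
    rw [h.card] at h1
    by_contra hc
    rw [not_or] at hc
    rw [if_neg hc.1, if_neg hc.2] at h1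
    omega
  have hu : ∀ x, u x ≤ M ∧ 1 ≤ u x := by
    intro x
    have h2 : u x ∈ La := by
      rcases hmem x with h1 | h1
      · exact (h.sub _ h1).1
      · exact h1.1
    refine ⟨hM _ h2, ?_⟩
    rcases Nat.eq_zero_or_pos (u x) with h3 | h3
    · rw [h3] at h2
      exact absurd h2 h0
    · exact h3
  refine ⟨?_, hu, ?_⟩
  · unfold total
    rw [sum_range_two, ← card_univ]
    rw [card_eq_sum_card_fiberwise (f := fun x => M - u x) (t := range M)
      (fun x _ => by
        have := hu x
        simp only [coe_range, Set.mem_Iio]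
        omega)]
    refine sum_congr rfl ?_
    intro i hi
    rw [mem_range] at hi
    have h1 : (univ.filter (fun x => M - u x = i)) = univ.filter (fun x => u x = M - i) := by
      ext x
      have := hu x
      simp only [mem_filter, mem_univ, true_and]
      omega
    rw [h1, h.card, etaL_even, etaL_odd]
    by_cases h2 : M - i ∈ P
    · rw [if_pos h2, if_pos (Or.inl h2), if_pos h2]
      omega
    · rw [if_neg h2, if_neg h2]
      by_cases h3 : M - i ∈ La ∧ M - i + 1 ∉ P
      · rw [if_pos h3, if_pos (Or.inr h3)]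
        rfl
      · rw [if_neg h3, if_neg (by tauto)]
  · obtain ⟨e⟩ : Nonempty (X ≃ Fin (Fintype.card X)) := ⟨Fintype.equivFin X⟩
    set pos : X → ℕ := fun x => (univ.filter (fun y => u y = u x ∧ e y < e x)).card with hpos
    have hplt : ∀ x, pos x < (univ.filter (fun y => u y = u x)).card := by
      intro x
      refine card_lt_card ?_
      rw [ssubset_iff_of_subset]
      · exact ⟨x, by simp, by simp⟩
      · intro y hy
        simp only [mem_filter, mem_univ, true_and] at hy ⊢
        exact hy.1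
    have hinj0 : ∀ x y, u x = u y → e x < e y → pos x < pos y := by
      intro x y hxy hlt
      refine card_lt_card ?_
      rw [ssubset_iff_of_subset]
      · refine ⟨x, ?_, ?_⟩
        · simp only [mem_filter, mem_univ, true_and]
          exact ⟨hxy, hlt⟩
        · simp
      · intro z hz
        simp only [mem_filter, mem_univ, true_and] at hz ⊢
        exact ⟨hz.1.trans hxy, hz.2.trans hlt⟩
    have hinj : ∀ x y, u x = u y → pos x = pos y → x = y := by
      intro x y hxy hp
      by_contra hne
      rcases lt_or_gt_of_ne (fun hh => hne (e.injective hh) : e x ≠ e y) with h1 | h1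
      · have := hinj0 x y hxy h1
        omega
      · have := hinj0 y x hxy.symm h1
        omega
    refine ⟨fun x => if pos x < u x then pos x else pos x - u x,
      fun x => 2 * (M - u x) + (if pos x < u x then 0 else 1), ⟨?_, ?_⟩, ?_⟩
    · intro x y hxy
      simp only [Prod.mk.injEq] at hxy
      obtain ⟨h1, h2⟩ := hxy
      have hx := hu x
      have hy := hu y
      have h3 : u x = u y := by
        split_ifs at h2 <;> omega
      apply hinj x y h3
      rw [h3] at h1 h2
      split_ifs at h1 h2 <;> omega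
    · intro x
      have hx := hu x
      have hm := hmem x
      have hp := hplt x
      rw [h.card] at hp
      have h3 : M - (M - u x) = u x := by omega
      by_cases h1 : pos x < u x
      · simp only [if_pos h1, add_zero]
        rw [etaL_even, h3, if_pos hm]
        exact h1
      · simp only [if_neg h1]
        have h4 : u x ∈ P := by
          by_contra hc
          rw [if_neg hc] at hp
          split_ifs at hp <;> omega
        rw [if_pos h4] at hp
        rw [etaL_odd, h3, if_pos h4]
        omega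
    · intro x
      change (2 * (M - u x) + (if pos x < u x then 0 else 1)) / 2 = M - u x
      split_ifs <;> omega

/-- The cells. `L x := etaL La P M (w₀ x)` = length of the line of `x`.
PROOF. `La` = the set of the values `η r > 0` (`L ∈ La` is in `P`, or `L + 1 ∈ P`, then `L = η (2i+1)` with `M - i = L+1`, or
single); `r ↦ η r` is injective and decreasing on nonempty lines; the type of the line `r` is
`t (M - r/2) = t (η r)` (`typ` for the second lines). So `cnt η (fun i => t (M - i)) s (w₀ x) = cntL La t s (L x)`.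
For the last two claims: `x ↦ (L x, A x)` is injective (`PerpL`, `r ↦ η r` injective), so `card X ≤ ∑ L ∈ La`; the
other inequality / surjectivity onto `{(L,a) | L ∈ La, a < L}` from `PerpL.surj` (SaxlN/Basic; it needs `card X = total`). -/
theorem cells {La P : Finset ℕ} {t t' : ℕ → Bool} {u cl : Word X} (h0 : 0 ∉ La)
    (h : Lay La P t t' u cl) {M : ℕ} (hM : ∀ L ∈ La, L ≤ M) {A w₀ : Word X}
    (hX : Fintype.card X = total M (etaL La P M))
    (hA : PerpL (etaL La P M) A w₀) (hw : ∀ x, w₀ x / 2 = M - u x) {s : ℕ → Bool}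
    (hs : ∀ L ∈ P, s (L - 1) = s L) :
    (∀ x, (rowT (etaL La P M) (fun i => s (M - i)) A w₀ x, colT (etaL La P M) (fun i => s (M - i)) A w₀ x) =
      cellOf La s (etaL La P M (w₀ x)) (A x)) ∧
    (∀ x, etaL La P M (w₀ x) ∈ La ∧ A x < etaL La P M (w₀ x)) ∧
    (Function.Injective fun x => (etaL La P M (w₀ x), A x)) ∧
    (∀ L ∈ La, ∀ a < L, ∃ x, etaL La P M (w₀ x) = L ∧ A x = a) := by
  classical
  have hMP : ∀ L ∈ P, L ≤ M := fun L hL => hM _ (h.sub _ hL).1
  have hD := etaL_LD0 h0 h hM
  have hpos : ∀ x, 0 < etaL La P M (w₀ x) := fun x => lt_of_le_of_lt (Nat.zero_le _) (hA.2 x)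
  -- the type of a line
  have htyp : ∀ r, 0 < etaL La P M r → s (M - r / 2) = s (etaL La P M r) := by
    intro r hr
    obtain ⟨h1, h2⟩ := etaL_pos h hr
    set L := etaL La P M r with hL
    unfold lineOf at h2
    split_ifs at h2 with h3
    · have h4 := hMP _ h3
      have h5 : M - r / 2 = L + 1 := by omega
      rw [h5]
      exact (hs _ h3).symm
    · have h4 := hM _ h1
      have h5 : M - r / 2 = L := by omega
      rw [h5]
  have hcnt : ∀ (b : Bool) (r : ℕ), 0 < etaL La P M r →
      cnt (etaL La P M) (fun i => s (M - i)) b r = cntL La s b (etaL La P M r) := by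
    intro b r hr
    unfold cnt cntL
    refine card_bij (fun r' _ => etaL La P M r') ?_ ?_ ?_
    · intro r' hr'
      simp only [mem_filter, mem_range] at hr' ⊢
      refine ⟨(etaL_pos h hr'.2.1).1, hD.dec _ _ hr'.1 hr hr'.2.1, ?_⟩
      rw [← htyp _ hr'.2.1]
      exact hr'.2.2
    · intro r₁ h₁ r₂ h₂ h12
      simp only [mem_filter, mem_range] at h₁ h₂
      rw [← (etaL_pos h h₁.2.1).2, ← (etaL_pos h h₂.2.1).2, h12]
    · intro L hL
      simp only [mem_filter] at hL
      have h1 := etaL_lineOf h hM hL.1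
      have h2 : 0 < etaL La P M (lineOf P M L) := by
        rw [h1]; omega
      refine ⟨lineOf P M L, ?_, h1⟩
      simp only [mem_filter, mem_range]
      refine ⟨?_, h2, ?_⟩
      · have h3 := lineOf_lt (P := P) hL.2.1 (hM _ hL.1) hMP
        rw [(etaL_pos h hr).2] at h3
        exact h3
      · rw [htyp _ h2, h1]
        exact hL.2.2
  refine ⟨?_, ?_, ?_, ?_⟩
  · intro x
    have h1 := htyp _ (hpos x)
    simp only [rowT, colT, cellOf, hcnt _ _ (hpos x), h1]
  · intro x
    exact ⟨(etaL_pos h (hpos x)).1, hA.2 x⟩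
  · intro x y hxy
    simp only [Prod.mk.injEq] at hxy
    apply hA.1
    have h1 : w₀ x = w₀ y := by
      rw [← (etaL_pos h (hpos x)).2, ← (etaL_pos h (hpos y)).2, hxy.1]
    simp only [Prod.mk.injEq]
    exact ⟨hxy.2, h1⟩
  · intro L hL a ha
    have h1 := etaL_lineOf h hM hL
    obtain ⟨x, hx1, hx2⟩ := hA.surj hD.zero hX a (lineOf P M L) (by rw [h1]; exact ha)
    exact ⟨x, by rw [hx2, h1], hx1⟩

end Crest.Agent.SaxlN
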