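import Crest.Agent.SaxlN.Orth
import Crest.Agent.SaxlN.Content
import Crest.Agent.SaxlN.Dom
import Crest.Agent.SaxlN.IsoT
import Crest.Agent.SaxlN.Dual

/-!
CHUNK ROWISO (hard, ~250 lines; Orth, Content, Dom, IsoT are black boxes).
-/

set_option autoImplicit false

namespace Crest.Agent.SaxlN

open Finset Equiv
open Crest.Agent.Saxl

variable {X : Type} [Fintype X] [DecidableEq X]

private theorem ri_mul {Y V : Type} [AddCommGroup V] [Module ℂ V]
    (τ : Representation ℂ (Perm Y) V) (g h : Perm Y) (v : V) : τ (g * h) v = τ g (τ h v) := by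
  rw [map_mul]; rfl

private theorem ri_conj_swap (g : Perm X) (a b : X) :
    swap a b * g = g * swap (g⁻¹ a) (g⁻¹ b) := by
  have h := Equiv.mul_swap_eq_swap_mul g (g⁻¹ a) (g⁻¹ b)
  rw [show g (g⁻¹ a) = a by simp, show g (g⁻¹ b) = b by simp] at h
  exact h.symm

private theorem ri_swap_mem {β : Type} {w : X → β} {a b : X} (h : w a = w b) :
    w ∘ (swap a b : Perm X) = w := by
  funext z
  simp only [Function.comp_apply]
  rcases eq_or_ne z a with h1 | h1
  · rw [h1, swap_apply_left, h]
  · rcases eq_or_ne z b with h2 | h2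
    · rw [h2, swap_apply_right, h]
    · rw [swap_apply_of_ne_of_ne h1 h2]

private theorem ri_span_inv {Y V : Type} [AddCommGroup V] [Module ℂ V]
    (τ : Representation ℂ (Perm Y) V) (v : V) :
    ∀ g, ∀ x ∈ Submodule.span ℂ (Set.range fun g : Perm Y => τ g v),
      τ g x ∈ Submodule.span ℂ (Set.range fun g : Perm Y => τ g v) := by
  intro g x hx
  refine Submodule.span_induction
    (p := fun x _ => τ g x ∈ Submodule.span ℂ (Set.range fun g : Perm Y => τ g v)) ?_ ?_ ?_ ?_ hx
  · rintro _ ⟨g', rfl⟩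
    simp only
    rw [← ri_mul]
    exact Submodule.subset_span ⟨g * g', rfl⟩
  · rw [map_zero]; exact Submodule.zero_mem _
  · intro x y _ _ hx hy
    rw [map_add]; exact Submodule.add_mem _ hx hy
  · intro a x _ hx
    rw [map_smul]; exact Submodule.smul_mem _ a hx

/-- equivariant projection onto an invariant subspace -/
private theorem ri_proj {V : Type} [AddCommGroup V] [Module ℂ V]
    (τ : Representation ℂ (Perm X) V) (N : Submodule ℂ V) (hN : ∀ g, ∀ x ∈ N, τ g x ∈ N) :
    ∃ φ : V →ₗ[ℂ] V, (∀ g x, φ (τ g x) = τ g (φ x)) ∧ (∀ x, φ x ∈ N) ∧ ∀ x ∈ N, φ x = x := by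
  classical
  obtain ⟨p, hp⟩ := LinearMap.exists_leftInverse_of_injective N.subtype (Submodule.ker_subtype N)
  have hπ1 : ∀ x, ((p x : N) : V) ∈ N := fun x => (p x).2
  have hπ2 : ∀ x ∈ N, ((p x : N) : V) = x := by
    intro x hx
    have := LinearMap.congr_fun hp ⟨x, hx⟩
    exact congrArg Subtype.val this
  refine ⟨((Fintype.card (Perm X) : ℂ)⁻¹) • ∑ g : Perm X, (τ g) ∘ₗ (N.subtype ∘ₗ p) ∘ₗ (τ g⁻¹),
    ?_, ?_, ?_⟩
  · intro g x
    simp only [LinearMap.smul_apply, LinearMap.sum_apply, LinearMap.comp_apply, map_smul, map_sum]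
    congr 1
    refine Fintype.sum_equiv (Equiv.mulLeft g⁻¹) _ _ fun h => ?_
    simp only [Equiv.coe_mulLeft, mul_inv_rev, inv_inv]
    rw [← ri_mul, ← ri_mul, ← mul_assoc, mul_inv_cancel, one_mul]
  · intro x
    simp only [LinearMap.smul_apply, LinearMap.sum_apply, LinearMap.comp_apply]
    exact N.smul_mem _ (N.sum_mem fun g _ => hN g _ (hπ1 _))
  · intro x hx
    simp only [LinearMap.smul_apply, LinearMap.sum_apply, LinearMap.comp_apply,
      Submodule.subtype_apply]
    have h1 : ∀ g : Perm X, τ g ((p (τ g⁻¹ x) : N) : V) = x := by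
      intro g
      rw [hπ2 _ (hN g⁻¹ x hx), ← ri_mul, mul_inv_cancel, map_one]
      rfl
    rw [Finset.sum_congr rfl fun g _ => h1 g, Finset.sum_const, Finset.card_univ,
      ← Nat.cast_smul_eq_nsmul ℂ, smul_smul, inv_mul_cancel₀, one_smul]
    exact Nat.cast_ne_zero.2 Fintype.card_ne_zero

/-- a nonzero vector generates something seen by a Young symmetriser -/
private theorem ri_exists_gen {W : Type} [AddCommGroup W] [Module ℂ W]
    (σ : Representation ℂ (Perm X) W) (w : W) (hw : w ≠ 0) :
    ∃ ρ κ : Word X, IsTab (fun _ => 0) ρ κ ∧ ∃ g, yact σ ρ κ (σ g w) ≠ 0 := by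
  classical
  have hinvW := ri_span_inv σ w
  set W' : Submodule ℂ W := Submodule.span ℂ (Set.range fun g : Perm X => σ g w) with hW'
  have hw1 : w ∈ W' := by
    have : σ 1 w ∈ W' := Submodule.subset_span ⟨1, rfl⟩
    rwa [map_one] at this
  have hnt : Nontrivial W' := ⟨⟨⟨w, hw1⟩, 0, fun h => hw (congrArg Subtype.val h)⟩⟩
  let σ' : Representation ℂ (Perm X) W' :=
    { toFun := fun g => (σ g).restrict (hinvW g)
      map_one' := by ext x; simp
      map_mul' := fun g g' => by ext x; simp [LinearMap.restrict_apply] }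
  have hσ' : ∀ (ρ κ : Word X) (x : W'), ((yact σ' ρ κ x : W') : W) = yact σ ρ κ (x : W) := by
    intro ρ κ x
    unfold yact
    simp only [Submodule.coe_sum, Submodule.coe_smul]
    rfl
  obtain ⟨ρ, κ, htab, x, hx⟩ := exists_yact_ne_zero σ'
  refine ⟨ρ, κ, htab, ?_⟩
  have hx' : σ.asAlgebraHom (EP ρ κ) (x : W) ≠ 0 := by
    rw [asAlgebraHom_EP, ← hσ']
    intro h
    exact hx (Subtype.ext h)
  by_contra hcon
  push Not at hcon
  apply hx'
  have hle : W' ≤ LinearMap.ker (σ.asAlgebraHom (EP ρ κ)) := by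
    rw [hW', Submodule.span_le]
    rintro _ ⟨g, rfl⟩
    show σ.asAlgebraHom (EP ρ κ) (σ g w) = 0
    rw [asAlgebraHom_EP]
    exact hcon g
  exact hle x.2

/-- an alternating sum over a set stable under `s` kills vectors fixed by `s` -/
private theorem ri_alt_zero {V : Type} [AddCommGroup V] [Module ℂ V]
    (τ : Representation ℂ (Perm X) V) (P : Finset (Perm X)) (χ : Perm X → ℂ) (s : Perm X)
    (hP : ∀ c, c ∈ P ↔ c * s ∈ P) (e : ℂ) (hχ : ∀ c, χ (c * s) = e * χ c) (v : V) (e' : ℂ)
    (hv : τ s v = e' • v) (he : e * e' = -1) :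
    ∑ c ∈ P, χ c • τ c v = 0 := by
  have h1 : ∑ c ∈ P, χ c • τ c v = ∑ c ∈ P, χ (c * s) • τ (c * s) v := by
    refine (Finset.sum_equiv (Equiv.mulRight s) ?_ ?_).symm
    · intro c; exact hP c
    · intro c _; rfl
  have h2 : ∑ c ∈ P, χ (c * s) • τ (c * s) v = - ∑ c ∈ P, χ c • τ c v := by
    rw [← Finset.sum_neg_distrib]
    refine Finset.sum_congr rfl fun c _ => ?_
    rw [ri_mul, hv, map_smul, hχ, smul_smul]
    have : e * χ c * e' = -(χ c) := by linear_combination (χ c) * he
    rw [this, neg_smul]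
  have h3 := h1.trans h2
  have h4 : (2 : ℂ) • ∑ c ∈ P, χ c • τ c v = 0 := by
    rw [two_smul]
    nth_rewrite 1 [h3]
    simp
  exact (smul_eq_zero.mp h4).resolve_left two_ne_zero

/-- if the alternating sum over the columns of `w` does not kill `τ g v`, and `v` is fixed by the
swaps inside the blocks of `R`, then no two letters in the same column have the same `R ∘ g⁻¹` -/
private theorem ri_inj_of_yact {V : Type} [AddCommGroup V] [Module ℂ V]
    (τ : Representation ℂ (Perm X) V) (ρ κ R : Word X) (v : V) (g : Perm X)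
    (hv : ∀ a b, R a = R b → τ (swap a b) v = v) (hne : yact τ ρ κ (τ g v) ≠ 0) :
    Function.Injective (fun x => (κ x, R (g⁻¹ x))) := by
  intro a b hab
  by_contra hne'
  simp only [Prod.mk.injEq] at hab
  obtain ⟨h1, h2⟩ := hab
  apply hne
  unfold yact
  refine Finset.sum_eq_zero fun r _ => ?_
  have h3 : ∑ c ∈ Rs κ, (((Perm.sign c : ℤˣ) : ℤ) : ℂ) • τ (r * c) (τ g v) =
      τ r (∑ c ∈ Rs κ, (((Perm.sign c : ℤˣ) : ℤ) : ℂ) • τ c (τ g v)) := by
    rw [map_sum]
    refine Finset.sum_congr rfl fun c _ => ?_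
    rw [map_smul, ri_mul]
  rw [h3]
  have h4 : ∑ c ∈ Rs κ, (((Perm.sign c : ℤˣ) : ℤ) : ℂ) • τ c (τ g v) = 0 := by
    refine ri_alt_zero τ (Rs κ) (fun c => (((Perm.sign c : ℤˣ) : ℤ) : ℂ)) (swap a b) ?_ (-1) ?_
      (τ g v) 1 ?_ (by norm_num)
    · intro c
      have hs := ri_swap_mem (w := κ) h1
      simp only [Rs, mem_filter, mem_univ, true_and]
      constructor
      · intro h
        funext z
        have e1 := congrFun h (swap a b z)
        have e2 := congrFun hs z
        simp only [Function.comp_apply] at e1 e2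
        simp only [Function.comp_apply, Perm.mul_apply]
        rw [e1, e2]
      · intro h
        funext z
        have e1 := congrFun h (swap a b z)
        have e2 := congrFun hs z
        simp only [Function.comp_apply, Perm.mul_apply, swap_apply_self] at e1 e2
        simp only [Function.comp_apply]
        rw [e1, e2]
    · intro c
      rw [Perm.sign_mul, Perm.sign_swap hne']
      simp
    · rw [← ri_mul, ri_conj_swap, ri_mul, hv _ _ h2, one_smul]
  rw [h4, map_zero]

/-- adding a first row to a tableau -/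
private theorem ri_tab (L : X → Prop) [DecidablePred L] (A : Word X) (K : ℕ)
    (hAK : ∀ x, A x < K)
    (hL : Fintype.card {x // L x} = K) (hinj : ∀ x y, L x → L y → A x = A y → x = y)
    (R₁ C₁ : Word {x // ¬ L x}) (hT : IsTab (fun _ => 0) R₁ C₁) (hC : ∀ x, C₁ x < K) :
    IsTab (fun _ => 0) (fun x => if h : L x then 0 else R₁ ⟨x, h⟩ + 1)
      (fun x => if h : L x then A x else C₁ ⟨x, h⟩) := by
  have hsurj : ∀ j, j < K → ∃ x, L x ∧ A x = j := by
    intro j hj
    let f : {x // L x} → Fin K := fun x => ⟨A x.1, hAK x.1⟩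
    have hf : Function.Injective f := by
      intro x y hxy
      apply Subtype.ext
      exact hinj _ _ x.2 y.2 (congrArg Fin.val hxy)
    have hb : Function.Bijective f := by
      rw [Fintype.bijective_iff_injective_and_card]
      exact ⟨hf, by rw [hL, Fintype.card_fin]⟩
    obtain ⟨x, hx⟩ := hb.2 ⟨j, hj⟩
    exact ⟨x.1, x.2, congrArg Fin.val hx⟩
  constructor
  · intro x y hxy
    simp only [Prod.mk.injEq, true_and] at hxy
    obtain ⟨h1, h2⟩ := hxy
    by_cases hx : L x
    · by_cases hy : L y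
      · simp only [hx, hy, dif_pos] at h2
        exact hinj x y hx hy h2
      · simp [hx, hy] at h1
    · by_cases hy : L y
      · simp [hx, hy] at h1
      · simp only [hx, hy, dif_neg, not_false_eq_true] at h1 h2
        have h3 : (⟨x, hx⟩ : {x // ¬ L x}) = ⟨y, hy⟩ := by
          apply hT.inj
          simp only [Prod.mk.injEq, true_and]
          exact ⟨by omega, h2⟩
        exact congrArg Subtype.val h3
  · intro x i j hi hj
    by_cases hi0 : i = 0
    · subst hi0
      have hjK : j < K := by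
        by_cases hx : L x
        · simp only [hx, dif_pos] at hj
          have := hAK x
          omega
        · simp only [hx, dif_neg, not_false_eq_true] at hj
          have := hC ⟨x, hx⟩
          omega
      obtain ⟨z, hz, hAz⟩ := hsurj j hjK
      refine ⟨z, rfl, ?_, ?_⟩
      · simp [hz]
      · simp [hz, hAz]
    · by_cases hx : L x
      · simp only [hx, dif_pos] at hi
        omega
      · simp only [hx, dif_neg, not_false_eq_true] at hi hj
        obtain ⟨z, _, h1, h2⟩ := hT.lower ⟨x, hx⟩ (i - 1) j (by omega) hj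
        refine ⟨z.1, rfl, ?_, ?_⟩
        · simp only [z.2, dif_neg, not_false_eq_true]
          rw [show (⟨z.1, z.2⟩ : {x // ¬ L x}) = z from rfl, h1]
          omega
        · simp only [z.2, dif_neg, not_false_eq_true]
          exact h2

/-- (∗): the symmetriser of more than `K` letters kills the module generated by a vector alternating
along `K` columns -/
private theorem ri_sym_zero {V : Type} [AddCommGroup V] [Module ℂ V]
    (τ : Representation ℂ (Perm X) V) (A : Word X) (K : ℕ) (hAK : ∀ x, A x < K) (y : V)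
    (S : Finset X) (hS : K < S.card) (w : V)
    (hw : w ∈ Submodule.span ℂ (Set.range fun g : Perm X =>
      τ g (∑ c ∈ Rs A, (((Perm.sign c : ℤˣ) : ℤ) : ℂ) • τ c y))) :
    ∑ p ∈ (univ : Finset (Perm X)).filter (fun p => ∀ x, x ∉ S → p x = x), τ p w = 0 := by
  classical
  set v := ∑ c ∈ Rs A, (((Perm.sign c : ℤˣ) : ℤ) : ℂ) • τ c y with hv
  have halt : ∀ a b, a ≠ b → A a = A b → τ (swap a b) v = (-1 : ℂ) • v := by
    intro a b hab hA
    rw [hv, map_sum, Finset.smul_sum]
    refine Finset.sum_equiv (Equiv.mulLeft (swap a b)) ?_ ?_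
    · intro c
      have hs := ri_swap_mem (w := A) hA
      simp only [Rs, mem_filter, mem_univ, true_and, Equiv.coe_mulLeft]
      constructor
      · intro h
        funext z
        have e1 := congrFun h z
        have e2 := congrFun hs (c z)
        simp only [Function.comp_apply] at e1 e2
        simp only [Function.comp_apply, Perm.mul_apply]
        rw [e2, e1]
      · intro h
        funext z
        have e1 := congrFun h z
        have e2 := congrFun hs (c z)
        simp only [Function.comp_apply, Perm.mul_apply] at e1 e2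
        simp only [Function.comp_apply]
        rw [← e2, e1]
    · intro c _
      simp only [Equiv.coe_mulLeft]
      rw [map_smul, ri_mul, Perm.sign_mul, Perm.sign_swap hab, smul_smul]
      simp
  have key : ∀ g : Perm X, ∑ p ∈ (univ : Finset (Perm X)).filter
      (fun p => ∀ x, x ∉ S → p x = x), τ p (τ g v) = 0 := by
    intro g
    obtain ⟨a, ha, b, hb, hab, hA⟩ := Finset.exists_ne_map_eq_of_card_lt_of_maps_to
      (s := S) (t := range K) (by rwa [card_range]) (f := fun x => A (g⁻¹ x))
      (fun x _ => Finset.mem_coe.2 (mem_range.2 (hAK _)))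
    have h1 := ri_alt_zero τ ((univ : Finset (Perm X)).filter (fun p => ∀ x, x ∉ S → p x = x))
      (fun _ => 1) (swap a b) ?_ 1 (fun c => by simp) (τ g v) (-1) ?_ (by norm_num)
    · simpa only [one_smul] using h1
    · intro c
      have hsw : ∀ x, x ∉ S → swap a b x = x := by
        intro x hx
        rw [swap_apply_of_ne_of_ne]
        · rintro rfl; exact hx ha
        · rintro rfl; exact hx hb
      simp only [mem_filter, mem_univ, true_and, Perm.mul_apply]
      constructor
      · intro h x hx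
        rw [hsw x hx, h x hx]
      · intro h x hx
        have := h x hx
        rwa [hsw x hx] at this
    · rw [← ri_mul, ri_conj_swap, ri_mul, halt _ _ (fun h => hab (g⁻¹.injective h)) hA, map_smul]
  have hle : Submodule.span ℂ (Set.range fun g : Perm X => τ g v) ≤ LinearMap.ker
      (∑ p ∈ (univ : Finset (Perm X)).filter (fun p => ∀ x, x ∉ S → p x = x), τ p) := by
    rw [Submodule.span_le]
    rintro _ ⟨g, rfl⟩
    simp only [SetLike.mem_coe, LinearMap.mem_ker, LinearMap.sum_apply]
    exact key g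
  have := hle hw
  simpa only [LinearMap.mem_ker, LinearMap.sum_apply] using this

/-- the relation `y + ∑_{x ∈ L} (x z₀) y = 0` -/
private theorem ri_relation {V : Type} [AddCommGroup V] [Module ℂ V]
    (τ : Representation ℂ (Perm X) V) (A : Word X) (K : ℕ) (hAK : ∀ x, A x < K) (y₀ : V)
    (L : Finset X) (hL : L.card = K) (y : V)
    (hyN : y ∈ Submodule.span ℂ (Set.range fun g : Perm X =>
      τ g (∑ c ∈ Rs A, (((Perm.sign c : ℤˣ) : ℤ) : ℂ) • τ c y₀)))
    (hy : ∀ g : Perm X, (∀ x, x ∉ L → g x = x) → τ g y = y) (z₀ : X) (hz₀ : z₀ ∉ L) :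
    ∑ x ∈ L, τ (swap x z₀) y = - y := by
  classical
  have h0 := ri_sym_zero τ A K hAK y₀ (insert z₀ L)
    (by rw [card_insert_of_notMem hz₀, hL]; omega) y hyN
  set P := (univ : Finset (Perm X)).filter (fun p => ∀ x, x ∉ insert z₀ L → p x = x) with hP
  set Q := (univ : Finset (Perm X)).filter (fun p => ∀ x, x ∉ L → p x = x) with hQ
  have hmaps : ∀ p ∈ P, p z₀ ∈ insert z₀ L := by
    intro p hp
    simp only [hP, mem_filter, mem_univ, true_and] at hp
    by_contra hcon
    have h1 := hp _ hcon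
    have h2 := p.injective h1
    rw [h2] at hcon
    exact hcon (mem_insert_self _ _)
  rw [← Finset.sum_fiberwise_of_maps_to hmaps] at h0
  have hfib : ∀ x ∈ insert z₀ L, ∑ p ∈ P.filter (fun p => p z₀ = x), τ p y =
      (Q.card : ℂ) • τ (swap x z₀) y := by
    intro x hx
    have h1 : ∑ p ∈ P.filter (fun p => p z₀ = x), τ p y = ∑ q ∈ Q, τ (swap x z₀) y := by
      symm
      refine Finset.sum_bij' (fun q _ => swap x z₀ * q) (fun p _ => swap x z₀ * p) ?_ ?_ ?_ ?_ ?_
      · intro q hq
        simp only [hQ, mem_filter, mem_univ, true_and] at hq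
        simp only [hP, mem_filter, mem_univ, true_and, Perm.mul_apply]
        refine ⟨?_, ?_⟩
        · intro u hu
          have hu1 : u ∉ L := fun h => hu (mem_insert_of_mem h)
          have hu2 : u ≠ z₀ := fun h => hu (h ▸ mem_insert_self _ _)
          have hu3 : u ≠ x := fun h => hu (h ▸ hx)
          rw [hq u hu1, swap_apply_of_ne_of_ne hu3 hu2]
        · rw [hq z₀ hz₀, swap_apply_right]
      · intro p hp
        simp only [hP, mem_filter, mem_univ, true_and] at hp
        simp only [hQ, mem_filter, mem_univ, true_and, Perm.mul_apply]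
        intro u hu
        rcases eq_or_ne u z₀ with h | h
        · rw [h, hp.2, swap_apply_left]
        · have hu1 : u ∉ insert z₀ L := by
            rw [mem_insert]
            rintro (h' | h')
            · exact h h'
            · exact hu h'
          have hu3 : u ≠ x := fun h' => hu1 (h' ▸ hx)
          rw [hp.1 u hu1, swap_apply_of_ne_of_ne hu3 h]
      · intro q _
        simp only [← mul_assoc, swap_mul_self, one_mul]
      · intro p _
        simp only [← mul_assoc, swap_mul_self, one_mul]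
      · intro q hq
        simp only [hQ, mem_filter, mem_univ, true_and] at hq
        rw [ri_mul, hy q hq]
    rw [h1, Finset.sum_const, Nat.cast_smul_eq_nsmul]
  rw [Finset.sum_congr rfl hfib, ← Finset.smul_sum, smul_eq_zero] at h0
  have hQ0 : (Q.card : ℂ) ≠ 0 := by
    rw [Nat.cast_ne_zero]
    exact (Finset.card_pos.2 ⟨1, by simp [hQ]⟩).ne'
  have h1 := h0.resolve_left hQ0
  rw [Finset.sum_insert hz₀, swap_self] at h1
  have h2 : τ (Equiv.refl X) y = y := by
    have : (Equiv.refl X : Perm X) = 1 := rfl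
    rw [this, map_one]; rfl
  rw [h2] at h1
  exact (neg_eq_of_add_eq_zero_right h1).symm

/-- the action of `TT` -/
private theorem ri_TT_apply {V : Type} [AddCommGroup V] [Module ℂ V]
    (τ : Representation ℂ (Perm X) V) (y : V) :
    τ.asAlgebraHom (TT X) y = ∑ a : X, ∑ b ∈ univ.filter (fun b => b ≠ a), τ (swap a b) y := by
  unfold TT
  rw [map_sum, LinearMap.sum_apply]
  refine Finset.sum_congr rfl fun a _ => ?_
  rw [map_sum, LinearMap.sum_apply]
  refine Finset.sum_congr rfl fun b _ => ?_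
  rw [Representation.asAlgebraHom_of]

private theorem ri_ct (L : X → Prop) [DecidablePred L] (A : Word X) (K : ℕ)
    (hAK : ∀ x, A x < K)
    (hL : Fintype.card {x // L x} = K) (hinj : ∀ x y, L x → L y → A x = A y → x = y)
    (R₁ C₁ : Word {x // ¬ L x}) :
    (2 * ct (fun x => if h : L x then 0 else R₁ ⟨x, h⟩ + 1)
      (fun x => if h : L x then A x else C₁ ⟨x, h⟩) : ℤ) =
      (K : ℤ) * ((K : ℤ) - 1) + 2 * ct R₁ C₁ - 2 * (Fintype.card {x // ¬ L x} : ℤ) := by
  have h1 : ct (fun x => if h : L x then 0 else R₁ ⟨x, h⟩ + 1)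
      (fun x => if h : L x then A x else C₁ ⟨x, h⟩) =
      ∑ x : {x // L x}, (A x.1 : ℤ) + (ct R₁ C₁ - (Fintype.card {x // ¬ L x} : ℤ)) := by
    unfold ct
    rw [← Fintype.sum_subtype_add_sum_subtype L]
    congr 1
    · refine Finset.sum_congr rfl fun x _ => ?_
      simp [x.2]
    · have h2 : (Fintype.card {x // ¬ L x} : ℤ) = ∑ x : {x // ¬ L x}, (1 : ℤ) := by simp
      rw [h2, ← Finset.sum_sub_distrib]
      refine Finset.sum_congr rfl fun x _ => ?_
      simp only [x.2, dif_neg, not_false_eq_true]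
      rw [show (⟨x.1, x.2⟩ : {x // ¬ L x}) = x from rfl]
      push_cast
      ring
  have h2 : ∑ x : {x // L x}, A x.1 = ∑ j ∈ range K, j := by
    refine Finset.sum_bij (fun x _ => A x.1) ?_ ?_ ?_ ?_
    · intro x _
      exact mem_range.2 (hAK _)
    · intro x _ y _ hxy
      exact Subtype.ext (hinj _ _ x.2 y.2 hxy)
    · intro j hj
      let f : {x // L x} → Fin K := fun x => ⟨A x.1, hAK x.1⟩
      have hf : Function.Injective f := by
        intro x y hxy
        apply Subtype.ext
        exact hinj _ _ x.2 y.2 (congrArg Fin.val hxy)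
      have hb : Function.Bijective f := by
        rw [Fintype.bijective_iff_injective_and_card]
        exact ⟨hf, by rw [hL, Fintype.card_fin]⟩
      obtain ⟨x, hx⟩ := hb.2 ⟨j, mem_range.1 hj⟩
      exact ⟨x, mem_univ _, congrArg Fin.val hx⟩
    · intro x _
      rfl
  have h3 := Finset.sum_range_id_mul_two K
  have h4 : (2 : ℤ) * ∑ x : {x // L x}, (A x.1 : ℤ) = (K : ℤ) * ((K : ℤ) - 1) := by
    rw [← h2] at h3
    have h5 : (((∑ x : {x // L x}, A x.1) * 2 : ℕ) : ℤ) = ((K * (K - 1) : ℕ) : ℤ) := by rw [h3]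
    rcases Nat.eq_zero_or_pos K with h0 | h0
    · subst h0
      push_cast at h5 ⊢
      linarith
    · rw [Nat.cast_mul, Nat.cast_mul, Nat.cast_sub h0] at h5
      push_cast at h5
      linarith
  rw [h1]
  linarith

private theorem ri_TT {V : Type} [AddCommGroup V] [Module ℂ V]
    (τ : Representation ℂ (Perm X) V) (L : X → Prop) [DecidablePred L] (A : Word X) (K : ℕ)
    (hAK : ∀ x, A x < K)
    (hL : Fintype.card {x // L x} = K) (hinj : ∀ x y, L x → L y → A x = A y → x = y)
    (R₁ C₁ : Word {x // ¬ L x}) (y : V)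
    (hy : ∀ g : Perm X, (∀ x, ¬ L x → g x = x) → τ g y = y)
    (hrel : ∀ z₀, ¬ L z₀ → ∑ x : {x // L x}, τ (swap x.1 z₀) y = - y)
    (hTT : Representation.asAlgebraHom
      (τ.comp (Perm.ofSubtype : Perm {x // ¬ L x} →* Perm X)) (TT {x // ¬ L x}) y =
        ((2 * ct R₁ C₁ : ℤ) : ℂ) • y) :
    τ.asAlgebraHom (TT X) y = ((2 * ct (fun x => if h : L x then 0 else R₁ ⟨x, h⟩ + 1)
      (fun x => if h : L x then A x else C₁ ⟨x, h⟩) : ℤ) : ℂ) • y := by
  classical
  rw [ri_ct L A K hAK hL hinj R₁ C₁, ri_TT_apply]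
  rw [ri_TT_apply] at hTT
  have hF : ∀ {Z : Type} [Fintype Z] [DecidableEq Z] (f : Z → Z → V) (a : Z),
      ∑ b ∈ univ.filter (fun b => b ≠ a), f a b = ∑ b, if b ≠ a then f a b else 0 := by
    intro Z _ _ f a
    rw [Finset.sum_filter]
  have h1 : ∑ a : X, ∑ b ∈ univ.filter (fun b => b ≠ a), τ (swap a b) y =
      (∑ a : {x // L x}, (∑ b : {x // L x}, (if b.1 ≠ a.1 then τ (swap a.1 b.1) y else 0)
        + ∑ b : {x // ¬ L x}, (if b.1 ≠ a.1 then τ (swap a.1 b.1) y else 0))) +
      ∑ a : {x // ¬ L x}, (∑ b : {x // L x}, (if b.1 ≠ a.1 then τ (swap a.1 b.1) y else 0)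
        + ∑ b : {x // ¬ L x}, (if b.1 ≠ a.1 then τ (swap a.1 b.1) y else 0)) := by
    rw [← Fintype.sum_subtype_add_sum_subtype L]
    congr 1
    · refine Finset.sum_congr rfl fun a _ => ?_
      rw [hF (fun a b => τ (swap a b) y), ← Fintype.sum_subtype_add_sum_subtype L]
    · refine Finset.sum_congr rfl fun a _ => ?_
      rw [hF (fun a b => τ (swap a b) y), ← Fintype.sum_subtype_add_sum_subtype L]
  rw [h1, Finset.sum_add_distrib, Finset.sum_add_distrib]
  -- four parts
  have e1 : ∑ a : {x // L x}, ∑ b : {x // L x}, (if b.1 ≠ a.1 then τ (swap a.1 b.1) y else 0) =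
      ((K : ℂ) * ((K : ℂ) - 1)) • y := by
    have e11 : ∀ a : {x // L x}, ∑ b : {x // L x},
        (if b.1 ≠ a.1 then τ (swap a.1 b.1) y else 0) = ((K : ℂ) - 1) • y := by
      intro a
      have e12 : ∀ b : {x // L x}, (if b.1 ≠ a.1 then τ (swap a.1 b.1) y else 0) =
          y - (if a = b then y else 0) := by
        intro b
        by_cases hab : a = b
        · subst hab
          simp
        · have : b.1 ≠ a.1 := fun h => hab (Subtype.ext h).symm
          rw [if_pos this, if_neg hab, sub_zero]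
          apply hy
          intro x hx
          rw [swap_apply_of_ne_of_ne]
          · rintro rfl; exact hx a.2
          · rintro rfl; exact hx b.2
      rw [Finset.sum_congr rfl fun b _ => e12 b, Finset.sum_sub_distrib, Finset.sum_const,
        Finset.sum_ite_eq, if_pos (mem_univ _), Finset.card_univ, hL, sub_smul, one_smul,
        Nat.cast_smul_eq_nsmul]
    rw [Finset.sum_congr rfl fun a _ => e11 a, Finset.sum_const, Finset.card_univ, hL,
      ← Nat.cast_smul_eq_nsmul ℂ, smul_smul]
  have e3 : ∑ a : {x // ¬ L x}, ∑ b : {x // L x}, (if b.1 ≠ a.1 then τ (swap a.1 b.1) y else 0) =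
      (-(Fintype.card {x // ¬ L x} : ℂ)) • y := by
    have e31 : ∀ a : {x // ¬ L x}, ∑ b : {x // L x},
        (if b.1 ≠ a.1 then τ (swap a.1 b.1) y else 0) = - y := by
      intro a
      rw [← hrel a.1 a.2]
      refine Finset.sum_congr rfl fun b _ => ?_
      rw [if_pos, swap_comm]
      intro h
      exact a.2 (h ▸ b.2)
    rw [Finset.sum_congr rfl fun a _ => e31 a, Finset.sum_const, Finset.card_univ,
      ← Nat.cast_smul_eq_nsmul ℂ, smul_neg, neg_smul]
  have e2 : ∑ a : {x // L x}, ∑ b : {x // ¬ L x}, (if b.1 ≠ a.1 then τ (swap a.1 b.1) y else 0) =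
      (-(Fintype.card {x // ¬ L x} : ℂ)) • y := by
    rw [← e3, Finset.sum_comm]
    refine Finset.sum_congr rfl fun a _ => Finset.sum_congr rfl fun b _ => ?_
    rw [swap_comm]
    simp only [ne_comm]
  have e4 : ∑ a : {x // ¬ L x}, ∑ b : {x // ¬ L x},
      (if b.1 ≠ a.1 then τ (swap a.1 b.1) y else 0) = ((2 * ct R₁ C₁ : ℤ) : ℂ) • y := by
    rw [← hTT]
    refine Finset.sum_congr rfl fun a _ => ?_
    rw [hF (fun a b => (τ.comp (Perm.ofSubtype : Perm {x // ¬ L x} →* Perm X)) (swap a b) y)]
    refine Finset.sum_congr rfl fun b _ => ?_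
    by_cases hab : b = a
    · subst hab; simp
    · rw [if_pos hab, if_pos (fun h => hab (Subtype.ext h))]
      show _ = τ (Perm.ofSubtype (swap a b)) y
      rw [Perm.ofSubtype_swap_eq]
  rw [e1, e2, e3, e4, ← add_smul, ← add_smul, ← add_smul]
  congr 1
  push_cast
  ring

/-- THE LINE LEMMA. `L` = letters of the first line (a row of length `K`), `A` a column word with `K` columns.
PROOF. Write `v' = ∑_{c ∈ Rs A} sgn(c) τ c y`. Let `(ρ, κ)` be a tableau, `yact τ ρ κ (τ g₀ v') ≠ 0`. Let `N` be the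
(invariant) span of the `τ g v'`, `φ : V → N` an equivariant projection (Maschke), `z = zP ρ κ` acting by
`τ.asAlgebraHom`, `y' := z • φ y`. Then `∑ sgn(c) τ c y' = z • v' ≠ 0` (as `z • E = c E`, `c ≠ 0`, on
`E τ(g₀) v' ≠ 0`, `z` central), so `y' ≠ 0`, `y' ∈ N`.
(∗) For `S ⊆ X` with `K+1` elements `∑_{g supported on S} τ g` kills `N`: it kills `τ g v'` because two letters of
`g⁻¹ S` are in the same column (`A x < K`) and `v'` is alternating there.
`y'` is fixed by the permutations supported on `L`; so (∗) for `S = L ∪ {z₀}`, `z₀ ∉ L`, gives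
`y' + ∑_{x ∈ L} τ (swap x z₀) y' = 0`. `y'` is the image of `y` under an equivariant map, so `IsoV` (for
`Perm (X∖L)`) holds for `y'` (`IsoV.map`), so by `IsoT` `TT (X∖L)` acts on `y'` by `2 ct R₁ C₁`. Hence
`TT X • y' = (K(K-1) + 2 ct R₁ C₁ - 2 (n-K)) y' = 2 ct R C y'` where `(R, C)` is the tableau below. On the other hand
`TT X * zP ρ κ = 2 ct ρ κ • zP ρ κ` (`Content`), so `ct ρ κ = ct R C`.
By `exists_yact_ne_zero` applied to the `Perm (X∖L)`-module generated by `y'` and `IsoV` there are a tableau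
`(R₁ ∘ h, C₁ ∘ h)` and a nonzero vector `y'' = yact (..) (τ x y')`, fixed by the rows of `R₁ ∘ h` and by `Perm L`, so by
`Rs R'`, `R' = 0` on `L`, `R₁ ∘ h + 1` outside. `y'' ∈ z • V`. By `exists_yact_ne_zero` for the module
generated by `y''` there are a tableau `(ρ₂, κ₂)` and `g` with `yact τ ρ₂ κ₂ (τ g y'') ≠ 0`; by `Orth`
(`EP ρ₂ κ₂ * zP ρ κ ≠ 0`) the row counts of `ρ₂` and `ρ` agree. So `∑_{c ∈ Rs κ₂} sgn(c) τ c τ g y'' ≠ 0`, hence
`x ↦ (κ₂ x, R' (g⁻¹ x))` is injective, and `shape_dom` (for `ρ' = R'`; `(R', C')` is a tableau) gives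
`#{R' < t} ≤ #{ρ₂ < t} = #{ρ < t}`. By `Dom` the row counts of `ρ` and `R` agree; `tab_conj` gives `h`. -/
theorem row_iso {V : Type} [AddCommGroup V] [Module ℂ V] (τ : Representation ℂ (Perm X) V)
    (L : X → Prop) [DecidablePred L] (A : Word X) (K : ℕ) (hAK : ∀ x, A x < K)
    (hL : Fintype.card {x // L x} = K) (hinj : ∀ x y, L x → L y → A x = A y → x = y)
    (R₁ C₁ : Word {x // ¬ L x}) (hT : IsTab (fun _ => 0) R₁ C₁) (hC : ∀ x, C₁ x < K)
    (y : V) (hy : ∀ g : Perm X, (∀ x, ¬ L x → g x = x) → τ g y = y)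
    (hiso : IsoV (τ.comp (Perm.ofSubtype : Perm {x // ¬ L x} →* Perm X)) y R₁ C₁) :
    IsoV τ (∑ c ∈ Rs A, (((Perm.sign c : ℤˣ) : ℤ) : ℂ) • τ c y)
      (fun x => if h : L x then 0 else R₁ ⟨x, h⟩ + 1)
      (fun x => if h : L x then A x else C₁ ⟨x, h⟩) := by
  classical
  have hTab := ri_tab L A K hAK hL hinj R₁ C₁ hT hC
  intro ρ κ htab hne
  obtain ⟨g₀, hg₀⟩ := hne
  set v := ∑ c ∈ Rs A, (((Perm.sign c : ℤˣ) : ℤ) : ℂ) • τ c y with hv
  have hNinv := ri_span_inv τ v
  set N := Submodule.span ℂ (Set.range fun g : Perm X => τ g v) with hN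
  obtain ⟨φ, hφ1, hφ2, hφ3⟩ := ri_proj τ N hNinv
  set Z := τ.asAlgebraHom (zP ρ κ) with hZ
  have hZc : ∀ g w, Z (τ g w) = τ g (Z w) := by
    intro g w
    have h := congrArg (fun a => τ.asAlgebraHom a w) (zP_central ρ κ g)
    simp only [map_mul, Representation.asAlgebraHom_of, Module.End.mul_apply] at h
    exact h.symm
  have hZN : ∀ w ∈ N, Z w ∈ N := by
    intro w hw
    have h1 : ∀ a : MonoidAlgebra ℂ (Perm X), τ.asAlgebraHom a w ∈ N := by
      intro a
      induction a using MonoidAlgebra.induction_on with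
      | of g => rw [Representation.asAlgebraHom_of]; exact hNinv g w hw
      | add a b ha hb => rw [map_add, LinearMap.add_apply]; exact N.add_mem ha hb
      | smul r a ha => rw [map_smul, LinearMap.smul_apply]; exact N.smul_mem r ha
    exact h1 _
  -- the equivariant map
  let f : V →ₗ[ℂ] V := Z ∘ₗ φ
  have hf : ∀ g w, f (τ g w) = τ g (f w) := by
    intro g w
    simp only [f, LinearMap.comp_apply]
    rw [hφ1, hZc]
  have hvN : v ∈ N := by
    have : τ 1 v ∈ N := Submodule.subset_span ⟨1, rfl⟩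
    rwa [map_one] at this
  have hfv : f v = Z v := by
    simp only [f, LinearMap.comp_apply]
    rw [hφ3 v hvN]
  have hZv : Z v ≠ 0 := by
    intro h0
    obtain ⟨c, hc, hcE⟩ := zP_mul_EP htab
    have hcomm : zP ρ κ * EP ρ κ = EP ρ κ * zP ρ κ := by
      have h1 : ∀ a : MonoidAlgebra ℂ (Perm X), zP ρ κ * a = a * zP ρ κ := by
        intro a
        induction a using MonoidAlgebra.induction_on with
        | of g => exact (zP_central ρ κ g).symm
        | add a b ha hb => rw [mul_add, add_mul, ha, hb]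
        | smul r a ha => rw [mul_smul_comm, smul_mul_assoc, ha]
      exact h1 _
    rw [hcomm] at hcE
    have h2 := congrArg (fun a => τ.asAlgebraHom a (τ g₀ v)) hcE
    simp only [map_mul, Module.End.mul_apply, map_smul, LinearMap.smul_apply] at h2
    rw [← hZ, hZc, h0, map_zero, map_zero, asAlgebraHom_EP] at h2
    rcases smul_eq_zero.1 h2.symm with h | h
    · exact hc h
    · exact hg₀ h
  set y' := f y with hy'
  have hy'N : y' ∈ N := hZN _ (hφ2 _)
  have hy'0 : y' ≠ 0 := by
    intro h0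
    apply hZv
    rw [← hfv, hv, map_sum]
    refine Finset.sum_eq_zero fun c _ => ?_
    rw [map_smul, hf, ← hy', h0, map_zero, smul_zero]
  have hy'L : ∀ g : Perm X, (∀ x, ¬ L x → g x = x) → τ g y' = y' := by
    intro g hg
    rw [hy', ← hf, hy g hg]
  -- the relation
  have hrel : ∀ z₀, ¬ L z₀ → ∑ x : {x // L x}, τ (swap x.1 z₀) y' = - y' := by
    intro z₀ hz₀
    have h1 := ri_relation τ A K hAK y (univ.filter L)
      (by rw [← hL, Fintype.card_subtype]) y' (by rw [← hv, ← hN]; exact hy'N)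
      (fun g hg => hy'L g (fun x hx => hg x (by simpa using hx))) z₀ (by simpa using hz₀)
    rw [← h1]
    exact (Finset.sum_subtype (univ.filter L) (by simp) (fun x => τ (swap x z₀) y')).symm
  have hiso' : IsoV (τ.comp (Perm.ofSubtype : Perm {x // ¬ L x} →* Perm X)) y' R₁ C₁ :=
    IsoV.map (τ := τ.comp (Perm.ofSubtype : Perm {x // ¬ L x} →* Perm X))
      (τ' := τ.comp (Perm.ofSubtype : Perm {x // ¬ L x} →* Perm X)) f (fun g w => hf _ w) hiso
  have hTT := ri_TT τ L A K hAK hL hinj R₁ C₁ y' hy'L hrel (IsoV.TT hiso')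
  have hct : ct ρ κ = ct (fun x => if h : L x then 0 else R₁ ⟨x, h⟩ + 1)
      (fun x => if h : L x then A x else C₁ ⟨x, h⟩) := by
    have h1 := congrArg (fun a => τ.asAlgebraHom a (φ y)) (TT_mul_zP htab)
    simp only [map_mul, Module.End.mul_apply, map_smul, LinearMap.smul_apply] at h1
    rw [← hZ] at h1
    change τ.asAlgebraHom (Crest.Agent.SaxlN.TT X) y' = _ • y' at h1
    rw [h1, ← sub_eq_zero, ← sub_smul] at hTT
    have h2 := (smul_eq_zero.1 hTT).resolve_right hy'0
    rw [sub_eq_zero, Int.cast_inj] at h2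
    omega
  -- a vector fixed by rows
  obtain ⟨ρ₁, κ₁, htab₁, g₁, hg₁⟩ := ri_exists_gen
    (τ.comp (Perm.ofSubtype : Perm {x // ¬ L x} →* Perm X)) y' hy'0
  obtain ⟨h₁, hρ₁, hκ₁⟩ := hiso' ρ₁ κ₁ htab₁ ⟨g₁, hg₁⟩
  set y'' := yact (τ.comp (Perm.ofSubtype : Perm {x // ¬ L x} →* Perm X)) ρ₁ κ₁
    ((τ.comp (Perm.ofSubtype : Perm {x // ¬ L x} →* Perm X)) g₁ y') with hy''
  have hτ₁ : ∀ g w, (τ.comp (Perm.ofSubtype : Perm {x // ¬ L x} →* Perm X)) g w =
    τ (Perm.ofSubtype g) w := fun g w => rfl
  -- `y''` is fixed by the swaps inside the rows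
  have hfix : ∀ a b, (fun x => if h : L x then 0 else R₁ ⟨x, h⟩ + 1) (Perm.ofSubtype h₁ a) =
      (fun x => if h : L x then 0 else R₁ ⟨x, h⟩ + 1) (Perm.ofSubtype h₁ b) →
      τ (swap a b) y'' = y'' := by
    intro a b hab
    by_cases ha : L a
    · have hb : L b := by
        by_contra hb
        simp only at hab
        rw [Perm.ofSubtype_apply_of_not_mem h₁ (not_not.2 ha), dif_pos ha,
          Perm.ofSubtype_apply_of_mem h₁ hb, dif_neg (h₁ ⟨b, hb⟩).2] at hab
        omega
      have hsup : ∀ x, ¬ L x → swap a b x = x := by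
        intro x hx
        rw [swap_apply_of_ne_of_ne]
        · rintro rfl; exact hx ha
        · rintro rfl; exact hx hb
      have hcomm : ∀ g : Perm {x // ¬ L x},
          swap a b * Perm.ofSubtype g = Perm.ofSubtype g * swap a b := by
        intro g
        apply Perm.Disjoint.commute
        intro x
        by_cases hx : L x
        · exact Or.inr (Perm.ofSubtype_apply_of_not_mem g (not_not.2 hx))
        · exact Or.inl (hsup x hx)
      rw [hy'']
      unfold yact
      rw [map_sum]
      refine Finset.sum_congr rfl fun r _ => ?_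
      rw [map_sum]
      refine Finset.sum_congr rfl fun c _ => ?_
      rw [map_smul, hτ₁, hτ₁, ← ri_mul, hcomm, ri_mul, ← ri_mul τ (swap a b), hcomm, ri_mul,
        hy'L _ hsup]
    · have hb : ¬ L b := by
        intro hb
        simp only at hab
        rw [Perm.ofSubtype_apply_of_not_mem h₁ (not_not.2 hb), dif_pos hb,
          Perm.ofSubtype_apply_of_mem h₁ ha, dif_neg (h₁ ⟨a, ha⟩).2] at hab
        omega
      have hρab : ρ₁ ⟨a, ha⟩ = ρ₁ ⟨b, hb⟩ := by
        simp only at hab
        rw [Perm.ofSubtype_apply_of_mem h₁ ha, dif_neg (h₁ ⟨a, ha⟩).2,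
          Perm.ofSubtype_apply_of_mem h₁ hb, dif_neg (h₁ ⟨b, hb⟩).2] at hab
        rw [hρ₁]
        simp only [Function.comp_apply]
        exact Nat.succ.inj hab
      have hs := ri_swap_mem (w := ρ₁) hρab
      rw [← Perm.ofSubtype_swap_eq (⟨a, ha⟩ : {x // ¬ L x}) ⟨b, hb⟩, hy'']
      unfold yact
      rw [map_sum]
      refine Finset.sum_equiv (Equiv.mulLeft (swap (⟨a, ha⟩ : {x // ¬ L x}) ⟨b, hb⟩)) ?_ ?_
      · intro c
        simp only [Rs, mem_filter, mem_univ, true_and, Equiv.coe_mulLeft]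
        constructor
        · intro h
          funext z
          have e1 := congrFun h z
          have e2 := congrFun hs (c z)
          simp only [Function.comp_apply] at e1 e2
          simp only [Function.comp_apply, Perm.mul_apply]
          rw [e2, e1]
        · intro h
          funext z
          have e1 := congrFun h z
          have e2 := congrFun hs (c z)
          simp only [Function.comp_apply, Perm.mul_apply] at e1 e2
          simp only [Function.comp_apply]
          rw [← e2, e1]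
      · intro r _
        rw [map_sum]
        refine Finset.sum_congr rfl fun c _ => ?_
        simp only [Equiv.coe_mulLeft]
        rw [map_smul, hτ₁ (r * c), hτ₁ (_ * c), ← ri_mul, ← map_mul, mul_assoc]
  -- `y''` is in the image of `Z`
  obtain ⟨u, hu⟩ : ∃ u, y'' = Z u := by
    refine ⟨yact (τ.comp (Perm.ofSubtype : Perm {x // ¬ L x} →* Perm X)) ρ₁ κ₁
      ((τ.comp (Perm.ofSubtype : Perm {x // ¬ L x} →* Perm X)) g₁ (φ y)), ?_⟩
    rw [hy'']
    unfold yact
    rw [map_sum]
    refine Finset.sum_congr rfl fun r _ => ?_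
    rw [map_sum]
    refine Finset.sum_congr rfl fun c _ => ?_
    rw [map_smul, hτ₁, hτ₁, hτ₁, hτ₁, hZc, hZc]
    rfl
  obtain ⟨ρ₂, κ₂, htab₂, g₂, hg₂⟩ := ri_exists_gen τ y'' hg₁
  have horth : ∀ t, (univ.filter (fun x => ρ x < t)).card = (univ.filter (fun x => ρ₂ x < t)).card := by
    apply EP_zP_orth htab₂ htab (MonoidAlgebra.of ℂ (Perm X) g₂)
    intro h0
    apply hg₂
    have h1 := congrArg (fun a => τ.asAlgebraHom a u) h0
    simp only [map_mul, Module.End.mul_apply, Representation.asAlgebraHom_of, map_zero,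
      LinearMap.zero_apply] at h1
    rw [← hZ, ← hu, asAlgebraHom_EP] at h1
    exact h1
  have hinj₂ := ri_inj_of_yact τ ρ₂ κ₂
    (fun x => (fun x => if h : L x then 0 else R₁ ⟨x, h⟩ + 1) (Perm.ofSubtype h₁ x)) y'' g₂
    hfix hg₂
  have hdom : ∀ t, (univ.filter
      (fun x => (fun x => if h : L x then 0 else R₁ ⟨x, h⟩ + 1) x < t)).card ≤
      (univ.filter (fun x => ρ x < t)).card := by
    intro t
    rw [horth t]
    exact shape_dom htab₂ hTab (Perm.ofSubtype h₁ * g₂⁻¹) hinj₂ t
  obtain ⟨g, hg, hg'⟩ := tab_conj htab hTab (dom_ct htab hTab hdom hct)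
  exact ⟨g, hg.symm, hg'.symm⟩

end Crest.Agent.SaxlN
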