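import Crest.Agent.SaxlN.StepB
import Crest.Agent.SaxlN.RowIso

/-!
CHUNK STEPD (hard, ~250 lines): isotypy of the lift (two applications of the line lemma).
-/

set_option autoImplicit false

namespace Crest.Agent.SaxlN

open Finset Equiv
open Crest.Agent.Saxl

variable {X : Type} [Fintype X] [DecidableEq X]

set_option linter.unusedSectionVars false

section StepDaux

private theorem stepD_mem_Rs {Z : Type} [Fintype Z] [DecidableEq Z] {w : Word Z} {g : Perm Z} :
    g ∈ Rs w ↔ w ∘ g = w := by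
  simp [Rs]

/-- transport of isotypy along an equivalence of the letters -/
private theorem stepD_transport {Z Z' : Type} [Fintype Z] [DecidableEq Z] [Fintype Z']
    [DecidableEq Z'] {V V' : Type} [AddCommGroup V] [Module ℂ V] [AddCommGroup V'] [Module ℂ V']
    {τ : Representation ℂ (Perm Z) V} {τ' : Representation ℂ (Perm Z') V'} (e : Z ≃ Z')
    (f : V →ₗ[ℂ] V') (hf : ∀ g v, f (τ g v) = τ' (e.permCongr g) (f v)) {v : V} {R C : Word Z}
    (h : IsoV τ v R C) : IsoV τ' (f v) (R ∘ e.symm) (C ∘ e.symm) := by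
  intro ρ κ hT ⟨g', hg'⟩
  have hmem : ∀ (w : Word Z') (r : Perm Z), r ∈ Rs (w ∘ e) ↔ e.permCongr r ∈ Rs w := by
    intro w r
    rw [stepD_mem_Rs, stepD_mem_Rs]
    constructor
    · intro hr
      funext z
      have := congrFun hr (e.symm z)
      simpa using this
    · intro hr
      funext z
      have := congrFun hr (e z)
      simpa using this
  have hmul : ∀ a b : Perm Z, e.permCongr (a * b) = e.permCongr a * e.permCongr b := by
    intro a b
    ext z
    simp
  have key : yact τ' ρ κ (τ' g' (f v)) =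
      f (yact τ (ρ ∘ e) (κ ∘ e) (τ (e.permCongr.symm g') v)) := by
    unfold yact
    rw [map_sum]
    refine (Finset.sum_equiv e.permCongr (fun r => hmem ρ r) (fun r _ => ?_)).symm
    rw [map_sum]
    refine Finset.sum_equiv e.permCongr (fun c => hmem κ c) (fun c _ => ?_)
    rw [map_smul, hf, hf, hmul, Perm.sign_permCongr, Equiv.apply_symm_apply]
  rw [key] at hg'
  have h2 : yact τ (ρ ∘ e) (κ ∘ e) (τ (e.permCongr.symm g') v) ≠ 0 := by
    intro h0
    exact hg' (by rw [h0, map_zero])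
  have hT' : IsTab (fun _ => 0) (ρ ∘ e) (κ ∘ e) := by
    refine ⟨?_, ?_⟩
    · intro a b hab
      apply e.injective
      apply hT.inj
      simpa using hab
    · intro x i j hi hj
      obtain ⟨y, hy1, hy2, hy3⟩ := hT.lower (e x) i j hi hj
      exact ⟨e.symm y, rfl, by simpa using hy2, by simpa using hy3⟩
  obtain ⟨k, hk1, hk2⟩ := h (ρ ∘ e) (κ ∘ e) hT' ⟨_, h2⟩
  refine ⟨e.permCongr k, ?_, ?_⟩
  · funext z
    have := congrFun hk1 (e.symm z)
    simpa using this
  · funext z
    have := congrFun hk2 (e.symm z)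
    simpa using this

/-- the coarse line word -/
private def WW {X : Type} (w₀ : Word X) : Word X := fun x => min (w₀ x) 2

private theorem WW_pres {w₀ : Word X} {k : Perm X} (h : WW w₀ ∘ k = WW w₀) : Pres w₀ k := by
  intro x
  have := congrFun h x
  simp only [WW, Function.comp_apply] at this
  omega

private theorem WW_low {w₀ : Word X} {k : Perm X} (h : WW w₀ ∘ k = WW w₀) {x : X}
    (hx : w₀ x < 2) : w₀ (k x) = w₀ x := by
  have := congrFun h x
  simp only [WW, Function.comp_apply] at this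
  omega

private theorem WW_inv {w₀ : Word X} {k : Perm X} (h : WW w₀ ∘ k = WW w₀) :
    WW w₀ ∘ (k⁻¹ : Perm X) = WW w₀ := by
  funext x
  have := congrFun h (k⁻¹ x)
  simpa using this.symm

private theorem WW_mul {w₀ : Word X} {k l : Perm X} (h : WW w₀ ∘ k = WW w₀)
    (h' : WW w₀ ∘ l = WW w₀) : WW w₀ ∘ (k * l : Perm X) = WW w₀ := by
  funext x
  have h1 := congrFun h (l x)
  have h2 := congrFun h' x
  simp only [Function.comp_apply, Perm.mul_apply] at h1 h2 ⊢
  rw [h1, h2]

/-- extension by zero -/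
private noncomputable def ext1 (w₀ : Word X) : (Perm (X1 w₀) → ℂ) →ₗ[ℂ] (Perm X → ℂ) where
  toFun f := fun k => if WW w₀ ∘ k = WW w₀ then f (rs1 w₀ k) else 0
  map_add' f f' := by
    funext k
    by_cases h : WW w₀ ∘ k = WW w₀ <;> simp [h]
  map_smul' a f := by
    funext k
    by_cases h : WW w₀ ∘ k = WW w₀ <;> simp [h]

private theorem ext1_apply (w₀ : Word X) (f : Perm (X1 w₀) → ℂ) (k : Perm X) :
    ext1 w₀ f k = if WW w₀ ∘ k = WW w₀ then f (rs1 w₀ k) else 0 := rfl

private theorem ext1_equivariant {w₀ : Word X} (g : Perm (X1 w₀)) (k' : Perm X)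
    (h1 : ∀ x : X1 w₀, k' x = g x) (h2 : ∀ x, w₀ x < 2 → k' x = x) (f : Perm (X1 w₀) → ℂ) :
    ext1 w₀ (lreg (X1 w₀) g f) = lreg X k' (ext1 w₀ f) := by
  have hW : WW w₀ ∘ k' = WW w₀ := by
    funext x
    by_cases hx : w₀ x < 2
    · simp [h2 x hx]
    · have h3 := h1 ⟨x, by omega⟩
      have h4 := (g ⟨x, by omega⟩).2
      simp only [WW, Function.comp_apply]
      simp only at h3
      rw [h3]
      omega
  have hr : rs1 w₀ k' = g := by
    ext x
    rw [rs1_apply (WW_pres hW), h1]
  funext k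
  rw [lreg_apply, ext1_apply, ext1_apply, lreg_apply]
  by_cases hk : WW w₀ ∘ k = WW w₀
  · have hk2 : WW w₀ ∘ (k'⁻¹ * k : Perm X) = WW w₀ := WW_mul (WW_inv hW) hk
    rw [if_pos hk, if_pos hk2]
    have h5 : rs1 w₀ k = rs1 w₀ k' * rs1 w₀ (k'⁻¹ * k) := by
      rw [← rs1_mul (WW_pres hW) (WW_pres hk2)]
      congr 1
      group
    rw [h5, hr]
    congr 1
    group
  · have hk2 : ¬ WW w₀ ∘ (k'⁻¹ * k : Perm X) = WW w₀ := by
      intro h5
      apply hk
      have := WW_mul hW h5
      simpa using this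
    rw [if_neg hk, if_neg hk2]

/-- invariance of extended functions under permutations of a line -/
private theorem ext1_fixed {w₀ : Word X} (k' : Perm X) (r : ℕ) (hr : r < 2)
    (h : ∀ x, w₀ x ≠ r → k' x = x) (f : Perm (X1 w₀) → ℂ) :
    lreg X k' (ext1 w₀ f) = ext1 w₀ f := by
  have h2 : ∀ x, w₀ x = r → w₀ (k' x) = r := by
    intro x hx
    by_contra hne
    have h3 := h (k' x) hne
    have h4 := k'.injective h3
    rw [h4] at hne
    exact hne hx
  have hW : WW w₀ ∘ k' = WW w₀ := by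
    funext x
    by_cases hx : w₀ x = r
    · simp [WW, h2 x hx, hx]
    · simp [WW, h x hx]
  have hr1 : rs1 w₀ k' = 1 := by
    ext x
    rw [rs1_apply (WW_pres hW)]
    have := x.2
    rw [h x.1 (by omega)]
    rfl
  funext k
  rw [lreg_apply, ext1_apply, ext1_apply]
  by_cases hk : WW w₀ ∘ k = WW w₀
  · have hk2 : WW w₀ ∘ (k'⁻¹ * k : Perm X) = WW w₀ := WW_mul (WW_inv hW) hk
    rw [if_pos hk, if_pos hk2]
    have h5 : rs1 w₀ k = rs1 w₀ k' * rs1 w₀ (k'⁻¹ * k) := by
      rw [← rs1_mul (WW_pres hW) (WW_pres hk2)]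
      congr 1
      group
    rw [h5, hr1, one_mul]
  · have hk2 : ¬ WW w₀ ∘ (k'⁻¹ * k : Perm X) = WW w₀ := by
      intro h5
      apply hk
      have := WW_mul hW h5
      simpa using this
    rw [if_neg hk, if_neg hk2]


private theorem emL_one {w₀ A Y : Word X} (hY : ∀ x, w₀ x < 2 → Y x = w₀ x) :
    emL w₀ A Y = 1 := by
  unfold emL
  rw [Finset.prod_eq_one, Finset.prod_eq_one, one_mul]
  · intro x hx
    simp only [mem_filter, mem_univ, true_and] at hx
    rw [hY x (by omega), hx.1]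
    simp
  · intro q hq
    simp only [mem_filter, mem_univ, true_and] at hq
    rw [hY q.1 (by omega), hY q.2 (by omega), hq.1, hq.2.1]
    simp

private theorem perp_of_emL {η : ℕ → ℕ} (hT : Top η) {w₀ A Y : Word X} (hA : PerpL η A w₀)
    (hY : ∀ x, w₀ x < 2 → Y x < 2) (hne : emL w₀ A Y ≠ 0) :
    PerpL η A (fun x => if w₀ x < 2 then Y x else w₀ x) := by
  unfold emL at hne
  have hne1 := left_ne_zero_of_mul hne
  have hne2 := right_ne_zero_of_mul hne
  rw [Finset.prod_ne_zero_iff] at hne1 hne2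
  have hpair : ∀ x y, w₀ x = 0 → w₀ y = 1 → A x = A y → Y y ≠ Y x := by
    intro x y hx hy hxy h
    apply hne1 (x, y) (by simp [hx, hy, hxy])
    simp [h]
  have hsing : ∀ x, w₀ x = 0 → (∀ y, w₀ y = 1 → A y ≠ A x) → Y x ≠ 1 := by
    intro x hx hxy h
    apply hne2 x (by simpa [hx] using hxy)
    simp [h]
  refine ⟨?_, ?_⟩
  · intro x y hxy
    simp only [Prod.mk.injEq] at hxy
    obtain ⟨h1, h2⟩ := hxy
    by_cases hx : w₀ x < 2
    · by_cases hy : w₀ y < 2
      · rw [if_pos hx, if_pos hy] at h2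
        by_cases h3 : w₀ x = w₀ y
        · exact hA.1 (by simp [h1, h3])
        · exfalso
          by_cases h4 : w₀ x = 0
          · exact hpair x y h4 (by omega) h1 h2.symm
          · exact hpair y x (by omega) (by omega) h1.symm h2
      · rw [if_pos hx, if_neg hy] at h2
        have := hY x hx
        omega
    · by_cases hy : w₀ y < 2
      · rw [if_neg hx, if_pos hy] at h2
        have := hY y hy
        omega
      · rw [if_neg hx, if_neg hy] at h2
        exact hA.1 (by simp [h1, h2])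
  · intro x
    have hAx := hA.2 x
    by_cases hx : w₀ x < 2
    · simp only [if_pos hx]
      have hYx := hY x hx
      by_cases h0 : Y x = 0
      · rw [h0]
        by_cases h4 : w₀ x = 0
        · rwa [h4] at hAx
        · have h5 : w₀ x = 1 := by omega
          rw [h5] at hAx
          rcases hT.two with h | h <;> omega
      · have h1 : Y x = 1 := by omega
        rw [h1]
        by_cases h4 : w₀ x = 0
        · by_contra hlt
          apply hsing x h4 _ h1
          intro y hy hyx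
          have := hA.2 y
          rw [hy, hyx] at this
          exact hlt this
        · have h5 : w₀ x = 1 := by omega
          rwa [h5] at hAx
    · simp only [if_neg hx]
      exact hAx

private theorem sign_rs1 {η : ℕ → ℕ} {w₀ A : Word X} (hA : PerpL η A w₀) {d : Perm X}
    (hd : A ∘ d = A) (hW : WW w₀ ∘ d = WW w₀) : Perm.sign (rs1 w₀ d) = Perm.sign d := by
  have hp : ∀ x, 2 ≤ w₀ (d x) ↔ 2 ≤ w₀ x := WW_pres hW
  have h : rs1 w₀ d = d.subtypePerm (p := fun x => 2 ≤ w₀ x) hp := by
    unfold rs1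
    rw [dif_pos (WW_pres hW)]
  rw [h]
  apply Perm.sign_subtypePerm
  intro x hx
  by_contra hlt
  apply hx
  apply hA.1
  have h1 := congrFun hd x
  simp only [Function.comp_apply] at h1
  have h2 := WW_low hW (x := x) (by omega)
  simp [h1, h2]

private theorem vs_eq_sum {q : ℕ} {η : ℕ → ℕ} (hz : ∀ r, 2 * q ≤ r → η r = 0) (hT : Top η)
    (hX : Fintype.card X = total q η) {w₀ A : Word X} (hA : PerpL η A w₀)
    {v₁ : Perm (X1 w₀) → ℤ}
    (hv : ∀ c : Perm (X1 w₀), a1 w₀ A ∘ c = a1 w₀ A → ∀ g, v₁ (c * g) = ((Perm.sign c : ℤˣ) : ℤ) * v₁ g) :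
    ((((Rs A).filter (fun c : Perm X => WW w₀ ∘ c = WW w₀)).card : ℕ) : ℂ) • cx (vs w₀ A v₁) =
      ∑ c ∈ Rs A, (((Perm.sign c : ℤˣ) : ℤ) : ℂ) • lreg X c (ext1 w₀ (cx v₁)) := by
  classical
  funext g
  rw [Finset.sum_apply]
  simp only [Pi.smul_apply, lreg_apply, ext1_apply, smul_eq_mul]
  by_cases hex : ∃ c₀ : Perm X, A ∘ c₀ = A ∧ WW w₀ ∘ (c₀⁻¹ * g : Perm X) = WW w₀
  · obtain ⟨c₀, hc₀, hWg⟩ := hex
    have hvs := vs_eq hA hv hc₀ (WW_pres hWg)
    have hmt : mt w₀ A v₁ (c₀⁻¹ * g) = v₁ (rs1 w₀ (c₀⁻¹ * g)) := by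
      unfold mt
      rw [if_pos (WW_pres hWg), emL_one, one_mul]
      intro x hx
      exact WW_low (WW_inv hWg) hx
    rw [hmt] at hvs
    have h1 : ∀ d : Perm X, d ∈ Rs A ↔ c₀ * d ∈ Rs A := by
      intro d
      rw [stepD_mem_Rs, stepD_mem_Rs]
      constructor
      · intro hd
        funext x
        have h2 := congrFun hc₀ (d x)
        have h3 := congrFun hd x
        simp only [Function.comp_apply, Perm.mul_apply] at h2 h3 ⊢
        rw [h2, h3]
      · intro hd
        funext x
        have h2 := congrFun hc₀ (d x)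
        have h3 := congrFun hd x
        simp only [Function.comp_apply, Perm.mul_apply] at h2 h3 ⊢
        rw [← h2, h3]
    have h2 : ∑ c ∈ Rs A, (((Perm.sign c : ℤˣ) : ℤ) : ℂ) *
          (if WW w₀ ∘ (c⁻¹ * g : Perm X) = WW w₀ then cx v₁ (rs1 w₀ (c⁻¹ * g)) else 0) =
        ∑ d ∈ Rs A, if WW w₀ ∘ d = WW w₀ then cx (vs w₀ A v₁) g else 0 := by
      refine (Finset.sum_equiv (Equiv.mulLeft c₀) (fun d => ?_) (fun d hd => ?_)).symm
      · simpa using h1 d
      · rw [stepD_mem_Rs] at hd
        show _ = (((Perm.sign (c₀ * d) : ℤˣ) : ℤ) : ℂ) *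
          (if WW w₀ ∘ ((c₀ * d)⁻¹ * g : Perm X) = WW w₀ then
            cx v₁ (rs1 w₀ ((c₀ * d)⁻¹ * g)) else 0)
        have h3 : (c₀ * d)⁻¹ * g = d⁻¹ * (c₀⁻¹ * g) := by group
        simp only [h3]
        by_cases hWd : WW w₀ ∘ d = WW w₀
        · rw [if_pos hWd, if_pos (WW_mul (WW_inv hWd) hWg)]
          have h4 : rs1 w₀ (c₀⁻¹ * g) = rs1 w₀ d * rs1 w₀ (d⁻¹ * (c₀⁻¹ * g)) := by
            rw [← rs1_mul (WW_pres hWd) (WW_pres (WW_mul (WW_inv hWd) hWg))]
            congr 1
            group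
          have h5 : a1 w₀ A ∘ rs1 w₀ d = a1 w₀ A := by
            funext x
            simp only [a1, Function.comp_apply]
            rw [rs1_apply (WW_pres hWd)]
            exact congrFun hd x.1
          have h6 := hv _ h5 (rs1 w₀ (d⁻¹ * (c₀⁻¹ * g)))
          rw [← h4, sign_rs1 hA hd hWd] at h6
          simp only [cx]
          rw [hvs, h6]
          push_cast
          rw [Perm.sign_mul]
          push_cast
          ring
        · rw [if_neg hWd, if_neg, mul_zero]
          intro h4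
          apply hWd
          have h5 := WW_mul hWg (WW_inv h4)
          have h6 : c₀⁻¹ * g * (d⁻¹ * (c₀⁻¹ * g))⁻¹ = d := by group
          rwa [h6] at h5
    rw [h2, ← Finset.sum_filter, Finset.sum_const, nsmul_eq_mul]
  · push Not at hex
    have hvs0 : vs w₀ A v₁ g = 0 := by
      by_contra hne
      have h1 : ∃ c₀ : Perm X, A ∘ c₀ = A ∧ Pres w₀ (c₀⁻¹ * g) := by
        by_contra hcon
        push Not at hcon
        exact hne (vs_zero hcon)
      obtain ⟨c₀, hc₀, hP⟩ := h1
      rw [vs_eq hA hv hc₀ hP] at hne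
      have hne1 := right_ne_zero_of_mul hne
      unfold mt at hne1
      rw [if_pos hP] at hne1
      have hne2 := left_ne_zero_of_mul hne1
      have hPi := pres_inv hP
      have hperp := perp_of_emL hT hA (Y := w₀ ∘ ((c₀⁻¹ * g)⁻¹ : Perm X)) (by
        intro x hx
        have := hPi x
        simp only [Function.comp_apply]
        omega) hne2
      obtain ⟨g', hg1, hg2⟩ := perpL_conj hz hX hA hperp
      apply hex (c₀ * g'⁻¹)
      · funext x
        have h2 := congrFun hc₀ (g'⁻¹ x)
        have h3 := congrFun hg1 (g'⁻¹ x)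
        simp only [Function.comp_apply, Perm.mul_apply] at h2 h3 ⊢
        rw [h2, h3]
        simp
      · have h4 : (c₀ * g'⁻¹)⁻¹ * g = g' * (c₀⁻¹ * g) := by group
        rw [h4]
        funext x
        have h5 := congrFun hg2 ((c₀⁻¹ * g) x)
        have h8 : (c₀⁻¹ * g)⁻¹ ((c₀⁻¹ * g) x) = x := by simp
        simp only [Function.comp_apply, h8] at h5
        simp only [WW, Function.comp_apply]
        rw [Perm.mul_apply g' (c₀⁻¹ * g) x, ← h5]
        have h6 := hP x
        by_cases h7 : w₀ ((c₀⁻¹ * g) x) < 2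
        · rw [if_pos h7]
        · rw [if_neg h7]
          omega
    rw [show cx (vs w₀ A v₁) g = 0 by simp [cx, hvs0], mul_zero]
    symm
    apply Finset.sum_eq_zero
    intro c hc
    rw [stepD_mem_Rs] at hc
    rw [if_neg (hex c hc), mul_zero]


private theorem sum_alt_shift {V : Type} [AddCommGroup V] [Module ℂ V]
    (τ : Representation ℂ (Perm X) V) (A : Word X) (c' : Perm X) (hc' : A ∘ c' = A) (y : V) :
    ∑ c ∈ Rs A, (((Perm.sign c : ℤˣ) : ℤ) : ℂ) • τ c ((((Perm.sign c' : ℤˣ) : ℤ) : ℂ) • τ c' y) =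
      ∑ c ∈ Rs A, (((Perm.sign c : ℤˣ) : ℤ) : ℂ) • τ c y := by
  refine Finset.sum_equiv (Equiv.mulRight c') (fun c => ?_) (fun c _ => ?_)
  · rw [stepD_mem_Rs, stepD_mem_Rs]
    show A ∘ c = A ↔ A ∘ (c * c' : Perm X) = A
    constructor
    · intro h
      funext x
      have h1 := congrFun h (c' x)
      have h2 := congrFun hc' x
      simp only [Function.comp_apply, Perm.mul_apply] at h1 h2 ⊢
      rw [h1, h2]
    · intro h
      funext x
      have h1 := congrFun h (c'⁻¹ x)
      have h2 := congrFun hc' (c'⁻¹ x)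
      simp only [Function.comp_apply, Perm.mul_apply] at h1 h2 ⊢
      rw [← h2] at h1
      simpa using h1
  · show _ = (((Perm.sign (c * c') : ℤˣ) : ℤ) : ℂ) • τ (c * c') y
    rw [map_smul, smul_smul, Perm.sign_mul, map_mul, Module.End.mul_apply]
    push_cast
    rfl

private theorem cnt_two (η : ℕ → ℕ) (t : ℕ → Bool) (s : Bool) (r : ℕ) :
    cnt η t s (r + 2) = cnt (eta1 η) (t1 t) s r + (if 0 < η 1 ∧ t 0 = s then 1 else 0) +
      (if 0 < η 0 ∧ t 0 = s then 1 else 0) := by
  unfold cnt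
  rw [Finset.card_filter, Finset.card_filter, Finset.sum_range_succ', Finset.sum_range_succ']
  have h : ∀ k, (k + 1 + 1) / 2 = k / 2 + 1 := by intro k; omega
  have h1 : (0 + 1) / 2 = 0 := rfl
  simp only [h, h1, eta1, t1]
  rfl

private theorem row_zero {η : ℕ → ℕ} {w₀ A : Word X} {t : ℕ → Bool} (ht : t 0 = false) {x : X}
    (hx : w₀ x = 0) : rowT η t A w₀ x = 0 ∧ colT η t A w₀ x = A x := by
  simp [rowT, colT, hx, ht, cnt]

private theorem row_one {η : ℕ → ℕ} {w₀ A : Word X} {t : ℕ → Bool} (ht : t 0 = false)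
    (h0 : 0 < η 0) {x : X}
    (hx : w₀ x = 1) : rowT η t A w₀ x = 1 ∧ colT η t A w₀ x = A x := by
  unfold rowT colT cnt
  simp [hx, ht, h0, Finset.filter_singleton]

private theorem row_two {η : ℕ → ℕ} {w₀ A : Word X} {t : ℕ → Bool} (ht : t 0 = false)
    (h0 : 0 < η 0) {x : X} (hx : 2 ≤ w₀ x) :
    rowT η t A w₀ x = rowT (eta1 η) (t1 t) (a1 w₀ A) (w1 w₀) ⟨x, hx⟩ +
      (if 0 < η 1 then 1 else 0) + 1 ∧
    colT η t A w₀ x = colT (eta1 η) (t1 t) (a1 w₀ A) (w1 w₀) ⟨x, hx⟩ := by
  obtain ⟨r, hr⟩ : ∃ r, w₀ x = r + 2 := ⟨w₀ x - 2, by omega⟩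
  have h : (r + 2) / 2 = r / 2 + 1 := by omega
  have hw : w1 w₀ ⟨x, hx⟩ = r := by simp [w1, hr]
  unfold rowT colT
  simp only [hw, hr, cnt_two, h, t1, a1, ht, h0]
  constructor
  · simp
    ring
  · simp


end StepDaux

/-- PROOF. Let `τ = lreg X`, `y : Perm X → ℂ` the function `y k = v₁ (k|X1)` if `k ∈ Pres` and `k⁻¹`.. maps.. preserves the
LINES of group 0 (`w₀ (k x) = w₀ x` for `w₀ x < 2`), and `0` otherwise (this is `1_{line 0} ⊗ 1_{line 1} ⊗ v₁`, fixed by the
permutations supported on line 0 and by those supported on line 1). The `Perm X1`-module generated by `y` is the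
image of that of `cx v₁` under the equivariant map "extension", so it is isotypic of shape
`(rowT, colT)(eta1 η, t1 t, a1, w1)` (`IsoV.map`).
`mt` is `± |..|⁻¹ ∑_{c ∈ Rs A, c supported on group 0} sgn c · L_c y` (expand `emL` over the pairs), so `vs` is a nonzero
multiple of `∑_{c ∈ Rs A} sgn(c) L_c y` (`vs_mul`). If `η 1 = 0` apply `row_iso` with `L = {w₀ = 0}`, `K = η 0`. If
`η 1 > 0` first apply `row_iso` to the restriction of `lreg X` to `Perm {x // w₀ x ≠ 0}` with `L = {w₀ = 1}`, `K = η 1`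
(columns: letters `x` with `w₀ x ≥ 1` have `A x < η 1` by `Top.dec`), giving isotypy of
`y₁ = ∑_{c ∈ Rs A, c fixes line 0} sgn c L_c y`; `y₁` is fixed by the permutations supported on line 0; then apply `row_iso`
to `L = {w₀ = 0}`, `K = η 0`, `y₁`; `∑_{c ∈ Rs A} sgn c L_c y₁ = (number) ∑_{c ∈ Rs A} sgn c L_c y`.
The resulting tableau is `(rowT η t A w₀, colT η t A w₀)`: `t 0 = false`, so the rows of group 0 are rows `0` and `1`, and
`rowT η t A w₀ x = rowT (eta1 η) (t1 t) .. x + (1 or 2)`, `colT` unchanged. Validity (`hC` of `row_iso`): `colT < η 1`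
resp. `η 0` because `(rowT, colT)` is a tableau (`hv`): if `colT x = j` for a letter of group `≥ 1`, the cell
`(1, j)` resp. `(0, j)` is occupied by a letter of group 0, which has `A = j`. -/
theorem vs_iso {q : ℕ} {η : ℕ → ℕ} (hz : ∀ r, 2 * q ≤ r → η r = 0) (hT : Top η)
    (hX : Fintype.card X = total q η)
    {w₀ A : Word X} (hA : PerpL η A w₀) {t : ℕ → Bool} (ht : t 0 = false)
    (hv : IsTab (fun _ => 0) (rowT η t A w₀) (colT η t A w₀))
    {v₁ : Perm (X1 w₀) → ℤ}
    (h₁ : Lifted (eta1 η) (t1 t) (w1 w₀) (a1 w₀ A) false v₁) :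
    IsoV (lreg X) (cx (vs w₀ A v₁)) (rowT η t A w₀) (colT η t A w₀) := by
  -- the two cases
  set y : Perm X → ℂ := ext1 w₀ (cx v₁) with hy
  have hv₁ : ∀ c : Perm (X1 w₀), a1 w₀ A ∘ c = a1 w₀ A → ∀ g,
      v₁ (c * g) = ((Perm.sign c : ℤˣ) : ℤ) * v₁ g := by
    intro c hc g
    have := h₁.left c hc g
    simpa using this
  have hsum := vs_eq_sum hz hT hX hA hv₁
  rw [← hy] at hsum
  -- main claim
  suffices hmain : ∃ (y₁ : Perm X → ℂ) (a : ℂ), a ≠ 0 ∧
      (∀ g : Perm X, (∀ x, ¬ w₀ x = 0 → g x = x) → lreg X g y₁ = y₁) ∧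
      IsoV ((lreg X).comp (Perm.ofSubtype : Perm {x // ¬ w₀ x = 0} →* Perm X)) y₁
        (fun x => rowT η t A w₀ x.1 - 1) (fun x => colT η t A w₀ x.1) ∧
      ∑ c ∈ Rs A, (((Perm.sign c : ℤˣ) : ℤ) : ℂ) • lreg X c y₁ =
        a • ∑ c ∈ Rs A, (((Perm.sign c : ℤˣ) : ℤ) : ℂ) • lreg X c y by
    obtain ⟨y₁, a, ha, hfix, hiso, hy₁⟩ := hmain
    have hpos : ∀ x, w₀ x ≠ 0 → 0 < η 0 ∧ 0 < rowT η t A w₀ x := by
      intro x hx
      have hAx := hA.2 x
      by_cases h1 : w₀ x = 1
      · rw [h1] at hAx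
        have h0 : 0 < η 0 := by rcases hT.two with h | h <;> omega
        refine ⟨h0, ?_⟩
        rw [(row_one ht h0 h1).1]
        omega
      · have h2 : 2 ≤ w₀ x := by omega
        have h0 : 0 < η 0 := by
          have := (hT.dec _ h2 (by omega)).1
          omega
        refine ⟨h0, ?_⟩
        rw [(row_two ht h0 h2).1]
        omega
    have hT' : IsTab (fun _ => 0) (fun x : {x // ¬ w₀ x = 0} => rowT η t A w₀ x.1 - 1)
        (fun x => colT η t A w₀ x.1) := by
      refine ⟨?_, ?_⟩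
      · intro a b hab
        apply Subtype.ext
        apply hv.inj
        simp only [Prod.mk.injEq, true_and] at hab ⊢
        have h1 := (hpos a.1 a.2).2
        have h2 := (hpos b.1 b.2).2
        exact ⟨by omega, hab.2⟩
      · intro x i j hi hj
        have h1 := (hpos x.1 x.2).2
        obtain ⟨z, _, hz2, hz3⟩ := hv.lower x.1 (i + 1) j (by omega) hj
        refine ⟨⟨z, ?_⟩, rfl, ?_, hz3⟩
        · intro h0
          rw [(row_zero ht h0).1] at hz2
          omega
        · simp only [hz2]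
          omega
    have hC : ∀ x : {x // ¬ w₀ x = 0}, colT η t A w₀ x.1 < η 0 := by
      intro x
      obtain ⟨z, _, hz2, hz3⟩ := hv.lower x.1 0 (colT η t A w₀ x.1) (Nat.zero_le _) le_rfl
      have h0 : w₀ z = 0 := by
        by_contra hne
        have := (hpos z hne).2
        omega
      rw [← hz3, (row_zero ht h0).2]
      have := hA.2 z
      rwa [h0] at this
    have hAK : ∀ x, A x < η 0 := by
      intro x
      have hAx := hA.2 x
      by_cases h0 : w₀ x = 0
      · rwa [h0] at hAx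
      · by_cases h1 : w₀ x = 1
        · rw [h1] at hAx
          rcases hT.two with h | h <;> omega
        · have := (hT.dec (w₀ x) (by omega) (by omega)).1
          omega
    have hL : Fintype.card {x // w₀ x = 0} = η 0 := by
      rw [Fintype.card_subtype]
      exact hA.count hz hX 0
    have hrow := row_iso (lreg X) (fun x => w₀ x = 0) A (η 0) hAK hL
      (fun x z hx hz' hxz => hA.1 (by simp [hx, hz', hxz])) _ _ hT' hC y₁ hfix hiso
    have hR : (fun x => if h : w₀ x = 0 then 0 else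
        (fun x : {x // ¬ w₀ x = 0} => rowT η t A w₀ x.1 - 1) ⟨x, h⟩ + 1) = rowT η t A w₀ := by
      funext x
      by_cases h0 : w₀ x = 0
      · rw [dif_pos h0, (row_zero ht h0).1]
      · rw [dif_neg h0]
        have := (hpos x h0).2
        simp only
        omega
    have hCC : (fun x => if h : w₀ x = 0 then A x else
        (fun x : {x // ¬ w₀ x = 0} => colT η t A w₀ x.1) ⟨x, h⟩) = colT η t A w₀ := by
      funext x
      by_cases h0 : w₀ x = 0
      · rw [dif_pos h0, (row_zero ht h0).2]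
      · rw [dif_neg h0]
    rw [hR, hCC, hy₁, ← hsum, smul_smul] at hrow
    set b : ℂ := a * ((((Rs A).filter (fun c : Perm X => WW w₀ ∘ c = WW w₀)).card : ℕ) : ℂ)
      with hb
    have hb0 : b ≠ 0 := by
      apply mul_ne_zero ha
      rw [Nat.cast_ne_zero]
      apply Finset.card_ne_zero_of_mem (a := (1 : Perm X))
      rw [mem_filter, stepD_mem_Rs]
      exact ⟨rfl, rfl⟩
    have hfin := hrow.map (b⁻¹ • (LinearMap.id : (Perm X → ℂ) →ₗ[ℂ] (Perm X → ℂ)))
      (τ' := lreg X) (fun g v => by simp)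
    simpa [smul_smul, inv_mul_cancel₀ hb0, mul_inv_cancel₀ hb0] using hfin
  -- proof of the main claim
  by_cases h1 : η 1 = 0
  · -- no second line
    have hno : ∀ x, w₀ x ≠ 1 := by
      intro x hx
      have := hA.2 x
      rw [hx, h1] at this
      omega
    refine ⟨y, 1, one_ne_zero, fun g hg => ext1_fixed g 0 (by omega) (fun x hx => hg x hx) _,
      ?_, by rw [one_smul]⟩
    let e : X1 w₀ ≃ {x // ¬ w₀ x = 0} := Equiv.subtypeEquivRight (fun x => by
      have := hno x
      constructor <;> intro h <;> omega)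
    have hiso := stepD_transport (τ' := (lreg X).comp
      (Perm.ofSubtype : Perm {x // ¬ w₀ x = 0} →* Perm X)) e (ext1 w₀) (fun g f => by
        show _ = lreg X (Perm.ofSubtype (e.permCongr g)) (ext1 w₀ f)
        apply ext1_equivariant
        · intro x
          have hx : ¬ w₀ x.1 = 0 := by have := x.2; omega
          rw [Perm.ofSubtype_apply_of_mem (p := fun x => ¬ w₀ x = 0) _ hx]
          rfl
        · intro x hx
          have hx0 : w₀ x = 0 := by have := hno x; omega
          exact Perm.ofSubtype_apply_of_not_mem (p := fun x => ¬ w₀ x = 0) _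
            (not_not.2 hx0)) h₁.iso
    have hA0 : ∀ x, w₀ x ≠ 0 → 0 < η 0 := by
      intro x hx
      have hAx := hA.2 x
      have := (hT.dec (w₀ x) (by have := hno x; omega) (by omega)).1
      omega
    have e1 : (rowT (eta1 η) (t1 t) (a1 w₀ A) (w1 w₀)) ∘ e.symm =
        (fun x : {x // ¬ w₀ x = 0} => rowT η t A w₀ x.1 - 1) := by
      funext x
      have h2 : 2 ≤ w₀ x.1 := by have := hno x.1; have := x.2; omega
      rw [(row_two ht (hA0 x.1 x.2) h2).1, if_neg (by omega)]
      rfl
    have e2 : (colT (eta1 η) (t1 t) (a1 w₀ A) (w1 w₀)) ∘ e.symm =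
        (fun x : {x // ¬ w₀ x = 0} => colT η t A w₀ x.1) := by
      funext x
      have h2 : 2 ≤ w₀ x.1 := by have := hno x.1; have := x.2; omega
      rw [(row_two ht (hA0 x.1 x.2) h2).2]
      rfl
    rw [e1, e2] at hiso
    exact hiso
  · -- two lines
    have hη1 : 0 < η 1 := Nat.pos_of_ne_zero h1
    have hη0 : 0 < η 0 := by rcases hT.two with h | h <;> omega
    set τ' : Representation ℂ (Perm {x // ¬ w₀ x = 0}) (Perm X → ℂ) :=
      (lreg X).comp (Perm.ofSubtype : Perm {x // ¬ w₀ x = 0} →* Perm X) with hτ'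
    have hτ'a : ∀ c v, τ' c v = lreg X (Perm.ofSubtype c) v := fun _ _ => rfl
    set A' : Word {x // ¬ w₀ x = 0} := fun x => A x.1 with hA'
    -- rows
    have hrow2 : ∀ x, 2 ≤ w₀ x → 2 ≤ rowT η t A w₀ x := by
      intro x hx
      rw [(row_two ht hη0 hx).1, if_pos hη1]
      omega
    have hpos1 : ∀ x, w₀ x ≠ 0 → 1 ≤ rowT η t A w₀ x := by
      intro x hx
      by_cases h : w₀ x = 1
      · rw [(row_one ht hη0 h).1]
      · have := hrow2 x (by omega)
        omega
    let e : X1 w₀ ≃ {x : {x // ¬ w₀ x = 0} // ¬ w₀ x.1 = 1} :=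
      { toFun := fun x => ⟨⟨x.1, by have := x.2; omega⟩, by have := x.2; simp only; omega⟩
        invFun := fun x => ⟨x.1.1, by have := x.1.2; have := x.2; omega⟩
        left_inv := fun x => rfl
        right_inv := fun x => rfl }
    have hiso := stepD_transport (τ' := τ'.comp
      (Perm.ofSubtype : Perm {x : {x // ¬ w₀ x = 0} // ¬ w₀ x.1 = 1} →* Perm _)) e (ext1 w₀)
      (fun g f => by
        show _ = lreg X (Perm.ofSubtype (Perm.ofSubtype (e.permCongr g))) (ext1 w₀ f)
        apply ext1_equivariant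
        · intro x
          have hx : ¬ w₀ x.1 = 0 := by have := x.2; omega
          have hx1 : ¬ w₀ x.1 = 1 := by have := x.2; omega
          rw [Perm.ofSubtype_apply_of_mem (p := fun x => ¬ w₀ x = 0) _ hx,
            Perm.ofSubtype_apply_of_mem
              (p := fun x : {x // ¬ w₀ x = 0} => ¬ w₀ x.1 = 1) _ hx1]
          rfl
        · intro x hx
          by_cases hx0 : w₀ x = 0
          · exact Perm.ofSubtype_apply_of_not_mem (p := fun x => ¬ w₀ x = 0) _
              (not_not.2 hx0)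
          · rw [Perm.ofSubtype_apply_of_mem (p := fun x => ¬ w₀ x = 0) _ hx0,
              Perm.ofSubtype_apply_of_not_mem
                (p := fun x : {x // ¬ w₀ x = 0} => ¬ w₀ x.1 = 1) _
                (by simp only [not_not]; omega)]) h₁.iso
    have e1 : (rowT (eta1 η) (t1 t) (a1 w₀ A) (w1 w₀)) ∘ e.symm =
        (fun x : {x : {x // ¬ w₀ x = 0} // ¬ w₀ x.1 = 1} => rowT η t A w₀ x.1.1 - 2) := by
      funext x
      have h2 : 2 ≤ w₀ x.1.1 := by have := x.1.2; have := x.2; omega
      rw [(row_two ht hη0 h2).1, if_pos hη1]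
      rfl
    have e2 : (colT (eta1 η) (t1 t) (a1 w₀ A) (w1 w₀)) ∘ e.symm =
        (fun x : {x : {x // ¬ w₀ x = 0} // ¬ w₀ x.1 = 1} => colT η t A w₀ x.1.1) := by
      funext x
      have h2 : 2 ≤ w₀ x.1.1 := by have := x.1.2; have := x.2; omega
      rw [(row_two ht hη0 h2).2]
      rfl
    rw [e1, e2] at hiso
    have hT' : IsTab (fun _ => 0)
        (fun x : {x : {x // ¬ w₀ x = 0} // ¬ w₀ x.1 = 1} => rowT η t A w₀ x.1.1 - 2)
        (fun x => colT η t A w₀ x.1.1) := by
      refine ⟨?_, ?_⟩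
      · intro a b hab
        apply Subtype.ext
        apply Subtype.ext
        apply hv.inj
        simp only [Prod.mk.injEq, true_and] at hab ⊢
        have h1 := hrow2 a.1.1 (by have := a.1.2; have := a.2; omega)
        have h2 := hrow2 b.1.1 (by have := b.1.2; have := b.2; omega)
        exact ⟨by omega, hab.2⟩
      · intro x i j hi hj
        have h1 := hrow2 x.1.1 (by have := x.1.2; have := x.2; omega)
        obtain ⟨z, _, hz2, hz3⟩ := hv.lower x.1.1 (i + 2) j (by omega) hj
        refine ⟨⟨⟨z, ?_⟩, ?_⟩, rfl, ?_, hz3⟩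
        · intro h0
          rw [(row_zero ht h0).1] at hz2
          omega
        · intro h0
          rw [(row_one ht hη0 h0).1] at hz2
          omega
        · simp only [hz2]
          omega
    have hC : ∀ x : {x : {x // ¬ w₀ x = 0} // ¬ w₀ x.1 = 1}, colT η t A w₀ x.1.1 < η 1 := by
      intro x
      have h1 := hrow2 x.1.1 (by have := x.1.2; have := x.2; omega)
      obtain ⟨z, _, hz2, hz3⟩ := hv.lower x.1.1 1 (colT η t A w₀ x.1.1) (by omega) le_rfl
      have h0 : w₀ z = 1 := by
        by_contra hne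
        by_cases h00 : w₀ z = 0
        · rw [(row_zero ht h00).1] at hz2
          omega
        · have := hrow2 z (by omega)
          omega
      rw [← hz3, (row_one ht hη0 h0).2]
      have := hA.2 z
      rwa [h0] at this
    have hAK : ∀ x, A' x < η 1 := by
      intro x
      have hAx := hA.2 x.1
      have hx0 := x.2
      by_cases h0 : w₀ x.1 = 1
      · rw [h0] at hAx
        exact hAx
      · have := (hT.dec (w₀ x.1) (by omega) (by omega)).2 hη1
        show A x.1 < η 1
        omega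
    have hL : Fintype.card {x : {x // ¬ w₀ x = 0} // w₀ x.1 = 1} = η 1 := by
      rw [← hA.count hz hX 1, ← Fintype.card_subtype]
      apply Fintype.card_congr
      exact
        { toFun := fun x => ⟨x.1.1, x.2⟩
          invFun := fun x => ⟨⟨x.1, by have := x.2; omega⟩, x.2⟩
          left_inv := fun x => rfl
          right_inv := fun x => rfl }
    have hfixy : ∀ g : Perm {x // ¬ w₀ x = 0}, (∀ x, ¬ w₀ x.1 = 1 → g x = x) → τ' g y = y := by
      intro g hg
      rw [hτ'a]
      apply ext1_fixed _ 1 (by omega)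
      intro x hx
      by_cases hx0 : w₀ x = 0
      · exact Perm.ofSubtype_apply_of_not_mem (p := fun x => ¬ w₀ x = 0) _ (not_not.2 hx0)
      · rw [Perm.ofSubtype_apply_of_mem (p := fun x => ¬ w₀ x = 0) _ hx0, hg _ hx]
    have hrow := row_iso τ' (fun x : {x // ¬ w₀ x = 0} => w₀ x.1 = 1) A' (η 1) hAK hL
      (fun x z hx hz' hxz => Subtype.ext (hA.1 (by
        simp only [Prod.mk.injEq]
        exact ⟨hxz, by rw [hx, hz']⟩))) _ _ hT' hC y hfixy hiso
    have hR : (fun x : {x // ¬ w₀ x = 0} => if h : w₀ x.1 = 1 then 0 else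
        (fun x : {x : {x // ¬ w₀ x = 0} // ¬ w₀ x.1 = 1} => rowT η t A w₀ x.1.1 - 2) ⟨x, h⟩ + 1)
        = (fun x : {x // ¬ w₀ x = 0} => rowT η t A w₀ x.1 - 1) := by
      funext x
      by_cases h0 : w₀ x.1 = 1
      · rw [dif_pos h0, (row_one ht hη0 h0).1]
      · rw [dif_neg h0]
        have := hrow2 x.1 (by have := x.2; omega)
        simp only
        omega
    have hCC : (fun x : {x // ¬ w₀ x = 0} => if h : w₀ x.1 = 1 then A' x else
        (fun x : {x : {x // ¬ w₀ x = 0} // ¬ w₀ x.1 = 1} => colT η t A w₀ x.1.1) ⟨x, h⟩) =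
        (fun x : {x // ¬ w₀ x = 0} => colT η t A w₀ x.1) := by
      funext x
      by_cases h0 : w₀ x.1 = 1
      · rw [dif_pos h0, (row_one ht hη0 h0).2]
      · rw [dif_neg h0]
    rw [hR, hCC] at hrow
    have hRsA : ∀ c' : Perm {x // ¬ w₀ x = 0}, c' ∈ Rs A' →
        A ∘ (Perm.ofSubtype c' : Perm X) = A := by
      intro c' hc'
      rw [stepD_mem_Rs] at hc'
      funext x
      simp only [Function.comp_apply]
      by_cases hx0 : w₀ x = 0
      · rw [Perm.ofSubtype_apply_of_not_mem (p := fun x => ¬ w₀ x = 0) _ (not_not.2 hx0)]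
      · rw [Perm.ofSubtype_apply_of_mem (p := fun x => ¬ w₀ x = 0) _ hx0]
        exact congrFun hc' ⟨x, hx0⟩
    refine ⟨_, ((Rs A').card : ℂ), ?_, ?_, hrow, ?_⟩
    · rw [Nat.cast_ne_zero]
      apply Finset.card_ne_zero_of_mem (a := (1 : Perm {x // ¬ w₀ x = 0}))
      rw [stepD_mem_Rs]
      rfl
    · intro g hg
      rw [map_sum]
      refine Finset.sum_congr rfl fun c _ => ?_
      rw [map_smul, hτ'a, ← Module.End.mul_apply, ← map_mul]
      have hcomm : g * Perm.ofSubtype c = Perm.ofSubtype c * g := by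
        ext x
        simp only [Perm.mul_apply]
        by_cases hx0 : w₀ x = 0
        · have h2 : w₀ (g x) = 0 := by
            by_contra hne
            have h3 := hg _ hne
            have h4 := g.injective h3
            rw [h4] at hne
            exact hne hx0
          rw [Perm.ofSubtype_apply_of_not_mem (p := fun x => ¬ w₀ x = 0) _ (not_not.2 hx0),
            Perm.ofSubtype_apply_of_not_mem (p := fun x => ¬ w₀ x = 0) _ (not_not.2 h2)]
        · rw [hg x hx0, Perm.ofSubtype_apply_of_mem (p := fun x => ¬ w₀ x = 0) _ hx0]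
          exact hg _ (c ⟨x, hx0⟩).2
      rw [hcomm, map_mul, Module.End.mul_apply]
      congr 1
      congr 1
      exact ext1_fixed g 0 (by omega) (fun x hx => hg x hx) _
    · rw [show (∑ c ∈ Rs A, (((Perm.sign c : ℤˣ) : ℤ) : ℂ) • lreg X c
          (∑ c' ∈ Rs A', (((Perm.sign c' : ℤˣ) : ℤ) : ℂ) • τ' c' y)) =
          ∑ c' ∈ Rs A', ∑ c ∈ Rs A, (((Perm.sign c : ℤˣ) : ℤ) : ℂ) • lreg X c
          ((((Perm.sign (Perm.ofSubtype c' : Perm X) : ℤˣ) : ℤ) : ℂ) •
            lreg X (Perm.ofSubtype c' : Perm X) y) by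
        rw [Finset.sum_comm]
        refine Finset.sum_congr rfl fun c _ => ?_
        rw [map_sum, Finset.smul_sum]
        refine Finset.sum_congr rfl fun c' _ => ?_
        rw [Perm.sign_ofSubtype]
        rfl]
      rw [Finset.sum_congr rfl (fun c' hc' => sum_alt_shift (lreg X) A _ (hRsA c' hc') y)]
      rw [Finset.sum_const, ← Nat.cast_smul_eq_nsmul ℂ]

end Crest.Agent.SaxlN
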