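import Crest.Agent.SaxlN.StepC
import Crest.Agent.SaxlN.StepD
import Crest.Agent.SaxlN.Conv

/-!
CHUNK LIFT (medium: the induction; all imports are black boxes).
-/

set_option autoImplicit false
set_option linter.unusedSectionVars false
set_option linter.unusedVariables false

namespace Crest.Agent.SaxlN

open Finset Equiv
open Crest.Agent.Saxl

variable {X : Type} [Fintype X] [DecidableEq X]

private theorem cnt_shift (η : ℕ → ℕ) (t : ℕ → Bool) (s : Bool) (r : ℕ) :
    cnt η t s (r + 2) = cnt η t s 2 + cnt (eta1 η) (t1 t) s r := by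
  unfold cnt
  rw [card_filter, card_filter, card_filter]
  rw [add_comm r 2, sum_range_add]
  congr 1
  refine sum_congr rfl ?_
  intro x _
  have h1 : (2 + x) / 2 = x / 2 + 1 := by omega
  rw [h1, add_comm 2 x]
  rfl

private theorem cnt_lt {η : ℕ → ℕ} {t : ℕ → Bool} {s : Bool} {r : ℕ} (hr : r < 2)
    (hη : 0 < η r) (ht : t 0 = s) : cnt η t s r < cnt η t s 2 := by
  unfold cnt
  apply card_lt_card
  rw [ssubset_iff_of_subset]
  · refine ⟨r, ?_, ?_⟩
    · simp only [mem_filter, mem_range]
      refine ⟨hr, hη, ?_⟩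
      have : r / 2 = 0 := by omega
      rw [this]; exact ht
    · simp
  · intro x hx
    simp only [mem_filter, mem_range] at hx ⊢
    exact ⟨by omega, hx.2⟩

private theorem row_shift {X : Type} (η : ℕ → ℕ) (t : ℕ → Bool) (w₀ A : Word X) (x : X1 w₀) :
    rowT η t A w₀ x = cnt η t false 2 + rowT (eta1 η) (t1 t) (a1 w₀ A) (w1 w₀) x := by
  have hx := x.2
  have h1 : w₀ x = (w₀ x - 2) + 2 := by omega
  have h2 : w₀ x / 2 = (w₀ x - 2) / 2 + 1 := by omega
  unfold rowT
  rw [h2]
  conv_lhs => rw [h1]
  rw [cnt_shift, add_assoc]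
  rfl

private theorem col_shift {X : Type} (η : ℕ → ℕ) (t : ℕ → Bool) (w₀ A : Word X) (x : X1 w₀) :
    colT η t A w₀ x = cnt η t true 2 + colT (eta1 η) (t1 t) (a1 w₀ A) (w1 w₀) x := by
  have hx := x.2
  have h1 : w₀ x = (w₀ x - 2) + 2 := by omega
  have h2 : w₀ x / 2 = (w₀ x - 2) / 2 + 1 := by omega
  unfold colT
  rw [h2]
  conv_lhs => rw [h1]
  rw [cnt_shift, add_assoc]
  rfl

/-- the remaining groups: validity -/
theorem tab_one {η : ℕ → ℕ} {w₀ A : Word X} {t : ℕ → Bool} {q : ℕ}
    (hz : ∀ r, 2 * q ≤ r → η r = 0) (hX : Fintype.card X = total q η) (hA : PerpL η A w₀)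
    (hv : IsTab (fun _ => 0) (rowT η t A w₀) (colT η t A w₀)) :
    IsTab (fun _ => 0) (rowT (eta1 η) (t1 t) (a1 w₀ A) (w1 w₀))
      (colT (eta1 η) (t1 t) (a1 w₀ A) (w1 w₀)) := by
  constructor
  · intro x y hxy
    apply Subtype.ext
    apply hv.inj
    simp only [Prod.mk.injEq, true_and] at hxy ⊢
    rw [row_shift, row_shift, col_shift, col_shift, hxy.1, hxy.2]
    exact ⟨rfl, rfl⟩
  · intro x i j hi hj
    obtain ⟨y, -, hy1, hy2⟩ := hv.lower x (cnt η t false 2 + i) (cnt η t true 2 + j)
      (by rw [row_shift]; omega) (by rw [col_shift]; omega)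
    have hy : 2 ≤ w₀ y := by
      by_contra hc
      have hc' : w₀ y < 2 := not_le.mp hc
      have hpos : 0 < η (w₀ y) := lt_of_le_of_lt (Nat.zero_le _) (hA.2 y)
      have h0 : w₀ y / 2 = 0 := by omega
      rcases ht : t 0 with _ | _
      · have h1 := cnt_lt hc' hpos ht
        have h2 : rowT η t A w₀ y = cnt η t false (w₀ y) := by
          unfold rowT
          rw [h0, ht]; simp
        omega
      · have h1 := cnt_lt hc' hpos ht
        have h2 : colT η t A w₀ y = cnt η t true (w₀ y) := by
          unfold colT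
          rw [h0, ht]; simp
        omega
    refine ⟨⟨y, hy⟩, rfl, ?_, ?_⟩
    · have := row_shift η t w₀ A ⟨y, hy⟩
      have h3 : rowT η t A w₀ ((⟨y, hy⟩ : X1 w₀) : X) = rowT η t A w₀ y := rfl
      rw [h3] at this
      omega
    · have := col_shift η t w₀ A ⟨y, hy⟩
      have h3 : colT η t A w₀ ((⟨y, hy⟩ : X1 w₀) : X) = colT η t A w₀ y := rfl
      rw [h3] at this
      omega

private theorem isTab_comp {X : Type} {ρ κ : Word X} (h : IsTab (fun _ => 0) ρ κ) (g : Perm X) :
    IsTab (fun _ => 0) (ρ ∘ g) (κ ∘ g) := by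
  constructor
  · intro x y hxy
    apply g.injective
    apply h.inj
    simpa using hxy
  · intro x i j hi hj
    obtain ⟨y, _, hy1, hy2⟩ := h.lower (g x) i j hi hj
    refine ⟨g⁻¹ y, rfl, ?_, ?_⟩
    · simpa using hy1
    · simpa using hy2

private theorem isTab_symm {X : Type} {ρ κ : Word X} (h : IsTab (fun _ => 0) ρ κ) :
    IsTab (fun _ => 0) κ ρ := by
  constructor
  · intro x y hxy
    apply h.inj
    simp only [Prod.mk.injEq, true_and] at hxy ⊢
    exact ⟨hxy.2, hxy.1⟩
  · intro x i j hi hj
    obtain ⟨y, _, hy1, hy2⟩ := h.lower x j i hj hi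
    exact ⟨y, rfl, hy2, hy1⟩

private theorem cnt_not (η : ℕ → ℕ) (t : ℕ → Bool) (s : Bool) (r : ℕ) :
    cnt η (fun i => !t i) s r = cnt η t (!s) r := by
  unfold cnt
  congr 1
  refine filter_congr ?_
  intro x _
  rcases h : t (x / 2) with _ | _ <;> rcases s with _ | _ <;> simp [h]

private theorem rowT_not {X : Type} (η : ℕ → ℕ) (t : ℕ → Bool) (A w₀ : Word X) :
    rowT η (fun i => !t i) A w₀ = colT η t A w₀ := by
  funext x
  unfold rowT colT
  rw [cnt_not]
  rcases h : t (w₀ x / 2) with _ | _ <;> simp [h]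

private theorem colT_not {X : Type} (η : ℕ → ℕ) (t : ℕ → Bool) (A w₀ : Word X) :
    colT η (fun i => !t i) A w₀ = rowT η t A w₀ := by
  funext x
  unfold rowT colT
  rw [cnt_not]
  rcases h : t (w₀ x / 2) with _ | _ <;> simp [h]

private theorem ld_one {q : ℕ} {η : ℕ → ℕ} (h : LD (q + 1) η) : LD q (eta1 η) := by
  constructor
  · intro r hr
    exact h.zero (r + 2) (by omega)
  · intro i hi
    exact h.pos (i + 1) (by omega)
  · intro r s hrs h1 h2
    exact h.dec (r + 2) (s + 2) (by omega) h1 h2
  · intro i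
    exact h.two (i + 1)

private theorem ld_top {q : ℕ} {η : ℕ → ℕ} (h : LD (q + 1) η) : Top η := by
  constructor
  · rcases h.two 0 with h0 | h0
    · left; simpa using h0
    · right
      simp only [Nat.mul_zero, Nat.zero_add] at h0
      omega
  · intro r hr hpos
    refine ⟨h.dec 0 r (by omega) hpos (h.pos 0 (by omega)), ?_⟩
    intro h1
    exact (h.dec 1 r (by omega) hpos h1).le

private theorem card_one {q : ℕ} {η : ℕ → ℕ} (h : LD (q + 1) η)
    (hX : Fintype.card X = total (q + 1) η) {w₀ A : Word X} (hA : PerpL η A w₀) :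
    Fintype.card (X1 w₀) = total q (eta1 η) := by
  have h1 : Fintype.card (X1 w₀) = (univ.filter (fun x => 2 ≤ w₀ x)).card :=
    Fintype.card_subtype _
  have h2 : (univ.filter (fun x => 2 ≤ w₀ x)).card + ((univ.filter (fun x => w₀ x = 0)).card +
      (univ.filter (fun x => w₀ x = 1)).card) = Fintype.card X := by
    rw [← card_union_of_disjoint, ← card_union_of_disjoint]
    · rw [← card_univ]
      congr 1
      ext x
      simp only [mem_union, mem_filter, mem_univ, true_and, iff_true]
      omega
    · rw [disjoint_left]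
      intro x hx hy
      simp only [mem_union, mem_filter, mem_univ, true_and] at hx hy
      omega
    · rw [disjoint_left]
      intro x hx hy
      simp only [mem_filter, mem_univ, true_and] at hx hy
      omega
  rw [hA.count h.zero hX 0, hA.count h.zero hX 1] at h2
  have h3 : total (q + 1) η = η 0 + η 1 + total q (eta1 η) := by
    unfold total
    have : 2 * (q + 1) = 2 + 2 * q := by ring
    rw [this, sum_range_add]
    simp only [sum_range_succ, sum_range_zero, zero_add]
    congr 1
    refine sum_congr rfl ?_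
    intro x _
    rw [add_comm 2 x]
    rfl
  omega

/-- PROOF by induction on `q`. `q = 0`: `X` is empty, `v = 1`. Step: by induction both symmetry types exist for the
remaining groups (`LD (q-1) (eta1 η)`, `perpL_one`, `tab_one`, card: `total`). If `t 0 = false`: `vs` is `Lifted` with
`s = false` for every `A` (`vs_right, vs_left, vs_par, vs_rest, vs_iso`), in particular for `rev η A w₀` (again a
perpendicular column word, `perpL_rev`, validity is the same up to a permutation), and `Lifted.conv` gives both symmetry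
types. If `t 0 = true`: apply the case `t 0 = false` to `fun i => !t i` (validity is symmetric in rows and
columns) and use `Lifted.dual`. -/
theorem lift (q : ℕ) : ∀ (η : ℕ → ℕ) (_ : LD q η) (X : Type) [Fintype X] [DecidableEq X]
    (_ : Fintype.card X = total q η) (t : ℕ → Bool) (w₀ A : Word X) (_ : PerpL η A w₀)
    (_ : IsTab (fun _ => 0) (rowT η t A w₀) (colT η t A w₀)) (s : Bool),
    ∃ v : Perm X → ℤ, Lifted η t w₀ A s v := by
  induction q with
  | zero =>
    intro η hη X _ _ hX t w₀ A hA hv s
    have hX0 : Fintype.card X = 0 := by simpa [total] using hX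
    have : IsEmpty X := Fintype.card_eq_zero_iff.mp hX0
    have hperm : ∀ g : Perm X, g = 1 := fun g => Subsingleton.elim _ _
    have hchi : ∀ g : Perm X, chi t w₀ g = 1 := by
      intro g
      unfold chi sgnT
      rw [dif_pos (fun x => isEmptyElim x)]
      rw [Subsingleton.elim (g.subtypePerm (p := fun x => t (w₀ x / 2) = true) _) 1]
      exact map_one _
    refine ⟨fun _ => 1, ?_, ?_, ?_, ?_, ?_⟩
    · intro g k _
      rw [hchi]; simp
    · intro c _ g
      rw [hperm c]; simp
    · intro g
      refine ⟨fun _ => ⟨fun x => isEmptyElim x, fun x => isEmptyElim x⟩, fun _ => odd_one⟩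
    · intro g
      refine ⟨Saxl.em 1 (fun _ => false), AddSubgroup.subset_closure ⟨1, fun _ => false, ?_, rfl⟩, ?_⟩
      · constructor
        · intro x; rfl
        · intro x; rfl
        · intro i
          rw [hη.zero (2 * i) (by omega), hη.zero (2 * i + 1) (by omega)]
          simp
        · intro x; exact isEmptyElim x
      · intro b
        have hR : Rs w₀ = univ := by
          ext g
          simp only [Rs, mem_filter, mem_univ, true_and, iff_true]
          funext x; exact isEmptyElim x
        have hF : (univ : Finset (Perm X)).filter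
            (fun h => w₀ ∘ (h⁻¹ : Perm X) = dw (gw w₀) b) = univ := by
          ext g
          simp only [mem_filter, mem_univ, true_and, iff_true]
          funext x; exact isEmptyElim x
        unfold Rr
        rw [hR, hF]
        have h1 : ∀ h : Perm X, (((chi t w₀ h : ℤˣ) : ℤ) : ℂ) * cx (fun _ => 1) (g * h) = 1 := by
          intro h
          rw [hchi]; simp [cx]
        rw [sum_congr rfl (fun h _ => h1 h)]
        have h2 : Saxl.em (1 : Perm X) (fun _ => false) b = 1 := by
          unfold Saxl.em
          simp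
        rw [h2]
        simp
    · intro ρ κ _ _
      refine ⟨1, ?_, ?_⟩ <;> funext x <;> exact isEmptyElim x
  | succ q ih =>
    intro η hη
    have key : ∀ (X : Type) [Fintype X] [DecidableEq X]
        (_ : Fintype.card X = total (q + 1) η) (t : ℕ → Bool) (w₀ A : Word X) (_ : PerpL η A w₀)
        (_ : IsTab (fun _ => 0) (rowT η t A w₀) (colT η t A w₀)) (_ : t 0 = false),
        ∃ v : Perm X → ℤ, Lifted η t w₀ A false v := by
      intro X _ _ hX t w₀ A hA hv ht
      obtain ⟨v₁, h₁⟩ := ih (eta1 η) (ld_one hη) (X1 w₀) (card_one hη hX hA) (t1 t) (w1 w₀)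
        (a1 w₀ A) (perpL_one hA) (tab_one hη.zero hX hA hv) false
      refine ⟨vs w₀ A v₁, ?_, ?_, ?_, ?_, ?_⟩
      · intro g k hk
        exact vs_right hA ht h₁ g k hk
      · intro c hc g
        rw [if_neg (by simp)]
        exact vs_left hA h₁ c hc g
      · intro g
        exact vs_par hη.zero (ld_top hη) hX hA h₁ g
      · intro g
        exact vs_rest hη.zero (ld_top hη) hX hA ht h₁ g
      · exact vs_iso hη.zero (ld_top hη) hX hA ht hv h₁
    have key2 : ∀ (X : Type) [Fintype X] [DecidableEq X]
        (_ : Fintype.card X = total (q + 1) η) (t : ℕ → Bool) (w₀ A : Word X) (_ : PerpL η A w₀)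
        (_ : IsTab (fun _ => 0) (rowT η t A w₀) (colT η t A w₀)) (_ : t 0 = false) (s : Bool),
        ∃ v : Perm X → ℤ, Lifted η t w₀ A s v := by
      intro X _ _ hX t w₀ A hA hv ht s
      obtain ⟨g, hg1, hg2⟩ := perpL_conj hη.zero hX hA (perpL_rev hA)
      have hrow : rowT η t (rev η A w₀) w₀ = rowT η t A w₀ ∘ g := by
        rw [hg1]
        conv_lhs => rw [hg2]
        rfl
      have hcol : colT η t (rev η A w₀) w₀ = colT η t A w₀ ∘ g := by
        rw [hg1]
        conv_lhs => rw [hg2]
        rfl
      have hv' : IsTab (fun _ => 0) (rowT η t (rev η A w₀) w₀) (colT η t (rev η A w₀) w₀) := by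
        rw [hrow, hcol]
        exact isTab_comp hv g
      obtain ⟨v, h⟩ := key X hX t w₀ (rev η A w₀) (perpL_rev hA) hv' ht
      exact Lifted.conv hη hX hA h s
    intro X _ _ hX t w₀ A hA hv s
    rcases ht : t 0 with _ | _
    · exact key2 X hX t w₀ A hA hv ht s
    · obtain ⟨v, h⟩ := key2 X hX (fun i => !t i) w₀ A hA
        (by rw [rowT_not, colT_not]; exact isTab_symm hv) (by simp [ht]) (!s)
      have h' := h.dual
      simp only [Bool.not_not] at h'
      exact ⟨_, h'⟩

end Crest.Agent.SaxlN
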