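import Mathlib

/-!
# Row 195, S0298: the mixed Kostka criterion (MK) and the tree checker — definitions

A partition is a list `ν` (row lengths, decreasing).  `hs ν k l` = number of cells in the first `k` rows or the
first `l` columns.  A constraint `(k, l, v)` means `v ≤ hs ν k l`.
-/

set_option autoImplicit false

namespace Crest.Agent.SaxlN.MK

/-- cells of `ν` in the first `k` rows or the first `l` columns -/
def hs : List ℕ → ℕ → ℕ → ℕ
  | [], _, _ => 0
  | a :: t, 0, l => min a l + hs t 0 l
  | a :: t, k + 1, l => a + hs t k l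

/-- sum of the first `k` entries -/
def pre (α : List ℕ) (k : ℕ) : ℕ := (α.take k).sum

/-- `(k, prefix sum)` at the ends of the blocks of equal entries -/
def endsA : List ℕ → ℕ → ℕ → List (ℕ × ℕ)
  | [], k, s => [(k, s)]
  | a :: t, k, s =>
    bif (match t with | [] => false | b :: _ => Nat.beq a b) then endsA t (k + 1) (s + a)
    else (k + 1, s + a) :: (match t with | [] => [] | _ :: _ => endsA t (k + 1) (s + a))

/-- all constraints of the type `(α, β)` at block ends -/
def cons (α β : List ℕ) : List (ℕ × ℕ × ℕ) :=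
  ((0, 0) :: endsA α 0 0).flatMap fun p => ((0, 0) :: endsA β 0 0).map fun q => (p.1, q.1, p.2 + q.2)

/-- minimum, for kernel evaluation -/
def mn (a b : ℕ) : ℕ := bif Nat.ble a b then a else b

/-- maximum, for kernel evaluation -/
def mx (a b : ℕ) : ℕ := bif Nat.ble a b then b else a

/-- lower bound for `hs r k l` if `r` is a partition of `m` with all parts `≤ b` -/
def lb (k l m b : ℕ) : ℕ := bif Nat.ble b l then m else mx ((m * l + (b - 1)) / b) (mn m k)

/-- the part of `hs` coming from the known rows: `p` = reversed list of pairs (row length, sum of the rows up to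
this one); `e` = (number of known rows) `- k` -/
def hp : List (ℕ × ℕ) → ℕ → ℕ → ℕ
  | [], _, _ => 0
  | (_, s) :: _, 0, _ => s
  | (a, _) :: t, e + 1, l => mn a l + hp t e l

/-- the constraint holds for every completion of the known rows -/
def okC (p : List (ℕ × ℕ)) (i m b : ℕ) (c : ℕ × ℕ × ℕ) : Bool :=
  Nat.ble c.2.2 (hp p (i - c.1) c.2.1 + lb (c.1 - i) c.2.1 m b)

/-- some type is satisfied by every completion -/
def okT (ts : List (List (ℕ × ℕ × ℕ))) (p : List (ℕ × ℕ)) (i m b : ℕ) : Bool :=
  ts.any fun t => t.all (okC p i m b)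

/-- for all `a < n` -/
def allB (f : ℕ → Bool) : ℕ → Bool
  | 0 => true
  | n + 1 => f n && allB f n

/-- the tree: `p` = known rows (reversed, with sums), `i` = their number, `s` = their sum, `m` cells left, all further
rows `≤ b` -/
def tr (ts : List (List (ℕ × ℕ × ℕ))) : ℕ → List (ℕ × ℕ) → ℕ → ℕ → ℕ → ℕ → Bool
  | 0, _, _, _, _, _ => false
  | f + 1, p, i, s, m, b => okT ts p i m b ||
      (!(Nat.beq m 0) && allB (fun a => tr ts f ((a + 1, s + (a + 1)) :: p) (i + 1) (s + (a + 1))
        (m - (a + 1)) (a + 1)) (mn m b))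

/-- membership test -/
def mem (L : ℕ) : List ℕ → Bool
  | [] => false
  | a :: t => bif Nat.beq a L then true else mem L t

/-- the four classes `(size, label, class)` of a two-line group with `m` letters and leading line `L` -/
def quad (m L : ℕ) : List (ℕ × ℕ × ℕ) :=
  [((m + 3) / 4, L, 0), ((m + 2) / 4, L, 1), ((m + 1) / 4, L, 2), (m / 4, L, 3)]

/-- the classes of all groups of the system `La` with the two-line groups `P` -/
def parts (La P : List ℕ) : List (ℕ × ℕ × ℕ) :=
  La.flatMap fun L => bif mem L P then quad (2 * L - 1) L else bif mem (L + 1) P then [] else [(L, L, 0)]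

/-- sign of the line `L` -/
def sg (T T' : List ℕ) (L : ℕ) : Bool := xor (mem L T) (mem L T')

/-- insert into a list sorted by decreasing size -/
def ins (x : ℕ × ℕ × ℕ) : List (ℕ × ℕ × ℕ) → List (ℕ × ℕ × ℕ)
  | [] => [x]
  | y :: t => bif Nat.ble y.1 x.1 then x :: y :: t else y :: ins x t

/-- insertion sort by decreasing size -/
def srt : List (ℕ × ℕ × ℕ) → List (ℕ × ℕ × ℕ)
  | [] => []
  | x :: t => ins x (srt t)

/-- the classes with sign `s`, sorted -/
def prt (La P T T' : List ℕ) (s : Bool) : List (ℕ × ℕ × ℕ) :=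
  srt ((parts La P).filter fun p => !(xor s (sg T T' p.2.1)))

/-- the constraints of a type -/
def consT (La : List ℕ) (ty : List ℕ × List ℕ × List ℕ) : List (ℕ × ℕ × ℕ) :=
  cons ((prt La ty.1 ty.2.1 ty.2.2 false).map Prod.fst) ((prt La ty.1 ty.2.1 ty.2.2 true).map Prod.fst)

/-- balance at all gaps (`La` decreasing): `c, d` = numbers of `false / true` lines so far -/
def balB (T : List ℕ) : List ℕ → ℕ → ℕ → Bool
  | [], _, _ => true
  | L :: t, c, d =>
    let c' := bif mem L T then c else c + 1
    let d' := bif mem L T then d + 1 else d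
    (match t with
      | [] => Nat.beq L 1 || Nat.beq c' d'
      | M :: _ => Nat.beq (M + 1) L || Nat.beq c' d') && balB T t c' d'

/-- `La` is strictly decreasing and positive -/
def decB : List ℕ → Bool
  | [] => true
  | L :: t => Nat.ble 1 L && (match t with | [] => true | M :: _ => Nat.ble (M + 1) L) && decB t

/-- a valid type -/
def valB (La : List ℕ) (ty : List ℕ × List ℕ × List ℕ) : Bool :=
  (ty.1.all fun L => mem L La && mem (L - 1) La && !(mem (L + 1) ty.1) &&
    !(xor (mem (L - 1) ty.2.1) (mem L ty.2.1)) && !(xor (mem (L - 1) ty.2.2) (mem L ty.2.2))) &&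
  balB ty.2.1 La 0 0 && balB ty.2.2 La 0 0

/-- THE CHECK -/
def checkAll (La : List ℕ) (ts : List (List ℕ × List ℕ × List ℕ)) : Bool :=
  decB La && ts.all (valB La) && tr (ts.map (consT La)) (La.sum + 1) [] 0 0 La.sum La.sum

/-- forces the generation of the equation lemmas in this module (and not twice in later ones) -/
theorem eqs_here : True := by
  have _ := @hs.eq_def
  have _ := @hs.eq_1
  have _ := @hs.eq_2
  have _ := @hs.eq_3
  trivial

end Crest.Agent.SaxlN.MK
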