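import Crest.Agent.SaxlN.MKDefs

/-!
CHUNK MK-ENDS (medium, ~150 lines, pure lists): the constraints at the block ends imply all constraints.
-/

set_option autoImplicit false

namespace Crest.Agent.SaxlN.MK

/-- increments of `hs` in `k` decrease: `hs ν (k+1) l - hs ν k l = (ν_k - l)⁺`.
PROOF: induction on `ν` (generalising `k`); for `k = 0` and `ν = a :: b :: t`: both sides are `min`s, `b ≤ a`, omega. -/
theorem hs_concave_k {ν : List ℕ} (h : ν.Pairwise (· ≥ ·)) (k l : ℕ) :
    hs ν (k + 2) l + hs ν k l ≤ 2 * hs ν (k + 1) l := by
  induction ν generalizing k with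
  | nil => simp [hs]
  | cons a t ih =>
    have ht := (List.pairwise_cons.1 h).2
    have ha := (List.pairwise_cons.1 h).1
    cases k with
    | succ k =>
      have := ih ht k
      simp only [hs]
      omega
    | zero =>
      cases t with
      | nil => simp only [hs]; omega
      | cons b t' =>
        have hb : b ≤ a := ha b List.mem_cons_self
        simp only [hs]
        omega

/-- increments of `hs` in `l` decrease (no order needed): each term is `a` or `min a l`.
PROOF: induction on `ν`, omega. -/
theorem hs_concave_l (ν : List ℕ) (k l : ℕ) :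
    hs ν k (l + 2) + hs ν k l ≤ 2 * hs ν k (l + 1) := by
  induction ν generalizing k with
  | nil => simp [hs]
  | cons a t ih =>
    cases k with
    | succ k =>
      have := ih k
      simp only [hs]
      omega
    | zero =>
      have := ih 0
      simp only [hs]
      omega

private theorem hs_succ_k (ν : List ℕ) (k l : ℕ) : hs ν k l ≤ hs ν (k + 1) l := by
  induction ν generalizing k with
  | nil => simp [hs]
  | cons a t ih =>
    cases k with
    | succ k =>
      have := ih k
      simp only [hs]
      omega
    | zero =>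
      simp only [hs]
      omega

private theorem hs_succ_l (ν : List ℕ) (k l : ℕ) : hs ν k l ≤ hs ν k (l + 1) := by
  induction ν generalizing k with
  | nil => simp [hs]
  | cons a t ih =>
    cases k with
    | succ k =>
      have := ih k
      simp only [hs]
      omega
    | zero =>
      have := ih 0
      simp only [hs]
      omega

theorem hs_mono_k (ν : List ℕ) {k k' : ℕ} (hk : k ≤ k') (l : ℕ) : hs ν k l ≤ hs ν k' l :=
  monotone_nat_of_le_succ (f := fun k => hs ν k l) (fun k => hs_succ_k ν k l) hk

theorem hs_mono_l (ν : List ℕ) (k : ℕ) {l l' : ℕ} (hl : l ≤ l') : hs ν k l ≤ hs ν k l' :=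
  monotone_nat_of_le_succ (f := fun l => hs ν k l) (fun l => hs_succ_l ν k l) hl

private theorem endsA_nil (k s : ℕ) : endsA [] k s = [(k, s)] := rfl

private theorem endsA_single (a k s : ℕ) : endsA [a] k s = [(k + 1, s + a)] := by
  simp [endsA]

private theorem endsA_eq (a : ℕ) (t : List ℕ) (k s : ℕ) :
    endsA (a :: a :: t) k s = endsA (a :: t) (k + 1) (s + a) := by
  rw [endsA]
  simp

private theorem endsA_ne {a b : ℕ} (hab : a ≠ b) (t : List ℕ) (k s : ℕ) :
    endsA (a :: b :: t) k s = (k + 1, s + a) :: endsA (b :: t) (k + 1) (s + a) := by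
  have h : Nat.beq a b = false := by
    rw [Bool.eq_false_iff]
    intro h
    exact hab (Nat.eq_of_beq_eq_true h)
  rw [endsA]
  simp [h]

private theorem ends_block {F : ℕ → ℕ} (hc : ∀ k, F (k + 2) + F k ≤ 2 * F (k + 1)) {C a : ℕ} :
    ∀ (t : List ℕ) (k s : ℕ), F (k + 1) < C + s → F (k + 1) < F k + a →
      ¬ ∀ p ∈ endsA (a :: t) (k + 1) s, C + p.2 ≤ F p.1 := by
  intro t
  induction t with
  | nil =>
    intro k s h1 h2 h
    have h3 := h (k + 1 + 1, s + a) (by rw [endsA_single]; exact List.mem_singleton_self _)
    have h4 := hc k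
    have e : k + 1 + 1 = k + 2 := rfl
    simp only [e] at h3
    omega
  | cons b t ih =>
    intro k s h1 h2 h
    have h4 := hc k
    by_cases hab : a = b
    · subst hab
      rw [endsA_eq] at h
      refine ih (k + 1) (s + a) ?_ ?_ h
      · show F (k + 2) < C + (s + a)
        omega
      · show F (k + 2) < F (k + 1) + a
        omega
    · rw [endsA_ne hab] at h
      have h3 := h (k + 1 + 1, s + a) List.mem_cons_self
      have e : k + 1 + 1 = k + 2 := rfl
      simp only [e] at h3
      omega

private theorem ends_gen {F : ℕ → ℕ} (hc : ∀ k, F (k + 2) + F k ≤ 2 * F (k + 1))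
    (hm : Monotone F) {C : ℕ} : ∀ (α : List ℕ) (k s : ℕ), C + s ≤ F k →
      (∀ p ∈ endsA α k s, C + p.2 ≤ F p.1) → ∀ j, C + s + pre α j ≤ F (k + j) := by
  intro α
  induction α with
  | nil =>
    intro k s h1 _ j
    have : pre [] j = 0 := by simp [pre]
    rw [this]
    exact h1.trans (hm (Nat.le_add_right _ _))
  | cons a t ih =>
    intro k s h1 h j
    cases j with
    | zero =>
      have : pre (a :: t) 0 = 0 := by simp [pre]
      rw [this]
      exact h1
    | succ j =>
      have hp : pre (a :: t) (j + 1) = a + pre t j := by simp [pre]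
      have key : C + (s + a) ≤ F (k + 1) ∧ ∀ p ∈ endsA t (k + 1) (s + a), C + p.2 ≤ F p.1 := by
        cases t with
        | nil =>
          rw [endsA_single] at h
          have h3 := h (k + 1, s + a) (List.mem_singleton_self _)
          refine ⟨h3, ?_⟩
          intro p hp'
          rw [endsA_nil, List.mem_singleton] at hp'
          subst hp'
          exact h3
        | cons b t =>
          by_cases hab : a = b
          · subst hab
            rw [endsA_eq] at h
            refine ⟨?_, h⟩
            by_contra hcon
            exact ends_block hc t k (s + a) (by omega) (by omega) h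
          · rw [endsA_ne hab] at h
            exact ⟨h (k + 1, s + a) List.mem_cons_self, fun p hp' => h p (List.mem_cons_of_mem _ hp')⟩
      have := ih (k + 1) (s + a) key.1 key.2 j
      have e : k + (j + 1) = k + 1 + j := by omega
      rw [hp, e]
      omega

/-- A concave function `F` that dominates `C + (prefix sums of α)` at the block ends dominates it everywhere.
PROOF: generalise: for all `α, k, s` and `F` with `F (k'+2) + F k' ≤ 2 F (k'+1)` for all `k' ≥ k`, `F` monotone, `C + s ≤ F k` and
`∀ p ∈ endsA α k s, C + p.2 ≤ F p.1` one has `C + s + pre α j ≤ F (k + j)` for all `j`. Induction on `α`: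
`α = []`: `pre [] j = 0`, monotone. `α = [a]` or `a :: b :: t` with `a ≠ b`: the end `(k+1, s+a)` is in the list: induction from there.
`a :: b :: t`, `a = b` (equal steps): we do not know the bound at `k+1`. Let `m` be the length of the first block of entries equal
to `a`; the list contains `(k + m, s + m a)` (lemma by induction on the block), and a concave `F` with `F k ≥ C + s`,
`F (k+m) ≥ C + s + m a` has `F (k+i) ≥ C + s + i a` for `0 ≤ i ≤ m` (a concave sequence minus a linear one has its minimum
on an interval at an end: prove `m * F (k+i) ≥ (m-i) * F k + i * F (k+m)` or argue by contradiction with the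
first index where it fails). (Alternatively: suppose it fails at a first index `i` of the block; then the increment
`F (k+i) - F (k+i-1) < a`, so all later increments are `< a` by concavity and `F (k+m) < C + s + m a`: contradiction. This is
an easy induction: if `F k' < C + s' + a` where `s'` = prefix sum before, ... until the end of the block.) -/
theorem ends_all {F : ℕ → ℕ} (hc : ∀ k, F (k + 2) + F k ≤ 2 * F (k + 1)) (hm : ∀ k, F k ≤ F (k + 1))
    {α : List ℕ} {C : ℕ} (h : ∀ p ∈ ((0, 0) :: endsA α 0 0 : List (ℕ × ℕ)), C + p.2 ≤ F p.1) (k : ℕ) :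
    C + pre α k ≤ F k := by
  have := ends_gen hc (monotone_nat_of_le_succ hm) α 0 0 (h (0, 0) List.mem_cons_self)
    (fun p hp => h p (List.mem_cons_of_mem _ hp)) k
  simpa using this

/-- all constraints. PROOF: for a fixed end `q` of `β`, `ends_all` with `F k = hs ν k q.1`, `C = q.2`; then for fixed `k`
`ends_all` with `F l = hs ν k l`, `C = pre α k`. -/
theorem cons_all {ν α β : List ℕ} (hν : ν.Pairwise (· ≥ ·))
    (h : ∀ c ∈ cons α β, c.2.2 ≤ hs ν c.1 c.2.1) (k l : ℕ) : pre α k + pre β l ≤ hs ν k l := by
  have h' : ∀ p ∈ ((0, 0) :: endsA α 0 0 : List (ℕ × ℕ)),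
      ∀ q ∈ ((0, 0) :: endsA β 0 0 : List (ℕ × ℕ)), p.2 + q.2 ≤ hs ν p.1 q.1 := by
    intro p hp q hq
    exact h (p.1, q.1, p.2 + q.2) (List.mem_flatMap.2 ⟨p, hp, List.mem_map.2 ⟨q, hq, rfl⟩⟩)
  refine ends_all (F := fun l => hs ν k l) (fun l => hs_concave_l ν k l) (fun l => hs_succ_l ν k l) ?_ l
  intro q hq
  have := ends_all (F := fun k => hs ν k q.1) (fun k => hs_concave_k hν k q.1)
    (fun k => hs_succ_k ν k q.1) (C := q.2) (α := α) (fun p hp => by
      have := h' p hp q hq
      show q.2 + p.2 ≤ hs ν p.1 q.1
      omega) k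
  show pre α k + q.2 ≤ hs ν k q.1
  omega

end Crest.Agent.SaxlN.MK
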