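import Crest.Agent.Saxl.Shapes

/-!
# Row 195, S0298: a verified pruned tree search over all partitions of `n`

A *mode* is a list of constraints `(A, B, s)`: at least `s` cells in the first `A` rows or first `B` columns.
`treeCheck ms n = true` implies that every partition of `n` satisfies all constraints of some mode of `ms`.
The search runs over the row lengths from the top; all constraints of all modes are kept in one list with the
remaining deficit `d` and the complement `nb` of the bit mask of the modes using it.
-/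

set_option autoImplicit false

namespace Crest.Agent.SaxlN

open Finset Equiv
open Crest.Agent.Saxl

inductive EL
  | nil : EL
  | c (A B d nb : ℕ) (t : EL) : EL

/-- the quadratic part of the lower bound test (kernel form) -/
def lb2R (a v b c : ℕ) : Bool :=
  Bool.rec
    (Bool.rec false (Nat.ble (Nat.mul b v) (Nat.add (Nat.mul (Nat.mul a v) v) c))
      (Nat.ble (Nat.mul (Nat.mul 2 a) v) b))
    true (Nat.ble (Nat.mul b b) (Nat.mul (Nat.mul 4 a) c))

/-- the lower bound test (kernel form) -/
def lbR (k v rem A B d : ℕ) : Bool :=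
  Bool.rec
    (Bool.rec
      (Bool.rec
        (Bool.rec false
          (lb2R (Nat.sub A (Nat.add k 1)) v
            (Nat.add (Nat.mul (Nat.sub A (Nat.add k 1)) B) (Nat.sub d 1)) (Nat.sub (Nat.mul rem B) 1))
          (Nat.ble (Nat.add k 2) A))
        true (Nat.ble (Nat.mul d v) (Nat.add (Nat.mul rem B) (Nat.sub v 1))))
      (Bool.rec false (Nat.ble (Nat.add d k) (Nat.sub A 1)) (Nat.ble (Nat.add k 2) A))
      (Nat.beq B 0))
    true (Nat.ble v B)

/-- one row of length `v` at (0-based) index `k`, `rem` cells left below: update all deficits; `alive` = modes not yet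
impossible, `ok` = modes all of whose constraints hold by the lower bound. -/
noncomputable def passT (k v rem : ℕ) (K : EL → ℕ → ℕ → Bool) (l : EL) : EL → ℕ → ℕ → Bool :=
  EL.rec (motive := fun _ => EL → ℕ → ℕ → Bool) (fun acc alive ok => K acc alive ok)
    (fun A B d nb _ ih acc alive ok =>
      (fun cc => Bool.rec
        (Bool.rec (ih acc (Nat.land alive nb) (Nat.land ok nb))
          (ih (EL.c A B (Nat.sub d cc) nb acc) alive
            (Bool.rec (Nat.land ok nb) ok (lbR k v rem A B (Nat.sub d cc))))
          (Nat.ble (Nat.sub d cc) rem))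
        (ih acc alive ok)
        (Nat.ble d cc))
      (Bool.rec (Bool.rec B v (Nat.ble v B)) v (Nat.ble (Nat.add k 1) A))) l

noncomputable def loopT (f : ℕ → Bool) (m : ℕ) : Bool :=
  Nat.rec true (fun v ih => Bool.rec false ih (f (Nat.succ v))) m

noncomputable def goT (fuel : ℕ) : ℕ → ℕ → ℕ → ℕ → EL → Bool :=
  Nat.rec (motive := fun _ => ℕ → ℕ → ℕ → ℕ → EL → Bool) (fun _ _ _ _ _ => false)
    (fun _ ih k rem last alive l =>
      Bool.rec
        (loopT (fun v => passT k v (Nat.sub rem v)
          (fun l' alive' ok => Bool.rec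
              (Bool.rec (ih (Nat.succ k) (Nat.sub rem v) v alive' l') false (Nat.beq alive' 0))
              true (Bool.rec true false (Nat.beq ok 0))) l EL.nil alive alive)
          (Bool.rec rem last (Nat.ble last rem)))
        false (Nat.beq rem 0)) fuel

/-- the lower bound test -/
def lbT (k v rem A B d : ℕ) : Bool :=
  cond (Nat.ble v B) true (cond (Nat.beq B 0) (cond (Nat.ble (k + 2) A) (Nat.ble (d + k) (A - 1)) false)
    (cond (Nat.ble (d * v) (rem * B + (v - 1))) true (cond (Nat.ble (k + 2) A)
      (cond (Nat.ble (((A - (k + 1)) * B + (d - 1)) * ((A - (k + 1)) * B + (d - 1)))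
          (4 * (A - (k + 1)) * (rem * B - 1))) true
        (cond (Nat.ble (2 * (A - (k + 1)) * v) ((A - (k + 1)) * B + (d - 1)))
          (Nat.ble (((A - (k + 1)) * B + (d - 1)) * v) ((A - (k + 1)) * v * v + (rem * B - 1))) false))
      false)))

/-- contribution of a row -/
def ccT (k v A B : ℕ) : ℕ := cond (Nat.ble (k + 1) A) v (cond (Nat.ble v B) v B)

def EL.toL : EL → List (ℕ × ℕ × ℕ × ℕ)
  | .nil => []
  | .c A B d nb t => (A, B, d, nb) :: t.toL

theorem recCond {α : Type} (b : Bool) (x y : α) : @Bool.rec (fun _ => α) x y b = cond b y x := by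
  cases b <;> rfl

theorem lbR_eq (k v rem A B d : ℕ) : lbR k v rem A B d = lbT k v rem A B d := by
  have e2 : ∀ a b c : ℕ, lb2R a v b c = @Bool.rec (fun _ => Bool)
      (@Bool.rec (fun _ => Bool) false (Nat.ble (b * v) (a * v * v + c)) (Nat.ble (2 * a * v) b))
      true (Nat.ble (b * b) (4 * a * c)) := fun _ _ _ => rfl
  have e : lbR k v rem A B d = @Bool.rec (fun _ => Bool)
    (@Bool.rec (fun _ => Bool)
      (@Bool.rec (fun _ => Bool)
        (@Bool.rec (fun _ => Bool) false
          (lb2R (A - (k + 1)) v ((A - (k + 1)) * B + (d - 1)) (rem * B - 1))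
          (Nat.ble (k + 2) A))
        true (Nat.ble (d * v) (rem * B + (v - 1))))
      (@Bool.rec (fun _ => Bool) false (Nat.ble (d + k) (A - 1)) (Nat.ble (k + 2) A))
      (Nat.beq B 0))
    true (Nat.ble v B) := rfl
  rw [e, e2]
  simp only [recCond]
  rfl

theorem passT_nil (k v rem : ℕ) (K : EL → ℕ → ℕ → Bool) (acc : EL) (alive ok : ℕ) :
    passT k v rem K EL.nil acc alive ok = K acc alive ok := rfl

theorem passT_c (k v rem : ℕ) (K : EL → ℕ → ℕ → Bool) (A B d nb : ℕ) (t acc : EL) (alive ok : ℕ) :
    passT k v rem K (EL.c A B d nb t) acc alive ok =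
      cond (Nat.ble d (ccT k v A B)) (passT k v rem K t acc alive ok)
        (cond (Nat.ble (d - ccT k v A B) rem)
          (passT k v rem K t (EL.c A B (d - ccT k v A B) nb acc) alive
            (cond (lbT k v rem A B (d - ccT k v A B)) ok (Nat.land ok nb)))
          (passT k v rem K t acc (Nat.land alive nb) (Nat.land ok nb))) := by
  have e : passT k v rem K (EL.c A B d nb t) acc alive ok =
      (fun cc => @Bool.rec (fun _ => Bool)
        (@Bool.rec (fun _ => Bool) (passT k v rem K t acc (Nat.land alive nb) (Nat.land ok nb))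
          (passT k v rem K t (EL.c A B (Nat.sub d cc) nb acc) alive
            (@Bool.rec (fun _ => ℕ) (Nat.land ok nb) ok (lbR k v rem A B (Nat.sub d cc))))
          (Nat.ble (Nat.sub d cc) rem))
        (passT k v rem K t acc alive ok)
        (Nat.ble d cc))
      (@Bool.rec (fun _ => ℕ) (@Bool.rec (fun _ => ℕ) B v (Nat.ble v B)) v (Nat.ble (Nat.add k 1) A)) := rfl
  rw [e]
  simp only [recCond, lbR_eq]
  rfl

theorem loopT_spec (f : ℕ → Bool) : ∀ m, loopT f m = true → ∀ v, 1 ≤ v → v ≤ m → f v = true := by
  intro m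
  induction m with
  | zero => intro _ v h1 h2; omega
  | succ m ih =>
    intro h v h1 h2
    have h3 : loopT f (m + 1) = cond (f (m + 1)) (loopT f m) false := by
      have e : loopT f (m + 1) = @Bool.rec (fun _ => Bool) false (loopT f m) (f (m + 1)) := rfl
      rw [e, recCond]
    rw [h3] at h
    cases hf : f (m + 1) with
    | false => rw [hf] at h; exact absurd h (by simp)
    | true =>
      rw [hf] at h
      rcases Nat.lt_or_ge v (m + 1) with h4 | h4
      · exact ih h v h1 (by omega)
      · have : v = m + 1 := by omega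
        rw [this]; exact hf

theorem goT_succ (fuel k rem last alive : ℕ) (l : EL) :
    goT (fuel + 1) k rem last alive l = cond (Nat.beq rem 0) false
      (loopT (fun v => passT k v (rem - v)
          (fun l' alive' ok => cond (cond (Nat.beq ok 0) false true) true
            (cond (Nat.beq alive' 0) false (goT fuel (k + 1) (rem - v) v alive' l')))
          l EL.nil alive alive) (cond (Nat.ble last rem) last rem)) := by
  have e : goT (fuel + 1) k rem last alive l = @Bool.rec (fun _ => Bool)
        (loopT (fun v => passT k v (rem - v)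
          (fun l' alive' ok => @Bool.rec (fun _ => Bool)
              (@Bool.rec (fun _ => Bool) (goT fuel (k + 1) (rem - v) v alive' l') false
                (Nat.beq alive' 0))
              true (@Bool.rec (fun _ => Bool) true false (Nat.beq ok 0))) l EL.nil alive alive)
          (@Bool.rec (fun _ => ℕ) rem last (Nat.ble last rem)))
        false (Nat.beq rem 0) := rfl
  rw [e]
  simp only [recCond]

/-- specification of one pass -/
theorem passT_spec (k v rem : ℕ) (K : EL → ℕ → ℕ → Bool) (l : EL) : ∀ (acc : EL) (alive ok : ℕ),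
    passT k v rem K l acc alive ok = true →
    ∃ (acc' : EL) (alive' ok' : ℕ), K acc' alive' ok' = true ∧
      (∀ e ∈ acc.toL, e ∈ acc'.toL) ∧
      (∀ j, alive'.testBit j = true → alive.testBit j = true) ∧
      (∀ j, ok'.testBit j = true → ok.testBit j = true) ∧
      (∀ A B d nb, (A, B, d, nb) ∈ l.toL → d ≤ ccT k v A B ∨
        (((A, B, d - ccT k v A B, nb) ∈ acc'.toL ∨ ∀ j, alive'.testBit j = true → nb.testBit j = true) ∧
          ∀ j, ok'.testBit j = true → nb.testBit j = false →
            d - ccT k v A B ≤ rem ∧ lbT k v rem A B (d - ccT k v A B) = true)) := by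
  induction l with
  | nil =>
    intro acc alive ok h
    rw [passT_nil] at h
    exact ⟨acc, alive, ok, h, fun e he => he, fun _ h => h, fun _ h => h,
      fun A B d nb h => absurd h (by simp [EL.toL])⟩
  | c A B d nb t ih =>
    intro acc alive ok h
    rw [passT_c] at h
    cases h1 : Nat.ble d (ccT k v A B) with
    | true =>
      rw [h1, cond_true] at h
      obtain ⟨acc', alive', ok', hK, h2, h3, h4, h5⟩ := ih acc alive ok h
      refine ⟨acc', alive', ok', hK, h2, h3, h4, fun A' B' d' nb' hm => ?_⟩
      rw [EL.toL, List.mem_cons] at hm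
      rcases hm with hm | hm
      · left
        simp only [Prod.mk.injEq] at hm
        obtain ⟨rfl, rfl, rfl, rfl⟩ := hm
        exact Nat.le_of_ble_eq_true h1
      · exact h5 A' B' d' nb' hm
    | false =>
      rw [h1, cond_false] at h
      cases h6 : Nat.ble (d - ccT k v A B) rem with
      | false =>
        rw [h6, cond_false] at h
        obtain ⟨acc', alive', ok', hK, h2, h3, h4, h5⟩ := ih _ _ _ h
        have h3' : ∀ j, alive'.testBit j = true → alive.testBit j = true ∧ nb.testBit j = true := by
          intro j hj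
          have := h3 j hj
          have e : Nat.land alive nb = alive &&& nb := rfl
          rw [e, Nat.testBit_land, Bool.and_eq_true] at this
          exact this
        have h4' : ∀ j, ok'.testBit j = true → ok.testBit j = true ∧ nb.testBit j = true := by
          intro j hj
          have := h4 j hj
          have e : Nat.land ok nb = ok &&& nb := rfl
          rw [e, Nat.testBit_land, Bool.and_eq_true] at this
          exact this
        refine ⟨acc', alive', ok', hK, h2, fun j hj => (h3' j hj).1, fun j hj => (h4' j hj).1,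
          fun A' B' d' nb' hm => ?_⟩
        rw [EL.toL, List.mem_cons] at hm
        rcases hm with hm | hm
        · right
          simp only [Prod.mk.injEq] at hm
          obtain ⟨rfl, rfl, rfl, rfl⟩ := hm
          refine ⟨Or.inr fun j hj => (h3' j hj).2, fun j hj hn => ?_⟩
          rw [(h4' j hj).2] at hn
          exact absurd hn (by simp)
        · exact h5 A' B' d' nb' hm
      | true =>
        rw [h6, cond_true] at h
        obtain ⟨acc', alive', ok', hK, h2, h3, h4, h5⟩ := ih _ _ _ h
        have h4' : ∀ j, ok'.testBit j = true → ok.testBit j = true ∧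
            (lbT k v rem A B (d - ccT k v A B) = true ∨ nb.testBit j = true) := by
          intro j hj
          have := h4 j hj
          cases h7 : lbT k v rem A B (d - ccT k v A B) with
          | true => rw [h7, cond_true] at this; exact ⟨this, Or.inl rfl⟩
          | false =>
            rw [h7, cond_false] at this
            have e : Nat.land ok nb = ok &&& nb := rfl
            rw [e, Nat.testBit_land, Bool.and_eq_true] at this
            exact ⟨this.1, Or.inr this.2⟩
        refine ⟨acc', alive', ok', hK, fun e he => h2 e (by rw [EL.toL]; exact List.mem_cons_of_mem _ he),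
          h3, fun j hj => (h4' j hj).1, fun A' B' d' nb' hm => ?_⟩
        rw [EL.toL, List.mem_cons] at hm
        rcases hm with hm | hm
        · right
          simp only [Prod.mk.injEq] at hm
          obtain ⟨rfl, rfl, rfl, rfl⟩ := hm
          refine ⟨Or.inl (h2 _ (by rw [EL.toL]; exact List.mem_cons_self)), fun j hj hn => ?_⟩
          rcases (h4' j hj).2 with h8 | h8
          · exact ⟨Nat.le_of_ble_eq_true h6, h8⟩
          · rw [h8] at hn
            exact absurd hn (by simp)
        · exact h5 A' B' d' nb' hm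

/-- number of cells of the rows `xs` (indices from `k` on) in the first `A` rows or first `B` columns -/
def TT' (A B : ℕ) : ℕ → List ℕ → ℕ
  | _, [] => 0
  | k, v :: t => (if k < A then v else min v B) + TT' A B (k + 1) t

theorem ccT_eq (k v A B : ℕ) : ccT k v A B = if k < A then v else min v B := by
  unfold ccT
  by_cases h : k < A
  · have : Nat.ble (k + 1) A = true := Nat.ble_eq_true_of_le h
    rw [this, cond_true, if_pos h]
  · have : Nat.ble (k + 1) A = false := by
      cases hb : Nat.ble (k + 1) A with
      | false => rfl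
      | true => exact absurd (Nat.le_of_ble_eq_true hb) (by omega)
    rw [this, cond_false, if_neg h]
    by_cases h2 : v ≤ B
    · have : Nat.ble v B = true := Nat.ble_eq_true_of_le h2
      rw [this, cond_true, min_eq_left h2]
    · have : Nat.ble v B = false := by
        cases hb : Nat.ble v B with
        | false => rfl
        | true => exact absurd (Nat.le_of_ble_eq_true hb) h2
      rw [this, cond_false, min_eq_right (by omega)]

theorem TT'_full {A B : ℕ} : ∀ (t : List ℕ) (k : ℕ), (∀ r ∈ t, r ≤ B) → TT' A B k t = t.sum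
  | [], _, _ => rfl
  | r :: t, k, h => by
    rw [TT', List.sum_cons, TT'_full t (k + 1) (fun r hr => h r (List.mem_cons_of_mem _ hr))]
    have := h r List.mem_cons_self
    rw [min_eq_left this, ite_self]

theorem TT'_avg {A B v : ℕ} (hv : B ≤ v) : ∀ (t : List ℕ) (k : ℕ), (∀ r ∈ t, r ≤ v) →
    t.sum * B ≤ TT' A B k t * v
  | [], _, _ => by simp [TT']
  | r :: t, k, h => by
    rw [TT', List.sum_cons, add_mul, add_mul]
    apply add_le_add _ (TT'_avg hv t (k + 1) (fun r hr => h r (List.mem_cons_of_mem _ hr)))
    have hr := h r List.mem_cons_self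
    split_ifs
    · exact Nat.mul_le_mul_left _ hv
    · rcases le_total r B with h1 | h1
      · rw [min_eq_left h1]
        exact Nat.mul_le_mul_left _ hv
      · rw [min_eq_right h1, mul_comm r B]
        exact Nat.mul_le_mul_left _ hr

theorem TT'_zero {A : ℕ} : ∀ (t : List ℕ) (k : ℕ), (∀ r ∈ t, 0 < r) →
    ∀ d, d ≤ t.sum → d + k ≤ A → d ≤ TT' A 0 k t
  | [], k, _, d, h1, _ => by simpa [TT'] using h1
  | r :: t, k, h, d, h1, h2 => by
    rw [List.sum_cons] at h1
    rw [TT']
    rcases Nat.eq_zero_or_pos d with rfl | hd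
    · omega
    rw [if_pos (by omega)]
    have hr := h r List.mem_cons_self
    have h3 := TT'_zero (A := A) t (k + 1) (fun r hr => h r (List.mem_cons_of_mem _ hr)) (d - r)
      (by omega) (by omega)
    omega

theorem TT'_split (A B : ℕ) : ∀ (t : List ℕ) (k : ℕ), TT' A B k t =
    (t.take (A - k)).sum + ((t.drop (A - k)).map (fun r => min r B)).sum
  | [], k => by simp [TT']
  | r :: t, k => by
    rw [TT', TT'_split A B t (k + 1)]
    by_cases hk : k < A
    · obtain ⟨a, ha⟩ : ∃ a, A - k = a + 1 := ⟨A - k - 1, by omega⟩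
      have ha' : A - (k + 1) = a := by omega
      rw [if_pos hk, ha, ha', List.take_succ_cons, List.drop_succ_cons, List.sum_cons]
      ring
    · have h1 : A - k = 0 := by omega
      have h2 : A - (k + 1) = 0 := by omega
      rw [if_neg hk, h1, h2]
      simp

theorem sum_min_avg {B u : ℕ} (hu : B ≤ u) : ∀ (t : List ℕ), (∀ r ∈ t, r ≤ u) →
    t.sum * B ≤ (t.map (fun r => min r B)).sum * u
  | [], _ => by simp
  | r :: t, h => by
    rw [List.map_cons, List.sum_cons, List.sum_cons, add_mul, add_mul]
    apply add_le_add _ (sum_min_avg hu t (fun r hr => h r (List.mem_cons_of_mem _ hr)))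
    have hr := h r List.mem_cons_self
    rcases le_total r B with h1 | h1
    · rw [min_eq_left h1]
      exact Nat.mul_le_mul_left _ hu
    · rw [min_eq_right h1, mul_comm r B]
      exact Nat.mul_le_mul_left _ hr

theorem sum_min_full {B : ℕ} : ∀ (t : List ℕ), (∀ r ∈ t, r ≤ B) →
    (t.map (fun r => min r B)).sum = t.sum
  | [], _ => rfl
  | r :: t, h => by
    rw [List.map_cons, List.sum_cons, List.sum_cons,
      sum_min_full t (fun r hr => h r (List.mem_cons_of_mem _ hr)),
      min_eq_left (h r List.mem_cons_self)]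

/-- the first `a` rows count fully -/
theorem lb2_spec {A B k v rem d a : ℕ} {t : List ℕ} (ha : A - k = a) (ha0 : 0 < a)
    (hsum : t.sum = rem) (hpw : t.Pairwise (· ≥ ·)) (hle : ∀ r ∈ t, r ≤ v) (hd : d ≤ rem)
    (hd0 : 0 < d) (hB : 0 < B)
    (h : (a * B + (d - 1)) * (a * B + (d - 1)) ≤ 4 * a * (rem * B - 1) ∨
      (2 * a * v ≤ a * B + (d - 1) ∧ (a * B + (d - 1)) * v ≤ a * v * v + (rem * B - 1))) :
    d ≤ TT' A B k t := by
  rw [TT'_split, ha]
  have hsplit : (t.take a).sum + (t.drop a).sum = rem := by
    rw [← List.sum_append, List.take_append_drop, hsum]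
  by_cases hlen : t.length < a
  · have h1 : t.drop a = [] := List.drop_eq_nil_of_le hlen.le
    rw [h1] at hsplit ⊢
    simp only [List.sum_nil, List.map_nil, add_zero] at hsplit ⊢
    omega
  · push Not at hlen
    -- the a-th row
    obtain ⟨b, rfl⟩ : ∃ b, a = b + 1 := ⟨a - 1, by omega⟩
    have hb : b < t.length := by omega
    obtain ⟨u, hu⟩ : ∃ u, u = t[b] := ⟨_, rfl⟩
    have huv : u ≤ v := hu ▸ hle _ (List.getElem_mem hb)
    have htake : (b + 1) * u ≤ (t.take (b + 1)).sum := by
      have h1 : ∀ r ∈ t.take (b + 1), u ≤ r := by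
        intro r hr
        obtain ⟨i, hi, rfl⟩ := List.mem_iff_getElem.1 hr
        rw [List.length_take] at hi
        rw [List.getElem_take, hu]
        rcases Nat.lt_or_ge i b with h2 | h2
        · exact (List.pairwise_iff_getElem.1 hpw) i b (by omega) hb h2
        · have : i = b := by omega
          subst this
          exact le_rfl
      have h2 := List.card_nsmul_le_sum _ _ h1
      rw [List.length_take, min_eq_left (by omega), smul_eq_mul] at h2
      exact h2
    have hdrop : ∀ r ∈ t.drop (b + 1), r ≤ u := by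
      intro r hr
      obtain ⟨i, hi, rfl⟩ := List.mem_iff_getElem.1 hr
      rw [List.length_drop] at hi
      rw [List.getElem_drop, hu]
      exact (List.pairwise_iff_getElem.1 hpw) b (b + 1 + i) hb (by omega) (by omega)
    rcases le_total u B with h1 | h1
    · rw [sum_min_full _ (fun r hr => (hdrop r hr).trans h1)]
      omega
    · have h2 := sum_min_avg h1 _ hdrop
      by_contra hc
      obtain ⟨f, hf⟩ : ∃ f, f = (t.take (b + 1)).sum +
        ((t.drop (b + 1)).map (fun r => min r B)).sum := ⟨_, rfl⟩
      obtain ⟨S, hS⟩ : ∃ S, S = (t.take (b + 1)).sum := ⟨_, rfl⟩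
      obtain ⟨D, hD⟩ : ∃ D, D = (t.drop (b + 1)).sum := ⟨_, rfl⟩
      obtain ⟨M, hM⟩ : ∃ M, M = ((t.drop (b + 1)).map (fun r => min r B)).sum := ⟨_, rfl⟩
      rw [← hS, ← hM] at hc
      rw [← hS, ← hD] at hsplit
      rw [← hD, ← hM] at h2
      rw [← hS] at htake
      obtain ⟨e, rfl⟩ : ∃ e, d = e + 1 := ⟨d - 1, by omega⟩
      have hc' : S + M ≤ e := by omega
      have hrem : 1 ≤ rem := by omega
      have hrB : 1 ≤ rem * B := Nat.mul_pos hrem hB
      obtain ⟨c, hcc⟩ : ∃ c, rem * B = c + 1 := ⟨rem * B - 1, by omega⟩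
      rw [hcc] at h
      simp only [Nat.add_sub_cancel] at h
      obtain ⟨w, rfl⟩ : ∃ w, u = B + w := ⟨u - B, by omega⟩
      -- u e ≥ S (u - B) + rem B ≥ a u (u-B) + c + 1
      have h3 : (b + 1) * (B + w) * w + (c + 1) ≤ e * (B + w) := by
        have h4 : (S + M) * (B + w) ≤ e * (B + w) := Nat.mul_le_mul_right _ hc'
        have h5 : (b + 1) * (B + w) * w ≤ S * w := Nat.mul_le_mul_right _ htake
        have h6 : S * B + D * B = c + 1 := by rw [← add_mul, hsplit, hcc]
        nlinarith
      rcases h with h | ⟨h7, h8⟩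
      · zify at h h3
        nlinarith [sq_nonneg (2 * ((b : ℤ) + 1) * (B + w) - ((b + 1) * B + e))]
      · obtain ⟨x, rfl⟩ : ∃ x, v = B + w + x := ⟨v - (B + w), by omega⟩
        zify at h7 h8 h3
        have h9 : (0 : ℤ) ≤ x * (((b : ℤ) + 1) * B + e - 2 * (b + 1) * (B + w + x)) :=
          mul_nonneg (Int.natCast_nonneg _) (by linarith)
        nlinarith [mul_nonneg (mul_nonneg (Int.natCast_nonneg x) (Int.natCast_nonneg x))
          (by positivity : (0:ℤ) ≤ (b : ℤ) + 1)]

theorem lbT_spec {k v rem A B d : ℕ} {t : List ℕ} (hv : 0 < v) (hsum : t.sum = rem)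
    (hpos : ∀ r ∈ t, 0 < r) (hpw : t.Pairwise (· ≥ ·)) (hle : ∀ r ∈ t, r ≤ v) (hd : d ≤ rem)
    (h : lbT k v rem A B d = true) : d ≤ TT' A B (k + 1) t := by
  unfold lbT at h
  cases h1 : Nat.ble v B with
  | true =>
    have h2 := Nat.le_of_ble_eq_true h1
    rw [TT'_full t (k + 1) (fun r hr => (hle r hr).trans h2), hsum]
    exact hd
  | false =>
    rw [h1, cond_false] at h
    have hBv : B < v := by
      by_contra hc
      rw [Nat.ble_eq_true_of_le (by omega)] at h1
      exact absurd h1 (by simp)
    cases h2 : Nat.beq B 0 with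
    | true =>
      rw [h2, cond_true] at h
      have hB0 : B = 0 := Nat.eq_of_beq_eq_true h2
      subst hB0
      cases h3 : Nat.ble (k + 2) A with
      | false => rw [h3, cond_false] at h; exact absurd h (by simp)
      | true =>
        rw [h3, cond_true] at h
        have h4 := Nat.le_of_ble_eq_true h
        have h5 := Nat.le_of_ble_eq_true h3
        exact TT'_zero t (k + 1) hpos d (by omega) (by omega)
    | false =>
      rw [h2, cond_false] at h
      have hB0 : 0 < B := by
        rcases Nat.eq_zero_or_pos B with rfl | hB0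
        · exact absurd h2 (by simp)
        · exact hB0
      cases h3' : Nat.ble (d * v) (rem * B + (v - 1)) with
      | true =>
        have h3 := Nat.le_of_ble_eq_true h3'
        have h4 := TT'_avg (A := A) hBv.le t (k + 1) hle
        rw [hsum] at h4
        by_contra hc
        have h5 : TT' A B (k + 1) t + 1 ≤ d := by omega
        have h6 := Nat.mul_le_mul_right v h5
        rw [add_mul, one_mul] at h6
        omega
      | false =>
        rw [h3', cond_false] at h
        rcases Nat.eq_zero_or_pos d with rfl | hd0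
        · exact Nat.zero_le _
        cases h4 : Nat.ble (k + 2) A with
        | false => rw [h4, cond_false] at h; exact absurd h (by simp)
        | true =>
          rw [h4, cond_true] at h
          have h5 := Nat.le_of_ble_eq_true h4
          refine lb2_spec (a := A - (k + 1)) rfl (by omega) hsum hpw hle hd hd0 hB0 ?_
          cases h6 : Nat.ble (((A - (k + 1)) * B + (d - 1)) * ((A - (k + 1)) * B + (d - 1)))
              (4 * (A - (k + 1)) * (rem * B - 1)) with
          | true => exact Or.inl (Nat.le_of_ble_eq_true h6)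
          | false =>
            rw [h6, cond_false] at h
            cases h7 : Nat.ble (2 * (A - (k + 1)) * v) ((A - (k + 1)) * B + (d - 1)) with
            | false => rw [h7, cond_false] at h; exact absurd h (by simp)
            | true =>
              rw [h7, cond_true] at h
              exact Or.inr ⟨Nat.le_of_ble_eq_true h7, Nat.le_of_ble_eq_true h⟩

theorem goT_sound : ∀ (fuel k rem last alive : ℕ) (l : EL), goT fuel k rem last alive l = true →
    ∀ xs : List ℕ, xs.sum = rem → (∀ r ∈ xs, 0 < r) → xs.Pairwise (· ≥ ·) → (∀ r ∈ xs, r ≤ last) →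
    ∃ j, alive.testBit j = true ∧ ∀ A B d nb, (A, B, d, nb) ∈ l.toL → nb.testBit j = false →
      d ≤ TT' A B k xs := by
  intro fuel
  induction fuel with
  | zero => intro k rem last alive l h; exact absurd h (by simp [goT])
  | succ fuel ih =>
    intro k rem last alive l h xs hsum hpos hpw hle
    rw [goT_succ] at h
    cases h0 : Nat.beq rem 0 with
    | true => rw [h0, cond_true] at h; exact absurd h (by simp)
    | false =>
      rw [h0, cond_false] at h
      cases xs with
      | nil =>
        exfalso
        rw [List.sum_nil] at hsum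
        rw [← hsum] at h0
        exact absurd h0 (by simp)
      | cons v t =>
        rw [List.sum_cons] at hsum
        have hv : 0 < v := hpos v List.mem_cons_self
        have hvl : v ≤ last := hle v List.mem_cons_self
        have hm : v ≤ cond (Nat.ble last rem) last rem := by
          cases Nat.ble last rem with
          | true => exact hvl
          | false => rw [cond_false]; omega
        have h1 := loopT_spec _ _ h v hv hm
        obtain ⟨acc', alive', ok', hK, h2, h3, h4, h5⟩ := passT_spec _ _ _ _ _ _ _ _ h1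
        have htpos : ∀ r ∈ t, 0 < r := fun r hr => hpos r (List.mem_cons_of_mem _ hr)
        have htpw : t.Pairwise (· ≥ ·) := (List.pairwise_cons.1 hpw).2
        have htle : ∀ r ∈ t, r ≤ v := fun r hr => (List.pairwise_cons.1 hpw).1 r hr
        have htsum : t.sum = rem - v := by omega
        cases h6 : Nat.beq ok' 0 with
        | false =>
          have hne : ok' ≠ 0 := by
            intro hc
            rw [hc] at h6
            exact absurd h6 (by simp)
          obtain ⟨j, hj⟩ := Nat.exists_testBit_of_ne_zero hne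
          refine ⟨j, h4 j hj, fun A B d nb hm hn => ?_⟩
          rw [TT', ← ccT_eq]
          rcases h5 A B d nb hm with h7 | ⟨_, h7⟩
          · omega
          · obtain ⟨h8, h9⟩ := h7 j hj hn
            have := lbT_spec hv htsum htpos htpw htle h8 h9
            omega
        | true =>
          rw [h6] at hK
          simp only [cond_true, cond_false] at hK
          cases h7 : Nat.beq alive' 0 with
          | true => rw [h7, cond_true] at hK; exact absurd hK (by simp)
          | false =>
            rw [h7, cond_false] at hK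
            obtain ⟨j, hj, h8⟩ := ih _ _ _ _ _ hK t htsum htpos htpw htle
            refine ⟨j, h3 j hj, fun A B d nb hm hn => ?_⟩
            rw [TT', ← ccT_eq]
            rcases h5 A B d nb hm with h9 | ⟨h9, _⟩
            · omega
            · rcases h9 with h9 | h9
              · have := h8 A B _ nb h9 hn
                omega
              · rw [h9 j hj] at hn
                exact absurd hn (by simp)

/-- constraints with bit masks from a list of modes: insert one constraint of mode `j` -/
def insT (full A B s j : ℕ) : List (ℕ × ℕ × ℕ × ℕ) → List (ℕ × ℕ × ℕ × ℕ)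
  | [] => [(A, B, s, full - 2 ^ j)]
  | (A', B', s', nb) :: l =>
    if A' = A ∧ B' = B ∧ s' = s then (A', B', s', nb - 2 ^ j) :: l
    else (A', B', s', nb) :: insT full A B s j l

def insM (full j : ℕ) : List (ℕ × ℕ × ℕ) → List (ℕ × ℕ × ℕ × ℕ) → List (ℕ × ℕ × ℕ × ℕ)
  | [], l => l
  | (A, B, s) :: m, l => insM full j m (insT full A B s j l)

def insMs (full : ℕ) : ℕ → List (List (ℕ × ℕ × ℕ)) → List (ℕ × ℕ × ℕ × ℕ) → List (ℕ × ℕ × ℕ × ℕ)
  | _, [], l => l
  | j, m :: ms, l => insMs full (j + 1) ms (insM full j m l)

def toEL : List (ℕ × ℕ × ℕ × ℕ) → EL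
  | [] => .nil
  | (A, B, s, nb) :: l => .c A B s nb (toEL l)

/-- every constraint of every mode is in the list with the right mask -/
def chkM : ℕ → List (List (ℕ × ℕ × ℕ)) → List (ℕ × ℕ × ℕ × ℕ) → Bool
  | _, [], _ => true
  | j, m :: ms, l =>
    (m.all fun r => l.any fun e => e.1 == r.1 && e.2.1 == r.2.1 && e.2.2.1 == r.2.2 &&
      !(e.2.2.2.testBit j)) && chkM (j + 1) ms l

/-- THE CHECK. -/
noncomputable def treeCheck (ms : List (List (ℕ × ℕ × ℕ))) (n : ℕ) : Bool :=
  chkM 0 ms (insMs (2 ^ ms.length - 1) 0 ms []) &&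
    goT (n + 1) 0 n n (2 ^ ms.length - 1) (toEL (insMs (2 ^ ms.length - 1) 0 ms []))

theorem toL_toEL : ∀ l, (toEL l).toL = l
  | [] => rfl
  | (A, B, s, nb) :: l => by rw [toEL, EL.toL, toL_toEL l]

theorem chkM_spec (l : List (ℕ × ℕ × ℕ × ℕ)) : ∀ (ms : List (List (ℕ × ℕ × ℕ))) (j : ℕ),
    chkM j ms l = true → ∀ i, i < ms.length → ∃ m ∈ ms, ∀ r ∈ m, ∃ nb,
      (r.1, r.2.1, r.2.2, nb) ∈ l ∧ nb.testBit (j + i) = false
  | [], _, _, i, hi => absurd hi (by simp)
  | m :: ms, j, h, i, hi => by
    rw [chkM, Bool.and_eq_true, List.all_eq_true] at h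
    rcases Nat.eq_zero_or_pos i with rfl | hpos
    · refine ⟨m, List.mem_cons_self, fun r hr => ?_⟩
      have h1 := h.1 r hr
      rw [List.any_eq_true] at h1
      obtain ⟨e, he, h2⟩ := h1
      simp only [Bool.and_eq_true, beq_iff_eq, Bool.not_eq_true'] at h2
      obtain ⟨⟨⟨h3, h4⟩, h5⟩, h6⟩ := h2
      refine ⟨e.2.2.2, ?_, by simpa using h6⟩
      rw [← h3, ← h4, ← h5]
      exact he
    · obtain ⟨m', hm', h1⟩ := chkM_spec l ms (j + 1) h.2 (i - 1) (by
        rw [List.length_cons] at hi; omega)
      refine ⟨m', List.mem_cons_of_mem _ hm', fun r hr => ?_⟩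
      obtain ⟨nb, h2, h3⟩ := h1 r hr
      refine ⟨nb, h2, ?_⟩
      have : j + 1 + (i - 1) = j + i := by omega
      rw [← this]
      exact h3

theorem tree_list {ms : List (List (ℕ × ℕ × ℕ))} {n : ℕ} (h : treeCheck ms n = true)
    (xs : List ℕ) (hsum : xs.sum = n) (hpos : ∀ r ∈ xs, 0 < r) (hpw : xs.Pairwise (· ≥ ·)) :
    ∃ m ∈ ms, ∀ r ∈ m, r.2.2 ≤ TT' r.1 r.2.1 0 xs := by
  unfold treeCheck at h
  rw [Bool.and_eq_true] at h
  obtain ⟨h1, h2⟩ := h
  have hle : ∀ r ∈ xs, r ≤ n := fun r hr => hsum ▸ List.single_le_sum (by simp) r hr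
  obtain ⟨j, hj, h3⟩ := goT_sound _ _ _ _ _ _ h2 xs hsum hpos hpw hle
  rw [Nat.testBit_two_pow_sub_one, decide_eq_true_iff] at hj
  obtain ⟨m, hm, h4⟩ := chkM_spec _ ms 0 h1 j hj
  refine ⟨m, hm, fun r hr => ?_⟩
  obtain ⟨nb, h5, h6⟩ := h4 r hr
  rw [zero_add] at h6
  exact h3 _ _ _ nb (by rw [toL_toEL]; exact h5) h6

section
variable {X : Type} [Fintype X] [DecidableEq X]

/-- number of letters in the first `A` rows or the first `B` columns -/
def HH {X : Type} [Fintype X] (ρ κ : Word X) (A B : ℕ) : ℕ :=
  (univ.filter (fun x => ρ x < A ∨ κ x < B)).card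

/-- row length -/
def rowlen {X : Type} [Fintype X] (ρ : Word X) (i : ℕ) : ℕ := (univ.filter (fun x => ρ x = i)).card

theorem TT'_map (A B : ℕ) (r : ℕ → ℕ) : ∀ (m k : ℕ), TT' A B k ((List.range' k m).map r) =
    ∑ i ∈ Ico k (k + m), (if i < A then r i else min (r i) B)
  | 0, k => by simp [TT']
  | m + 1, k => by
    rw [List.range'_succ, List.map_cons, TT', TT'_map A B r m (k + 1)]
    rw [show k + (m + 1) = k + 1 + m by ring]
    rw [← Finset.sum_eq_sum_Ico_succ_bot (by omega : k < k + 1 + m)
      (fun i => if i < A then r i else min (r i) B)]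

theorem HH_eq {ρ κ : Word X} (h : IsTab (fun _ => 0) ρ κ) (A B N : ℕ) (hN : ∀ x, ρ x < N) :
    HH ρ κ A B = TT' A B 0 ((List.range' 0 N).map (rowlen ρ)) := by
  rw [TT'_map, zero_add]
  unfold HH
  rw [card_eq_sum_card_fiberwise (f := ρ) (t := Ico 0 N)
    (fun x _ => by simpa using hN x)]
  apply sum_congr rfl
  intro i _
  rw [filter_filter]
  by_cases hi : i < A
  · rw [if_pos hi]
    unfold rowlen
    congr 1
    ext x
    simp only [mem_filter, mem_univ, true_and]
    constructor
    · exact fun h => h.2
    · exact fun h => ⟨Or.inl (by omega), h⟩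
  · rw [if_neg hi]
    have h1 : (univ.filter (fun x => (ρ x < A ∨ κ x < B) ∧ ρ x = i)).card =
        ((univ.filter (fun x => ρ x = i)).filter (fun x => κ x < B)).card := by
      rw [filter_filter]
      congr 1
      ext x
      simp only [mem_filter, mem_univ, true_and]
      constructor
      · rintro ⟨h1 | h1, h2⟩
        · omega
        · exact ⟨h2, h1⟩
      · rintro ⟨h1, h2⟩
        exact ⟨Or.inr h2, h1⟩
    rw [h1]
    have h2 : ((univ.filter (fun x => ρ x = i)).filter (fun x => κ x < B)).card =
        (((univ.filter (fun x => ρ x = i)).image κ).filter (fun j => j < B)).card := by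
      rw [filter_image, card_image_of_injOn]
      intro x hx y hy hxy
      have hx' := mem_filter.1 (mem_filter.1 (mem_coe.1 hx)).1
      have hy' := mem_filter.1 (mem_filter.1 (mem_coe.1 hy)).1
      exact h.inj (by simp only [hx'.2, hy'.2, hxy])
    rw [h2, sh_row_image h]
    have h3 : (range (univ.filter (fun x => ρ x = i)).card).filter (fun j => j < B) =
        range (min (rowlen ρ i) B) := by
      ext j
      simp only [mem_filter, mem_range, rowlen, lt_min_iff]
    rw [h3, card_range]

theorem rowlen_anti {ρ κ : Word X} (h : IsTab (fun _ => 0) ρ κ) {i k : ℕ} (hik : i ≤ k) :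
    rowlen ρ k ≤ rowlen ρ i := by
  unfold rowlen
  have hk := sh_row_image h k
  have hi := sh_row_image h i
  have hsub : (univ.filter (fun x => ρ x = k)).image κ ⊆ (univ.filter (fun x => ρ x = i)).image κ := by
    intro j hj
    rw [mem_image] at hj ⊢
    obtain ⟨x, hx, rfl⟩ := hj
    rw [mem_filter] at hx
    obtain ⟨y, _, hy2, hy3⟩ := h.lower x i (κ x) (by omega) le_rfl
    exact ⟨y, by rw [mem_filter]; exact ⟨mem_univ _, hy2⟩, hy3⟩
  rw [hk, hi] at hsub
  simpa using card_le_card hsub

/-- MAIN THEOREM: every tableau satisfies all constraints of some mode. -/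
theorem tree_sound {ms : List (List (ℕ × ℕ × ℕ))} {n : ℕ} (h : treeCheck ms n = true)
    (hX : Fintype.card X = n) {ρ κ : Word X} (ht : IsTab (fun _ => 0) ρ κ) :
    ∃ m ∈ ms, ∀ r ∈ m, r.2.2 ≤ HH ρ κ r.1 r.2.1 := by
  -- number of rows
  obtain ⟨N, hN, hN2⟩ : ∃ N, (∀ x, ρ x < N) ∧ ∀ i < N, 0 < rowlen ρ i := by
    refine ⟨(univ.filter (fun x => κ x = 0)).card, fun x => ?_, fun i hi => ?_⟩
    · obtain ⟨y, _, hy2, hy3⟩ := ht.lower x (ρ x) 0 le_rfl (Nat.zero_le _)
      have : ρ x ∈ (univ.filter (fun x => κ x = 0)).image ρ := by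
        rw [mem_image]
        exact ⟨y, by rw [mem_filter]; exact ⟨mem_univ _, hy3⟩, hy2⟩
      rw [sh_col_image ht, mem_range] at this
      exact this
    · have : i ∈ (univ.filter (fun x => κ x = 0)).image ρ := by
        rw [sh_col_image ht, mem_range]
        exact hi
      rw [mem_image] at this
      obtain ⟨y, _, hy⟩ := this
      exact card_pos.2 ⟨y, by rw [mem_filter]; exact ⟨mem_univ _, hy⟩⟩
  have hsum : ((List.range' 0 N).map (rowlen ρ)).sum = n := by
    have h1 := HH_eq ht N 0 N hN
    rw [TT'_map] at h1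
    have h2 : HH ρ κ N 0 = n := by
      unfold HH
      rw [filter_true_of_mem (fun x _ => Or.inl (hN x)), card_univ, hX]
    rw [h2] at h1
    have h3 := TT'_full (A := 0) (B := n) ((List.range' 0 N).map (rowlen ρ)) 0 (by
      intro r hr
      rw [List.mem_map] at hr
      obtain ⟨i, _, rfl⟩ := hr
      rw [← hX, ← card_univ]
      exact card_le_card (filter_subset _ _))
    rw [← h3, TT'_map]
    refine Eq.trans ?_ h1.symm
    apply sum_congr rfl
    intro i hi
    rw [if_neg (by omega)]
    rw [zero_add, mem_Ico] at hi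
    rw [if_pos hi.2]
    apply min_eq_left
    rw [← hX, ← card_univ]
    exact card_le_card (filter_subset _ _)
  obtain ⟨m, hm, h1⟩ := tree_list h ((List.range' 0 N).map (rowlen ρ)) hsum (by
      intro r hr
      rw [List.mem_map] at hr
      obtain ⟨i, hi, rfl⟩ := hr
      rw [List.mem_range'] at hi
      exact hN2 i (by omega))
    (by
      rw [List.pairwise_map]
      exact (List.pairwise_lt_range' (s := 0) (n := N)).imp fun hij => rowlen_anti ht hij.le)
  refine ⟨m, hm, fun r hr => ?_⟩
  rw [HH_eq ht _ _ N hN]
  exact h1 r hr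

end

end Crest.Agent.SaxlN
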