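import Crest.Agent.SaxlN.MKMain
import Crest.Agent.SaxlN.Tree

/-!
Fast version of the verified check: constraints at coarse ends only, with the tree search `treeCheck`.
-/

set_option autoImplicit false

namespace Crest.Agent.SaxlN.MK

open Finset Equiv
open Crest.Agent.Saxl

theorem TT'_eq_hs (A B : ℕ) : ∀ (xs : List ℕ) (k : ℕ), TT' A B k xs = hs xs (A - k) B
  | [], k => by simp [TT', hs]
  | v :: t, k => by
    rw [TT', TT'_eq_hs A B t (k + 1)]
    by_cases h : k < A
    · obtain ⟨e, he⟩ : ∃ e, A - k = e + 1 := ⟨A - k - 1, by omega⟩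
      rw [if_pos h, he, hs]
      congr 2
      omega
    · have h1 : A - k = 0 := by omega
      have h2 : A - (k + 1) = 0 := by omega
      rw [if_neg h, h1, h2, hs]

/-- the bound `s` at `k` follows from the bounds at the ends `E` by monotonicity or concavity -/
def cov1 (E : List (ℕ × ℕ)) (k s : ℕ) : Bool :=
  (E.any fun p => Nat.ble p.1 k && Nat.ble s p.2) ||
  (E.any fun p => E.any fun q => Nat.ble p.1 k && (Nat.ble k q.1 &&
    Nat.ble ((q.1 - p.1) * s + 1) ((q.1 - k) * p.2 + (k - p.1) * q.2 + (q.1 - p.1))))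

/-- the ends `E` suffice for `α` -/
def cov (α : List ℕ) (E : List (ℕ × ℕ)) : Bool :=
  (List.range (α.length + 1)).all fun k => cov1 E k (pre α k)

theorem mono_le {F : ℕ → ℕ} (hm : ∀ k, F k ≤ F (k + 1)) {a b : ℕ} (h : a ≤ b) : F a ≤ F b :=
  monotone_nat_of_le_succ hm h

/-- increments decrease -/
theorem conc_inc {F : ℕ → ℤ} (hc : ∀ k, F (k + 2) + F k ≤ 2 * F (k + 1)) {a b : ℕ} (h : a ≤ b) :
    F (b + 1) - F b ≤ F (a + 1) - F a := by
  induction b, h using Nat.le_induction with
  | base => exact le_rfl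
  | succ b _ ih =>
    have := hc b
    linarith

theorem conc_left {F : ℕ → ℤ} (hc : ∀ k, F (k + 2) + F k ≤ 2 * F (k + 1)) (k n : ℕ) :
    F (k + n) - F k ≤ n * (F (k + 1) - F k) := by
  induction n with
  | zero => simp
  | succ n ih =>
    have := conc_inc hc (a := k) (b := k + n) (by omega)
    rw [show k + (n + 1) = k + n + 1 by ring]
    push_cast
    linarith

theorem conc_right {F : ℕ → ℤ} (hc : ∀ k, F (k + 2) + F k ≤ 2 * F (k + 1)) (k n : ℕ) :
    n * (F (k + n + 1) - F (k + n)) ≤ F (k + n) - F k := by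
  induction n with
  | zero => simp
  | succ n ih =>
    have h1 := conc_inc hc (a := k + n) (b := k + n + 1) (by omega)
    rw [show k + (n + 1) = k + n + 1 by ring]
    push_cast
    have h2 : (n : ℤ) * (F (k + n + 1 + 1) - F (k + n + 1)) ≤ n * (F (k + n + 1) - F (k + n)) :=
      mul_le_mul_of_nonneg_left h1 (by positivity)
    linarith

theorem conc_three {F : ℕ → ℤ} (hc : ∀ k, F (k + 2) + F k ≤ 2 * F (k + 1)) (p i j : ℕ) :
    j * F p + i * F (p + i + j) ≤ (i + j) * F (p + i) := by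
  have h1 := conc_left hc (p + i) j
  have h2 := conc_right hc p i
  rcases Nat.eq_zero_or_pos i with rfl | hi
  · simp
  rcases Nat.eq_zero_or_pos j with rfl | hj
  · simp
  have h3 : (i : ℤ) * (F (p + i + j) - F (p + i)) ≤ i * (j * (F (p + i + 1) - F (p + i))) :=
    mul_le_mul_of_nonneg_left h1 (by positivity)
  have h4 : (j : ℤ) * (i * (F (p + i + 1) - F (p + i))) ≤ j * (F (p + i) - F p) :=
    mul_le_mul_of_nonneg_left h2 (by positivity)
  nlinarith

theorem cov1_sound {F : ℕ → ℕ} (hc : ∀ k, F (k + 2) + F k ≤ 2 * F (k + 1))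
    (hm : ∀ k, F k ≤ F (k + 1)) {E : List (ℕ × ℕ)} {C : ℕ} (h : ∀ p ∈ E, C + p.2 ≤ F p.1)
    {k s : ℕ} (hk : cov1 E k s = true) : C + s ≤ F k := by
  unfold cov1 at hk
  rw [Bool.or_eq_true] at hk
  rcases hk with hk | hk
  · rw [List.any_eq_true] at hk
    obtain ⟨p, hp, h1⟩ := hk
    rw [Bool.and_eq_true] at h1
    have h2 := Nat.le_of_ble_eq_true h1.1
    have h3 := Nat.le_of_ble_eq_true h1.2
    have h4 := h p hp
    have h5 := mono_le hm h2
    omega
  · rw [List.any_eq_true] at hk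
    obtain ⟨p, hp, h1⟩ := hk
    rw [List.any_eq_true] at h1
    obtain ⟨q, hq, h1⟩ := h1
    rw [Bool.and_eq_true, Bool.and_eq_true] at h1
    obtain ⟨h2, h3, h4⟩ := h1
    have h2 := Nat.le_of_ble_eq_true h2
    have h3 := Nat.le_of_ble_eq_true h3
    have h4 := Nat.le_of_ble_eq_true h4
    obtain ⟨i, hi⟩ : ∃ i, k = p.1 + i := ⟨k - p.1, by omega⟩
    obtain ⟨j, hj⟩ : ∃ j, q.1 = p.1 + i + j := ⟨q.1 - k, by omega⟩
    subst hi
    have e1 : q.1 - p.1 = i + j := by omega
    have e2 : q.1 - (p.1 + i) = j := by omega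
    have e3 : p.1 + i - p.1 = i := by omega
    rw [e1, e2, e3] at h4
    have h5 := conc_three (F := fun k => (F k : ℤ)) (fun k => by exact_mod_cast hc k) p.1 i j
    have h6 := h p hp
    have h7 := h q hq
    rw [hj] at h7
    zify at h4 h6 h7 ⊢
    by_contra hcon
    push Not at hcon
    have h8 : (j : ℤ) * (C + p.2) ≤ j * F p.1 := mul_le_mul_of_nonneg_left h6 (by positivity)
    have h9 : (i : ℤ) * (C + q.2) ≤ i * F (p.1 + i + j) := mul_le_mul_of_nonneg_left h7 (by positivity)
    have h10 : ((i : ℤ) + j) * F (p.1 + i) ≤ (i + j) * (C + s - 1) :=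
      mul_le_mul_of_nonneg_left (by omega) (by positivity)
    nlinarith

theorem cov_sound {F : ℕ → ℕ} (hc : ∀ k, F (k + 2) + F k ≤ 2 * F (k + 1))
    (hm : ∀ k, F k ≤ F (k + 1)) {α : List ℕ} {E : List (ℕ × ℕ)} {C : ℕ}
    (h : ∀ p ∈ E, C + p.2 ≤ F p.1) (hE : cov α E = true) (k : ℕ) : C + pre α k ≤ F k := by
  unfold cov at hE
  rw [List.all_eq_true] at hE
  rcases Nat.lt_or_ge k (α.length + 1) with hk | hk
  · exact cov1_sound hc hm h (hE k (List.mem_range.2 hk))
  · have h1 := cov1_sound hc hm h (hE α.length (List.mem_range.2 (by omega)))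
    have h2 := mono_le hm (show α.length ≤ k by omega)
    have h3 : pre α k = pre α α.length := by
      unfold pre
      rw [List.take_of_length_le (by omega), List.take_of_length_le le_rfl]
    omega

/-- the constraint `(k, l, v)` follows from the list `m` -/
def domB (m : List (ℕ × ℕ × ℕ)) (k l v : ℕ) : Bool :=
  Nat.beq v 0 || m.any fun r => Nat.ble r.1 k && (Nat.ble r.2.1 l && Nat.ble v r.2.2)

theorem domB_sound {ν : List ℕ} {m : List (ℕ × ℕ × ℕ)} (h : ∀ r ∈ m, r.2.2 ≤ hs ν r.1 r.2.1)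
    {k l v : ℕ} (hd : domB m k l v = true) : v ≤ hs ν k l := by
  unfold domB at hd
  rw [Bool.or_eq_true] at hd
  rcases hd with hd | hd
  · rw [Nat.eq_of_beq_eq_true hd]
    exact Nat.zero_le _
  · rw [List.any_eq_true] at hd
    obtain ⟨r, hr, h1⟩ := hd
    rw [Bool.and_eq_true, Bool.and_eq_true] at h1
    obtain ⟨h2, h3, h4⟩ := h1
    have h2 := Nat.le_of_ble_eq_true h2
    have h3 := Nat.le_of_ble_eq_true h3
    have h4 := Nat.le_of_ble_eq_true h4
    have h5 := h r hr
    have h6 := hs_mono_k ν h2 r.2.1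
    have h7 := hs_mono_l ν k h3
    omega

/-- the constraints `m` at the coarse ends `EA`, `EB` suffice for the type `ty` -/
def chkE (La : List ℕ) (e : (List ℕ × List ℕ × List ℕ) × List (ℕ × ℕ) × List (ℕ × ℕ))
    (m : List (ℕ × ℕ × ℕ)) : Bool :=
  valB La e.1 &&
  (cov ((prt La e.1.1 e.1.2.1 e.1.2.2 false).map Prod.fst) e.2.1 &&
  (cov ((prt La e.1.1 e.1.2.1 e.1.2.2 true).map Prod.fst) e.2.2 &&
  (e.2.1.all fun p => e.2.2.all fun q => domB m p.1 q.1 (p.2 + q.2))))

theorem cons_all_of_chkE {La : List ℕ}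
    {e : (List ℕ × List ℕ × List ℕ) × List (ℕ × ℕ) × List (ℕ × ℕ)} {m : List (ℕ × ℕ × ℕ)}
    (h : chkE La e m = true) {ν : List ℕ} (hν : ν.Pairwise (· ≥ ·))
    (hm : ∀ r ∈ m, r.2.2 ≤ hs ν r.1 r.2.1) (k l : ℕ) :
    pre ((prt La e.1.1 e.1.2.1 e.1.2.2 false).map Prod.fst) k +
      pre ((prt La e.1.1 e.1.2.1 e.1.2.2 true).map Prod.fst) l ≤ hs ν k l := by
  unfold chkE at h
  rw [Bool.and_eq_true, Bool.and_eq_true, Bool.and_eq_true, List.all_eq_true] at h
  obtain ⟨_, h1, h2, h3⟩ := h
  have key : ∀ q ∈ e.2.2, ∀ k, q.2 + pre ((prt La e.1.1 e.1.2.1 e.1.2.2 false).map Prod.fst) k ≤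
      hs ν k q.1 := by
    intro q hq k
    refine cov_sound (F := fun k => hs ν k q.1) (fun k => hs_concave_k hν k q.1)
      (fun k => hs_mono_k ν (Nat.le_succ k) q.1) (E := e.2.1) ?_ h1 k
    intro p hp
    have h4 := h3 p hp
    rw [List.all_eq_true] at h4
    have h5 := domB_sound hm (h4 q hq)
    omega
  refine cov_sound (F := fun l => hs ν k l) (fun l => hs_concave_l ν k l)
    (fun l => hs_mono_l ν k (Nat.le_succ l)) (E := e.2.2) ?_ h2 l
  intro q hq
  have := key q hq k
  omega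

/-- all types are fine -/
def chkEs (La : List ℕ) : List ((List ℕ × List ℕ × List ℕ) × List (ℕ × ℕ) × List (ℕ × ℕ)) →
    List (List (ℕ × ℕ × ℕ)) → Bool
  | _, [] => true
  | [], _ :: _ => false
  | e :: es, m :: ms => chkE La e m && chkEs La es ms

theorem chkEs_sound {La : List ℕ} :
    ∀ {es : List ((List ℕ × List ℕ × List ℕ) × List (ℕ × ℕ) × List (ℕ × ℕ))}
      {ms : List (List (ℕ × ℕ × ℕ))}, chkEs La es ms = true → ∀ m ∈ ms, ∃ e, chkE La e m = true
  | _, [], _, m, hm => absurd hm (by simp)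
  | [], _ :: _, h, _, _ => by rw [chkEs] at h; cases h
  | e :: es, m' :: ms, h, m, hm => by
    rw [chkEs, Bool.and_eq_true] at h
    rw [List.mem_cons] at hm
    rcases hm with rfl | hm
    · exact ⟨e, h.1⟩
    · exact chkEs_sound h.2 m hm

theorem valB_of_chkE {La : List ℕ}
    {e : (List ℕ × List ℕ × List ℕ) × List (ℕ × ℕ) × List (ℕ × ℕ)} {m : List (ℕ × ℕ × ℕ)}
    (h : chkE La e m = true) : valB La e.1 = true := by
  unfold chkE at h
  rw [Bool.and_eq_true] at h
  exact h.1

/-- THE FAST CHECK -/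
theorem good_of_tree {La : List ℕ}
    {es : List ((List ℕ × List ℕ × List ℕ) × List (ℕ × ℕ) × List (ℕ × ℕ))}
    {ms : List (List (ℕ × ℕ × ℕ))} {n : ℕ} (hd : decB La = true) (hn : La.sum = n)
    (he : chkEs La es ms = true) (ht : treeCheck ms n = true) : Good La.toFinset := by
  intro X _ _ hX W _ _ _ σ
  rw [sum_toFinset' hd] at hX
  obtain ⟨ρ, κ, htab, w, hw⟩ := exists_yact_ne_zero σ
  obtain ⟨ν, hν1, hν2, hν3, hν4⟩ := exists_list htab
  obtain ⟨m, hm, hcon⟩ := tree_list ht ν (by rw [hν3, hX, hn]) hν2 hν1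
  obtain ⟨e, he'⟩ := chkEs_sound he m hm
  refine hasSV_of_mk hd (valB_of_chkE he') hX htab hw hν1 hν4 (cons_all_of_chkE he' hν1 ?_)
  intro r hr
  have := hcon r hr
  rwa [TT'_eq_hs, Nat.sub_zero] at this

/-- THE FAST CHECK for the types of `MKDefs` (helper42) -/
noncomputable def checkFast (La : List ℕ) (ts : List (List ℕ × List ℕ × List ℕ)) : Bool :=
  decB La && ts.all (valB La) && treeCheck (ts.map (consT La)) La.sum

/-- THE CHECKED SYSTEMS ARE GOOD (helper42) -/
theorem good_of_fast {La : List ℕ} {ts : List (List ℕ × List ℕ × List ℕ)}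
    (h : checkFast La ts = true) : Good La.toFinset := by
  intro X _ _ hX W _ _ _ σ
  unfold checkFast at h
  rw [Bool.and_eq_true, Bool.and_eq_true] at h
  obtain ⟨⟨hd, hv⟩, ht⟩ := h
  rw [List.all_eq_true] at hv
  rw [sum_toFinset' hd] at hX
  obtain ⟨ρ, κ, htab, w, hw⟩ := exists_yact_ne_zero σ
  obtain ⟨ν, hν1, hν2, hν3, hν4⟩ := exists_list htab
  obtain ⟨c, hc, hcon'⟩ := tree_list ht ν (by rw [hν3, hX]) hν2 hν1
  rw [List.mem_map] at hc
  obtain ⟨ty, hty, rfl⟩ := hc
  refine hasSV_of_mk hd (hv ty hty) hX htab hw hν1 hν4 (fun k l => cons_all hν1 (fun r hr => ?_) k l)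
  have := hcon' r hr
  rwa [TT'_eq_hs, Nat.sub_zero] at this

/-! ### exceptions -/

theorem hs_add_pos (ν : List ℕ) (l : ℕ) : hs ν 0 l + (ν.map fun a => a - l).sum = ν.sum := by
  induction ν with
  | nil => simp [hs]
  | cons a t ih =>
    rw [hs, List.map_cons, List.sum_cons, List.sum_cons]
    omega

theorem pre_le_pos (ν : List ℕ) (l : ℕ) : ∀ k, pre ν k ≤ (ν.map fun a => a - l).sum + k * l := by
  induction ν with
  | nil => intro k; simp [pre]
  | cons a t ih =>
    intro k
    cases k with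
    | zero => simp [pre]
    | succ k =>
      have h1 := ih k
      have h2 : pre (a :: t) (k + 1) = a + pre t k := by simp [pre]
      rw [h2, List.map_cons, List.sum_cons, add_mul, one_mul]
      omega

theorem pos_sum_of_sorted {W0 : List ℕ} (h : W0.Pairwise (· ≥ ·)) : ∀ k, k < W0.length →
    (W0.map fun a => a - W0.getD k 0).sum + k * W0.getD k 0 ≤ pre W0 k := by
  intro k hk
  have e : W0 = W0.take k ++ W0.drop k := (List.take_append_drop k W0).symm
  have h1 : ((W0.drop k).map fun a => a - W0.getD k 0).sum = 0 := by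
    rw [List.sum_eq_zero_iff]
    intro x hx
    rw [List.mem_map] at hx
    obtain ⟨a, ha, rfl⟩ := hx
    rw [List.mem_iff_getElem] at ha
    obtain ⟨i, hi, rfl⟩ := ha
    rw [List.length_drop] at hi
    rw [List.getElem_drop, List.getD_eq_getElem _ _ hk]
    have : W0[k + i] ≤ W0[k] := by
      rcases Nat.eq_zero_or_pos i with rfl | hi'
      · simp
      · exact List.pairwise_iff_getElem.1 h k (k + i) hk (by omega) (by omega)
    omega
  have h2 : ∀ l : List ℕ, (∀ a ∈ l, W0.getD k 0 ≤ a) →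
      (l.map fun a => a - W0.getD k 0).sum + l.length * W0.getD k 0 = l.sum := by
    intro l
    induction l with
    | nil => simp
    | cons a t ih =>
      intro hl
      have h3 := ih fun x hx => hl x (List.mem_cons_of_mem _ hx)
      have h4 := hl a List.mem_cons_self
      rw [List.map_cons, List.sum_cons, List.sum_cons, List.length_cons, add_mul, one_mul]
      omega
  have h3 := h2 (W0.take k) (by
    intro a ha
    rw [List.mem_iff_getElem] at ha
    obtain ⟨i, hi, rfl⟩ := ha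
    rw [List.length_take] at hi
    rw [List.getElem_take, List.getD_eq_getElem _ _ hk]
    exact List.pairwise_iff_getElem.1 h i k (by omega) hk (by omega))
  rw [List.length_take, min_eq_left hk.le] at h3
  have h4 : (W0.map fun a => a - W0.getD k 0).sum = ((W0.take k).map fun a => a - W0.getD k 0).sum := by
    conv_lhs => rw [e, List.map_append, List.sum_append]
    rw [← e, h1, add_zero]
  rw [h4]
  unfold pre
  omega

theorem eq_of_pre {ν μ : List ℕ} (hν : ∀ a ∈ ν, 0 < a) (hμ : ∀ a ∈ μ, 0 < a)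
    (h : ∀ k, pre ν k = pre μ k) : ν = μ := by
  induction ν generalizing μ with
  | nil =>
    cases μ with
    | nil => rfl
    | cons b t =>
      exfalso
      have := h 1
      have hb := hμ b List.mem_cons_self
      simp [pre] at this
      omega
  | cons a t ih =>
    cases μ with
    | nil =>
      exfalso
      have := h 1
      have hb := hν a List.mem_cons_self
      simp [pre] at this
      omega
    | cons b u =>
      have h1 := h 1
      have h1' : a = b := by simpa [pre] using h1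
      subst h1'
      congr 1
      refine ih (fun x hx => hν x (List.mem_cons_of_mem _ hx))
        (fun x hx => hμ x (List.mem_cons_of_mem _ hx)) ?_
      intro k
      have := h (k + 1)
      simpa [pre] using this

/-- the constraints of an exceptional partition `W0` with conjugate `W1` -/
def chkX (x : List ℕ × List ℕ × List (ℕ × ℕ) × List (ℕ × ℕ)) (m : List (ℕ × ℕ × ℕ)) : Bool :=
  cov x.1 x.2.2.1 && (cov x.2.1 x.2.2.2 &&
  ((x.2.2.1.all fun p => domB m p.1 0 p.2) &&
  ((x.2.2.2.all fun q => domB m 0 q.1 q.2) &&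
  (((List.range (x.2.1.length + 1)).all fun l => Nat.ble (hs x.1 0 l) (pre x.2.1 l)) &&
  ((x.1.all fun a => Nat.ble a x.2.1.length) &&
  ((x.1.all fun a => Nat.ble 1 a) &&
  ((List.range x.1.length).all fun i => Nat.ble (x.1.getD (i + 1) 0) (x.1.getD i 0))))))))

theorem sorted_of_range {l : List ℕ}
    (h : ∀ i < l.length, l.getD (i + 1) 0 ≤ l.getD i 0) : l.Pairwise (· ≥ ·) := by
  induction l with
  | nil => simp
  | cons a t ih =>
    have ih' := ih (fun i hi => by
      have := h (i + 1) (by simpa using hi)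
      simpa using this)
    refine List.pairwise_cons.2 ⟨?_, ih'⟩
    intro b hb
    have h0 := h 0 (by simp)
    cases t with
    | nil => simp at hb
    | cons c u =>
      simp only [List.getD_cons_succ, List.getD_cons_zero] at h0
      rw [List.mem_cons] at hb
      rcases hb with rfl | hb
      · exact h0
      · exact le_trans (List.rel_of_pairwise_cons ih' hb) h0

theorem exc_sound {x : List ℕ × List ℕ × List (ℕ × ℕ) × List (ℕ × ℕ)} {m : List (ℕ × ℕ × ℕ)}
    (h : chkX x m = true) {ν : List ℕ} (hν : ν.Pairwise (· ≥ ·)) (hpos : ∀ a ∈ ν, 0 < a)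
    (hsum : ν.sum = x.1.sum) (hm : ∀ r ∈ m, r.2.2 ≤ hs ν r.1 r.2.1) : ν = x.1 := by
  obtain ⟨W0, W1, EA, EB⟩ := x
  unfold chkX at h
  simp only [Bool.and_eq_true, List.all_eq_true] at h
  obtain ⟨h1, h2, h3, h4, h5, h6, h7, h8⟩ := h
  have hs8 : W0.Pairwise (· ≥ ·) := sorted_of_range fun i hi =>
    Nat.le_of_ble_eq_true (h8 i (List.mem_range.2 hi))
  have hp7 : ∀ a ∈ W0, 0 < a := fun a ha => Nat.le_of_ble_eq_true (h7 a ha)
  -- rows
  have hrow : ∀ k, pre W0 k ≤ pre ν k := by
    intro k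
    have := cov_sound (F := fun k => hs ν k 0) (fun k => hs_concave_k hν k 0)
      (fun k => hs_mono_k ν (Nat.le_succ k) 0) (E := EA) (C := 0) (fun p hp => by
        rw [zero_add]
        exact domB_sound hm (h3 p hp)) h1 k
    rw [zero_add] at this
    simpa only [hs_zero_l] using this
  have hcol : ∀ l, pre W1 l ≤ hs ν 0 l := by
    intro l
    have := cov_sound (F := fun l => hs ν 0 l) (fun l => hs_concave_l ν 0 l)
      (fun l => hs_mono_l ν 0 (Nat.le_succ l)) (E := EB) (C := 0) (fun p hp => by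
        rw [zero_add]
        exact domB_sound hm (h4 p hp)) h2 l
    rwa [zero_add] at this
  refine eq_of_pre hpos hp7 fun k => le_antisymm ?_ (hrow k)
  show pre ν k ≤ pre W0 k
  rcases Nat.lt_or_ge k W0.length with hk | hk
  · obtain ⟨l, hl⟩ : ∃ l, l = W0.getD k 0 := ⟨_, rfl⟩
    have hl1 : l ≤ W1.length := by
      rw [hl, List.getD_eq_getElem _ _ hk]
      exact Nat.le_of_ble_eq_true (h6 _ (List.getElem_mem hk))
    have e1 := Nat.le_of_ble_eq_true (h5 l (List.mem_range.2 (by omega)))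
    have e2 := hcol l
    have e3 := hs_add_pos ν l
    have e4 := hs_add_pos W0 l
    have e5 := pre_le_pos ν l k
    have e6 := pos_sum_of_sorted hs8 k hk
    rw [← hl] at e6
    simp only at hsum e1
    omega
  · have e1 : pre W0 k = W0.sum := by
      unfold pre
      rw [List.take_of_length_le hk]
    rw [e1]
    simp only at hsum
    rw [← hsum]
    have e2 : (ν.take k).sum + (ν.drop k).sum = ν.sum := List.sum_take_add_sum_drop ν k
    unfold pre
    omega

/-- all exceptions are fine -/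
def chkXs : List (List ℕ × List ℕ × List (ℕ × ℕ) × List (ℕ × ℕ)) →
    List (List (ℕ × ℕ × ℕ)) → Bool
  | _, [] => true
  | [], _ :: _ => false
  | x :: xs, m :: ms => chkX x m && chkXs xs ms

theorem chkXs_sound :
    ∀ {xs : List (List ℕ × List ℕ × List (ℕ × ℕ) × List (ℕ × ℕ))}
      {ms : List (List (ℕ × ℕ × ℕ))}, chkXs xs ms = true → ∀ m ∈ ms, ∃ x ∈ xs, chkX x m = true
  | _, [], _, m, hm => absurd hm (by simp)
  | [], _ :: _, h, _, _ => by rw [chkXs] at h; cases h
  | x :: xs, m' :: ms, h, m, hm => by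
    rw [chkXs, Bool.and_eq_true] at h
    rw [List.mem_cons] at hm
    rcases hm with rfl | hm
    · exact ⟨x, List.mem_cons_self, h.1⟩
    · obtain ⟨y, hy, h2⟩ := chkXs_sound h.2 m hm
      exact ⟨y, List.mem_cons_of_mem _ hy, h2⟩

/-- THE FAST CHECK WITH EXCEPTIONS: a representation has a vector for the system or contains a Young symmetriser
image for a tableau of an exceptional shape. -/
theorem sv_or_exc {La : List ℕ}
    {es : List ((List ℕ × List ℕ × List ℕ) × List (ℕ × ℕ) × List (ℕ × ℕ))}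
    {ms : List (List (ℕ × ℕ × ℕ))}
    {xs : List (List ℕ × List ℕ × List (ℕ × ℕ) × List (ℕ × ℕ))} {ms' : List (List (ℕ × ℕ × ℕ))}
    {n : ℕ} (hd : decB La = true) (hn : La.sum = n) (hxn : (xs.all fun x => Nat.beq x.1.sum n) = true)
    (he : chkEs La es ms = true) (hx : chkXs xs ms' = true) (ht : treeCheck (ms ++ ms') n = true)
    {X : Type} [Fintype X] [DecidableEq X] (hX : Fintype.card X = n)
    {W : Type} [AddCommGroup W] [Module ℂ W] [Nontrivial W] (σ : Representation ℂ (Perm X) W) :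
    HasSV La.toFinset σ ∨ ∃ x ∈ xs, ∃ ρ κ : Word X, IsTab (fun _ => 0) ρ κ ∧
      (∃ w, yact σ ρ κ w ≠ 0) ∧ ∀ i, sz ρ i = x.1.getD i 0 := by
  obtain ⟨ρ, κ, htab, w, hw⟩ := exists_yact_ne_zero σ
  obtain ⟨ν, hν1, hν2, hν3, hν4⟩ := exists_list htab
  obtain ⟨m, hm, hcon⟩ := tree_list ht ν (by rw [hν3, hX]) hν2 hν1
  have hcon' : ∀ r ∈ m, r.2.2 ≤ hs ν r.1 r.2.1 := by
    intro r hr
    have := hcon r hr
    rwa [TT'_eq_hs, Nat.sub_zero] at this
  rw [List.mem_append] at hm
  rcases hm with hm | hm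
  · left
    obtain ⟨e, he'⟩ := chkEs_sound he m hm
    exact hasSV_of_mk hd (valB_of_chkE he') (by rw [hX, hn]) htab hw hν1 hν4
      (cons_all_of_chkE he' hν1 hcon')
  · right
    obtain ⟨x, hx1, hx2⟩ := chkXs_sound hx m hm
    rw [List.all_eq_true] at hxn
    have e1 := Nat.eq_of_beq_eq_true (hxn x hx1)
    have e2 := exc_sound hx2 hν1 hν2 (by rw [hν3, hX, e1]) hcon'
    refine ⟨x, hx1, ρ, κ, htab, ⟨w, hw⟩, fun i => ?_⟩
    rw [hν4, e2]

end Crest.Agent.SaxlN.MK
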