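import Crest.Agent.SaxlN.GlueMain

/-!
# Row 195, S0298: interface between the gluing theorem and the combinatorics of line systems

A *system* is a finite set `La` of line lengths (`0 ∉ La`).  The lines are ordered by decreasing
length.  `t : ℕ → Bool` = type of the line of length `L` (`false` = row, `true` = column).
`P` = the leading lines of the two-line groups `{L, L-1}`; all other lines are single groups.
`u x` = length of the leading line of the group of the letter `x`.
-/

set_option autoImplicit false

namespace Crest.Agent.SaxlN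

open Finset Equiv
open Crest.Agent.Saxl

/-- number of lines of type `s` longer than `L` -/
def cntL (La : Finset ℕ) (t : ℕ → Bool) (s : Bool) (L : ℕ) : ℕ :=
  (La.filter (fun M => L < M ∧ t M = s)).card

/-- the types are balanced at every gap (including the gap below the shortest line, unless this is the line of length 1) -/
def Bal (La : Finset ℕ) (t : ℕ → Bool) : Prop :=
  ∀ L, L + 1 ∉ La → cntL La t false L = cntL La t true L

section
variable {X : Type} [Fintype X] [DecidableEq X]

/-- a layout of the letters for the system `La` with two-line groups `P`, types `t, t'`, labels `u`, classes `cl` -/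
structure Lay (La P : Finset ℕ) (t t' : ℕ → Bool) (u cl : Word X) : Prop where
  sub : ∀ L ∈ P, L ∈ La ∧ L - 1 ∈ La
  sep : ∀ L ∈ P, L + 1 ∉ P
  typ : ∀ L ∈ P, t (L - 1) = t L ∧ t' (L - 1) = t' L
  card : ∀ L, (univ.filter (fun x => u x = L)).card =
    if L ∈ P then 2 * L - 1 else if L ∈ La ∧ L + 1 ∉ P then L else 0
  cl4 : ∀ x, cl x < 4
  cl0 : ∀ x, u x ∉ P → cl x = 0

/-- `W` has a semi-invariant vector for the system `La`, with types satisfying the constraint `C`. -/
def HasV {W : Type} [AddCommGroup W] [Module ℂ W] (La : Finset ℕ)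
    (C : (ℕ → Bool) → (ℕ → Bool) → Prop) (σ : Representation ℂ (Perm X) W) : Prop :=
  ∃ (P : Finset ℕ) (t t' : ℕ → Bool) (u cl : Word X) (w : W),
    Lay La P t t' u cl ∧ C t t' ∧ w ≠ 0 ∧ SemiInv u cl (fun L => xor (t L) (t' L)) σ w

/-- the same with balanced types -/
def HasSV {W : Type} [AddCommGroup W] [Module ℂ W] (La : Finset ℕ)
    (σ : Representation ℂ (Perm X) W) : Prop :=
  HasV La (fun t t' => Bal La t ∧ Bal La t') σ

/-- restriction to the permutations supported in `S` -/
def resS (S : X → Prop) [DecidablePred S] {W : Type} [AddCommGroup W] [Module ℂ W]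
    (σ : Representation ℂ (Perm X) W) : Representation ℂ (Perm {x // S x}) W :=
  σ.comp Perm.ofSubtype

@[simp] lemma resS_apply (S : X → Prop) [DecidablePred S] {W : Type} [AddCommGroup W] [Module ℂ W]
    (σ : Representation ℂ (Perm X) W) (g : Perm {x // S x}) (w : W) :
    resS S σ g w = σ (Perm.ofSubtype g) w := rfl

/-- `W` has a nonzero vector transforming under the permutations preserving the labels `a` by the sign of the
permutation of the letters whose label `i` has `s i = true`. -/
def Vec {W : Type} [AddCommGroup W] [Module ℂ W] (σ : Representation ℂ (Perm X) W)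
    (s : ℕ → Bool) (a : Word X) : Prop :=
  ∃ v : W, v ≠ 0 ∧ ∀ g : Perm X, a ∘ g = a →
    σ g v = (((sgnT (fun x => s (a x)) g : ℤˣ) : ℤ) : ℂ) • v

/-- number of letters with label `i` -/
def sz {X : Type} [Fintype X] (a : Word X) (i : ℕ) : ℕ := (univ.filter (fun x => a x = i)).card

end

/-- every nonzero representation of the symmetric group of `∑ La` letters has a semi-invariant vector for `La` -/
def Good (La : Finset ℕ) : Prop :=
  ∀ (X : Type) [Fintype X] [DecidableEq X], Fintype.card X = ∑ L ∈ La, L →
    ∀ (W : Type) [AddCommGroup W] [Module ℂ W] [Nontrivial W]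
      (σ : Representation ℂ (Perm X) W), HasSV La σ

/-- group lengths with empty groups allowed -/
structure LD0 (q : ℕ) (η : ℕ → ℕ) : Prop where
  zero : ∀ r, 2 * q ≤ r → η r = 0
  pos2 : ∀ i, η (2 * i) = 0 → η (2 * i + 1) = 0
  dec : ∀ r s, r < s → 0 < η s → 0 < η r → η s < η r
  two : ∀ i, η (2 * i + 1) = 0 ∨ η (2 * i) = η (2 * i + 1) + 1

/-- the cell of the letter at position `a` of the line of length `L` -/
def cellOf (La : Finset ℕ) (t : ℕ → Bool) (L a : ℕ) : ℕ × ℕ :=
  (cntL La t false L + (if t L then a else 0), cntL La t true L + (if t L then 0 else a))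

/-- the shape of the system `La` -/
def DD (La : Finset ℕ) : Set (ℕ × ℕ) :=
  {c | ∃ L ∈ La, (La.filter (fun M => L < M)).card = 2 * min c.1 c.2 ∧ c.1 + c.2 < L + 2 * min c.1 c.2}

/-- the statement S0298 for one `n` -/
def S298 (n : ℕ) : Prop :=
  ∃ (V : Type) (_ : AddCommGroup V) (_ : Module ℂ V) (_ : FiniteDimensional ℂ V)
      (ρ : Representation ℂ (Equiv.Perm (Fin n)) V), Representation.IsIrreducible ρ ∧
      ∀ (W : Type) [AddCommGroup W] [Module ℂ W] [FiniteDimensional ℂ W]
        (σ : Representation ℂ (Equiv.Perm (Fin n)) W), Representation.IsIrreducible σ →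
        Nontrivial (Representation.IntertwiningMap σ (Representation.tprod ρ ρ))

end Crest.Agent.SaxlN
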