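import Crest.Agent.SaxlN.MKDefs
import Crest.Agent.SaxlN.SysDefs

/-!
CHUNK MK-LAY (medium, ~250 lines): from a vector with the class sizes of a type to `HasSV`.
-/

set_option autoImplicit false

namespace Crest.Agent.SaxlN.MK

open Finset Equiv
open Crest.Agent.Saxl

variable {X : Type} [Fintype X] [DecidableEq X]
variable {W : Type} [AddCommGroup W] [Module ℂ W]

theorem mem_iff (L : ℕ) (l : List ℕ) : mem L l = true ↔ L ∈ l := by
  induction l with
  | nil => simp [mem]
  | cons a t ih =>
    rw [mem, List.mem_cons]
    by_cases h : a = L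
    · subst h; simp
    · have h1 : Nat.beq a L = false := by
        cases hb : Nat.beq a L with
        | false => rfl
        | true => exact absurd (Nat.eq_of_beq_eq_true hb) h
      rw [h1, cond_false, ih]
      constructor
      · intro h2; exact Or.inr h2
      · rintro (h2 | h2)
        · exact absurd h2.symm h
        · exact h2

theorem ins_perm (x : ℕ × ℕ × ℕ) (l : List (ℕ × ℕ × ℕ)) : (ins x l).Perm (x :: l) := by
  induction l with
  | nil => exact List.Perm.refl _
  | cons y t ih =>
    rw [ins]
    cases Nat.ble y.1 x.1 with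
    | true => exact List.Perm.refl _
    | false =>
      rw [cond_false]
      exact (List.Perm.cons y ih).trans (List.Perm.swap x y t)

theorem ins_sorted (x : ℕ × ℕ × ℕ) (l : List (ℕ × ℕ × ℕ)) (h : l.Pairwise (fun x y => y.1 ≤ x.1)) :
    (ins x l).Pairwise (fun x y => y.1 ≤ x.1) := by
  induction l with
  | nil => simp [ins]
  | cons y t ih =>
    rw [ins]
    have hh := List.pairwise_cons.1 h
    cases hb : Nat.ble y.1 x.1 with
    | true =>
      rw [cond_true]
      have hb' : y.1 ≤ x.1 := Nat.le_of_ble_eq_true hb
      refine List.pairwise_cons.2 ⟨?_, h⟩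
      intro z hz
      rcases List.mem_cons.1 hz with rfl | hz
      · exact hb'
      · exact (hh.1 z hz).trans hb'
    | false =>
      rw [cond_false]
      have hb' : ¬ y.1 ≤ x.1 := fun hle => by
        rw [Nat.ble_eq_true_of_le hle] at hb; cases hb
      refine List.pairwise_cons.2 ⟨?_, ih hh.2⟩
      intro z hz
      rcases List.mem_cons.1 ((ins_perm x t).mem_iff.1 hz) with rfl | hz
      · omega
      · exact hh.1 z hz

/-- sorted and a permutation of the input -/
theorem srt_sorted (l : List (ℕ × ℕ × ℕ)) : (srt l).Pairwise (fun x y => y.1 ≤ x.1) := by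
  induction l with
  | nil => simp [srt]
  | cons x t ih => exact ins_sorted x _ ih

theorem srt_perm (l : List (ℕ × ℕ × ℕ)) : (srt l).Perm l := by
  induction l with
  | nil => exact List.Perm.refl _
  | cons x t ih => exact (ins_perm x _).trans (List.Perm.cons x ih)

/-! ### decreasing lists -/

theorem decB_cons {a : ℕ} {t : List ℕ} (h : decB (a :: t) = true) :
    1 ≤ a ∧ (∀ M ∈ t, M < a) ∧ decB t = true := by
  induction t generalizing a with
  | nil =>
    simp only [decB, Bool.and_true] at h
    exact ⟨Nat.le_of_ble_eq_true h, by simp, rfl⟩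
  | cons b t ih =>
    rw [decB] at h
    simp only [Bool.and_eq_true] at h
    obtain ⟨⟨h1, h2⟩, h3⟩ := h
    have h4 := ih h3
    refine ⟨Nat.le_of_ble_eq_true h1, ?_, h3⟩
    have h5 : b + 1 ≤ a := Nat.le_of_ble_eq_true h2
    intro M hM
    rcases List.mem_cons.1 hM with rfl | hM
    · omega
    · have := h4.2.1 M hM; omega

theorem decB_nodup {l : List ℕ} (h : decB l = true) : l.Nodup := by
  induction l with
  | nil => exact List.nodup_nil
  | cons a t ih =>
    obtain ⟨_, h2, h3⟩ := decB_cons h
    exact List.nodup_cons.2 ⟨fun hm => absurd (h2 a hm) (lt_irrefl a), ih h3⟩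

theorem decB_pos {l : List ℕ} (h : decB l = true) : ∀ L ∈ l, 1 ≤ L := by
  induction l with
  | nil => simp
  | cons a t ih =>
    obtain ⟨h1, _, h3⟩ := decB_cons h
    intro L hL
    rcases List.mem_cons.1 hL with rfl | hL
    · exact h1
    · exact ih h3 L hL

/-! ### sums over `parts` -/

theorem sum_filter_add (f : ℕ × ℕ × ℕ → ℕ) (p : ℕ × ℕ × ℕ → Bool) (l : List (ℕ × ℕ × ℕ)) :
    ((l.filter fun x => !(xor false (p x))).map f).sum + ((l.filter fun x => !(xor true (p x))).map f).sum =
      (l.map f).sum := by
  induction l with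
  | nil => simp
  | cons a t ih =>
    simp only [List.filter_cons, List.map_cons, List.sum_cons]
    cases hp : p a <;> simp <;> simp at ih <;> omega

theorem prt_map_sum (f : ℕ × ℕ × ℕ → ℕ) (La P T T' : List ℕ) :
    ((prt La P T T' false).map f).sum + ((prt La P T T' true).map f).sum = ((parts La P).map f).sum := by
  rw [prt, prt, ((srt_perm _).map f).sum_eq, ((srt_perm _).map f).sum_eq]
  exact sum_filter_add f (fun p => sg T T' p.2.1) _

/-- the classes of one line -/
def grp (P : List ℕ) (L : ℕ) : List (ℕ × ℕ × ℕ) :=
  bif mem L P then quad (2 * L - 1) L else bif mem (L + 1) P then [] else [(L, L, 0)]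

theorem parts_cons (a : ℕ) (t P : List ℕ) : parts (a :: t) P = grp P a ++ parts t P := rfl

theorem parts_nil (P : List ℕ) : parts [] P = [] := rfl

/-- total size of the classes of one line -/
def wt (P : List ℕ) (L : ℕ) : ℕ := if L ∈ P then 2 * L - 1 else if L + 1 ∈ P then 0 else L

theorem grp_sum (P : List ℕ) (L : ℕ) : ((grp P L).map Prod.fst).sum = wt P L := by
  unfold grp wt
  by_cases h1 : L ∈ P
  · rw [(mem_iff L P).2 h1, if_pos h1, cond_true]
    simp only [quad, List.map_cons, List.map_nil, List.sum_cons, List.sum_nil]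
    omega
  · have h1' : mem L P = false := by
      rw [Bool.eq_false_iff]; exact fun h => h1 ((mem_iff L P).1 h)
    rw [h1', if_neg h1, cond_false]
    by_cases h2 : L + 1 ∈ P
    · rw [(mem_iff (L + 1) P).2 h2, if_pos h2]; simp
    · have h2' : mem (L + 1) P = false := by
        rw [Bool.eq_false_iff]; exact fun h => h2 ((mem_iff _ P).1 h)
      rw [h2', if_neg h2]; simp

theorem grp_label {P : List ℕ} {L : ℕ} {p : ℕ × ℕ × ℕ} (h : p ∈ grp P L) : p.2.1 = L := by
  unfold grp at h
  cases h1 : mem L P <;> rw [h1] at h
  · cases h2 : mem (L + 1) P <;> rw [h2] at h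
    · simp at h; rw [h]
    · simp at h
  · simp only [cond_true, quad, List.mem_cons, List.not_mem_nil, or_false] at h
    rcases h with h | h | h | h <;> rw [h]

theorem parts_sum (La P : List ℕ) : ((parts La P).map Prod.fst).sum = (La.map (wt P)).sum := by
  induction La with
  | nil => simp [parts_nil]
  | cons a t ih => rw [parts_cons, List.map_append, List.sum_append, ih, grp_sum, List.map_cons, List.sum_cons]

theorem mem_parts {La P : List ℕ} {p : ℕ × ℕ × ℕ} (h : p ∈ parts La P) :
    p.2.1 ∈ La ∧ p ∈ grp P p.2.1 := by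
  obtain ⟨L, hL, hp⟩ := List.mem_flatMap.1 h
  have hp' : p ∈ grp P L := hp
  have := grp_label hp'
  subst this
  exact ⟨hL, hp'⟩

/-- validity of the groups -/
theorem valB_P {La : List ℕ} {ty : List ℕ × List ℕ × List ℕ} (hv : valB La ty = true) :
    ∀ L ∈ ty.1, L ∈ La ∧ L - 1 ∈ La ∧ L + 1 ∉ ty.1 ∧ (mem (L - 1) ty.2.1 = mem L ty.2.1) ∧
      (mem (L - 1) ty.2.2 = mem L ty.2.2) := by
  intro L hL
  unfold valB at hv
  simp only [Bool.and_eq_true] at hv
  have h := List.all_eq_true.1 hv.1.1 L hL
  simp only [Bool.and_eq_true] at h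
  obtain ⟨⟨⟨⟨h1, h2⟩, h3⟩, h4⟩, h5⟩ := h
  refine ⟨(mem_iff _ _).1 h1, (mem_iff _ _).1 h2, ?_, ?_, ?_⟩
  · intro hc
    rw [(mem_iff _ _).2 hc] at h3
    simp at h3
  · revert h4; cases mem (L - 1) ty.2.1 <;> cases mem L ty.2.1 <;> simp
  · revert h5; cases mem (L - 1) ty.2.2 <;> cases mem L ty.2.2 <;> simp

theorem wt_sum {La P : List ℕ} (hd : decB La = true) (hP : ∀ L ∈ P, L ∈ La ∧ L - 1 ∈ La ∧ L + 1 ∉ P) :
    (La.map (wt P)).sum = La.sum := by
  classical
  have hn := decB_nodup hd
  have hp := decB_pos hd
  rw [← List.sum_toFinset _ hn]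
  have e : La.sum = ∑ L ∈ La.toFinset, L := by
    rw [List.sum_toFinset _ hn]; simp
  rw [e]
  -- compare `wt + (L if L+1 ∈ P) = L + (L-1 if L ∈ P)`
  have h1 : ∀ L ∈ La.toFinset, wt P L + (if L + 1 ∈ P then L else 0) = L + (if L ∈ P then L - 1 else 0) := by
    intro L hL
    have hL1 := hp L (List.mem_toFinset.1 hL)
    unfold wt
    by_cases hLP : L ∈ P
    · rw [if_pos hLP, if_pos hLP, if_neg (hP L hLP).2.2]; omega
    · rw [if_neg hLP, if_neg hLP]
      split_ifs <;> omega
  have h2 := Finset.sum_congr rfl h1
  rw [Finset.sum_add_distrib, Finset.sum_add_distrib] at h2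
  have h3 : ∑ L ∈ La.toFinset, (if L + 1 ∈ P then L else 0) = ∑ L ∈ La.toFinset, (if L ∈ P then L - 1 else 0) := by
    rw [← Finset.sum_filter, ← Finset.sum_filter]
    refine Finset.sum_bij' (fun L _ => L + 1) (fun L _ => L - 1) ?_ ?_ ?_ ?_ ?_
    · intro L hL
      have h := Finset.mem_filter.1 hL
      exact Finset.mem_filter.2 ⟨List.mem_toFinset.2 (hP _ h.2).1, h.2⟩
    · intro L hL
      have h := Finset.mem_filter.1 hL
      have hL1 := hp L (List.mem_toFinset.1 h.1)
      refine Finset.mem_filter.2 ⟨List.mem_toFinset.2 (hP _ h.2).2.1, ?_⟩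
      rw [Nat.sub_add_cancel hL1]; exact h.2
    · intro L _; simp
    · intro L hL
      have h := Finset.mem_filter.1 hL
      have hL1 := hp L (List.mem_toFinset.1 h.1)
      exact Nat.sub_add_cancel hL1
    · intro L _; simp
  change ∑ x ∈ La.toFinset, wt P x = _
  omega

/-- the sizes add up to the number of letters. PROOF: induction over the decreasing list `La`: a leading line `L ∈ P`
contributes `2L-1` (`quad`), the next line `L-1` contributes `0`; all other lines contribute `L`. (`(m+3)/4+(m+2)/4+(m+1)/4+m/4 = m`.) -/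
theorem prt_sum {La : List ℕ} (hd : decB La = true) {ty : List ℕ × List ℕ × List ℕ}
    (hv : valB La ty = true) :
    ((prt La ty.1 ty.2.1 ty.2.2 false).map Prod.fst).sum +
      ((prt La ty.1 ty.2.1 ty.2.2 true).map Prod.fst).sum = La.sum := by
  rw [prt_map_sum, parts_sum]
  exact wt_sum hd fun L hL => ⟨(valB_P hv L hL).1, (valB_P hv L hL).2.1, (valB_P hv L hL).2.2.1⟩

/-! ### balance -/

/-- the check at one line -/
def hdB (M : ℕ) (t : List ℕ) (c d : ℕ) : Bool :=
  match t with
  | [] => Nat.beq M 1 || Nat.beq c d
  | M' :: _ => Nat.beq (M' + 1) M || Nat.beq c d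

theorem balB_cons (T : List ℕ) (M : ℕ) (t : List ℕ) (c d : ℕ) :
    balB T (M :: t) c d = (hdB M t (bif mem M T then c else c + 1) (bif mem M T then d + 1 else d) &&
      balB T t (bif mem M T then c else c + 1) (bif mem M T then d + 1 else d)) := by
  cases t <;> rfl

theorem bal_aux {T : List ℕ} : ∀ (l : List ℕ) (c d L : ℕ), decB l = true → balB T l c d = true → L + 1 ∉ l →
    (∃ M ∈ l, L < M) →
    c + (l.filter fun M => decide (L < M ∧ mem M T = false)).length =
      d + (l.filter fun M => decide (L < M ∧ mem M T = true)).length := by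
  intro l
  induction l with
  | nil => rintro c d L _ _ _ ⟨M, hM, _⟩; simp at hM
  | cons M t ih =>
    intro c d L hd hb hL hex
    obtain ⟨h1, h2, h3⟩ := decB_cons hd
    have hLM : L < M := by
      obtain ⟨M', hM', hlt⟩ := hex
      rcases List.mem_cons.1 hM' with rfl | hM'
      · exact hlt
      · exact hlt.trans (h2 M' hM')
    have hne : L + 1 ≠ M := fun h => hL (by rw [h]; exact List.mem_cons_self)
    have hLt : L + 1 ∉ t := fun h => hL (List.mem_cons_of_mem _ h)
    -- the rest of the list contains an element `> L` or not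
    have key : ∀ c' d' : ℕ, (hdB M t c' d' && balB T t c' d') = true →
      c' + (t.filter fun M => decide (L < M ∧ mem M T = false)).length =
      d' + (t.filter fun M => decide (L < M ∧ mem M T = true)).length := by
      intro c' d' hk
      by_cases he : ∃ M' ∈ t, L < M'
      · exact ih c' d' L h3 (Bool.and_eq_true_iff.1 hk).2 hLt he
      · have he' : ∀ M' ∈ t, ¬ L < M' := fun M' h h' => he ⟨M', h, h'⟩
        have hz : ∀ s : Bool, (t.filter fun M => decide (L < M ∧ mem M T = s)) = [] := by
          intro s
          rw [List.filter_eq_nil_iff]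
          intro a ha
          simp [he' a ha]
        rw [hz, hz]
        simp only [List.length_nil, add_zero]
        cases t with
        | nil =>
          simp only [hdB, Bool.and_eq_true, Bool.or_eq_true] at hk
          rcases hk.1 with h | h
          · have := Nat.eq_of_beq_eq_true h
            omega
          · exact Nat.eq_of_beq_eq_true h
        | cons M' t' =>
          simp only [hdB, Bool.and_eq_true, Bool.or_eq_true] at hk
          rcases hk.1 with h | h
          · have h5 := Nat.eq_of_beq_eq_true h
            have h6 := he' M' List.mem_cons_self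
            omega
          · exact Nat.eq_of_beq_eq_true h
    rw [balB_cons] at hb
    have hk := key _ _ hb
    rw [List.filter_cons, List.filter_cons]
    cases hM : mem M T <;> rw [hM] at hk <;> simp only [hLM, true_and, cond_true, cond_false, decide_true,
      decide_false, if_true, List.length_cons, reduceCtorEq] at hk ⊢ <;> simp at hk ⊢ <;> omega

/-- `balB` implies `Bal`. PROOF: generalise: `c, d` = numbers of lines of type false / true before the current
position. For `L + 1 ∉ La`: `cntL La t s L` counts the lines `M > L`, i.e. a prefix of the decreasing list; if the prefix is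
empty both are `0`; if it ends with `M` and the next line is `M' ≤ L`: then `M' + 1 ≠ M` (else `L + 1 = M ∈ La` as
`M' ≤ L < M`), so the check gives `c = d`; if it is the whole list and the last line is `M`: `M ≠ 1` unless `L = 0`, but
`L = 0`, `M = 1` contradicts `L + 1 ∉ La`. -/
theorem bal_of_balB {La : List ℕ} (hd : decB La = true) {T : List ℕ} (h : balB T La 0 0 = true) :
    Bal La.toFinset (fun L => mem L T) := by
  intro L hL
  have hL' : L + 1 ∉ La := fun hh => hL (List.mem_toFinset.2 hh)
  have hcnt : ∀ s, cntL La.toFinset (fun L => mem L T) s L =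
      (La.filter fun M => decide (L < M ∧ mem M T = s)).length := by
    intro s
    unfold cntL
    rw [← List.toFinset_card_of_nodup ((decB_nodup hd).filter _), List.toFinset_filter]
    congr 1
    ext M
    simp
  rw [hcnt, hcnt]
  by_cases he : ∃ M ∈ La, L < M
  · have := bal_aux La 0 0 L hd h hL' he
    omega
  · have he' : ∀ M' ∈ La, ¬ L < M' := fun M' h h' => he ⟨M', h, h'⟩
    have hz : ∀ s : Bool, (La.filter fun M => decide (L < M ∧ mem M T = s)) = [] := by
      intro s
      rw [List.filter_eq_nil_iff]
      intro a ha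
      simp [he' a ha]
    rw [hz, hz]

/-! ### from the vector to `HasSV` -/

theorem sum_getD (g : ℕ × ℕ × ℕ → ℕ) (E : List (ℕ × ℕ × ℕ)) (d : ℕ × ℕ × ℕ) :
    ∑ i ∈ Finset.range E.length, g (E.getD i d) = (E.map g).sum := by
  induction E with
  | nil => simp
  | cons a t ih =>
    rw [List.length_cons, Finset.sum_range_succ', List.map_cons, List.sum_cons, add_comm]
    congr 1

omit [Fintype X] [DecidableEq X] in
/-- counting the letters with a given label -/
theorem card_label (S : Finset X) (c : X → ℕ) (E : List (ℕ × ℕ × ℕ)) (hc : ∀ x ∈ S, c x < E.length)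
    (hE : ∀ i, (S.filter (fun x => c x = i)).card = (E.map Prod.fst).getD i 0) (L : ℕ) :
    (S.filter (fun x => (E.getD (c x) (0, 0, 0)).2.1 = L)).card =
      (E.map (fun p => if p.2.1 = L then p.1 else 0)).sum := by
  rw [← sum_getD _ E (0, 0, 0),
    Finset.card_eq_sum_card_fiberwise (f := c) (t := Finset.range E.length)]
  · refine Finset.sum_congr rfl fun i hi => ?_
    have hi' : i < E.length := Finset.mem_range.1 hi
    by_cases h : (E.getD i (0, 0, 0)).2.1 = L
    · rw [if_pos h]
      have h1 : (E.getD i (0, 0, 0)).1 = (E.map Prod.fst).getD i 0 := by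
        simp [hi']
      rw [h1, ← hE i, Finset.filter_filter]
      congr 1
      refine Finset.filter_congr fun x _ => ⟨fun hx => hx.2, fun hx => ⟨?_, hx⟩⟩
      rw [hx]; exact h
    · rw [if_neg h, Finset.card_eq_zero, Finset.filter_filter, Finset.filter_eq_empty_iff]
      intro x _ hx
      rw [hx.2] at hx
      exact h hx.1
  · intro x hx
    have hx' := (Finset.mem_filter.1 (Finset.mem_coe.1 hx)).1
    exact Finset.mem_coe.2 (Finset.mem_range.2 (hc x hx'))

theorem label_sum {La : List ℕ} (hn : La.Nodup) (P : List ℕ) (L : ℕ) :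
    ((parts La P).map (fun p => if p.2.1 = L then p.1 else 0)).sum = if L ∈ La then wt P L else 0 := by
  induction La with
  | nil => simp [parts_nil]
  | cons a t ih =>
    obtain ⟨h1, h2⟩ := List.nodup_cons.1 hn
    rw [parts_cons, List.map_append, List.sum_append, ih h2]
    by_cases ha : a = L
    · subst ha
      have e : (grp P a).map (fun p => if p.2.1 = a then p.1 else 0) = (grp P a).map Prod.fst :=
        List.map_congr_left fun p hp => by rw [if_pos (grp_label hp)]
      rw [e, grp_sum, if_neg h1, if_pos List.mem_cons_self, add_zero]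
    · have e : (grp P a).map (fun p => if p.2.1 = L then p.1 else 0) = (grp P a).map (fun _ => 0) :=
        List.map_congr_left fun p hp => by rw [if_neg (by rw [grp_label hp]; exact ha)]
      rw [e]
      have e2 : ((grp P a).map (fun _ => 0)).sum = 0 := by simp
      rw [e2, zero_add]
      congr 1
      rw [List.mem_cons]
      simp only [eq_iff_iff]
      constructor
      · intro h; exact Or.inr h
      · rintro (h | h)
        · exact absurd h.symm ha
        · exact h

theorem grp_nodup (P : List ℕ) (L : ℕ) : ((grp P L).map Prod.snd).Nodup := by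
  unfold grp
  cases mem L P
  · cases mem (L + 1) P <;> simp
  · simp [quad]

theorem parts_nodup {La : List ℕ} (hn : La.Nodup) (P : List ℕ) : ((parts La P).map Prod.snd).Nodup := by
  induction La with
  | nil => simp [parts_nil]
  | cons a t ih =>
    obtain ⟨h1, h2⟩ := List.nodup_cons.1 hn
    rw [parts_cons, List.map_append, List.nodup_append]
    refine ⟨grp_nodup P a, ih h2, ?_⟩
    intro p hp q hq hpq
    obtain ⟨p', hp', rfl⟩ := List.mem_map.1 hp
    obtain ⟨q', hq', rfl⟩ := List.mem_map.1 hq
    have e1 := grp_label hp'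
    have e2 := (mem_parts hq').1
    rw [← hpq, e1] at e2
    exact h1 e2

theorem mem_prt {La P T T' : List ℕ} {s : Bool} {p : ℕ × ℕ × ℕ} (h : p ∈ prt La P T T' s) :
    p ∈ parts La P ∧ sg T T' p.2.1 = s := by
  have h1 := List.mem_filter.1 ((srt_perm _).mem_iff.1 h)
  refine ⟨h1.1, ?_⟩
  have h2 := h1.2
  revert h2
  cases s <;> cases sg T T' p.2.1 <;> simp

theorem prt_nodup {La : List ℕ} (hn : La.Nodup) (P T T' : List ℕ) (s : Bool) :
    ((prt La P T T' s).map Prod.snd).Nodup := by
  rw [prt, ((srt_perm _).map _).nodup_iff]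
  exact (parts_nodup hn P).sublist (List.filter_sublist.map _)

theorem getD_inj {E : List (ℕ × ℕ × ℕ)} (hn : (E.map Prod.snd).Nodup) {i j : ℕ} (hi : i < E.length)
    (hj : j < E.length) (h : (E.getD i (0, 0, 0)).2 = (E.getD j (0, 0, 0)).2) : i = j := by
  have hi' : i < (E.map Prod.snd).length := by simpa using hi
  have hj' : j < (E.map Prod.snd).length := by simpa using hj
  refine (hn.getElem_inj_iff (hi := hi') (hj := hj')).1 ?_
  simpa [hi, hj] using h

theorem grp_class {P : List ℕ} {L : ℕ} {p : ℕ × ℕ × ℕ} (h : p ∈ grp P L) : p.2.2 < 4 ∧ (L ∉ P → p.2.2 = 0) := by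
  unfold grp at h
  cases h1 : mem L P <;> rw [h1] at h
  · cases h2 : mem (L + 1) P <;> rw [h2] at h
    · simp at h; rw [h]; simp
    · simp at h
  · refine ⟨?_, fun hn => absurd ((mem_iff L P).1 h1) hn⟩
    simp only [cond_true, quad, List.mem_cons, List.not_mem_nil, or_false] at h
    rcases h with h | h | h | h <;> rw [h] <;> norm_num

/-- the entry of the letter label `v` -/
def ent (E F : List (ℕ × ℕ × ℕ)) (v : ℕ) : ℕ × ℕ × ℕ :=
  if v % 2 = 1 then F.getD (v / 2) (0, 0, 0) else E.getD (v / 2) (0, 0, 0)

/-- FROM THE VECTOR TO `HasSV`.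
PROOF. Let `E = prt .. false`, `F = prt .. true`. `P = ty.1.toFinset`, `t L = mem L T`, `t' L = mem L T'`.
`u x` = label (`.2.1`) of `E[b x / 2]` if `b x` is even, of `F[b x / 2]` if `b x` is odd; `cl x` = class (`.2.2`).
(Every letter has `b x / 2 < length`, because `sz b (2 i) = 0` for `i ≥ E.length`.)
`Lay`: `sub`, `sep`, `typ` from `valB`; `card`: the letters with `u x = L` are the union of the classes `(size, L, c)` in `E` and
`F`, whose sizes add up to `2L-1`, `L` or `0` (`E` and `F` together are a permutation of `parts La P`; `srt_perm`);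
`cl4`, `cl0` by the form of the parts. The pairs (label, class) of the entries of `parts La P` are distinct, and a label occurs only in `E` or only in `F` (sign),
so `(u x, cl x)` determines `b x`. `SemiInv`: for `g` with `u ∘ g = u`, `cl ∘ g = cl`: `b ∘ g = b`, so
`σ g w = sgnT (fun x => b x % 2 == 1) g • w`, and `b x % 2 == 1 = xor (t (u x)) (t' (u x))`. -/
theorem hasSV_of_vec {La : List ℕ} (hd : decB La = true) {ty : List ℕ × List ℕ × List ℕ}
    (hv : valB La ty = true) {σ : Representation ℂ (Perm X) W} {b : Word X}
    (hvec : Vec σ (fun l => l % 2 == 1) b)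
    (hb0 : ∀ i, sz b (2 * i) = ((prt La ty.1 ty.2.1 ty.2.2 false).map Prod.fst).getD i 0)
    (hb1 : ∀ j, sz b (2 * j + 1) = ((prt La ty.1 ty.2.1 ty.2.2 true).map Prod.fst).getD j 0) :
    HasSV La.toFinset σ := by
  obtain ⟨P, T, T'⟩ := ty
  simp only at hb0 hb1
  have hnd := decB_nodup hd
  have hpos := decB_pos hd
  have hP := valB_P hv
  simp only at hP
  set E := prt La P T T' false with hE
  set F := prt La P T T' true with hF
  obtain ⟨w, hw0, hw⟩ := hvec
  have hbal : Bal La.toFinset (fun L => mem L T) ∧ Bal La.toFinset (fun L => mem L T') := by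
    unfold valB at hv
    simp only [Bool.and_eq_true] at hv
    exact ⟨bal_of_balB hd hv.1.2, bal_of_balB hd hv.2⟩
  -- every letter has a valid entry
  have hsz : ∀ x, 1 ≤ sz b (b x) := fun x => by
    unfold sz
    exact Finset.card_pos.2 ⟨x, Finset.mem_filter.2 ⟨Finset.mem_univ _, rfl⟩⟩
  have hv1 : ∀ x, b x % 2 = 1 → b x / 2 < F.length := by
    intro x hx
    by_contra hc
    have h1 := hsz x
    have h2 : b x = 2 * (b x / 2) + 1 := by omega
    rw [h2, hb1] at h1
    rw [List.getD_eq_default _ _ (by simpa using hc)] at h1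
    omega
  have hv0 : ∀ x, b x % 2 ≠ 1 → b x / 2 < E.length := by
    intro x hx
    by_contra hc
    have h1 := hsz x
    have h2 : b x = 2 * (b x / 2) := by omega
    rw [h2, hb0] at h1
    rw [List.getD_eq_default _ _ (by simpa using hc)] at h1
    omega
  have hent : ∀ x, ent E F (b x) ∈ parts La P ∧ sg T T' (ent E F (b x)).2.1 = (b x % 2 == 1) := by
    intro x
    unfold ent
    by_cases hx : b x % 2 = 1
    · rw [if_pos hx]
      have hm : F.getD (b x / 2) (0, 0, 0) ∈ F := by
        rw [List.getD_eq_getElem _ _ (hv1 x hx)]; exact List.getElem_mem _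
      have := mem_prt hm
      refine ⟨this.1, ?_⟩
      rw [this.2, hx]; rfl
    · rw [if_neg hx]
      have hm : E.getD (b x / 2) (0, 0, 0) ∈ E := by
        rw [List.getD_eq_getElem _ _ (hv0 x hx)]; exact List.getElem_mem _
      have := mem_prt hm
      refine ⟨this.1, ?_⟩
      rw [this.2]
      symm
      simpa using hx
  have hinj : ∀ x y, (ent E F (b x)).2 = (ent E F (b y)).2 → b x = b y := by
    intro x y hxy
    have h1 := (hent x).2
    have h2 := (hent y).2
    rw [hxy, h2] at h1
    have h3 : (b x % 2 = 1) ↔ (b y % 2 = 1) := by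
      constructor
      · intro h
        rw [h] at h1
        simpa using h1
      · intro h
        rw [h] at h1
        simpa using h1.symm
    unfold ent at hxy
    by_cases hx : b x % 2 = 1
    · have hy := h3.1 hx
      rw [if_pos hx, if_pos hy] at hxy
      have := getD_inj (prt_nodup hnd P T T' true) (hv1 x hx) (hv1 y hy) hxy
      omega
    · have hy : ¬ b y % 2 = 1 := fun h => hx (h3.2 h)
      rw [if_neg hx, if_neg hy] at hxy
      have := getD_inj (prt_nodup hnd P T T' false) (hv0 x hx) (hv0 y hy) hxy
      omega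
  refine ⟨P.toFinset, fun L => mem L T, fun L => mem L T', fun x => (ent E F (b x)).2.1,
    fun x => (ent E F (b x)).2.2, w, ?_, hbal, hw0, ?_⟩
  · refine ⟨?_, ?_, ?_, ?_, ?_, ?_⟩
    · intro L hL
      have h := hP L (List.mem_toFinset.1 hL)
      exact ⟨List.mem_toFinset.2 h.1, List.mem_toFinset.2 h.2.1⟩
    · intro L hL hL1
      exact (hP L (List.mem_toFinset.1 hL)).2.2.1 (List.mem_toFinset.1 hL1)
    · intro L hL
      have h := hP L (List.mem_toFinset.1 hL)
      exact ⟨h.2.2.2.1, h.2.2.2.2⟩
    · intro L
      -- split into the even and the odd labels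
      have hsplit : (univ.filter (fun x => (ent E F (b x)).2.1 = L)).card =
          ((univ.filter (fun x => ¬ b x % 2 = 1)).filter (fun x => (E.getD (b x / 2) (0, 0, 0)).2.1 = L)).card +
          ((univ.filter (fun x => b x % 2 = 1)).filter (fun x => (F.getD (b x / 2) (0, 0, 0)).2.1 = L)).card := by
        rw [← Finset.card_filter_add_card_filter_not (s := univ.filter (fun x => (ent E F (b x)).2.1 = L))
          (p := fun x => b x % 2 = 1), add_comm, Finset.filter_filter, Finset.filter_filter,
          Finset.filter_filter, Finset.filter_filter]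
        congr 1
        · congr 1
          refine Finset.filter_congr fun x _ => ?_
          unfold ent
          constructor
          · rintro ⟨h1, h2⟩
            rw [if_neg h2] at h1
            exact ⟨h2, h1⟩
          · rintro ⟨h1, h2⟩
            refine ⟨?_, h1⟩
            rw [if_neg h1]; exact h2
        · congr 1
          refine Finset.filter_congr fun x _ => ?_
          unfold ent
          constructor
          · rintro ⟨h1, h2⟩
            rw [if_pos h2] at h1
            exact ⟨h2, h1⟩
          · rintro ⟨h1, h2⟩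
            refine ⟨?_, h1⟩
            rw [if_pos h1]; exact h2
      rw [hsplit, card_label _ (fun x => b x / 2) E, card_label _ (fun x => b x / 2) F,
        prt_map_sum, label_sum hnd]
      · unfold wt
        by_cases hLP : L ∈ P
        · rw [if_pos hLP, if_pos (hP L hLP).1, if_pos (List.mem_toFinset.2 hLP)]
        · rw [if_neg hLP, if_neg (fun h => hLP (List.mem_toFinset.1 h))]
          by_cases hLa : L ∈ La
          · rw [if_pos hLa]
            by_cases hL1 : L + 1 ∈ P
            · rw [if_pos hL1, if_neg (fun h => h.2 (List.mem_toFinset.2 hL1))]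
            · rw [if_neg hL1, if_pos ⟨List.mem_toFinset.2 hLa, fun h => hL1 (List.mem_toFinset.1 h)⟩]
          · rw [if_neg hLa, if_neg (fun h => hLa (List.mem_toFinset.1 h.1))]
      · intro x hx
        exact hv1 x (Finset.mem_filter.1 hx).2
      · intro i
        rw [← hb1 i, Finset.filter_filter]
        unfold sz
        congr 1
        refine Finset.filter_congr fun x _ => ?_
        constructor
        · rintro ⟨h1, h2⟩; omega
        · intro h; constructor <;> omega
      · intro x hx
        exact hv0 x (Finset.mem_filter.1 hx).2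
      · intro i
        rw [← hb0 i, Finset.filter_filter]
        unfold sz
        congr 1
        refine Finset.filter_congr fun x _ => ?_
        constructor
        · rintro ⟨h1, h2⟩; omega
        · intro h; constructor <;> omega
    · intro x
      exact (grp_class (mem_parts (hent x).1).2).1
    · intro x hx
      exact (grp_class (mem_parts (hent x).1).2).2 (fun h => hx (List.mem_toFinset.2 h))
  · intro g hg1 hg2
    have hbg : b ∘ g = b := by
      funext x
      refine hinj (g x) x (Prod.ext ?_ ?_)
      · exact congrFun hg1 x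
      · exact congrFun hg2 x
    rw [hw g hbg]
    congr 4
    funext x
    exact (hent x).2.symm

end Crest.Agent.SaxlN.MK
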