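import Crest.Agent.SaxlN.VecMove

/-!
CHUNK VECMAJOR (medium, ~150 lines): majorisation (VecBasic, VecMove are black boxes).
-/

set_option autoImplicit false

namespace Crest.Agent.SaxlN

open Finset Equiv
open Crest.Agent.Saxl

variable {X : Type} [Fintype X] [DecidableEq X]
variable {W : Type} [AddCommGroup W] [Module ℂ W]

private lemma vmj_sz_src {a : Word X} {x : X} {p q : ℕ} (hx : a x = p) (hpq : p ≠ q) :
    sz (Function.update a x q) p + 1 = sz a p := by
  unfold sz
  have hmem : x ∈ univ.filter (fun y => a y = p) := by simp [hx]
  have : univ.filter (fun y => Function.update a x q y = p) = (univ.filter (fun y => a y = p)).erase x := by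
    ext y
    simp only [mem_filter, mem_univ, true_and, mem_erase]
    by_cases hy : y = x
    · subst hy
      simp [hpq.symm]
    · simp [Function.update_of_ne hy, hy]
  rw [this, card_erase_of_mem hmem]
  have : 0 < (univ.filter (fun y => a y = p)).card := card_pos.mpr ⟨x, hmem⟩
  omega

private lemma vmj_sz_tgt {a : Word X} {x : X} {p q : ℕ} (hx : a x = p) (hpq : p ≠ q) :
    sz (Function.update a x q) q = sz a q + 1 := by
  unfold sz
  have hnmem : x ∉ univ.filter (fun y => a y = q) := by simp [hx, hpq]
  have : univ.filter (fun y => Function.update a x q y = q) = insert x (univ.filter (fun y => a y = q)) := by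
    ext y
    simp only [mem_filter, mem_univ, true_and, mem_insert]
    by_cases hy : y = x
    · subst hy
      simp
    · simp [Function.update_of_ne hy, hy]
  rw [this, card_insert_of_notMem hnmem]

private lemma vmj_sz_oth {a : Word X} {x : X} {p q l : ℕ} (hx : a x = p) (hlp : l ≠ p) (hlq : l ≠ q) :
    sz (Function.update a x q) l = sz a l := by
  unfold sz
  congr 1
  ext y
  simp only [mem_filter, mem_univ, true_and]
  by_cases hy : y = x
  · subst hy
    simp [hx, hlp.symm, hlq.symm]
  · simp [Function.update_of_ne hy]

private lemma vmj_total (a b : Word X) (e : ℕ → ℕ) (he : Function.Injective e) (N : ℕ)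
    (hoth : ∀ l, (∀ i < N, l ≠ e i) → sz a l = sz b l) :
    ∑ i ∈ range N, sz a (e i) = ∑ i ∈ range N, sz b (e i) := by
  classical
  set E : Finset ℕ := (range N).image e with hE
  set U : Finset ℕ := (univ.image a ∪ univ.image b) ∪ E with hU
  have hcard : ∀ c : Word X, (∀ x, c x ∈ U) → Fintype.card X = ∑ l ∈ U, sz c l := by
    intro c hc
    unfold sz
    rw [← card_univ]
    exact card_eq_sum_card_fiberwise (fun x _ => hc x)
  have ha : Fintype.card X = ∑ l ∈ U, sz a l := hcard a (fun x => by simp [hU])
  have hb : Fintype.card X = ∑ l ∈ U, sz b l := hcard b (fun x => by simp [hU])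
  have hEU : E ⊆ U := by rw [hU]; exact subset_union_right
  have h1 : ∀ c : Word X, ∑ l ∈ U, sz c l = ∑ l ∈ U \ E, sz c l + ∑ l ∈ E, sz c l := by
    intro c
    exact (sum_sdiff hEU).symm
  have h2 : ∑ l ∈ U \ E, sz a l = ∑ l ∈ U \ E, sz b l := by
    apply sum_congr rfl
    intro l hl
    rw [mem_sdiff] at hl
    apply hoth
    intro i hi hli
    apply hl.2
    rw [hE, mem_image]
    exact ⟨i, mem_range.mpr hi, hli.symm⟩
  have h3 : ∀ c : Word X, ∑ l ∈ E, sz c l = ∑ i ∈ range N, sz c (e i) := by
    intro c
    rw [hE, sum_image]
    intro x _ y _ hxy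
    exact he hxy
  have h4 := h1 a
  have h5 := h1 b
  rw [← h3 a, ← h3 b]
  omega

/-- partial sums after moving one letter -/
private lemma vmj_partial {a : Word X} {x : X} (e : ℕ → ℕ) (he : Function.Injective e) {i j : ℕ} (hij : i ≠ j)
    (hx : a x = e i) (k : ℕ) :
    (∑ l ∈ range k, sz (Function.update a x (e j)) (e l)) + (if i < k then 1 else 0) =
      (∑ l ∈ range k, sz a (e l)) + (if j < k then 1 else 0) := by
  have hne : e i ≠ e j := fun h => hij (he h)
  induction k with
  | zero => simp
  | succ k ih =>
    rw [sum_range_succ, sum_range_succ]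
    by_cases hki : k = i
    · subst hki
      have h1 := vmj_sz_src hx hne
      have hjk : (j < k + 1) = (j < k) := by
        apply propext; constructor
        · intro h; omega
        · intro h; omega
      simp only [hjk]
      simp only [lt_irrefl, if_false, Nat.lt_succ_self, if_true] at ih ⊢
      omega
    · by_cases hkj : k = j
      · subst hkj
        have h1 := vmj_sz_tgt hx hne
        have hik : (i < k + 1) = (i < k) := by
          apply propext; constructor
          · intro h; omega
          · intro h; omega
        simp only [hik]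
        simp only [lt_irrefl, if_false, Nat.lt_succ_self, if_true] at ih ⊢
        omega
      · have h1 := vmj_sz_oth (a := a) (x := x) (p := e i) (q := e j) (l := e k) hx
          (fun h => hki (he h)) (fun h => hkj (he h))
        have hik : (i < k + 1) = (i < k) := by
          apply propext; constructor
          · intro h; omega
          · intro h; omega
        have hjk : (j < k + 1) = (j < k) := by
          apply propext; constructor
          · intro h; omega
          · intro h; omega
        simp only [hik, hjk]
        omega

/-- MAJORISATION. The labels `e 0, .., e (N-1)` have the same sign, the other labels have the same sizes in `a` and `b`; the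
sizes of `b` are antitone and dominated by those of `a`.
PROOF by strong induction on `∑_{k ≤ N} (∑_{i<k} sz a (e i) - ∑_{i<k} sz b (e i))`. If all sizes agree: `Vec.congr_sz`.
Otherwise (the sum over all `i < N` agrees, because the other labels agree and both total to `card X`) let `i` be the
first index with `sz a (e i) ≠ sz b (e i)`; by the dominance for `k = i + 1`, `sz a (e i) > sz b (e i)`. Let `j > i` be the first
index with `sz a (e j) < sz b (e j)` (it exists). Then `sz a (e i) > sz b (e i) ≥ sz b (e j) > sz a (e j)`: `Vec.move` one letter.
For `i < k ≤ j` the partial sums of `a` were strictly larger than those of `b`, so the dominance is preserved. -/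
theorem Vec.major {σ : Representation ℂ (Perm X) W} {s : ℕ → Bool} {a b : Word X} (h : Vec σ s a)
    (e : ℕ → ℕ) (he : Function.Injective e) (N : ℕ) (hs : ∀ i < N, s (e i) = s (e 0))
    (hoth : ∀ l, (∀ i < N, l ≠ e i) → sz a l = sz b l)
    (hanti : ∀ i j, i ≤ j → j < N → sz b (e j) ≤ sz b (e i))
    (hdom : ∀ k ≤ N, ∑ i ∈ range k, sz b (e i) ≤ ∑ i ∈ range k, sz a (e i)) :
    Vec σ s b := by
  classical
  obtain ⟨n, hn⟩ : ∃ n, n = ∑ k ∈ range (N + 1), ∑ i ∈ range k, sz a (e i) := ⟨_, rfl⟩
  induction n using Nat.strong_induction_on generalizing a with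
  | _ n IH =>
    have htot := vmj_total a b e he N hoth
    by_cases hall : ∀ i < N, sz a (e i) = sz b (e i)
    · refine h.congr_sz ?_
      intro l
      by_cases hl : ∀ i < N, l ≠ e i
      · exact hoth l hl
      · push Not at hl
        obtain ⟨i, hi, rfl⟩ := hl
        exact hall i hi
    · push Not at hall
      have hex : ∃ i, i < N ∧ sz a (e i) ≠ sz b (e i) := by
        obtain ⟨i, hi, hne⟩ := hall
        exact ⟨i, hi, hne⟩
      obtain ⟨i, ⟨hiN, hine⟩, himin⟩ : ∃ i, (i < N ∧ sz a (e i) ≠ sz b (e i)) ∧
          ∀ m < i, ¬ (m < N ∧ sz a (e m) ≠ sz b (e m)) :=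
        ⟨Nat.find hex, Nat.find_spec hex, fun m hm => Nat.find_min hex hm⟩
      have hpre : ∀ m < i, sz a (e m) = sz b (e m) := by
        intro m hm
        by_contra hne
        exact himin m hm ⟨by omega, hne⟩
      have hpresum : ∑ m ∈ range i, sz a (e m) = ∑ m ∈ range i, sz b (e m) :=
        sum_congr rfl (fun m hm => hpre m (mem_range.mp hm))
      have hi1 : sz b (e i) < sz a (e i) := by
        have := hdom (i + 1) (by omega)
        rw [sum_range_succ, sum_range_succ] at this
        omega
      have hexj : ∃ j, i < j ∧ j < N ∧ sz a (e j) < sz b (e j) := by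
        by_contra hcon
        push Not at hcon
        have hlt : ∑ m ∈ range N, sz b (e m) < ∑ m ∈ range N, sz a (e m) := by
          apply sum_lt_sum
          · intro m hm
            rw [mem_range] at hm
            rcases lt_trichotomy m i with hmi | hmi | hmi
            · exact (hpre m hmi).ge
            · subst hmi; exact hi1.le
            · exact hcon m hmi hm
          · exact ⟨i, mem_range.mpr hiN, hi1⟩
        omega
      obtain ⟨j, ⟨hij, hjN, hjlt⟩, hjmin⟩ : ∃ j, (i < j ∧ j < N ∧ sz a (e j) < sz b (e j)) ∧
          ∀ m < j, ¬ (i < m ∧ m < N ∧ sz a (e m) < sz b (e m)) :=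
        ⟨Nat.find hexj, Nat.find_spec hexj, fun m hm => Nat.find_min hexj hm⟩
      have hbij := hanti i j hij.le hjN
      have hlt : sz a (e j) < sz a (e i) := by omega
      have hpos : 0 < sz a (e i) := by omega
      obtain ⟨x, hx⟩ : ∃ x, a x = e i := by
        unfold sz at hpos
        rw [card_pos] at hpos
        obtain ⟨x, hx⟩ := hpos
        exact ⟨x, (mem_filter.mp hx).2⟩
      have hne : e i ≠ e j := fun hh => (by omega : i ≠ j) (he hh)
      have hsij : s (e i) = s (e j) := (hs i hiN).trans (hs j hjN).symm
      have hmove : Vec σ s (Function.update a x (e j)) := h.move hne hsij hx hlt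
      have hpart := vmj_partial (a := a) (x := x) e he (by omega : i ≠ j) hx
      -- strictness
      have hstrict : ∀ k, i < k → k ≤ j →
          ∑ m ∈ range k, sz b (e m) < ∑ m ∈ range k, sz a (e m) := by
        intro k hik hkj
        apply sum_lt_sum
        · intro m hm
          rw [mem_range] at hm
          rcases lt_trichotomy m i with hmi | hmi | hmi
          · exact (hpre m hmi).ge
          · subst hmi; exact hi1.le
          · by_contra hc
            exact hjmin m (by omega) ⟨hmi, by omega, by omega⟩
        · exact ⟨i, mem_range.mpr hik, hi1⟩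
      have hle : ∀ k, ∑ m ∈ range k, sz (Function.update a x (e j)) (e m) ≤ ∑ m ∈ range k, sz a (e m) := by
        intro k
        have := hpart k
        split_ifs at this <;> omega
      have hdec : ∑ k ∈ range (N + 1), ∑ m ∈ range k, sz (Function.update a x (e j)) (e m) <
          ∑ k ∈ range (N + 1), ∑ m ∈ range k, sz a (e m) := by
        apply sum_lt_sum
        · intro k _
          exact hle k
        · refine ⟨i + 1, mem_range.mpr (by omega), ?_⟩
          have := hpart (i + 1)
          rw [if_pos (by omega : i < i + 1), if_neg (by omega : ¬ j < i + 1)] at this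
          omega
      refine IH _ ?_ hmove ?_ ?_ rfl
      · rw [hn]; exact hdec
      · intro l hl
        rw [vmj_sz_oth (a := a) (x := x) (p := e i) (q := e j) hx (hl i hiN) (hl j hjN)]
        exact hoth l hl
      · intro k hk
        have h1 := hpart k
        have h2 := hdom k hk
        by_cases hik : i < k
        · by_cases hjk : j < k
          · rw [if_pos hik, if_pos hjk] at h1
            omega
          · have h3 := hstrict k hik (by omega)
            rw [if_pos hik, if_neg hjk] at h1
            omega
        · rw [if_neg hik, if_neg (by omega : ¬ j < k)] at h1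
          omega

end Crest.Agent.SaxlN
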