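import Crest.Agent.SaxlN.MKWord
import Crest.Agent.SaxlN.VecSplit
import Crest.Agent.SaxlN.VecMajor

/-!
CHUNK MK-VEC (medium, ~150 lines; MKPath, MKWord, VecSplit, VecMajor, VecBasic are black boxes):
the mixed Kostka lemma.
-/

set_option autoImplicit false
set_option linter.unusedSectionVars false

namespace Crest.Agent.SaxlN.MK

open Finset Equiv
open Crest.Agent.Saxl

variable {X : Type} [Fintype X] [DecidableEq X]
variable {W : Type} [AddCommGroup W] [Module ℂ W]

private lemma mkv_pre (α : List ℕ) (k : ℕ) : pre α k = ∑ i ∈ range k, α.getD i 0 := by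
  induction α generalizing k with
  | nil => simp [pre]
  | cons a t ih =>
    cases k with
    | zero => simp [pre]
    | succ k =>
      rw [Finset.sum_range_succ']
      have h := ih k
      unfold pre at h ⊢
      simp only [List.take_succ_cons, List.sum_cons, List.getD_cons_zero, List.getD_cons_succ]
      rw [h]
      omega

private lemma mkv_pre_sum (α : List ℕ) {k : ℕ} (hk : α.length ≤ k) : pre α k = α.sum := by
  unfold pre
  rw [List.take_of_length_le hk]

private lemma mkv_two (f : ℕ → ℕ) (N : ℕ) :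
    ∑ l ∈ range (2 * N), f l = ∑ i ∈ range N, f (2 * i) + ∑ i ∈ range N, f (2 * i + 1) := by
  induction N with
  | zero => simp
  | succ N ih =>
    rw [show 2 * (N + 1) = 2 * N + 1 + 1 by ring, sum_range_succ, sum_range_succ, ih,
      sum_range_succ, sum_range_succ]
    omega

private lemma mkv_card (c : Word X) {M : ℕ} (hM : ∀ x, c x < M) :
    ∑ l ∈ range M, sz c l = Fintype.card X := by
  unfold sz
  rw [← card_univ]
  exact (card_eq_sum_card_fiberwise (fun x _ => by simpa using hM x)).symm

private lemma mkv_zero (c : Word X) {M : ℕ} (hM : ∀ x, c x < M) {l : ℕ} (hl : M ≤ l) :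
    sz c l = 0 := by
  unfold sz
  rw [card_eq_zero, filter_eq_empty_iff]
  intro x _ h
  have := hM x
  omega

/-- THE MIXED KOSTKA LEMMA.
PROOF. `exists_path'` gives `t`. `vec_split` with `T x = decide (t.getD (ρ x) 0 ≤ κ x)`: `Vec σ odd a`, `a = sw ρ κ t` (unfold `sw`).
Totals: `∑_i sz a (2i) + ∑_j sz a (2j+1) = card X = ν.sum = α.sum + β.sum` and `∑_{i<k} sz a (2i) = pre ν k - pre t k ≥ pre α k`
(`sz_sw_even`), `∑_{j<l} sz a (2j+1) = hs ν 0 l - pc ν t l ≥ pre β l` (`sum_sz_sw_odd`), so (large `k, l`) the even labels of `a` have total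
`α.sum` and the odd ones total `β.sum`. Let `b₁` be a word with `sz b₁ (2i) = α.getD i 0`, `sz b₁ (2j+1) = sz a (2j+1)` (`exists_word`).
`Vec.major` with `e i = 2 i`, `N` large (≥ all lengths and all rows): `Vec σ odd b₁`. `Vec.major` with `e j = 2 j + 1`:
`Vec σ odd b`. (`sz b (e i) = α.getD i 0` is antitone by `hα`; use `sh_getD_anti` of Saxl/Shapes;
`∑_{i<k} α.getD i 0 = pre α k`: small lemma, cf. `sh_sum_getD`.) -/
theorem mk_vec {σ : Representation ℂ (Perm X) W} {ρ κ : Word X} (ht : IsTab (fun _ => 0) ρ κ)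
    {w : W} (hw : yact σ ρ κ w ≠ 0) {ν : List ℕ} (hνs : ν.Pairwise (· ≥ ·))
    (hν : ∀ i, sz ρ i = ν.getD i 0) {α β : List ℕ} (hα : α.Pairwise (· ≥ ·))
    (hβ : β.Pairwise (· ≥ ·)) (hcard : α.sum + β.sum = Fintype.card X)
    (hmk : ∀ k l, pre α k + pre β l ≤ hs ν k l) {b : Word X}
    (hb0 : ∀ i, sz b (2 * i) = α.getD i 0) (hb1 : ∀ j, sz b (2 * j + 1) = β.getD j 0) :
    Vec σ (fun l => l % 2 == 1) b := by
  classical
  obtain ⟨t, htl, htle, hPA, hPB⟩ := exists_path' hmk
  have hanti : ∀ {l : List ℕ}, l.Pairwise (· ≥ ·) → ∀ {i j : ℕ}, i ≤ j →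
      l.getD j 0 ≤ l.getD i 0 := by
    intro l hl i j hij
    by_cases hj : j < l.length
    · have hi : i < l.length := by omega
      rw [List.getD_eq_getElem _ _ hj, List.getD_eq_getElem _ _ hi]
      rcases Nat.lt_or_eq_of_le hij with h | h
      · exact List.pairwise_iff_getElem.1 hl i j hi hj h
      · subst h; exact le_rfl
    · rw [List.getD_eq_default _ _ (by omega)]
      exact Nat.zero_le _
  set a : Word X := sw ρ κ t with ha
  have hVa : Vec σ (fun l => l % 2 == 1) a :=
    vec_split hw (fun x => decide (t.getD (ρ x) 0 ≤ κ x))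
  -- partial sums of `a`
  have hSA : ∀ k, pre α k ≤ ∑ i ∈ range k, sz a (2 * i) := by
    intro k
    have h1 : ∑ i ∈ range k, sz a (2 * i) + pre t k = pre ν k := by
      rw [mkv_pre, mkv_pre, ← sum_add_distrib]
      refine sum_congr rfl fun i _ => ?_
      rw [ha, sz_sw_even ht hν i]
      have := htle i
      omega
    have := hPA k
    omega
  have hSB : ∀ k, pre β k ≤ ∑ j ∈ range k, sz a (2 * j + 1) := by
    intro k
    have h1 := sum_sz_sw_odd ht hν htl htle k
    have := hPB k
    rw [← ha] at h1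
    omega
  set N : ℕ := (∑ x, a x) + α.length + β.length + 1 with hN
  have hlab : ∀ x, a x < N := by
    intro x
    have : a x ≤ ∑ x, a x := single_le_sum (f := fun x => a x) (fun _ _ => Nat.zero_le _) (mem_univ x)
    omega
  have hlab2 : ∀ x, a x < 2 * N := fun x => by have := hlab x; omega
  have htot := mkv_card a hlab2
  rw [mkv_two] at htot
  have hαN : pre α N = α.sum := mkv_pre_sum α (by omega)
  have hβN : pre β N = β.sum := mkv_pre_sum β (by omega)
  have h1 := hSA N
  have h2 := hSB N
  have hSAN : ∑ i ∈ range N, sz a (2 * i) = α.sum := by omega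
  have hSBN : ∑ i ∈ range N, sz a (2 * i + 1) = β.sum := by omega
  -- the intermediate word
  obtain ⟨b₁, hb₁⟩ := exists_word (X := X)
    (f := fun l => if l % 2 = 0 then α.getD (l / 2) 0 else sz a l) (N := 2 * N) (by
      intro i hi
      by_cases h : i % 2 = 0
      · simp only [h, if_true]
        exact List.getD_eq_default _ _ (by omega)
      · simp only [h, if_false]
        exact mkv_zero a hlab2 hi) (by
      rw [mkv_two]
      have e1 : ∑ i ∈ range N, (if 2 * i % 2 = 0 then α.getD (2 * i / 2) 0 else sz a (2 * i)) =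
          pre α N := by
        rw [mkv_pre]
        refine sum_congr rfl fun i _ => ?_
        rw [if_pos (by omega), show 2 * i / 2 = i by omega]
      have e2 : ∑ i ∈ range N, (if (2 * i + 1) % 2 = 0 then α.getD ((2 * i + 1) / 2) 0
          else sz a (2 * i + 1)) = β.sum := by
        rw [← hSBN]
        refine sum_congr rfl fun i _ => ?_
        rw [if_neg (by omega)]
      rw [e1, e2, hαN, hcard])
  have hb₁e : ∀ i, sz b₁ (2 * i) = α.getD i 0 := by
    intro i
    rw [hb₁, if_pos (by omega), show 2 * i / 2 = i by omega]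
  have hb₁o : ∀ i, sz b₁ (2 * i + 1) = sz a (2 * i + 1) := by
    intro i
    rw [hb₁, if_neg (by omega)]
  have hV1 : Vec σ (fun l => l % 2 == 1) b₁ := by
    refine hVa.major (fun i => 2 * i) (fun i j h => by simpa using h) N ?_ ?_ ?_ ?_
    · intro i _
      simp
    · intro l hl
      rcases Nat.even_or_odd' l with ⟨i, rfl | rfl⟩
      · have hi : N ≤ i := by
          by_contra hc
          exact hl i (by omega) rfl
        rw [hb₁e, mkv_zero a hlab2 (by omega), List.getD_eq_default _ _ (by omega)]
      · exact (hb₁o i).symm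
    · intro i j hij _
      rw [hb₁e, hb₁e]
      exact hanti hα hij
    · intro k _
      have e1 : ∑ i ∈ range k, sz b₁ (2 * i) = pre α k := by
        rw [mkv_pre]
        exact sum_congr rfl fun i _ => hb₁e i
      rw [e1]
      exact hSA k
  refine hV1.major (fun i => 2 * i + 1) (fun i j h => by simpa using h) N ?_ ?_ ?_ ?_
  · intro i _
    have e1 : (2 * i + 1) % 2 = 1 := by omega
    simp [e1]
  · intro l hl
    rcases Nat.even_or_odd' l with ⟨i, rfl | rfl⟩
    · rw [hb₁e, hb0]
    · have hi : N ≤ i := by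
        by_contra hc
        exact hl i (by omega) rfl
      rw [hb₁o, hb1, mkv_zero a hlab2 (by omega), List.getD_eq_default _ _ (by omega)]
  · intro i j hij _
    rw [hb1, hb1]
    exact hanti hβ hij
  · intro k _
    have e1 : ∑ i ∈ range k, sz b (2 * i + 1) = pre β k := by
      rw [mkv_pre]
      exact sum_congr rfl fun i _ => hb1 i
    have e2 : ∑ i ∈ range k, sz b₁ (2 * i + 1) = ∑ i ∈ range k, sz a (2 * i + 1) :=
      sum_congr rfl fun i _ => hb₁o i
    rw [e1, e2]
    exact hSB k

end Crest.Agent.SaxlN.MK
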