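import Crest.Agent.SaxlN.MKTree
import Crest.Agent.SaxlN.MKEnds
import Crest.Agent.SaxlN.MKVec
import Crest.Agent.SaxlN.MKLay

/-!
The verified checker gives `Good`.
-/

set_option autoImplicit false

namespace Crest.Agent.SaxlN.MK

open Finset Equiv
open Crest.Agent.Saxl

theorem mm_sum_getD (l : List ℕ) (N : ℕ) (h : l.length ≤ N) : ∑ i ∈ range N, l.getD i 0 = l.sum := by
  induction l generalizing N with
  | nil => simp
  | cons a t ih =>
    obtain ⟨M, rfl⟩ : ∃ M, N = M + 1 := ⟨N - 1, by simp at h; omega⟩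
    rw [Finset.sum_range_succ', List.sum_cons]
    simp only [List.getD_cons_succ, List.getD_cons_zero]
    rw [ih M (by simpa using h), add_comm]

theorem mm_sum_range_two_mul (f : ℕ → ℕ) (N : ℕ) :
    ∑ i ∈ range (2 * N), f i = ∑ i ∈ range N, f (2 * i) + ∑ i ∈ range N, f (2 * i + 1) := by
  induction N with
  | zero => simp
  | succ N ih =>
    rw [show 2 * (N + 1) = 2 * N + 1 + 1 by ring, Finset.sum_range_succ, Finset.sum_range_succ, ih,
      Finset.sum_range_succ, Finset.sum_range_succ]
    ring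

theorem srt_fst_sorted (l : List (ℕ × ℕ × ℕ)) : ((srt l).map Prod.fst).Pairwise (· ≥ ·) := by
  rw [List.pairwise_map]
  exact srt_sorted l

theorem sum_toFinset_of_dec {La : List ℕ} (h : decB La = true) :
    La.Pairwise (· > ·) ∧ ∀ L ∈ La, 0 < L := by
  induction La with
  | nil => simp
  | cons L t ih =>
    cases t with
    | nil =>
      simp only [decB, Bool.and_true] at h
      have := Nat.le_of_ble_eq_true h
      simp
      omega
    | cons M t' =>
      rw [decB] at h
      simp only [Bool.and_eq_true] at h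
      obtain ⟨⟨h1, h2⟩, h3⟩ := h
      have h1' := Nat.le_of_ble_eq_true h1
      have h2' := Nat.le_of_ble_eq_true h2
      obtain ⟨i1, i2⟩ := ih h3
      refine ⟨List.pairwise_cons.2 ⟨fun x hx => ?_, i1⟩, fun x hx => ?_⟩
      · rw [List.mem_cons] at hx
        rcases hx with rfl | hx
        · omega
        · have := List.rel_of_pairwise_cons i1 hx
          simp only [gt_iff_lt] at this ⊢
          omega
      · rw [List.mem_cons] at hx
        rcases hx with rfl | hx
        · omega
        · exact i2 x hx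

/-- a valid type all of whose constraints hold gives a vector -/
theorem hasSV_of_mk {X : Type} [Fintype X] [DecidableEq X] {La : List ℕ} (hd : decB La = true)
    {ty : List ℕ × List ℕ × List ℕ} (hval : valB La ty = true)
    (hX : Fintype.card X = La.sum) {W : Type} [AddCommGroup W] [Module ℂ W]
    {σ : Representation ℂ (Perm X) W} {ρ κ : Word X} (htab : IsTab (fun _ => 0) ρ κ) {w : W}
    (hw : yact σ ρ κ w ≠ 0) {ν : List ℕ} (hν1 : ν.Pairwise (· ≥ ·))
    (hν4 : ∀ i, sz ρ i = ν.getD i 0)
    (hcon : ∀ k l, pre ((prt La ty.1 ty.2.1 ty.2.2 false).map Prod.fst) k +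
      pre ((prt La ty.1 ty.2.1 ty.2.2 true).map Prod.fst) l ≤ hs ν k l) : HasSV La.toFinset σ := by
  obtain ⟨α, hα⟩ : ∃ α, α = (prt La ty.1 ty.2.1 ty.2.2 false).map Prod.fst := ⟨_, rfl⟩
  obtain ⟨β, hβ⟩ : ∃ β, β = (prt La ty.1 ty.2.1 ty.2.2 true).map Prod.fst := ⟨_, rfl⟩
  have hmk : ∀ k l, pre α k + pre β l ≤ hs ν k l := by
    rw [hα, hβ]
    exact hcon
  have hsumab : α.sum + β.sum = Fintype.card X := by
    rw [hα, hβ, prt_sum hd hval, hX]
  -- the word
  obtain ⟨N, hN⟩ : ∃ N, N = max α.length β.length := ⟨_, rfl⟩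
  obtain ⟨b, hb⟩ : ∃ b : Word X, ∀ i, sz b i =
      (if i % 2 = 0 then α.getD (i / 2) 0 else β.getD (i / 2) 0) := by
    refine exists_word (N := 2 * N) ?_ ?_
    · intro i hi
      split_ifs
      · rw [List.getD_eq_default _ _ (by omega)]
      · rw [List.getD_eq_default _ _ (by omega)]
    · rw [mm_sum_range_two_mul, ← hsumab, ← mm_sum_getD α N (by omega), ← mm_sum_getD β N (by omega)]
      congr 1
      · refine sum_congr rfl fun i _ => ?_
        rw [if_pos (by omega)]
        congr 1
        omega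
      · refine sum_congr rfl fun i _ => ?_
        rw [if_neg (by omega)]
        congr 1
        omega
  have hb0 : ∀ i, sz b (2 * i) = α.getD i 0 := fun i => by
    rw [hb, if_pos (by omega)]
    congr 1
    omega
  have hb1 : ∀ j, sz b (2 * j + 1) = β.getD j 0 := fun j => by
    rw [hb, if_neg (by omega)]
    congr 1
    omega
  have hvec := mk_vec htab hw hν1 hν4 (by rw [hα]; exact srt_fst_sorted _)
    (by rw [hβ]; exact srt_fst_sorted _) hsumab hmk hb0 hb1
  exact hasSV_of_vec hd hval hvec (by rw [← hα]; exact hb0) (by rw [← hβ]; exact hb1)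

theorem sum_toFinset' {La : List ℕ} (hd : decB La = true) : ∑ L ∈ La.toFinset, L = La.sum := by
  obtain ⟨hpw, hpos⟩ := sum_toFinset_of_dec hd
  have hnd : La.Nodup := hpw.imp fun {a b} (hab : a > b) => by omega
  rw [List.sum_toFinset _ hnd]
  simp

/-- THE CHECKED SYSTEMS ARE GOOD -/
theorem good_of_types {La : List ℕ} {ts : List (List ℕ × List ℕ × List ℕ)}
    (h : checkAll La ts = true) : Good La.toFinset := by
  intro X _ _ hX W _ _ _ σ
  unfold checkAll at h
  rw [Bool.and_eq_true, Bool.and_eq_true] at h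
  obtain ⟨⟨hd, hv⟩, ht⟩ := h
  rw [List.all_eq_true] at hv
  rw [sum_toFinset' hd] at hX
  obtain ⟨ρ, κ, htab, w, hw⟩ := exists_yact_ne_zero σ
  obtain ⟨ν, hν1, hν2, hν3, hν4⟩ := exists_list htab
  obtain ⟨c, hc, hcon⟩ := tr_sound ht hν1 hν2 (by rw [hν3, hX])
  rw [List.mem_map] at hc
  obtain ⟨ty, hty, rfl⟩ := hc
  exact hasSV_of_mk hd (hv ty hty) hX htab hw hν1 hν4 (fun k l => cons_all hν1 hcon k l)

end Crest.Agent.SaxlN.MK
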