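import Crest.Agent.SaxlN.MKDefs

/-!
CHUNK MK-PATH (medium, ~150 lines, pure lists): existence of the path (which cells go to the rows).
-/

set_option autoImplicit false

namespace Crest.Agent.SaxlN.MK

/-- number of cells of `ν` in the first `k` rows and the first `l` columns -/
def qc : List ℕ → ℕ → ℕ → ℕ
  | [], _, _ => 0
  | _ :: _, 0, _ => 0
  | a :: t, k + 1, l => min a l + qc t k l

/-- number of cells `(i, j)` of `ν` with `t_i ≤ j < l` -/
def pc : List ℕ → List ℕ → ℕ → ℕ
  | [], _, _ => 0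
  | a :: ν, [], l => min a l + pc ν [] l
  | a :: ν, b :: t, l => (min a l - b) + pc ν t l

/-- inclusion-exclusion. PROOF: induction on `ν`, cases on `k`. -/
theorem hs_add_qc (ν : List ℕ) (k l : ℕ) : hs ν k l + qc ν k l = pre ν k + hs ν 0 l := by
  induction ν generalizing k with
  | nil => simp [hs, qc, pre]
  | cons a t ih =>
    cases k with
    | zero => simp [hs, qc, pre]
    | succ k =>
      have h1 := ih k
      simp only [hs, qc, pre, List.take_succ_cons, List.sum_cons] at h1 ⊢
      omega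

theorem qc_mono_l (ν : List ℕ) (k : ℕ) {l l' : ℕ} (h : l ≤ l') : qc ν k l ≤ qc ν k l' := by
  induction ν generalizing k with
  | nil => simp [qc]
  | cons a t ih =>
    cases k with
    | zero => simp [qc]
    | succ k =>
      have h1 := ih k
      simp only [qc]
      have h2 : min a l ≤ min a l' := min_le_min_left a h
      omega

theorem hs_zero_zero (ν : List ℕ) : hs ν 0 0 = 0 := by
  induction ν with
  | nil => simp [hs]
  | cons a t ih => simp [hs, ih]

/-- THE PATH. If `qc ν k l ≤ x k + y l` for all `k, l`, `0 ≤ x`, `0 ≤ y`, there are `t_i ≤ ν_i` with `∑_{i<k} t_i ≤ x k` for all `k` and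
`#{(i,j) : t_i ≤ j < l} ≤ y l` for all `l`.
PROOF by induction on `ν = a :: ν'` (generalising `x, y`). Let `t₀` be the largest `v ≤ a` such that `v = 0` or
`∃ l, (v : ℤ) ≤ min a l - y l` (`Nat.findGreatest`, classical). So `min a l - y l ≤ t₀` for all `l` (as `min a l - y l ≤ a`).
Put `x' k := x (k+1) - t₀`, `y' l := y l - (min a l - t₀ : ℕ)` (truncated subtraction of naturals, cast).
* `0 ≤ y' l`: from `min a l - y l ≤ t₀` and `0 ≤ y l`.
* `0 ≤ x' k`: if `t₀ = 0` clear, else `l*` with `t₀ ≤ min a l* - y l*`, and `x (k+1) ≥ qc ν (k+1) l* - y l* ≥ min a l* - y l* ≥ t₀`.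
* `qc ν' k l ≤ x' k + y' l`: if `t₀ ≤ min a l`: `x' k + y' l = x (k+1) + y l - min a l ≥ qc ν (k+1) l - min a l = qc ν' k l`.
  If `min a l < t₀` (then `t₀ ≠ 0`, `l < l*` since `min a l < t₀ ≤ min a l*`): `y' l = y l ≥ 0`,
  `x' k ≥ qc ν (k+1) l* - y l* - t₀ ≥ qc ν (k+1) l* - min a l* = qc ν' k l* ≥ qc ν' k l`.
The induction hypothesis gives `t'`; take `t = t₀ :: t'`: `pre t (k+1) = t₀ + pre t' k ≤ x (k+1)`, `pre t 0 = 0 ≤ x 0`, and
`pc ν t l = (min a l - t₀) + pc ν' t' l ≤ y l`. -/
theorem exists_path (ν : List ℕ) (x y : ℕ → ℤ) (hx : ∀ k, 0 ≤ x k) (hy : ∀ l, 0 ≤ y l)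
    (h : ∀ k l, ((qc ν k l : ℕ) : ℤ) ≤ x k + y l) :
    ∃ t : List ℕ, t.length = ν.length ∧ (∀ i, t.getD i 0 ≤ ν.getD i 0) ∧
      (∀ k, ((pre t k : ℕ) : ℤ) ≤ x k) ∧ ∀ l, ((pc ν t l : ℕ) : ℤ) ≤ y l := by
  classical
  induction ν generalizing x y with
  | nil =>
    refine ⟨[], rfl, fun i => le_rfl, fun k => ?_, fun l => ?_⟩
    · simpa [pre] using hx k
    · simpa [pc] using hy l
  | cons a ν ih =>
    obtain ⟨P, hPdef⟩ : ∃ P : ℕ → Prop, P = fun v : ℕ => v = 0 ∨ ∃ l : ℕ, (v : ℤ) ≤ ((min a l : ℕ) : ℤ) - y l :=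
      ⟨_, rfl⟩
    obtain ⟨t₀, ht₀⟩ : ∃ t₀, t₀ = Nat.findGreatest P a := ⟨_, rfl⟩
    have h0 : t₀ ≤ a := ht₀ ▸ Nat.findGreatest_le a
    have hP0 : P 0 := by rw [hPdef]; exact Or.inl rfl
    have hP : P t₀ := ht₀ ▸ Nat.findGreatest_spec (Nat.zero_le a) hP0
    rw [hPdef] at hP
    have hge : ∀ l : ℕ, ((min a l : ℕ) : ℤ) - y l ≤ t₀ := by
      intro l
      by_contra hc
      push Not at hc
      obtain ⟨v, hv⟩ := Int.eq_ofNat_of_zero_le (a := ((min a l : ℕ) : ℤ) - y l) (by omega)
      have hva : v ≤ a := by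
        have h1 := hy l
        have h2 : min a l ≤ a := min_le_left a l
        omega
      have hPv : P v := by
        rw [hPdef]
        exact Or.inr ⟨l, by omega⟩
      have h3 : v ≤ t₀ := ht₀ ▸ Nat.le_findGreatest hva hPv
      omega
    have hq : ∀ k l : ℕ, ((min a l : ℕ) : ℤ) + ((qc ν k l : ℕ) : ℤ) ≤ x (k + 1) + y l := by
      intro k l
      have h1 := h (k + 1) l
      simp only [qc] at h1
      push_cast at h1 ⊢
      exact h1
    obtain ⟨t', ht1, ht2, ht3, ht4⟩ := ih (fun k => x (k + 1) - t₀)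
      (fun l => y l - ((min a l - t₀ : ℕ) : ℤ)) (by
        intro k
        rcases hP with hz | ⟨l, hl⟩
        · have := hx (k + 1)
          simp only [hz]
          omega
        · have h1 := hq k l
          omega) (by
        intro l
        have h1 := hge l
        have h2 := hy l
        omega) (by
        intro k l
        have h1 := hq k l
        by_cases hc : t₀ ≤ min a l
        · omega
        · rcases hP with hz | ⟨l', hl⟩
          · omega
          · have h2 := hq k l'
            have h3 := hy l'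
            have h4 : l ≤ l' := by
              by_contra h5
              have h6 : min a l' ≤ min a l := min_le_min_left a (by omega)
              omega
            have h5 := qc_mono_l ν k h4
            have h6 := hy l
            omega)
    refine ⟨t₀ :: t', by simp [ht1], fun i => ?_, fun k => ?_, fun l => ?_⟩
    · cases i with
      | zero => simpa using h0
      | succ i => simpa using ht2 i
    · cases k with
      | zero => simpa [pre] using hx 0
      | succ k =>
        have h1 := ht3 k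
        have h2 : pre (t₀ :: t') (k + 1) = t₀ + pre t' k := by
          simp only [pre, List.take_succ_cons, List.sum_cons]
        rw [h2, Nat.cast_add]
        omega
    · have h1 := ht4 l
      simp only [pc]
      push_cast at h1 ⊢
      omega

/-- The form used: PROOF: `exists_path` with `x k = pre ν k - pre α k`, `y l = hs ν 0 l - pre β l`
(`hmk` with `l = 0` and `hs ν k 0 = pre ν k`, `pre β 0 = 0`; with `k = 0`; and `hs_add_qc`). -/
theorem exists_path' {ν α β : List ℕ} (hmk : ∀ k l, pre α k + pre β l ≤ hs ν k l) :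
    ∃ t : List ℕ, t.length = ν.length ∧ (∀ i, t.getD i 0 ≤ ν.getD i 0) ∧
      (∀ k, pre α k + pre t k ≤ pre ν k) ∧ ∀ l, pre β l + pc ν t l ≤ hs ν 0 l := by
  have hα : ∀ k, pre α k ≤ pre ν k := by
    intro k
    have h1 := hmk k 0
    have h2 := hs_add_qc ν k 0
    rw [hs_zero_zero] at h2
    omega
  have hβ : ∀ l, pre β l ≤ hs ν 0 l := by
    intro l
    have h1 := hmk 0 l
    omega
  obtain ⟨t, h1, h2, h3, h4⟩ := exists_path ν (fun k => ((pre ν k : ℕ) : ℤ) - ((pre α k : ℕ) : ℤ))
    (fun l => ((hs ν 0 l : ℕ) : ℤ) - ((pre β l : ℕ) : ℤ))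
    (by intro k; have := hα k; omega)
    (by intro l; have := hβ l; omega)
    (by
      intro k l
      have e1 := hmk k l
      have e2 := hs_add_qc ν k l
      omega)
  refine ⟨t, h1, h2, fun k => ?_, fun l => ?_⟩
  · have := h3 k
    omega
  · have := h4 l
    omega

end Crest.Agent.SaxlN.MK
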