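import Crest.Agent.SaxlN.MKDefs

/-!
Soundness of the tree checker.
-/

set_option autoImplicit false

namespace Crest.Agent.SaxlN.MK

theorem mn_eq (a b : ℕ) : mn a b = min a b := by
  unfold mn
  cases h : Nat.ble a b
  · have : ¬ a ≤ b := fun h' => by rw [Nat.ble_eq_true_of_le h'] at h; cases h
    simp only [cond_false]
    omega
  · have := Nat.le_of_ble_eq_true h
    simp only [cond_true]
    omega

theorem mx_eq (a b : ℕ) : mx a b = max a b := by
  unfold mx
  cases h : Nat.ble a b
  · have : ¬ a ≤ b := fun h' => by rw [Nat.ble_eq_true_of_le h'] at h; cases h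
    simp only [cond_false]
    omega
  · have := Nat.le_of_ble_eq_true h
    simp only [cond_true]
    omega

theorem hs_zero_l (ν : List ℕ) : ∀ k, hs ν k 0 = pre ν k := by
  induction ν with
  | nil => intro k; simp [hs, pre]
  | cons a t ih =>
    intro k
    cases k with
    | zero => rw [hs, ih 0]; simp [pre]
    | succ k => rw [hs, ih k]; simp [pre]

theorem hs_ge_min {ν : List ℕ} (h2 : ∀ a ∈ ν, 0 < a) (k l : ℕ) : min ν.sum k ≤ hs ν k l := by
  induction ν generalizing k with
  | nil => simp
  | cons a t ih =>
    have ha : 0 < a := h2 a (by simp)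
    have iht := fun k => ih (fun x hx => h2 x (by simp [hx])) k
    cases k with
    | zero => simp
    | succ k =>
      rw [hs, List.sum_cons]
      have := iht k
      omega

theorem hs_of_le {ν : List ℕ} {b : ℕ} (h1 : ∀ a ∈ ν, a ≤ b) {l : ℕ} (hl : b ≤ l) (k : ℕ) :
    hs ν k l = ν.sum := by
  induction ν generalizing k with
  | nil => simp [hs]
  | cons a t ih =>
    have ha : a ≤ b := h1 a (by simp)
    have iht := fun k => ih (fun x hx => h1 x (by simp [hx])) k
    cases k with
    | zero => rw [hs, iht, List.sum_cons, min_eq_left (ha.trans hl)]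
    | succ k => rw [hs, iht, List.sum_cons]

theorem hs_mul {ν : List ℕ} {b : ℕ} (h1 : ∀ a ∈ ν, a ≤ b) {l : ℕ} (hl : l ≤ b) (k : ℕ) :
    ν.sum * l ≤ hs ν k l * b := by
  induction ν generalizing k with
  | nil => simp
  | cons a t ih =>
    have ha : a ≤ b := h1 a (by simp)
    have iht := fun k => ih (fun x hx => h1 x (by simp [hx])) k
    cases k with
    | zero =>
      rw [hs, List.sum_cons, add_mul, add_mul]
      have h3 : a * l ≤ min a l * b := by
        rcases le_total a l with h | h
        · rw [min_eq_left h]
          exact Nat.mul_le_mul_left _ hl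
        · rw [min_eq_right h, mul_comm]
          exact Nat.mul_le_mul_left _ ha
      exact add_le_add h3 (iht 0)
    | succ k =>
      rw [hs, List.sum_cons, add_mul, add_mul]
      exact add_le_add (Nat.mul_le_mul_left _ hl) (iht k)

theorem lb_le {ν : List ℕ} {m b : ℕ} (h1 : ∀ a ∈ ν, a ≤ b) (h2 : ∀ a ∈ ν, 0 < a)
    (h3 : ν.sum = m) (k l : ℕ) : lb k l m b ≤ hs ν k l := by
  unfold lb
  cases h : Nat.ble b l
  · have hlb : ¬ b ≤ l := fun h' => by rw [Nat.ble_eq_true_of_le h'] at h; cases h
    have hb : 0 < b := by omega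
    rw [cond_false, mx_eq, mn_eq]
    apply max_le
    · have h4 := hs_mul h1 (l := l) (by omega) k
      rw [h3] at h4
      rw [← Nat.lt_succ_iff, Nat.div_lt_iff_lt_mul hb, Nat.succ_eq_add_one, add_mul, one_mul]
      omega
    · have := hs_ge_min h2 k l
      rw [h3] at this
      exact this
  · rw [cond_true, hs_of_le h1 (Nat.le_of_ble_eq_true h), h3]

/-- known rows `q` (in order), as reversed list with prefix sums -/
def rv : List ℕ → ℕ → List (ℕ × ℕ) → List (ℕ × ℕ)
  | [], _, p => p
  | a :: t, s, p => rv t (s + a) ((a, s + a) :: p)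

theorem hs_append (q r : List ℕ) (l : ℕ) : ∀ k, hs (q ++ r) k l = hs q k l + hs r (k - q.length) l := by
  induction q with
  | nil => intro k; simp [hs]
  | cons a t ih =>
    intro k
    cases k with
    | zero =>
      rw [List.cons_append, hs, hs, ih 0]
      simp only [Nat.zero_sub]
      omega
    | succ k =>
      rw [List.cons_append, hs, hs, ih k]
      simp only [List.length_cons, Nat.add_sub_add_right]
      omega

/-- the invariant: `p` codes the known rows `q` -/
def Cod (p : List (ℕ × ℕ)) (q : List ℕ) : Prop :=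
  p.length = q.length ∧ ∀ j (hj : j < p.length),
    (p[j]).1 = q.getD (q.length - 1 - j) 0 ∧ (p[j]).2 = pre q (q.length - j)

theorem Cod.tail {x : ℕ × ℕ} {p : List (ℕ × ℕ)} {q : List ℕ} (h : Cod (x :: p) q) :
    Cod p q.dropLast ∧ q ≠ [] := by
  obtain ⟨h1, h2⟩ := h
  have hl : q.length = p.length + 1 := by rw [← h1]; simp
  refine ⟨⟨by simp [hl], fun j hj => ?_⟩, fun h => by rw [h] at hl; simp at hl⟩
  have h3 := h2 (j + 1) (by simp [hj])
  simp only [List.getElem_cons_succ] at h3
  rw [h3.1, h3.2]
  constructor
  · rw [List.length_dropLast, List.getD_eq_getElem _ _ (by omega),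
      List.getD_eq_getElem _ _ (by rw [List.length_dropLast]; omega), List.getElem_dropLast]
    congr 1
    omega
  · unfold pre
    rw [List.dropLast_eq_take, List.length_take, List.take_take]
    congr 2
    omega

theorem hp_eq (l : ℕ) : ∀ (p : List (ℕ × ℕ)) (q : List ℕ) (_ : Cod p q) (e : ℕ) (_ : e ≤ q.length),
    hp p e l = hs q (q.length - e) l := by
  intro p
  induction p with
  | nil =>
    intro q h e he
    have : q = [] := List.eq_nil_of_length_eq_zero (by rw [← h.1]; rfl)
    subst this
    simp [hp, hs]
  | cons x p ih =>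
    intro q h e he
    obtain ⟨hd, hne⟩ := h.tail
    have h0 := h.2 0 (by simp)
    simp only [List.getElem_cons_zero, Nat.sub_zero] at h0
    have hq : q = q.dropLast ++ [x.1] := by
      conv_lhs => rw [← List.dropLast_append_getLast hne]
      congr 1
      rw [h0.1, List.getLast_eq_getElem, List.getD_eq_getElem _ _ (by
        have := List.length_pos_iff.2 hne; omega)]
    have hl : q.length = q.dropLast.length + 1 := by
      conv_lhs => rw [hq]
      simp
    cases e with
    | zero =>
      obtain ⟨x1, x2⟩ := x
      rw [hp, Nat.sub_zero]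
      simp only at h0
      rw [h0.2]
      clear h0 hq hl ih h hd he hne
      have : ∀ q : List ℕ, pre q q.length = hs q q.length l := by
        intro q
        induction q with
        | nil => simp [pre, hs]
        | cons a t ih => rw [List.length_cons, hs, ← ih]; simp [pre]
      exact this q
    | succ e =>
      obtain ⟨x1, x2⟩ := x
      rw [hp, ih _ hd e (by omega), mn_eq]
      conv_rhs => rw [hq]
      rw [hs_append]
      simp only [List.length_append, List.length_cons, List.length_nil]
      have e1 : q.dropLast.length + (0 + 1) - (e + 1) = q.dropLast.length - e := by omega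
      rw [e1]
      have e2 : q.dropLast.length - e - q.dropLast.length = 0 := by omega
      rw [e2, hs]
      simp only [hs]
      omega

theorem Cod.cons {p : List (ℕ × ℕ)} {q : List ℕ} (h : Cod p q) (a : ℕ) :
    Cod ((a, q.sum + a) :: p) (q ++ [a]) := by
  refine ⟨by simp [h.1], fun j hj => ?_⟩
  cases j with
  | zero =>
    simp only [List.getElem_cons_zero, Nat.sub_zero, List.length_append, List.length_cons,
      List.length_nil]
    constructor
    · rw [List.getD_eq_getElem _ _ (by simp)]
      simp
    · unfold pre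
      rw [List.take_of_length_le (by simp)]
      simp
  | succ j =>
    have hj' : j < p.length := by simpa using hj
    have hjq : j < q.length := by rw [← h.1]; exact hj'
    obtain ⟨h1, h2⟩ := h.2 j hj'
    simp only [List.getElem_cons_succ, List.length_append, List.length_cons, List.length_nil]
    rw [h1, h2]
    constructor
    · rw [List.getD_eq_getElem _ _ (by omega), List.getD_eq_getElem _ _ (by simp),
        List.getElem_append_left (by omega)]
      congr 1
      omega
    · unfold pre
      congr 1
      rw [List.take_append_of_le_length (by omega)]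
      congr 1
      omega

theorem okC_sound {p : List (ℕ × ℕ)} {q : List ℕ} (h : Cod p q) {r : List ℕ} {m b : ℕ}
    (h1 : ∀ a ∈ r, a ≤ b) (h2 : ∀ a ∈ r, 0 < a) (h3 : r.sum = m) {c : ℕ × ℕ × ℕ}
    (hc : okC p q.length m b c = true) : c.2.2 ≤ hs (q ++ r) c.1 c.2.1 := by
  have h4 := Nat.le_of_ble_eq_true hc
  have h5 := lb_le h1 h2 h3 (c.1 - q.length) c.2.1
  rw [hp_eq _ p q h _ (by omega)] at h4
  rw [hs_append]
  have h6 : hs q (q.length - (q.length - c.1)) c.2.1 = hs q c.1 c.2.1 := by
    rcases le_total c.1 q.length with hle | hle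
    · congr 1
      omega
    · have e1 : q.length - (q.length - c.1) = q.length := by omega
      rw [e1]
      clear h4 h5 e1 h hc
      have : ∀ (q : List ℕ) (k l : ℕ), q.length ≤ k → hs q q.length l = hs q k l := by
        intro q
        induction q with
        | nil => intro k l _; simp [hs]
        | cons a t ih =>
          intro k l hk
          cases k with
          | zero => simp at hk
          | succ k =>
            rw [List.length_cons, hs, hs, ih k l (by simpa using hk)]
      exact this q _ _ hle
  rw [h6] at h4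
  omega

theorem okT_sound {ts : List (List (ℕ × ℕ × ℕ))} {p : List (ℕ × ℕ)} {q : List ℕ} (h : Cod p q)
    {r : List ℕ} {m b : ℕ} (h1 : ∀ a ∈ r, a ≤ b) (h2 : ∀ a ∈ r, 0 < a) (h3 : r.sum = m)
    (hc : okT ts p q.length m b = true) :
    ∃ t ∈ ts, ∀ c ∈ t, c.2.2 ≤ hs (q ++ r) c.1 c.2.1 := by
  unfold okT at hc
  rw [List.any_eq_true] at hc
  obtain ⟨t, ht, h4⟩ := hc
  rw [List.all_eq_true] at h4
  exact ⟨t, ht, fun c hc' => okC_sound h h1 h2 h3 (h4 c hc')⟩

theorem allB_sound {f : ℕ → Bool} {n : ℕ} (h : allB f n = true) : ∀ a < n, f a = true := by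
  induction n with
  | zero => intro a ha; omega
  | succ n ih =>
    rw [allB, Bool.and_eq_true] at h
    intro a ha
    rcases Nat.lt_succ_iff_lt_or_eq.1 ha with h' | h'
    · exact ih h.2 a h'
    · rw [h']; exact h.1

theorem tr_sound_aux {ts : List (List (ℕ × ℕ × ℕ))} : ∀ (f : ℕ) (p : List (ℕ × ℕ)) (q r : List ℕ)
    (m b : ℕ), Cod p q → tr ts f p q.length q.sum m b = true → r.Pairwise (· ≥ ·) →
    (∀ a ∈ r, a ≤ b) → (∀ a ∈ r, 0 < a) → r.sum = m →
    ∃ t ∈ ts, ∀ c ∈ t, c.2.2 ≤ hs (q ++ r) c.1 c.2.1 := by
  intro f
  induction f with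
  | zero =>
    intro p q r m b _ h
    rw [tr] at h
    cases h
  | succ f ih =>
    intro p q r m b hcod h hr h1 h2 h3
    rw [tr, Bool.or_eq_true] at h
    rcases h with h | h
    · exact okT_sound hcod h1 h2 h3 h
    · rw [Bool.and_eq_true] at h
      obtain ⟨h4, h5⟩ := h
      cases r with
      | nil =>
        exfalso
        simp only [List.sum_nil] at h3
        rw [← h3] at h4
        simp at h4
      | cons a r' =>
        have ha0 : 0 < a := h2 a (by simp)
        have hab : a ≤ b := h1 a (by simp)
        have ham : a ≤ m := by rw [← h3, List.sum_cons]; omega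
        have h6 := allB_sound h5 (a - 1) (by rw [mn_eq]; omega)
        have e1 : a - 1 + 1 = a := by omega
        simp only [e1] at h6
        have h7 := ih ((a, q.sum + a) :: p) (q ++ [a]) r' (m - a) a (hcod.cons a)
          (by
            have e2 : (q ++ [a]).length = q.length + 1 := by simp
            have e3 : (q ++ [a]).sum = q.sum + a := by simp
            rw [e2, e3]
            exact h6) (List.Pairwise.of_cons hr)
          (fun x hx => List.rel_of_pairwise_cons hr hx) (fun x hx => h2 x (by simp [hx]))
          (by rw [List.sum_cons] at h3; omega)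
        simpa using h7

/-- SOUNDNESS OF THE TREE -/
theorem tr_sound {ts : List (List (ℕ × ℕ × ℕ))} {f n : ℕ} (h : tr ts f [] 0 0 n n = true)
    {ν : List ℕ} (h1 : ν.Pairwise (· ≥ ·)) (h2 : ∀ a ∈ ν, 0 < a) (h3 : ν.sum = n) :
    ∃ t ∈ ts, ∀ c ∈ t, c.2.2 ≤ hs ν c.1 c.2.1 := by
  have hb : ∀ a ∈ ν, a ≤ n := fun a ha => by
    rw [← h3]
    exact List.single_le_sum (fun _ _ => Nat.zero_le _) a ha
  have := tr_sound_aux f [] [] ν n n ⟨rfl, fun j hj => by simp at hj⟩ h h1 hb h2 h3
  simpa using this

end Crest.Agent.SaxlN.MK
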