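import Crest.Agent.SaxlN.MKPath
import Crest.Agent.SaxlN.SysDefs

/-!
CHUNK MK-WORD (easy/medium, ~200 lines): words with given sizes, row lengths, sizes of the split word.
-/

set_option autoImplicit false

namespace Crest.Agent.SaxlN.MK

open Finset Equiv
open Crest.Agent.Saxl

variable {X : Type} [Fintype X] [DecidableEq X]

/-- a word with given class sizes.
PROOF: `(Σ i : Fin N, Fin (f i))` has `card X` elements; take an equivalence `X ≃ Σ ..` and the first component. -/
theorem exists_word {f : ℕ → ℕ} {N : ℕ} (hf : ∀ i, N ≤ i → f i = 0)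
    (h : ∑ i ∈ range N, f i = Fintype.card X) : ∃ b : Word X, ∀ i, sz b i = f i := by
  classical
  have hc : Fintype.card X = Fintype.card (Σ i : Fin N, Fin (f i)) := by
    rw [Fintype.card_sigma, ← h, Finset.sum_range]
    simp
  let e : X ≃ (Σ i : Fin N, Fin (f i)) := Fintype.equivOfCardEq hc
  refine ⟨fun x => ((e x).1 : ℕ), fun i => ?_⟩
  unfold sz
  by_cases hi : i < N
  · have h1 : (univ.filter (fun x => (((e x).1 : Fin N) : ℕ) = i)) =
        (univ : Finset (Fin (f i))).image (fun j => e.symm ⟨⟨i, hi⟩, j⟩) := by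
      ext x
      simp only [mem_filter, mem_univ, true_and, mem_image]
      constructor
      · intro hx
        obtain ⟨y, rfl⟩ : ∃ y, x = e.symm y := ⟨e x, by simp⟩
        rw [Equiv.apply_symm_apply] at hx
        obtain ⟨⟨a, ha⟩, j⟩ := y
        simp only at hx
        subst hx
        exact ⟨j, rfl⟩
      · rintro ⟨j, rfl⟩
        rw [Equiv.apply_symm_apply]
    rw [h1, card_image_of_injective, card_univ, Fintype.card_fin]
    intro j j' hj
    have := e.symm.injective hj
    simpa using this
  · rw [hf i (by omega), card_eq_zero, filter_eq_empty_iff]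
    intro x _ hx
    exact hi (hx ▸ (e x).1.2)

/-- the list of row lengths of a tableau. PROOF: copy `Crest.Agent.SG.exists_list` from Crest/Agent/SG/Main.lean
(`Tb ρ κ` is `IsTab (fun _ => 0) ρ κ`, `IsPart ν` is `ν.Pairwise (· ≥ ·) ∧ ∀ a ∈ ν, 0 < a`); do not import it. -/
theorem exists_list {ρ κ : Word X} (h : IsTab (fun _ => 0) ρ κ) :
    ∃ ν : List ℕ, ν.Pairwise (· ≥ ·) ∧ (∀ a ∈ ν, 0 < a) ∧ ν.sum = Fintype.card X ∧
      ∀ i, sz ρ i = ν.getD i 0 := by
  classical
  set r : ℕ → ℕ := fun i => (univ.filter (fun x => ρ x = i)).card with hr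
  set m : ℕ := (univ.filter (fun x => κ x = 0)).card with hm
  have hcol := sh_col_image h 0
  rw [← hm] at hcol
  have hpos : ∀ i, i < m → 0 < r i := by
    intro i hi
    rw [← mem_range, ← hcol, mem_image] at hi
    obtain ⟨x, -, hx2⟩ := hi
    exact card_pos.2 ⟨x, by rw [mem_filter]; exact ⟨mem_univ _, hx2⟩⟩
  have hzero : ∀ i, m ≤ i → r i = 0 := by
    intro i hi
    by_contra hne
    obtain ⟨x, hx⟩ := card_pos.1 (Nat.pos_of_ne_zero hne)
    rw [mem_filter] at hx
    obtain ⟨y, -, h1, h2⟩ := h.lower x (ρ x) 0 le_rfl (Nat.zero_le _)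
    have : ρ y ∈ (univ.filter (fun x => κ x = 0)).image ρ :=
      mem_image_of_mem ρ (by rw [mem_filter]; exact ⟨mem_univ _, h2⟩)
    rw [hcol, mem_range, h1, hx.2] at this
    omega
  have hanti : ∀ i i', i ≤ i' → r i' ≤ r i := by
    intro i i' hii
    by_contra hc
    push Not at hc
    have h1 : r i' - 1 ∈ (univ.filter (fun x => ρ x = i')).image κ := by
      rw [sh_row_image h, mem_range]
      show r i' - 1 < r i'
      omega
    rw [mem_image] at h1
    obtain ⟨x, hx, hx2⟩ := h1
    rw [mem_filter] at hx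
    obtain ⟨y, -, h3, h4⟩ := h.lower x i (κ x) (by rw [hx.2]; exact hii) le_rfl
    have h5 : κ y ∈ (univ.filter (fun x => ρ x = i)).image κ :=
      mem_image_of_mem κ (by rw [mem_filter]; exact ⟨mem_univ _, h3⟩)
    rw [sh_row_image h, mem_range, h4, hx2] at h5
    have : r i' - 1 < r i := h5
    omega
  have hgetD : ∀ i, ((List.range m).map r).getD i 0 = r i := by
    intro i
    by_cases hi : i < m
    · rw [List.getD_eq_getElem _ _ (by simpa using hi)]
      simp
    · rw [List.getD_eq_default _ _ (by simpa using Nat.le_of_not_lt hi), hzero i (by omega)]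
  refine ⟨(List.range m).map r, ?_, ?_, ?_, fun i => (hgetD i).symm⟩
  · rw [List.pairwise_map]
    exact (List.pairwise_lt_range (n := m)).imp fun {i j} hij => hanti i j hij.le
  · intro a ha
    rw [List.mem_map] at ha
    obtain ⟨i, hi, rfl⟩ := ha
    exact hpos i (List.mem_range.1 hi)
  · have h1 : ((List.range m).map r).sum = ∑ i ∈ range m, r i := rfl
    rw [h1, ← card_univ, card_eq_sum_card_fiberwise (f := ρ) (t := range m)]
    intro x _
    rw [mem_coe, mem_range]
    by_contra hc
    have h2 := hzero (ρ x) (by omega)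
    have h3 : 0 < r (ρ x) := card_pos.2 ⟨x, by rw [mem_filter]; exact ⟨mem_univ _, rfl⟩⟩
    omega

/-- counting in one row -/
theorem row_count {ρ κ : Word X} (ht : IsTab (fun _ => 0) ρ κ) {n : ℕ} {i : ℕ} (hn : sz ρ i = n)
    (P : ℕ → Prop) [DecidablePred P] :
    (univ.filter (fun x => ρ x = i ∧ P (κ x))).card = ((range n).filter P).card := by
  classical
  have hinj : Set.InjOn κ ((univ.filter (fun x => ρ x = i ∧ P (κ x)) : Finset X) : Set X) := by
    intro x hx y hy hxy
    rw [mem_coe, mem_filter] at hx hy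
    exact ht.inj (by simp only [hx.2.1, hy.2.1, hxy])
  rw [← card_image_of_injOn hinj]
  congr 1
  have h1 := sh_row_image ht i
  have h2 : (univ.filter (fun x => ρ x = i)).card = n := hn
  rw [h2] at h1
  rw [← h1]
  ext k
  simp only [mem_image, mem_filter, mem_univ, true_and]
  constructor
  · rintro ⟨x, ⟨hx1, hx2⟩, rfl⟩
    exact ⟨⟨x, hx1, rfl⟩, hx2⟩
  · rintro ⟨⟨x, hx1, rfl⟩, hx2⟩
    exact ⟨x, ⟨hx1, hx2⟩, rfl⟩

theorem hs_zero_eq (ν : List ℕ) (l : ℕ) :
    hs ν 0 l = ∑ i ∈ range ν.length, min (ν.getD i 0) l := by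
  induction ν with
  | nil => simp [hs]
  | cons a ν ih =>
    rw [hs, ih, List.length_cons, Finset.sum_range_succ']
    simp [add_comm]

theorem pc_eq (ν : List ℕ) : ∀ (t : List ℕ) (l : ℕ), t.length = ν.length →
    pc ν t l = ∑ i ∈ range ν.length, (min (ν.getD i 0) l - t.getD i 0) := by
  induction ν with
  | nil => intro t l _; cases t <;> simp [pc]
  | cons a ν ih =>
    intro t l ht
    cases t with
    | nil => simp at ht
    | cons b t =>
      rw [pc, ih t l (by simpa using ht), List.length_cons, Finset.sum_range_succ']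
      simp [add_comm]

/-- The split word for the path `t`: letters with `t_{ρ x} ≤ κ x` get the label `2 ρ x`, the others `2 κ x + 1`. -/
def sw (ρ κ : Word X) (t : List ℕ) : Word X :=
  fun x => if decide (t.getD (ρ x) 0 ≤ κ x) then 2 * ρ x else 2 * κ x + 1

/-- PROOF: the letters of row `i` have the columns `0, .., ν_i - 1` (`sh_row_image` in Saxl/Shapes); those with `κ ≥ t_i`. -/
theorem sz_sw_even {ρ κ : Word X} (ht : IsTab (fun _ => 0) ρ κ) {ν t : List ℕ}
    (hν : ∀ i, sz ρ i = ν.getD i 0) (i : ℕ) : sz (sw ρ κ t) (2 * i) = ν.getD i 0 - t.getD i 0 := by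
  classical
  have h1 : (univ.filter (fun x => sw ρ κ t x = 2 * i)) =
      univ.filter (fun x => ρ x = i ∧ t.getD i 0 ≤ κ x) := by
    ext x
    simp only [mem_filter, mem_univ, true_and, sw, decide_eq_true_eq]
    constructor
    · intro hx
      split_ifs at hx with hc
      · have : ρ x = i := by omega
        subst this
        exact ⟨rfl, hc⟩
      · omega
    · rintro ⟨rfl, hc⟩
      rw [if_pos hc]
  unfold sz
  rw [h1, row_count ht (hν i) (fun k => t.getD i 0 ≤ k)]
  have h2 : (range (ν.getD i 0)).filter (fun k => t.getD i 0 ≤ k) = Finset.Ico (t.getD i 0) (ν.getD i 0) := by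
    ext k
    simp only [mem_filter, mem_range, mem_Ico]
    exact and_comm
  rw [h2, Nat.card_Ico]

/-- the letters with `κ x < l` and `κ x < t_{ρ x}`.
PROOF: `∑_{j<l} sz (sw) (2j+1) = #{x | κ x < l, κ x < t_{ρ x}}`; row by row this is `min l t_i` and
`min l t_i + (min ν_i l - t_i) = min ν_i l` as `t_i ≤ ν_i`; `hs ν 0 l = ∑_i min ν_i l`, `pc ν t l = ∑_i (min ν_i l - t_i)`. -/
theorem sum_sz_sw_odd {ρ κ : Word X} (ht : IsTab (fun _ => 0) ρ κ) {ν t : List ℕ}
    (hν : ∀ i, sz ρ i = ν.getD i 0) (hl : t.length = ν.length) (hle : ∀ i, t.getD i 0 ≤ ν.getD i 0) (l : ℕ) :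
    (∑ j ∈ range l, sz (sw ρ κ t) (2 * j + 1)) + pc ν t l = hs ν 0 l := by
  classical
  set S : Finset X := univ.filter (fun x => κ x < l ∧ κ x < t.getD (ρ x) 0) with hS
  have h1 : ∑ j ∈ range l, sz (sw ρ κ t) (2 * j + 1) = S.card := by
    rw [card_eq_sum_card_fiberwise (f := κ) (t := range l) (s := S)]
    · refine sum_congr rfl fun j hj => ?_
      unfold sz
      congr 1
      ext x
      rw [mem_range] at hj
      simp only [hS, mem_filter, mem_univ, true_and, sw, decide_eq_true_eq]
      constructor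
      · intro hx
        split_ifs at hx with hc
        · omega
        · exact ⟨⟨by omega, by omega⟩, by omega⟩
      · rintro ⟨⟨_, hc⟩, rfl⟩
        rw [if_neg (by omega)]
    · intro x hx
      rw [mem_coe, hS, mem_filter] at hx
      rw [mem_coe, mem_range]
      exact hx.2.1
  have h2 : S.card = ∑ i ∈ range ν.length, min l (t.getD i 0) := by
    rw [card_eq_sum_card_fiberwise (f := ρ) (t := range ν.length) (s := S)]
    · refine sum_congr rfl fun i _ => ?_
      have h3 : S.filter (fun x => ρ x = i) =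
          univ.filter (fun x => ρ x = i ∧ (κ x < l ∧ κ x < t.getD i 0)) := by
        ext x
        simp only [hS, mem_filter, mem_univ, true_and]
        constructor
        · rintro ⟨⟨h4, h5⟩, rfl⟩
          exact ⟨rfl, h4, h5⟩
        · rintro ⟨rfl, h4, h5⟩
          exact ⟨⟨h4, h5⟩, rfl⟩
      rw [h3, row_count ht (hν i) (fun k => k < l ∧ k < t.getD i 0)]
      have h4 : (range (ν.getD i 0)).filter (fun k => k < l ∧ k < t.getD i 0) =
          range (min l (t.getD i 0)) := by
        ext k
        have := hle i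
        simp only [mem_filter, mem_range, lt_min_iff]
        constructor
        · rintro ⟨_, h⟩; exact h
        · rintro ⟨h6, h7⟩; exact ⟨by omega, h6, h7⟩
      rw [h4, card_range]
    · intro x hx
      rw [mem_coe, mem_range]
      by_contra hc
      have h3 := hν (ρ x)
      rw [List.getD_eq_default _ _ (by omega)] at h3
      have h4 : 0 < (univ.filter (fun y => ρ y = ρ x)).card :=
        card_pos.2 ⟨x, by rw [mem_filter]; exact ⟨mem_univ _, rfl⟩⟩
      unfold sz at h3
      omega
  rw [h1, h2, pc_eq ν t l hl, hs_zero_eq, ← Finset.sum_add_distrib]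
  refine sum_congr rfl fun i _ => ?_
  have := hle i
  omega

end Crest.Agent.SaxlN.MK
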