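import Crest.Agent.SaxlN.Defs

/-!
CHUNK ORTH (medium): orthogonality of Young symmetrisers of different shapes.
-/

set_option autoImplicit false

namespace Crest.Agent.SaxlN

open Finset Equiv
open Crest.Agent.Saxl

variable {X : Type} [Fintype X] [DecidableEq X]

/-- the adjoint in the group algebra -/
private noncomputable def st (x : MonoidAlgebra ℂ (Perm X)) : MonoidAlgebra ℂ (Perm X) :=
  ∑ g : Perm X, (starRingEnd ℂ) (x.coeff g) • MonoidAlgebra.of ℂ (Perm X) g⁻¹

omit [Fintype X] [DecidableEq X] in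
private theorem coeff_mul_of (x : MonoidAlgebra ℂ (Perm X)) (h g : Perm X) :
    (x * MonoidAlgebra.of ℂ (Perm X) h).coeff g = x.coeff (g * h⁻¹) := by
  rw [MonoidAlgebra.of_apply]
  rw [MonoidAlgebra.coeff_mul_single_eq_coeff_mul (g * h⁻¹)]
  · rw [mul_one]
  · intro a _
    constructor
    · intro e; rw [← e, mul_assoc, mul_inv_cancel, mul_one]
    · intro e; rw [e, mul_assoc, inv_mul_cancel, mul_one]

private theorem coeff_mul_st (x : MonoidAlgebra ℂ (Perm X)) (g : Perm X) :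
    (x * st x).coeff g = ∑ h : Perm X, x.coeff (g * h) * (starRingEnd ℂ) (x.coeff h) := by
  unfold st
  rw [Finset.mul_sum, MonoidAlgebra.coeff_sum, Finsupp.finsetSum_apply]
  refine Finset.sum_congr rfl fun h _ => ?_
  rw [mul_smul_comm, MonoidAlgebra.coeff_smul, Finsupp.smul_apply, coeff_mul_of, inv_inv,
    smul_eq_mul, mul_comm]

private theorem sum_normSq_ne_zero {x : MonoidAlgebra ℂ (Perm X)} (hx : x ≠ 0) :
    (x * st x).coeff 1 ≠ 0 := by
  have h1 : (x * st x).coeff 1 = ((∑ h : Perm X, Complex.normSq (x.coeff h) : ℝ) : ℂ) := by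
    rw [coeff_mul_st, Complex.ofReal_sum]
    refine Finset.sum_congr rfl fun h _ => ?_
    rw [one_mul, Complex.mul_conj]
  rw [h1]
  obtain ⟨g, hg⟩ : ∃ g, x.coeff g ≠ 0 := by
    by_contra hcon
    push Not at hcon
    apply hx
    ext g
    rw [hcon g]
    simp
  have h2 : 0 < ∑ h : Perm X, Complex.normSq (x.coeff h) :=
    Finset.sum_pos' (fun h _ => Complex.normSq_nonneg _) ⟨g, Finset.mem_univ _, Complex.normSq_pos.2 hg⟩
  exact_mod_cast h2.ne'

private theorem expand (x : MonoidAlgebra ℂ (Perm X)) :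
    x = ∑ g : Perm X, x.coeff g • MonoidAlgebra.of ℂ (Perm X) g := by
  ext g
  rw [MonoidAlgebra.coeff_sum, Finsupp.finsetSum_apply]
  simp [MonoidAlgebra.of_apply, MonoidAlgebra.coeff_single,
    Finsupp.single_apply]

private theorem st_mul_st (x : MonoidAlgebra ℂ (Perm X)) : st (x * st x) = x * st x := by
  have hc : ∀ g : Perm X, (starRingEnd ℂ) ((x * st x).coeff g) = (x * st x).coeff g⁻¹ := by
    intro g
    rw [coeff_mul_st, coeff_mul_st, map_sum]
    refine Fintype.sum_equiv (Equiv.mulLeft g) _ _ fun h => ?_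
    simp only [Equiv.coe_mulLeft, map_mul, Complex.conj_conj]
    rw [← mul_assoc, inv_mul_cancel, one_mul, mul_comm]
  conv_rhs => rw [expand (x * st x)]
  conv_lhs => unfold st
  refine Fintype.sum_equiv (Equiv.inv (Perm X)) _ _ fun g => ?_
  have h1 := hc g
  unfold st at h1
  rw [h1]
  rfl

private theorem mul_st_mul_ne_zero {x : MonoidAlgebra ℂ (Perm X)} (hx : x ≠ 0) :
    x * st x * x ≠ 0 := by
  intro h0
  have hp : x * st x ≠ 0 := by
    intro h1
    apply sum_normSq_ne_zero hx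
    rw [h1]; simp
  apply sum_normSq_ne_zero hp
  rw [st_mul_st, ← mul_assoc, h0, zero_mul]
  simp

/-- PROOF. `x := E a E' ≠ 0`. With `x* = ∑ conj(x_g) g⁻¹` one has `x x* x ≠ 0` (coefficient of `1` in
`y y* = y y`, `y = x x*`, is positive), so `E' b E ≠ 0` for `b = x*..`: precisely `x x* x = E a (E' x* E) a E'`, so
`E' x* E ≠ 0`. Now `EP_mul_EP` (Saxl/IrrB) gives both inequalities. -/
theorem EP_orth {ρ κ ρ' κ' : Word X} (h : IsTab (fun _ => 0) ρ κ)
    (h' : IsTab (fun _ => 0) ρ' κ') (a : MonoidAlgebra ℂ (Perm X))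
    (hne : EP ρ κ * a * EP ρ' κ' ≠ 0) (t : ℕ) :
    (univ.filter (fun x => ρ' x < t)).card = (univ.filter (fun x => ρ x < t)).card := by
  refine le_antisymm (EP_mul_EP h h' a hne t) ?_
  have h1 := mul_st_mul_ne_zero hne
  refine EP_mul_EP h' h (st (EP ρ κ * a * EP ρ' κ')) (fun h0 => h1 ?_) t
  calc EP ρ κ * a * EP ρ' κ' * st (EP ρ κ * a * EP ρ' κ') * (EP ρ κ * a * EP ρ' κ')
      = EP ρ κ * a * (EP ρ' κ' * st (EP ρ κ * a * EP ρ' κ') * EP ρ κ) * (a * EP ρ' κ') := by
        simp only [mul_assoc]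
    _ = 0 := by rw [h0, mul_zero, zero_mul]

theorem EP_zP_orth {ρ κ ρ' κ' : Word X} (h : IsTab (fun _ => 0) ρ κ)
    (h' : IsTab (fun _ => 0) ρ' κ') (a : MonoidAlgebra ℂ (Perm X))
    (hne : EP ρ κ * a * zP ρ' κ' ≠ 0) (t : ℕ) :
    (univ.filter (fun x => ρ' x < t)).card = (univ.filter (fun x => ρ x < t)).card := by
  unfold zP at hne
  rw [Finset.mul_sum] at hne
  obtain ⟨g, -, hg⟩ := Finset.exists_ne_zero_of_sum_ne_zero hne
  refine EP_orth h h' (a * MonoidAlgebra.of ℂ (Perm X) g) (fun h0 => hg ?_) t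
  calc EP ρ κ * a * (MonoidAlgebra.of ℂ (Perm X) g * EP ρ' κ' * MonoidAlgebra.of ℂ (Perm X) g⁻¹)
      = EP ρ κ * (a * MonoidAlgebra.of ℂ (Perm X) g) * EP ρ' κ' * MonoidAlgebra.of ℂ (Perm X) g⁻¹ := by
        simp only [mul_assoc]
    _ = 0 := by rw [h0, zero_mul]

/-- the algebra element acting on a nonzero representation -/
theorem yact_eq {V : Type} [AddCommGroup V] [Module ℂ V] (τ : Representation ℂ (Perm X) V)
    (ρ κ : Word X) (v : V) : yact τ ρ κ v = τ.asAlgebraHom (EP ρ κ) v := by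
  unfold yact EP
  rw [map_sum, LinearMap.sum_apply]
  refine Finset.sum_congr rfl fun r _ => ?_
  rw [map_sum, LinearMap.sum_apply]
  refine Finset.sum_congr rfl fun c _ => ?_
  rw [map_smul, LinearMap.smul_apply, Representation.asAlgebraHom_of]

end Crest.Agent.SaxlN
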