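import Crest.Agent.SaxlN.SysDefs

/-!
CHUNK UNION (medium/hard, ~250 lines; compare Saxl/Dk.lean, SaxlN/SysSemi.lean): peeling a unit.
-/

set_option autoImplicit false
set_option linter.unusedSectionVars false

namespace Crest.Agent.SaxlN

open Finset Equiv
open Crest.Agent.Saxl

section aux

variable {X : Type} [Fintype X] [DecidableEq X]

private theorem uOS (S : X → Prop) [DecidablePred S] (g : Perm {x // S x}) {x : X} (hx : S x) :
    (Perm.ofSubtype g : Perm X) x = g ⟨x, hx⟩ :=
  Perm.ofSubtype_apply_of_mem (p := S) g hx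

private theorem uOS' (S : X → Prop) [DecidablePred S] (g : Perm {x // S x}) {x : X} (hx : ¬ S x) :
    (Perm.ofSubtype g : Perm X) x = x :=
  Perm.ofSubtype_apply_of_not_mem (p := S) g hx

private theorem uON (S : X → Prop) [DecidablePred S] (g : Perm {x // ¬ S x}) {x : X}
    (hx : ¬ S x) : (Perm.ofSubtype g : Perm X) x = g ⟨x, hx⟩ :=
  Perm.ofSubtype_apply_of_mem (p := fun x => ¬ S x) g hx

private theorem uON' (S : X → Prop) [DecidablePred S] (g : Perm {x // ¬ S x}) {x : X}
    (hx : S x) : (Perm.ofSubtype g : Perm X) x = x :=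
  Perm.ofSubtype_apply_of_not_mem (p := fun x => ¬ S x) g (not_not.2 hx)

private theorem uComm (S : X → Prop) [DecidablePred S] (g : Perm {x // S x})
    (h : Perm {x // ¬ S x}) :
    (Perm.ofSubtype h * Perm.ofSubtype g : Perm X) = Perm.ofSubtype g * Perm.ofSubtype h := by
  ext x
  by_cases hx : S x
  · rw [Perm.mul_apply, Perm.mul_apply, uOS S g hx, uON' S h (g ⟨x, hx⟩).2, uON' S h hx,
      uOS S g hx]
  · rw [Perm.mul_apply, Perm.mul_apply, uOS' S g hx, uON S h hx, uOS' S g (h ⟨x, hx⟩).2]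

private theorem uDecomp (S : X → Prop) [DecidablePred S] (g : Perm X)
    (h0 : ∀ x, S (g x) ↔ S x) (h1 : ∀ x, ¬ S (g x) ↔ ¬ S x) :
    g = Perm.ofSubtype (g.subtypePerm (p := S) h0) *
      Perm.ofSubtype (g.subtypePerm (p := fun x => ¬ S x) h1) := by
  ext x
  by_cases hx : S x
  · rw [Perm.mul_apply, uON' S _ hx, uOS S _ hx]
    rfl
  · rw [Perm.mul_apply, uON S _ hx]
    change g x = (Perm.ofSubtype (g.subtypePerm (p := S) h0) : Perm X) (g x)
    rw [uOS' S _ ((h1 x).2 hx)]

/-- the representation of the permutations of the complement on a stable subspace -/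
private noncomputable def uSub (S : X → Prop) [DecidablePred S] {W : Type} [AddCommGroup W]
    [Module ℂ W] (σ : Representation ℂ (Perm X) W) (V : Submodule ℂ W)
    (hst : ∀ (h : Perm {x // ¬ S x}), ∀ v ∈ V, σ (Perm.ofSubtype h) v ∈ V) :
    Representation ℂ (Perm {x // ¬ S x}) V where
  toFun h := (σ (Perm.ofSubtype h)).restrict (hst h)
  map_one' := by
    ext x
    simp
  map_mul' g g' := by
    ext x
    simp [LinearMap.restrict_apply]

private theorem uSub_coe (S : X → Prop) [DecidablePred S] {W : Type} [AddCommGroup W]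
    [Module ℂ W] (σ : Representation ℂ (Perm X) W) (V : Submodule ℂ W)
    (hst : ∀ (h : Perm {x // ¬ S x}), ∀ v ∈ V, σ (Perm.ofSubtype h) v ∈ V)
    (h : Perm {x // ¬ S x}) (v : V) :
    ((uSub S σ V hst h v : V) : W) = σ (Perm.ofSubtype h) (v : W) := rfl

/-- gluing of words -/
private def ugl (S : X → Prop) [DecidablePred S] (a : Word {x // S x}) (b : Word {x // ¬ S x}) :
    Word X :=
  fun x => if h : S x then a ⟨x, h⟩ else b ⟨x, h⟩

private theorem ugl_of_mem {S : X → Prop} [DecidablePred S] (a : Word {x // S x})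
    (b : Word {x // ¬ S x}) {x : X} (h : S x) : ugl S a b x = a ⟨x, h⟩ := by
  simp [ugl, h]

private theorem ugl_of_not {S : X → Prop} [DecidablePred S] (a : Word {x // S x})
    (b : Word {x // ¬ S x}) {x : X} (h : ¬ S x) : ugl S a b x = b ⟨x, h⟩ := by
  simp [ugl, h]

private theorem ugl_card (S : X → Prop) [DecidablePred S] (a : Word {x // S x})
    (b : Word {x // ¬ S x}) (L : ℕ) :
    (univ.filter (fun x => ugl S a b x = L)).card =
      (univ.filter (fun x => a x = L)).card + (univ.filter (fun x => b x = L)).card := by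
  have h1 : (univ.filter (fun x => ugl S a b x = L)) =
      ((univ.filter (fun x => a x = L)).map (Function.Embedding.subtype _)) ∪
        ((univ.filter (fun x => b x = L)).map (Function.Embedding.subtype _)) := by
    ext x
    simp only [mem_filter, mem_univ, true_and, mem_union, mem_map,
      Function.Embedding.coe_subtype]
    constructor
    · intro hx
      by_cases hS : S x
      · rw [ugl_of_mem a b hS] at hx
        exact Or.inl ⟨⟨x, hS⟩, hx, rfl⟩
      · rw [ugl_of_not a b hS] at hx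
        exact Or.inr ⟨⟨x, hS⟩, hx, rfl⟩
    · rintro (⟨y, hy, rfl⟩ | ⟨y, hy, rfl⟩)
      · rw [ugl_of_mem a b y.2]
        exact hy
      · rw [ugl_of_not a b y.2]
        exact hy
  rw [h1, Finset.card_union_of_disjoint, card_map, card_map]
  rw [Finset.disjoint_left]
  intro x hx hx'
  simp only [mem_map, mem_filter, mem_univ, true_and, Function.Embedding.coe_subtype] at hx hx'
  obtain ⟨y, _, rfl⟩ := hx
  obtain ⟨z, _, hz⟩ := hx'
  exact z.2 (by rw [hz]; exact y.2)

private theorem Lay.mem {La P : Finset ℕ} {t t' : ℕ → Bool} {u cl : Word X}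
    (h : Lay La P t t' u cl) (x : X) : u x ∈ La := by
  have h1 := h.card (u x)
  have h2 : 0 < (univ.filter (fun y => u y = u x)).card :=
    Finset.card_pos.2 ⟨x, by simp⟩
  rw [h1] at h2
  by_cases hP : u x ∈ P
  · exact (h.sub _ hP).1
  · rw [if_neg hP] at h2
    by_cases hc : u x ∈ La ∧ u x + 1 ∉ P
    · exact hc.1
    · rw [if_neg hc] at h2
      exact absurd h2 (lt_irrefl 0)

private theorem semi_glue {S : X → Prop} [DecidablePred S] {U : Finset ℕ}
    {u₀ cl₀ : Word {x // S x}} {u₁ cl₁ : Word {x // ¬ S x}} {s₀ s₁ : ℕ → Bool}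
    (hu₀ : ∀ x, u₀ x ∈ U) (hu₁ : ∀ x, u₁ x ∉ U)
    {W : Type} [AddCommGroup W] [Module ℂ W] (σ : Representation ℂ (Perm X) W) (w : W)
    (h0 : SemiInv u₀ cl₀ s₀ (resS S σ) w)
    (h1 : ∀ g : Perm {x // ¬ S x}, u₁ ∘ g = u₁ → cl₁ ∘ g = cl₁ →
      σ (Perm.ofSubtype g) w = (((sgnT (fun x => s₁ (u₁ x)) g : ℤˣ) : ℤ) : ℂ) • w) :
    SemiInv (ugl S u₀ u₁) (ugl S cl₀ cl₁) (fun L => if L ∈ U then s₀ L else s₁ L) σ w := by
  intro g hu hc
  have hS : ∀ x, S x ↔ ugl S u₀ u₁ x ∈ U := by
    intro x
    by_cases hx : S x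
    · rw [ugl_of_mem _ _ hx]
      exact ⟨fun _ => hu₀ _, fun _ => hx⟩
    · rw [ugl_of_not _ _ hx]
      exact ⟨fun h => absurd h hx, fun h => absurd h (hu₁ _)⟩
  have hg0 : ∀ x, S (g x) ↔ S x := by
    intro x
    rw [hS, hS x]
    have := congrFun hu x
    simp only [Function.comp_apply] at this
    rw [this]
  have hg1 : ∀ x, ¬ S (g x) ↔ ¬ S x := fun x => not_congr (hg0 x)
  set g₀ : Perm {x // S x} := g.subtypePerm (p := S) hg0 with hg₀
  set g₁ : Perm {x // ¬ S x} := g.subtypePerm (p := fun x => ¬ S x) hg1 with hg₁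
  have hdec : g = Perm.ofSubtype g₀ * Perm.ofSubtype g₁ := uDecomp S g hg0 hg1
  have a0 : u₀ ∘ g₀ = u₀ := by
    funext x
    have := congrFun hu x.1
    simp only [Function.comp_apply] at this
    rw [ugl_of_mem _ _ x.2, ugl_of_mem _ _ ((hg0 _).2 x.2)] at this
    exact this
  have a1 : u₁ ∘ g₁ = u₁ := by
    funext x
    have := congrFun hu x.1
    simp only [Function.comp_apply] at this
    rw [ugl_of_not _ _ x.2, ugl_of_not _ _ ((hg1 _).2 x.2)] at this
    exact this
  have b0 : cl₀ ∘ g₀ = cl₀ := by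
    funext x
    have := congrFun hc x.1
    simp only [Function.comp_apply] at this
    rw [ugl_of_mem _ _ x.2, ugl_of_mem _ _ ((hg0 _).2 x.2)] at this
    exact this
  have b1 : cl₁ ∘ g₁ = cl₁ := by
    funext x
    have := congrFun hc x.1
    simp only [Function.comp_apply] at this
    rw [ugl_of_not _ _ x.2, ugl_of_not _ _ ((hg1 _).2 x.2)] at this
    exact this
  set T : X → Bool := fun x =>
    (fun L => if L ∈ U then s₀ L else s₁ L) (ugl S u₀ u₁ x) with hT
  have hT0 : (fun x : {x // S x} => T x) = fun x => s₀ (u₀ x) := by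
    funext x
    simp only [hT]
    rw [ugl_of_mem _ _ x.2, if_pos (hu₀ _)]
  have hT1 : (fun x : {x // ¬ S x} => T x) = fun x => s₁ (u₁ x) := by
    funext x
    simp only [hT]
    rw [ugl_of_not _ _ x.2, if_neg (hu₁ _)]
  have c0 : (fun x : {x // S x} => T x) ∘ g₀ = (fun x : {x // S x} => T x) := by
    rw [hT0]
    funext x
    have := congrFun a0 x
    simp only [Function.comp_apply] at this ⊢
    rw [this]
  have c1 : (fun x : {x // ¬ S x} => T x) ∘ g₁ = (fun x : {x // ¬ S x} => T x) := by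
    rw [hT1]
    funext x
    have := congrFun a1 x
    simp only [Function.comp_apply] at this ⊢
    rw [this]
  have d0 : T ∘ (Perm.ofSubtype g₀ : Perm X) = T := by
    funext x
    rw [Function.comp_apply]
    by_cases hx : S x
    · rw [uOS S g₀ hx]
      exact congrFun c0 ⟨x, hx⟩
    · rw [uOS' S g₀ hx]
  have d1 : T ∘ (Perm.ofSubtype g₁ : Perm X) = T := by
    funext x
    rw [Function.comp_apply]
    by_cases hx : S x
    · rw [uON' S g₁ hx]
    · rw [uON S g₁ hx]
      exact congrFun c1 ⟨x, hx⟩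
  have e0 : sgnT T (Perm.ofSubtype g₀) = sgnT (fun x => s₀ (u₀ x)) g₀ := by
    rw [sgnT_ofSubtype S g₀ c0, hT0]
  have e1 : sgnT T (Perm.ofSubtype g₁) = sgnT (fun x => s₁ (u₁ x)) g₁ := by
    rw [sgnT_ofSubtype (fun x => ¬ S x) g₁ c1, hT1]
  have f0 : σ (Perm.ofSubtype g₀) w =
      (((sgnT (fun x => s₀ (u₀ x)) g₀ : ℤˣ) : ℤ) : ℂ) • w := h0 g₀ a0 b0
  have f1 := h1 g₁ a1 b1
  have hsg : sgnT T g = sgnT T (Perm.ofSubtype g₀) * sgnT T (Perm.ofSubtype g₁) := by
    rw [← sgnT_mul d0 d1, ← hdec]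
  rw [hsg, e0, e1]
  have hw : σ g w = σ (Perm.ofSubtype g₀) (σ (Perm.ofSubtype g₁) w) := by
    conv_lhs => rw [hdec]
    rw [map_mul]
    rfl
  rw [hw, f1, map_smul, f0, smul_smul, Units.val_mul, Int.cast_mul, mul_comm]

end aux

/-- PROOF. `h` gives `P₀, t₀, t₀', u₀, cl₀` on `S` and `w₀ ≠ 0`. Let `V ⊆ W` be the submodule of all `w` with
`σ (ofSubtype g) w = sgnT .. g • w` for all `g : Perm S` preserving `u₀, cl₀`. It contains `w₀ ≠ 0` and is stable under
`σ (ofSubtype h)`, `h : Perm {x // ¬ S x}` (disjoint permutations commute), so it is a representation `τ` of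
`Perm {x // ¬ S x}`; `hrest` gives `P₁, t₁, t₁', u₁, cl₁`, `w ∈ V`, `w ≠ 0`. Take `P = P₀ ∪ P₁`, `t L = if L ∈ U then t₀ L else
t₁ L`, same for `t'`, `u, cl` glued from the words on `S` and its complement. `Lay`: `sub` clear; `sep`: if `L ∈ P₀` and
`L + 1 ∈ P₁` then `L ∈ La'` and `L ∈ U`, contradiction with `hd`, same for the other order; `typ`: `L, L-1` are both in `U`
or both in `La'`; `card`: sum of the two formulas (if `L ∈ P₀` then `L ∉ La'`, and so on; if `L ∈ U`, `L ∉ P₀`, `L + 1 ∉ P₀`,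
then `L + 1 ∉ P₁` as otherwise `L ∈ La'`). `SemiInv`: a permutation `g` with `u ∘ g = u` preserves `S`
(`x ∈ S ↔ u x ∈ U`: the label classes on `S` are nonempty only for labels in `U`, on the complement for labels in
`La'`; `U, La'` disjoint), so `g = ofSubtype g₀ * ofSubtype g₁`; `w ∈ V` and `w` semi-invariant for `g₁`; the signs multiply:
`sgnT T g = sgnT (T|S) g₀ * sgnT (T|Sᶜ) g₁` (`sgnT_mul`, `sgnT_ofSubtype` in SaxlN/Sgn.lean). -/
theorem HasV.union {U La' : Finset ℕ} (hd : Disjoint U La')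
    {C C' C'' : (ℕ → Bool) → (ℕ → Bool) → Prop}
    (hC : ∀ t₀ t₀' t₁ t₁', C t₀ t₀' → C' t₁ t₁' →
      C'' (fun L => if L ∈ U then t₀ L else t₁ L) (fun L => if L ∈ U then t₀' L else t₁' L))
    {X : Type} [Fintype X] [DecidableEq X] (S : X → Prop) [DecidablePred S]
    {W : Type} [AddCommGroup W] [Module ℂ W] (σ : Representation ℂ (Perm X) W)
    (h : HasV U C (resS S σ))
    (hrest : ∀ (V : Type) [AddCommGroup V] [Module ℂ V] [Nontrivial V]
      (τ : Representation ℂ (Perm {x // ¬ S x}) V), HasV La' C' τ) :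
    HasV (U ∪ La') C'' σ := by
  classical
  obtain ⟨P₀, t₀, t₀', u₀, cl₀, w₀, hL0, hC0, hw0, hs0⟩ := h
  set V : Submodule ℂ W :=
    { carrier := {w | SemiInv u₀ cl₀ (fun L => xor (t₀ L) (t₀' L)) (resS S σ) w}
      add_mem' := by
        intro a b ha hb g h1 h2
        rw [map_add, ha g h1 h2, hb g h1 h2, smul_add]
      zero_mem' := by
        intro g _ _
        rw [map_zero, smul_zero]
      smul_mem' := by
        intro c a ha g h1 h2
        rw [map_smul, ha g h1 h2, smul_comm] } with hV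
  have hVmem : ∀ w, w ∈ V ↔ SemiInv u₀ cl₀ (fun L => xor (t₀ L) (t₀' L)) (resS S σ) w :=
    fun w => Iff.rfl
  have hst : ∀ (h : Perm {x // ¬ S x}), ∀ v ∈ V, σ (Perm.ofSubtype h) v ∈ V := by
    intro h v hv
    rw [hVmem] at hv ⊢
    intro g h1 h2
    have e1 : resS S σ g (σ (Perm.ofSubtype h) v) = σ (Perm.ofSubtype h) (resS S σ g v) := by
      rw [resS_apply, resS_apply, ← Module.End.mul_apply, ← Module.End.mul_apply, ← map_mul,
        ← map_mul, uComm S g h]
    rw [e1, hv g h1 h2, map_smul]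
  have hnt : Nontrivial V := ⟨⟨⟨w₀, (hVmem _).2 hs0⟩, 0, fun h => hw0 (congrArg Subtype.val h)⟩⟩
  obtain ⟨P₁, t₁, t₁', u₁, cl₁, w, hL1, hC1, hw1, hs1⟩ := hrest V (uSub S σ V hst)
  have hdis : ∀ L, L ∈ U → L ∉ La' := fun L h1 h2 => Finset.disjoint_left.1 hd h1 h2
  have hu₀ : ∀ x, u₀ x ∈ U := fun x => Lay.mem hL0 x
  have hu₁ : ∀ x, u₁ x ∉ U := fun x hx => hdis _ hx (Lay.mem hL1 x)
  refine ⟨P₀ ∪ P₁, fun L => if L ∈ U then t₀ L else t₁ L,
    fun L => if L ∈ U then t₀' L else t₁' L, ugl S u₀ u₁, ugl S cl₀ cl₁, (w : W), ?_,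
    hC _ _ _ _ hC0 hC1, fun h => hw1 (Subtype.ext h), ?_⟩
  · constructor
    · intro L hL
      rcases mem_union.1 hL with h | h
      · exact ⟨mem_union_left _ (hL0.sub L h).1, mem_union_left _ (hL0.sub L h).2⟩
      · exact ⟨mem_union_right _ (hL1.sub L h).1, mem_union_right _ (hL1.sub L h).2⟩
    · intro L hL hL'
      rcases mem_union.1 hL with h | h
      · rcases mem_union.1 hL' with h' | h'
        · exact hL0.sep L h h'
        · exact hdis L (hL0.sub L h).1 (by simpa using (hL1.sub _ h').2)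
      · rcases mem_union.1 hL' with h' | h'
        · exact hdis L (by simpa using (hL0.sub _ h').2) (hL1.sub L h).1
        · exact hL1.sep L h h'
    · intro L hL
      rcases mem_union.1 hL with h | h
      · obtain ⟨a, b⟩ := hL0.sub L h
        obtain ⟨c, d⟩ := hL0.typ L h
        simp only [if_pos a, if_pos b]
        exact ⟨c, d⟩
      · obtain ⟨a, b⟩ := hL1.sub L h
        obtain ⟨c, d⟩ := hL1.typ L h
        have a' : L ∉ U := fun hx => hdis _ hx a
        have b' : L - 1 ∉ U := fun hx => hdis _ hx b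
        simp only [if_neg a', if_neg b']
        exact ⟨c, d⟩
    · intro L
      rw [ugl_card, hL0.card, hL1.card]
      by_cases h0 : L ∈ P₀
      · have a := (hL0.sub L h0).1
        have b := hdis L a
        have c : L ∉ P₁ := fun h => b (hL1.sub L h).1
        rw [if_pos h0, if_neg c, if_neg (fun h => b h.1), if_pos (mem_union_left _ h0), add_zero]
      · by_cases h1 : L ∈ P₁
        · have a := (hL1.sub L h1).1
          have b : L ∉ U := fun h => hdis L h a
          rw [if_neg h0, if_pos h1, if_neg (fun h => b h.1), if_pos (mem_union_right _ h1),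
            zero_add]
        · have hn : L ∉ P₀ ∪ P₁ := by simp [h0, h1]
          rw [if_neg h0, if_neg h1, if_neg hn]
          by_cases hU : L ∈ U
          · have b := hdis L hU
            have c : L + 1 ∉ P₁ := fun h => b (by simpa using (hL1.sub _ h).2)
            by_cases hc : L + 1 ∈ P₀
            · rw [if_neg (fun h => h.2 hc), if_neg (fun h => b h.1),
                if_neg (fun h => h.2 (mem_union_left _ hc))]
            · have hn' : L + 1 ∉ P₀ ∪ P₁ := by simp [hc, c]
              rw [if_pos ⟨hU, hc⟩, if_neg (fun h => b h.1),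
                if_pos ⟨mem_union_left _ hU, hn'⟩, add_zero]
          · by_cases hL' : L ∈ La'
            · have c : L + 1 ∉ P₀ := fun h => hU (by simpa using (hL0.sub _ h).2)
              by_cases hc : L + 1 ∈ P₁
              · rw [if_neg (fun h => hU h.1), if_neg (fun h => h.2 hc),
                  if_neg (fun h => h.2 (mem_union_right _ hc))]
              · have hn' : L + 1 ∉ P₀ ∪ P₁ := by simp [hc, c]
                rw [if_neg (fun h => hU h.1), if_pos ⟨hL', hc⟩,
                  if_pos ⟨mem_union_right _ hL', hn'⟩, zero_add]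
            · rw [if_neg (fun h => hU h.1), if_neg (fun h => hL' h.1),
                if_neg (fun h => (mem_union.1 h.1).elim hU hL')]
    · intro x
      by_cases hx : S x
      · rw [ugl_of_mem _ _ hx]; exact hL0.cl4 _
      · rw [ugl_of_not _ _ hx]; exact hL1.cl4 _
    · intro x hP
      by_cases hx : S x
      · rw [ugl_of_mem _ _ hx] at hP ⊢
        exact hL0.cl0 _ fun h => hP (mem_union_left _ h)
      · rw [ugl_of_not _ _ hx] at hP ⊢
        exact hL1.cl0 _ fun h => hP (mem_union_right _ h)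
  · have hsemi := semi_glue (S := S) (U := U) (u₀ := u₀) (cl₀ := cl₀) (u₁ := u₁) (cl₁ := cl₁)
      (s₀ := fun L => xor (t₀ L) (t₀' L)) (s₁ := fun L => xor (t₁ L) (t₁' L)) hu₀ hu₁ σ (w : W)
      w.2 (by
        intro g h1 h2
        have := congrArg Subtype.val (hs1 g h1 h2)
        exact this)
    have e : (fun L => xor (if L ∈ U then t₀ L else t₁ L) (if L ∈ U then t₀' L else t₁' L)) =
        fun L => if L ∈ U then xor (t₀ L) (t₀' L) else xor (t₁ L) (t₁' L) := by
      funext L
      by_cases hL : L ∈ U <;> simp [hL]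
    change SemiInv _ _ (fun L => xor (if L ∈ U then t₀ L else t₁ L)
      (if L ∈ U then t₀' L else t₁' L)) σ (w : W)
    rw [e]
    exact hsemi

private theorem cntL_union {U La' : Finset ℕ} (hd : Disjoint U La') (t₀ t₁ : ℕ → Bool)
    (s : Bool) (L : ℕ) :
    cntL (U ∪ La') (fun L => if L ∈ U then t₀ L else t₁ L) s L =
      cntL U t₀ s L + cntL La' t₁ s L := by
  classical
  unfold cntL
  rw [Finset.filter_union, Finset.card_union_of_disjoint]
  · congr 2
    · apply Finset.filter_congr
      intro M hM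
      simp only [if_pos hM]
    · apply Finset.filter_congr
      intro M hM
      have hM' : M ∉ U := fun h => Finset.disjoint_left.1 hd h hM
      simp only [if_neg hM']
  · exact Finset.disjoint_filter_filter hd

private theorem Bal_union {U La' : Finset ℕ} (hd : Disjoint U La') {t₀ t₁ : ℕ → Bool}
    (h0 : Bal U t₀) (h1 : Bal La' t₁) :
    Bal (U ∪ La') (fun L => if L ∈ U then t₀ L else t₁ L) := by
  intro L hL
  rw [cntL_union hd, cntL_union hd, h0 L (fun h => hL (mem_union_left _ h)),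
    h1 L (fun h => hL (mem_union_right _ h))]

/-- PROOF. `HasV.union` with the balance constraints: `Bal (U ∪ La') t` from `Bal U t₀` and `Bal La' t₁`: if
`L + 1 ∉ U ∪ La'` both counts are balanced and `cntL` is additive over the disjoint union (and only depends on the
values of `t` on the set). -/
theorem HasSV.union {U La' : Finset ℕ} (hd : Disjoint U La')
    {X : Type} [Fintype X] [DecidableEq X] (S : X → Prop) [DecidablePred S]
    {W : Type} [AddCommGroup W] [Module ℂ W] (σ : Representation ℂ (Perm X) W)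
    (h : HasSV U (resS S σ))
    (hrest : ∀ (V : Type) [AddCommGroup V] [Module ℂ V] [Nontrivial V]
      (τ : Representation ℂ (Perm {x // ¬ S x}) V), HasSV La' τ) :
    HasSV (U ∪ La') σ :=
  HasV.union hd (C := fun t t' => Bal U t ∧ Bal U t') (C' := fun t t' => Bal La' t ∧ Bal La' t')
    (C'' := fun t t' => Bal (U ∪ La') t ∧ Bal (U ∪ La') t')
    (fun _ _ _ _ h0 h1 => ⟨Bal_union hd h0.1 h1.1, Bal_union hd h0.2 h1.2⟩) S σ h hrest

private theorem HasV.twist_aux {X : Type} [Fintype X] [DecidableEq X] {La : Finset ℕ}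
    {C C' : (ℕ → Bool) → (ℕ → Bool) → Prop} (hC : ∀ t t', C t t' → C' t (fun L => !t' L))
    {W : Type} [AddCommGroup W] [Module ℂ W] {σ σ' : Representation ℂ (Perm X) W}
    (hσ : ∀ g w, σ' g w = (((Perm.sign g : ℤˣ) : ℤ) : ℂ) • σ g w) (h : HasV La C σ') :
    HasV La C' σ := by
  obtain ⟨P, t, t', u, cl, w, hL, hc, hw, hs⟩ := h
  refine ⟨P, t, fun L => !t' L, u, cl, w, ?_, hC _ _ hc, hw, ?_⟩
  · exact ⟨hL.sub, hL.sep, fun L h => ⟨(hL.typ L h).1, by rw [(hL.typ L h).2]⟩, hL.card, hL.cl4,
      hL.cl0⟩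
  · intro g h1 h2
    have e := hs g h1 h2
    rw [hσ] at e
    have hT : (fun x => xor (t (u x)) (t' (u x))) ∘ g = fun x => xor (t (u x)) (t' (u x)) := by
      funext x
      have := congrFun h1 x
      simp only [Function.comp_apply] at this ⊢
      rw [this]
    have e2 : (fun x => xor (t (u x)) (!t' (u x))) = fun x => !(xor (t (u x)) (t' (u x))) := by
      funext x
      cases t (u x) <;> cases t' (u x) <;> rfl
    change σ g w = (((sgnT (fun x => xor (t (u x)) (!t' (u x))) g : ℤˣ) : ℤ) : ℂ) • w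
    rw [e2, sgnT_not hT, Units.val_mul, Int.cast_mul, mul_smul]
    change (((Perm.sign g : ℤˣ) : ℤ) : ℂ) • σ g w =
      (((sgnT (fun x => xor (t (u x)) (t' (u x))) g : ℤˣ) : ℤ) : ℂ) • w at e
    rw [← e, smul_smul, ← Int.cast_mul, ← Units.val_mul, Int.units_mul_self]
    simp

private theorem Bal_not {La : Finset ℕ} {t : ℕ → Bool} (h : Bal La t) :
    Bal La (fun L => !t L) := by
  intro L hL
  have e : ∀ s, cntL La (fun L => !t L) s L = cntL La t (!s) L := by
    intro s
    unfold cntL
    congr 1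
    apply Finset.filter_congr
    intro M _
    have e : ((!t M) = s) ↔ (t M = !s) := by cases s <;> cases t M <;> simp
    simp only [e]
  rw [e, e]
  exact (h L hL).symm

/-- A semi-invariant vector for `W ⊗ sign` gives one for `W`.
PROOF. Replace `t'` by `! t'`: `Bal La (! t')` (the two counts are exchanged), `xor (t L) (! t' L) = ! (xor ..)`, and
`sign g * sgnT T g = sgnT (! T) g` for `g` preserving `T` (`sgnT_not`). -/
theorem HasSV.twist {X : Type} [Fintype X] [DecidableEq X] {La : Finset ℕ}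
    {W : Type} [AddCommGroup W] [Module ℂ W] {σ σ' : Representation ℂ (Perm X) W}
    (hσ : ∀ g w, σ' g w = (((Perm.sign g : ℤˣ) : ℤ) : ℂ) • σ g w) (h : HasSV La σ') : HasSV La σ :=
  HasV.twist_aux (fun _ _ h => ⟨h.1, Bal_not h.2⟩) hσ h

/-- the same with no constraint -/
theorem HasV.twist {X : Type} [Fintype X] [DecidableEq X] {La : Finset ℕ}
    {W : Type} [AddCommGroup W] [Module ℂ W] {σ σ' : Representation ℂ (Perm X) W}
    (hσ : ∀ g w, σ' g w = (((Perm.sign g : ℤˣ) : ℤ) : ℂ) • σ g w)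
    (h : HasV La (fun _ _ => True) σ') : HasV La (fun _ _ => True) σ :=
  HasV.twist_aux (fun _ _ _ => trivial) hσ h

end Crest.Agent.SaxlN
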