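import Crest.Agent.SaxlN.Units
import Crest.Agent.SaxlN.VecSplit
import Crest.Agent.SaxlN.VecMajor

/-!
CHUNK UNITH (medium, ~120 lines; VecBasic, VecMajor, VecSplit are black boxes).
-/

set_option autoImplicit false

namespace Crest.Agent.SaxlN

open Finset Equiv
open Crest.Agent.Saxl

variable {X : Type} [Fintype X] [DecidableEq X]
variable {W : Type} [AddCommGroup W] [Module ℂ W]

private lemma uh_sum_sz (b : Word X) (k : ℕ) : ∑ i ∈ range k, sz b i = sr b k := by
  classical
  induction k with
  | zero => simp [sr]
  | succ k ih =>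
    rw [sum_range_succ, ih]
    unfold sr sz
    rw [← card_union_of_disjoint]
    · congr 1
      ext x
      simp only [mem_union, mem_filter, mem_univ, true_and]
      omega
    · rw [disjoint_left]
      intro x hx hy
      simp only [mem_filter, mem_univ, true_and] at hx hy
      omega

omit [DecidableEq X] in
private lemma uh_anti {ρ κ : Word X} (ht : IsTab (fun _ => 0) ρ κ) {i j : ℕ} (hij : i ≤ j) :
    sz ρ j ≤ sz ρ i := by
  classical
  have hex : ∀ x : X, ∃ y : X, ρ x = j → ρ y = i ∧ κ y = κ x := by
    intro x
    by_cases hx : ρ x = j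
    · obtain ⟨y, _, h2, h3⟩ := ht.lower x i (κ x) (by omega) le_rfl
      exact ⟨y, fun _ => ⟨h2, h3⟩⟩
    · exact ⟨x, fun h => absurd h hx⟩
  choose f hf using hex
  unfold sz
  refine card_le_card_of_injOn f ?_ ?_
  · intro x hx
    simp only [mem_coe, mem_filter, mem_univ, true_and] at hx ⊢
    exact (hf x hx).1
  · intro x hx y hy hxy
    simp only [mem_coe, mem_filter, mem_univ, true_and] at hx hy
    apply ht.inj
    have h1 := (hf x hx).2
    have h2 := (hf y hy).2
    rw [hxy] at h1
    simp only [Prod.mk.injEq, true_and]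
    exact ⟨by rw [hx, hy], by rw [← h1, h2]⟩

private lemma uh_dom {ρ κ : Word X} (ht : IsTab (fun _ => 0) ρ κ) {a : ℕ}
    (hm : 2 * a + 1 ≤ sr ρ 2) (k : ℕ) :
    Fintype.card X ≤ sr ρ (k + 2) ∨ 2 * a + 1 + k ≤ sr ρ (k + 2) := by
  classical
  induction k with
  | zero => right; simpa using hm
  | succ k ih =>
    have hs : sr ρ (k + 1 + 2) = sr ρ (k + 2) + sz ρ (k + 2) := by
      rw [← uh_sum_sz, ← uh_sum_sz, sum_range_succ]
    rcases ih with ih | ih
    · left; omega
    · rcases Nat.eq_zero_or_pos (sz ρ (k + 2)) with h0 | h0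
      · left
        have : ∀ x, ρ x < k + 2 := by
          intro x
          by_contra hc
          obtain ⟨y, _, h2, _⟩ := ht.lower x (k + 2) 0 (by omega) (Nat.zero_le _)
          unfold sz at h0
          rw [card_eq_zero, filter_eq_empty_iff] at h0
          exact h0 (mem_univ y) h2
        have h1 : sr ρ (k + 2) = Fintype.card X := by
          unfold sr
          rw [filter_true_of_mem (fun x _ => this x), card_univ]
        omega
      · right; omega

/-- PROOF. As `unitF_R`: two single lines `a+1, a`, `P = ∅`, `t = t' = ` (`false` on `a+1`, `true` on `a`), targets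
`a+1, a, 1, 1, ..`: row lengths `r_0 ≥ r_1` with `r_0 + r_1 ≥ 2a+1`, so `r_0 ≥ a + 1`. -/
theorem unitH_R {a : ℕ} (ha : 1 ≤ a) {σ : Representation ℂ (Perm X) W} {ρ κ : Word X}
    (ht : IsTab (fun _ => 0) ρ κ) {w : W} (hw : yact σ ρ κ w ≠ 0) (hm : 2 * a + 1 ≤ sr ρ 2)
    (S : X → Prop) [DecidablePred S] (hS : Fintype.card {x // S x} = 2 * a + 1) :
    HasSV ({a + 1, a} : Finset ℕ) (resS S σ) := by
  classical
  obtain ⟨eS⟩ : Nonempty ({x // S x} ≃ Fin (2 * a + 1)) := ⟨Fintype.equivFinOfCardEq hS⟩
  obtain ⟨m, hmc⟩ : ∃ m, Fintype.card {x // ¬ S x} = m := ⟨_, rfl⟩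
  obtain ⟨eC⟩ : Nonempty ({x // ¬ S x} ≃ Fin m) := ⟨Fintype.equivFinOfCardEq hmc⟩
  have hcard : Fintype.card X = 2 * a + 1 + m := by
    rw [← hS, ← hmc]
    have h := Fintype.sum_subtype_add_sum_subtype S (fun _ : X => 1)
    simpa using h.symm
  set u : Word {x // S x} := fun x => if (eS x : ℕ) < a + 1 then a + 1 else a with hu
  set b : Word X := fun x => if h : S x then (if (eS ⟨x, h⟩ : ℕ) < a + 1 then 0 else 1)
    else 2 + (eC ⟨x, h⟩ : ℕ) with hb
  have hbS : ∀ x : {x // S x}, b x = if (eS x : ℕ) < a + 1 then 0 else 1 := by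
    intro x; simp only [hb]; rw [dif_pos x.2]
  have hbC : ∀ x : {x // ¬ S x}, b x = 2 + (eC x : ℕ) := by
    intro x; simp only [hb]; rw [dif_neg x.2]
  -- sums over the letters
  have hsum : ∀ f : ℕ → ℕ, ∑ x : X, f (b x) =
      ∑ i ∈ range (2 * a + 1), f (if i < a + 1 then 0 else 1) + ∑ i ∈ range m, f (2 + i) := by
    intro f
    rw [← Fintype.sum_subtype_add_sum_subtype S (fun x => f (b x))]
    congr 1
    · rw [← Fin.sum_univ_eq_sum_range (fun i => f (if i < a + 1 then 0 else 1))]
      rw [← Equiv.sum_comp eS (fun i : Fin (2 * a + 1) => f (if (i : ℕ) < a + 1 then 0 else 1))]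
      exact sum_congr rfl fun x _ => by rw [hbS]
    · rw [← Fin.sum_univ_eq_sum_range (fun i => f (2 + i))]
      rw [← Equiv.sum_comp eC (fun i : Fin m => f (2 + (i : ℕ)))]
      exact sum_congr rfl fun x _ => by rw [hbC]
  have hszb : ∀ l, sz b l = ∑ x : X, (if b x = l then 1 else 0) := by
    intro l; unfold sz; rw [card_filter]
  have hsrb : ∀ l, sr b l = ∑ x : X, (if b x < l then 1 else 0) := by
    intro l; unfold sr; rw [card_filter]
  have hr1 : ((range (2 * a + 1)).filter (fun i => i < a + 1)).card = a + 1 := by
    have : (range (2 * a + 1)).filter (fun i => i < a + 1) = range (a + 1) := by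
      ext i; simp only [mem_filter, mem_range]; omega
    rw [this, card_range]
  have hr2 : ((range (2 * a + 1)).filter (fun i => ¬ i < a + 1)).card = a := by
    have h := card_filter_add_card_filter_not (s := range (2 * a + 1)) (fun i => i < a + 1)
    rw [hr1, card_range] at h
    omega
  have hb0 : sz b 0 = a + 1 := by
    rw [hszb, hsum (fun z => if z = 0 then 1 else 0)]
    have h1 : ∑ i ∈ range (2 * a + 1), (if (if i < a + 1 then 0 else 1) = 0 then 1 else 0) = a + 1 := by
      refine Eq.trans ?_ hr1
      rw [card_filter]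
      refine sum_congr rfl fun i _ => ?_
      by_cases h : i < a + 1
      · simp [h]
      · simp [h]
    rw [h1]
    have h2 : ∑ i ∈ range m, (if 2 + i = 0 then 1 else 0) = 0 :=
      sum_eq_zero fun i _ => by rw [if_neg (by omega)]
    rw [h2]
  have hb1 : sz b 1 = a := by
    rw [hszb, hsum (fun z => if z = 1 then 1 else 0)]
    have h1 : ∑ i ∈ range (2 * a + 1), (if (if i < a + 1 then 0 else 1) = 1 then 1 else 0) = a := by
      refine Eq.trans ?_ hr2
      rw [card_filter]
      refine sum_congr rfl fun i _ => ?_
      by_cases h : i < a + 1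
      · simp [h]
      · simp [h]
    rw [h1]
    have h2 : ∑ i ∈ range m, (if 2 + i = 1 then 1 else 0) = 0 :=
      sum_eq_zero fun i _ => by rw [if_neg (by omega)]
    rw [h2, add_zero]
  have hb2 : ∀ l, sz b (l + 2) = if l < m then 1 else 0 := by
    intro l
    rw [hszb, hsum (fun z => if z = l + 2 then 1 else 0)]
    have h1 : ∑ i ∈ range (2 * a + 1), (if (if i < a + 1 then 0 else 1) = l + 2 then 1 else 0) = 0 :=
      sum_eq_zero fun i _ => by
        by_cases h : i < a + 1
        · rw [if_pos h, if_neg (by omega)]
        · rw [if_neg h, if_neg (by omega)]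
    rw [h1, zero_add]
    have h2 : ∀ i ∈ range m, (if 2 + i = l + 2 then 1 else 0) = (if l = i then 1 else 0) := by
      intro i _
      by_cases h : l = i
      · rw [if_pos (by omega), if_pos h]
      · rw [if_neg (by omega), if_neg h]
    rw [sum_congr rfl h2, sum_ite_eq]
    simp only [mem_range]
  have hsb1 : sr b 1 = a + 1 := by
    rw [← uh_sum_sz, sum_range_one, hb0]
  have hsb2 : ∀ k, sr b (k + 2) ≤ Fintype.card X ∧ sr b (k + 2) ≤ 2 * a + 1 + k := by
    intro k
    refine ⟨?_, ?_⟩
    · unfold sr
      exact (card_le_card (filter_subset _ _)).trans (by rw [card_univ])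
    · induction k with
      | zero => rw [← uh_sum_sz, sum_range_succ, sum_range_one, hb0, hb1]; omega
      | succ k ih =>
        have hs : sr b (k + 1 + 2) = sr b (k + 2) + sz b (k + 2) := by
          rw [← uh_sum_sz, ← uh_sum_sz, sum_range_succ]
        rw [hs, hb2]
        split_ifs <;> omega
  -- bound on all labels
  obtain ⟨N, hN⟩ : ∃ N, ∀ x, ρ x < N ∧ b x < N := by
    refine ⟨∑ x, (ρ x + b x) + 1, fun x => ?_⟩
    have := single_le_sum (f := fun x => ρ x + b x) (fun y _ => Nat.zero_le _) (mem_univ x)
    have h2 : ρ x + b x ≤ ∑ x, (ρ x + b x) := this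
    omega
  have hvec : Vec σ (fun _ => false) b := by
    refine Vec.major (vec_rows hw) id Function.injective_id N (fun i _ => rfl) ?_ ?_ ?_
    · intro l hl
      have hlN : N ≤ l := by
        by_contra hc
        exact hl l (by omega) rfl
      have h1 : sz ρ l = 0 := by
        unfold sz
        rw [card_eq_zero, filter_eq_empty_iff]
        intro x _ hx
        have := (hN x).1
        omega
      have h2 : sz b l = 0 := by
        unfold sz
        rw [card_eq_zero, filter_eq_empty_iff]
        intro x _ hx
        have := (hN x).2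
        omega
      rw [h1, h2]
    · intro i j hij _
      change sz b j ≤ sz b i
      rcases j with _ | _ | j
      · have : i = 0 := by omega
        rw [this]
      · have hi : i = 0 ∨ i = 1 := by omega
        rcases hi with rfl | rfl
        · rw [hb0]; simp only [zero_add]; rw [hb1]; omega
        · exact le_rfl
      · rw [hb2]
        rcases i with _ | _ | i
        · rw [hb0]; split_ifs <;> omega
        · simp only [zero_add]; rw [hb1]; split_ifs <;> omega
        · rw [hb2]; split_ifs <;> omega
    · intro k _
      change ∑ i ∈ range k, sz b i ≤ ∑ i ∈ range k, sz ρ i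
      rw [uh_sum_sz, uh_sum_sz]
      rcases k with _ | _ | k
      · simp [sr]
      · simp only [zero_add]
        rw [hsb1]
        have h1 : sr ρ 2 = sz ρ 0 + sz ρ 1 := by
          rw [← uh_sum_sz, sum_range_succ, sum_range_one]
        have h2 : sz ρ 1 ≤ sz ρ 0 := uh_anti ht (by omega)
        have h3 : sr ρ 1 = sz ρ 0 := by
          rw [← uh_sum_sz, sum_range_one]
        omega
      · have h1 := hsb2 k
        change sr b (k + 2) ≤ sr ρ (k + 2)
        rcases uh_dom ht hm k with h2 | h2 <;> omega
  -- the layout
  set t : ℕ → Bool := fun L => decide (L = a) with htd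
  have hbal : Bal ({a + 1, a} : Finset ℕ) t := by
    intro L hL
    simp only [mem_insert, mem_singleton, not_or] at hL
    unfold cntL
    rcases lt_or_ge L a with h | h
    · have h1 : ({a + 1, a} : Finset ℕ).filter (fun M => L < M ∧ t M = false) = {a + 1} := by
        ext M
        simp only [mem_filter, mem_insert, mem_singleton, htd, decide_eq_false_iff_not]
        omega
      have h2 : ({a + 1, a} : Finset ℕ).filter (fun M => L < M ∧ t M = true) = {a} := by
        ext M
        simp only [mem_filter, mem_insert, mem_singleton, htd, decide_eq_true_eq]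
        omega
      rw [h1, h2, card_singleton, card_singleton]
    · have h1 : ∀ c : Bool, ({a + 1, a} : Finset ℕ).filter (fun M => L < M ∧ t M = c) = ∅ := by
        intro c
        rw [filter_eq_empty_iff]
        intro M hM
        simp only [mem_insert, mem_singleton] at hM
        omega
      rw [h1, h1]
  have hcu : ∀ L, (univ.filter (fun x => u x = L)).card =
      ((range (2 * a + 1)).filter (fun i => (if i < a + 1 then a + 1 else a) = L)).card := by
    intro L
    rw [card_filter, card_filter]
    rw [← Fin.sum_univ_eq_sum_range (fun i => if (if i < a + 1 then a + 1 else a) = L then 1 else 0)]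
    rw [← Equiv.sum_comp eS (fun i : Fin (2 * a + 1) =>
      if (if (i : ℕ) < a + 1 then a + 1 else a) = L then 1 else 0)]
  have hlay : Lay ({a + 1, a} : Finset ℕ) ∅ t t u (fun _ => 0) := by
    refine ⟨by simp, by simp, by simp, ?_, by simp, by simp⟩
    intro L
    rw [hcu]
    simp only [notMem_empty, if_false, not_false_eq_true, and_true, mem_insert, mem_singleton]
    by_cases h1 : L = a + 1
    · rw [if_pos (Or.inl h1)]
      rw [h1]
      refine Eq.trans ?_ hr1
      congr 1
      apply filter_congr
      intro i _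
      split_ifs <;> simp <;> omega
    · by_cases h2 : L = a
      · rw [if_pos (Or.inr h2)]
        rw [h2]
        refine Eq.trans ?_ hr2
        congr 1
        apply filter_congr
        intro i _
        split_ifs <;> simp <;> omega
      · rw [if_neg (by tauto), card_eq_zero, filter_eq_empty_iff]
        intro i _
        split_ifs <;> omega
  refine HasSV.of_vec hvec S hlay hbal hbal ?_ ?_
  · intro x y hxy _
    rw [hbS, hbS]
    simp only [hu] at hxy
    split_ifs at hxy ⊢ <;> omega
  · intro x
    simp

end Crest.Agent.SaxlN
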