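import Crest.Agent.SaxlN.Units
import Crest.Agent.SaxlN.VecSplit
import Crest.Agent.SaxlN.VecMajor

/-!
CHUNK UNITM (hard, ~300 lines; VecBasic, VecMajor, VecSplit are black boxes).
-/

set_option autoImplicit false

namespace Crest.Agent.SaxlN

open Finset Equiv
open Crest.Agent.Saxl

variable {X : Type} [Fintype X] [DecidableEq X]
variable {W : Type} [AddCommGroup W] [Module ℂ W]

namespace UM

/-- sizes: two classes `A, B` and `m` singletons -/
def cF (A B m i : ℕ) : ℕ := if i = 0 then A else if i = 1 then B else if i < m + 2 then 1 else 0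

lemma sum_cF (A B m k : ℕ) : ∑ i ∈ range (k + 2), cF A B m i = A + B + min k m := by
  induction k with
  | zero => simp [sum_range_succ, cF]
  | succ k ih =>
    rw [show k + 1 + 2 = (k + 2) + 1 by ring, sum_range_succ, ih]
    have h : cF A B m (k + 2) = if k < m then 1 else 0 := by
      unfold cF
      rw [if_neg (by omega), if_neg (by omega)]
      simp
    rw [h]
    split_ifs with h1
    · rw [min_eq_left h1.le, min_eq_left (by omega)]; ring
    · rw [min_eq_right (by omega), min_eq_right (by omega)]; ring

lemma sum_cF_one (A B m : ℕ) : ∑ i ∈ range 1, cF A B m i = A := by simp [cF]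

lemma exists_word_sz {Y : Type} [Fintype Y] (f : ℕ → ℕ) (N : ℕ)
    (hf : ∀ i, N ≤ i → f i = 0) (ht : ∑ i ∈ range N, f i = Fintype.card Y) :
    ∃ a : Word Y, ∀ i, sz a i = f i := by
  classical
  have hc : Fintype.card Y = Fintype.card (Σ i : Fin N, Fin (f i)) := by
    rw [← ht, Fintype.card_sigma, Finset.sum_range]
    simp
  let e : Y ≃ (Σ i : Fin N, Fin (f i)) := Fintype.equivOfCardEq hc
  refine ⟨fun y => ((e y).1 : ℕ), fun i => ?_⟩
  by_cases hi : i < N
  · have h1 : sz (fun y => ((e y).1 : ℕ)) i =
        (univ.filter (fun z : Σ i : Fin N, Fin (f i) => (z.1 : ℕ) = i)).card := by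
      unfold sz
      refine Finset.card_equiv e (fun y => ?_)
      simp
    rw [h1]
    have h2 : (univ.filter (fun z : Σ i : Fin N, Fin (f i) => (z.1 : ℕ) = i)) =
        (univ : Finset (Fin (f i))).map ⟨fun j => (⟨⟨i, hi⟩, j⟩ : Σ i : Fin N, Fin (f i)),
          fun j j' h => by simpa using h⟩ := by
      ext ⟨⟨z, hz⟩, j⟩
      simp only [mem_filter, mem_univ, true_and, mem_map, Function.Embedding.coeFn_mk]
      constructor
      · intro h
        subst h
        exact ⟨j, rfl⟩
      · rintro ⟨j', h⟩
        have := congrArg (fun z : (Σ i : Fin N, Fin (f i)) => (z.1 : ℕ)) h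
        exact this.symm
    rw [h2, card_map, card_univ, Fintype.card_fin]
  · rw [hf i (by omega)]
    unfold sz
    rw [card_eq_zero, filter_eq_empty_iff]
    intro y _ h
    have h3 := (e y).1.2
    dsimp only at h
    omega

lemma sum_two (f : ℕ → ℕ) (N : ℕ) :
    ∑ l ∈ range (2 * N), f l = ∑ i ∈ range N, f (2 * i) + ∑ i ∈ range N, f (2 * i + 1) := by
  induction N with
  | zero => simp
  | succ N ih =>
    rw [show 2 * (N + 1) = 2 * N + 1 + 1 by ring, sum_range_succ, sum_range_succ, ih,
      sum_range_succ, sum_range_succ]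
    ring

lemma exists_word_FF {Y : Type} [Fintype Y] (c₁ c₂ : ℕ → ℕ) (N : ℕ)
    (h₁ : ∀ i, N ≤ i → c₁ i = 0) (h₂ : ∀ i, N ≤ i → c₂ i = 0)
    (ht : ∑ i ∈ range N, c₁ i + ∑ i ∈ range N, c₂ i = Fintype.card Y) :
    ∃ a : Word Y, (∀ i, sz a (2 * i) = c₁ i) ∧ (∀ i, sz a (2 * i + 1) = c₂ i) := by
  obtain ⟨a, ha⟩ := exists_word_sz (Y := Y) (fun l => if l % 2 = 0 then c₁ (l / 2) else c₂ (l / 2))
    (2 * N) (fun i hi => by
      split_ifs
      · exact h₁ _ (by omega)
      · exact h₂ _ (by omega)) (by
      rw [sum_two, ← ht]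
      congr 1
      · refine sum_congr rfl (fun i _ => ?_)
        rw [if_pos (by omega)]
        congr 1; omega
      · refine sum_congr rfl (fun i _ => ?_)
        rw [if_neg (by omega)]
        congr 1; omega)
  refine ⟨a, fun i => ?_, fun i => ?_⟩
  · rw [ha, if_pos (by omega)]; congr 1; omega
  · rw [ha, if_neg (by omega)]; congr 1; omega

/-- majorisation for canonical sizes -/
lemma step {σ : Representation ℂ (Perm X) W} {s : ℕ → Bool} {a b : Word X} (h : Vec σ s a)
    (ε : ℕ) (hε : ε < 2) (hs : ∀ i, s (2 * i + ε) = s ε) {A B m x y M : ℕ}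
    (ha : ∀ i, sz a (2 * i + ε) = cF A B m i) (hb : ∀ i, sz b (2 * i + ε) = cF x y M i)
    (hoth : ∀ l, l % 2 ≠ ε → sz a l = sz b l) (hxA : x ≤ A) (hxy : x + y ≤ A + B) (hyx : y ≤ x)
    (hy : 1 ≤ y) (hM : M + x + y = m + A + B) : Vec σ s b := by
  refine Vec.major h (fun i => 2 * i + ε) (fun i j hij => by simpa using hij) (M + m + 2)
    (fun i _ => ?_) (fun l hl => ?_) (fun i j hij _ => ?_) (fun k _ => ?_)
  · show s (2 * i + ε) = s (2 * 0 + ε)
    rw [hs, hs 0]
  · by_cases hp : l % 2 = ε
    · have e1 : l = 2 * (l / 2) + ε := by omega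
      have hN : M + m + 2 ≤ l / 2 := by
        by_contra hc
        exact hl (l / 2) (by omega) e1
      rw [e1, ha, hb]
      simp only [cF]
      split_ifs <;> omega
    · exact hoth l hp
  · show sz b (2 * j + ε) ≤ sz b (2 * i + ε)
    rw [hb, hb]
    simp only [cF]
    split_ifs <;> omega
  · show ∑ i ∈ range k, sz b (2 * i + ε) ≤ ∑ i ∈ range k, sz a (2 * i + ε)
    simp only [ha, hb]
    rcases k with _ | _ | k
    · simp
    · rw [zero_add, sum_cF_one, sum_cF_one]; exact hxA
    · rw [sum_cF, sum_cF]; omega

lemma sort {σ : Representation ℂ (Perm X) W} {s : ℕ → Bool} {a : Word X} (h : Vec σ s a)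
    (ε : ℕ) (hε : ε < 2) (hs : ∀ i, s (2 * i + ε) = s ε) {A B m : ℕ}
    (ha : ∀ i, sz a (2 * i + ε) = cF A B m i) :
    ∃ b : Word X, Vec σ s b ∧ (∀ i, sz b (2 * i + ε) = cF (max A B) (min A B) m i) ∧
      ∀ l, l % 2 ≠ ε → sz a l = sz b l := by
  by_cases hAB : B ≤ A
  · refine ⟨a, h, fun i => ?_, fun l _ => rfl⟩
    rw [ha, max_eq_left hAB, min_eq_right hAB]
  · push_neg at hAB
    have hszc : ∀ l, sz (fun x => swap ε (2 + ε) (a x)) l = sz a (swap ε (2 + ε) l) := by
      intro l
      unfold sz
      congr 1
      ext x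
      simp only [mem_filter, mem_univ, true_and]
      constructor
      · intro h
        rw [← h, swap_apply_self]
      · intro h
        rw [h, swap_apply_self]
    have hs2 : s (2 + ε) = s ε := by
      have := hs 1
      simpa using this
    refine ⟨fun x => swap ε (2 + ε) (a x), ?_, fun i => ?_, fun l hl => ?_⟩
    · refine Vec.refine h (fun x y hxy => (swap ε (2 + ε)).injective hxy) (fun x => Or.inl ?_)
      by_cases h1 : a x = ε
      · rw [h1, swap_apply_left, hs2]
      · by_cases h2 : a x = 2 + ε
        · rw [h2, swap_apply_right, hs2]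
        · rw [swap_apply_of_ne_of_ne h1 h2]
    · rw [hszc]
      rcases i with _ | _ | i
      · have := ha 1
        simp only [mul_one, mul_zero, zero_add] at this ⊢
        rw [swap_apply_left, this]
        simp [cF, max_eq_right hAB.le]
      · have := ha 0
        simp only [mul_one, mul_zero, zero_add] at this ⊢
        rw [swap_apply_right, this]
        simp [cF, min_eq_left hAB.le]
      · rw [swap_apply_of_ne_of_ne (by omega) (by omega), ha]
        simp [cF]
    · rw [hszc, swap_apply_of_ne_of_ne (by omega) (by omega)]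

lemma sz_sum {Y : Type} [Fintype Y] (u : Word Y) (l : ℕ) :
    sz u l = ∑ x, if u x = l then 1 else 0 := by
  unfold sz
  rw [card_filter]

lemma sz_glue2 (O : X → Prop) [DecidablePred O] (o : Word {x // O x}) (c : Word {x // ¬ O x})
    (l : ℕ) : sz (fun x => if h : O x then o ⟨x, h⟩ else c ⟨x, h⟩) l = sz o l + sz c l := by
  rw [sz_sum, sz_sum, sz_sum, ← Fintype.sum_subtype_add_sum_subtype O]
  congr 1
  · refine sum_congr rfl (fun x _ => ?_)
    rw [dif_pos x.2]
  · refine sum_congr rfl (fun x _ => ?_)
    rw [dif_neg x.2]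

lemma sz_glue (O : X → Prop) [DecidablePred O] (o : Word {x // O x}) (c : Word X)
    (l : ℕ) : sz (fun x => if h : O x then o ⟨x, h⟩ else c x) l =
      sz o l + (univ.filter (fun x => ¬ O x ∧ c x = l)).card := by
  have h := sz_glue2 O o (fun x => c x.1) l
  rw [h]
  congr 1
  rw [sz_sum, card_filter, ← Fintype.sum_subtype_add_sum_subtype O]
  rw [sum_eq_zero (s := (univ : Finset {x // O x})) (fun x _ => by
    rw [if_neg (fun h => h.1 x.2)]), zero_add]
  refine sum_congr rfl (fun x _ => ?_)
  by_cases h1 : c x.1 = l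
  · rw [if_pos h1, if_pos ⟨x.2, h1⟩]
  · rw [if_neg h1, if_neg (fun h => h1 h.2)]

lemma start {σ : Representation ℂ (Perm X) W} {ρ κ : Word X} {w : W}
    (hw : yact σ ρ κ w ≠ 0) (T : X → Bool) (hT : ∀ x, T x = true → ρ x < 2) :
    ∃ (b : Word X) (p₀ p₁ q₀ q₁ m : ℕ), Vec σ (fun l => l % 2 == 1) b ∧
      (∀ i, sz b (2 * i) = cF p₀ p₁ m i) ∧ (∀ i, sz b (2 * i + 1) = cF q₀ q₁ 0 i) ∧
      p₀ + p₁ = (univ.filter (fun x => T x = true)).card ∧
      q₀ + q₁ = (univ.filter (fun x => T x = false ∧ κ x < 2)).card ∧
      m = (univ.filter (fun x => T x = false ∧ 2 ≤ κ x)).card := by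
  classical
  set m := (univ.filter (fun x => T x = false ∧ 2 ≤ κ x)).card with hm
  let O : X → Prop := fun x => T x = false ∧ 2 ≤ κ x
  have hO : Fintype.card {x // O x} = m := by
    rw [Fintype.card_subtype]
  obtain ⟨o, ho0, ho1⟩ := exists_word_FF (Y := {x // O x}) (cF 0 0 m) (fun _ => 0) (m + 2)
    (fun i hi => by
      unfold cF
      split_ifs <;> omega) (fun _ _ => rfl) (by
      rw [sum_cF, hO]; simp)
  have hpos : ∀ x, 1 ≤ sz o (o x) := fun x => card_pos.mpr ⟨x, by simp⟩
  have hev : ∀ x, o x % 2 = 0 ∧ 4 ≤ o x := by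
    intro x
    have h1 := hpos x
    rcases Nat.even_or_odd' (o x) with ⟨c, hc | hc⟩
    · rw [hc, ho0] at h1
      unfold cF at h1
      refine ⟨by omega, ?_⟩
      by_contra hlt
      split_ifs at h1 <;> omega
    · rw [hc, ho1] at h1
      omega
  have hle : ∀ l, sz o l ≤ 1 := by
    intro l
    rcases Nat.even_or_odd' l with ⟨c, hc | hc⟩
    · rw [hc, ho0]; unfold cF; split_ifs <;> omega
    · rw [hc, ho1]; omega
  have hinj : ∀ x y, o x = o y → x = y := by
    intro x y hxy
    have h1 := card_le_one.mp (hle (o x))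
    exact h1 x (by simp) y (by simp [hxy])
  let c : Word X := fun x => if T x then 2 * ρ x else 2 * κ x + 1
  have hc4 : ∀ x, ¬ O x → c x % 2 = 0 → c x < 4 := by
    intro x _ h
    simp only [c] at h ⊢
    by_cases hTx : T x = true
    · rw [if_pos hTx]
      have := hT x hTx
      omega
    · rw [if_neg hTx] at h
      omega
  let b : Word X := fun x => if h : O x then o ⟨x, h⟩ else c x
  have hsz : ∀ l, sz b l = sz o l + (univ.filter (fun x => ¬ O x ∧ c x = l)).card :=
    fun l => sz_glue O o c l
  have hVa := vec_split hw T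
  refine ⟨b, (univ.filter (fun x => T x = true ∧ ρ x = 0)).card,
    (univ.filter (fun x => T x = true ∧ ρ x = 1)).card,
    (univ.filter (fun x => T x = false ∧ κ x = 0)).card,
    (univ.filter (fun x => T x = false ∧ κ x = 1)).card, m, ?_, ?_, ?_, ?_, ?_, rfl⟩
  · refine Vec.refine hVa (fun x y hxy => ?_) (fun x => ?_)
    · by_cases hx : O x
      · by_cases hy : O y
        · have h1 : o ⟨x, hx⟩ = o ⟨y, hy⟩ := by
            simpa only [b, dif_pos hx, dif_pos hy] using hxy
          have h2 := hinj _ _ h1
          have h3 : x = y := congrArg Subtype.val h2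
          rw [h3]
        · exfalso
          have h1 : o ⟨x, hx⟩ = c y := by
            simpa only [b, dif_pos hx, dif_neg hy] using hxy
          have h2 := hev ⟨x, hx⟩
          rw [h1] at h2
          have := hc4 y hy h2.1
          omega
      · by_cases hy : O y
        · exfalso
          have h1 : c x = o ⟨y, hy⟩ := by
            simpa only [b, dif_pos hy, dif_neg hx] using hxy
          have h2 := hev ⟨y, hy⟩
          rw [← h1] at h2
          have := hc4 x hx h2.1
          omega
        · simpa only [b, dif_neg hy, dif_neg hx] using hxy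
    · by_cases hx : O x
      · right
        intro y hy
        by_cases hy' : O y
        · have h1 : o ⟨y, hy'⟩ = o ⟨x, hx⟩ := by
            simpa only [b, dif_pos hx, dif_pos hy'] using hy
          exact congrArg Subtype.val (hinj _ _ h1)
        · exfalso
          have h1 : c y = o ⟨x, hx⟩ := by
            simpa only [b, dif_pos hx, dif_neg hy'] using hy
          have h2 := hev ⟨x, hx⟩
          rw [← h1] at h2
          have := hc4 y hy' h2.1
          omega
      · left
        simp only [b, dif_neg hx]
        rfl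
  · intro i
    rw [hsz, ho0]
    rcases i with _ | _ | i
    · simp only [cF, if_true, zero_add, mul_zero]
      congr 1
      ext x
      simp only [mem_filter, mem_univ, true_and, O, c]
      by_cases hTx : T x = true
      · simp [hTx]
      · simp [hTx]
    · simp only [cF, zero_add, mul_one, if_true, one_ne_zero, if_false]
      congr 1
      ext x
      simp only [mem_filter, mem_univ, true_and, O, c]
      by_cases hTx : T x = true
      · simp [hTx]
      · simp [hTx]
    · rw [filter_eq_empty_iff.mpr (fun x _ h => by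
        have := hc4 x h.1 (by rw [h.2]; omega)
        omega), card_empty, add_zero]
      simp [cF]
  · intro i
    rw [hsz, ho1, zero_add]
    rcases i with _ | _ | i
    · simp only [cF, if_true]
      congr 1
      ext x
      simp only [mem_filter, mem_univ, true_and, O, c]
      by_cases hTx : T x = true
      · simp [hTx]
      · simp [hTx]; omega
    · simp only [cF, zero_add, if_true, one_ne_zero, if_false]
      congr 1
      ext x
      simp only [mem_filter, mem_univ, true_and, O, c]
      by_cases hTx : T x = true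
      · simp [hTx]; omega
      · simp [hTx]; omega
    · rw [filter_eq_empty_iff.mpr (fun x _ h => by
        obtain ⟨h1, h2⟩ := h
        simp only [O, c] at h1 h2
        by_cases hTx : T x = true
        · rw [if_pos hTx] at h2; omega
        · rw [if_neg hTx] at h2
          exact h1 ⟨by simpa using hTx, by omega⟩), card_empty]
      simp [cF]
  · rw [← card_union_of_disjoint]
    · congr 1
      ext x
      simp only [mem_union, mem_filter, mem_univ, true_and]
      constructor
      · rintro (h | h) <;> exact h.1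
      · intro h
        have := hT x h
        rcases (by omega : ρ x = 0 ∨ ρ x = 1) with h0 | h0
        · exact Or.inl ⟨h, h0⟩
        · exact Or.inr ⟨h, h0⟩
    · rw [disjoint_filter]
      intro x _ h1 h2
      omega
  · rw [← card_union_of_disjoint]
    · congr 1
      ext x
      simp only [mem_union, mem_filter, mem_univ, true_and]
      constructor
      · rintro (h | h)
        · exact ⟨h.1, by omega⟩
        · exact ⟨h.1, by omega⟩
      · rintro ⟨h, h'⟩
        rcases (by omega : κ x = 0 ∨ κ x = 1) with h0 | h0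
        · exact Or.inl ⟨h, h0⟩
        · exact Or.inr ⟨h, h0⟩
    · rw [disjoint_filter]
      intro x _ h1 h2
      omega

lemma cF_add (x y M i : ℕ) : cF x y 0 i + cF 0 0 M i = cF x y M i := by
  unfold cF
  split_ifs <;> omega

lemma core {σ : Representation ℂ (Perm X) W} {ρ κ : Word X}
    (ht : IsTab (fun _ => 0) ρ κ) {w : W} (hw : yact σ ρ κ w ≠ 0)
    (S : X → Prop) [DecidablePred S] {x y z v : ℕ} (hxy : x = y + 1) (hzv : z = v + 1)
    (hy : 1 ≤ y) (hv : 1 ≤ v) (h1 : x + y ≤ sr ρ 2) (h2 : z + v ≤ sr κ 2)
    (h3 : x + y + z + v + 4 ≤ sr ρ 2 + sr κ 2) (hS : Fintype.card {x // S x} = x + y + z + v) :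
    ∃ (b : Word X) (u : Word {x // S x}), Vec σ (fun l => l % 2 == 1) b ∧ (∀ e, b e.1 = u e) ∧
      (∀ i, sz u (2 * i) = cF x y 0 i) ∧ (∀ i, sz u (2 * i + 1) = cF z v 0 i) := by
  classical
  set Cn := univ.filter (fun e => ρ e < 2 ∧ κ e < 2) with hCn
  have hk : Cn.card ≤ 4 := by
    have h4 : (range 2 ×ˢ range 2).card = 4 := by simp
    rw [← h4]
    refine card_le_card_of_injOn (fun e => (ρ e, κ e)) (fun e he => ?_) (fun e _ e' _ h => ?_)
    · simp only [hCn, coe_filter, mem_univ, true_and, Set.mem_setOf_eq] at he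
      simp [he.1, he.2]
    · apply ht.inj
      simp only [Prod.mk.injEq] at h ⊢
      exact ⟨trivial, h⟩
  set k := Cn.card with hkdef
  obtain ⟨D, hD, hDc⟩ := exists_subset_card_eq (s := Cn) (n := k - (x + y + k - sr ρ 2))
    (by omega)
  let T : X → Bool := fun e => decide (ρ e < 2 ∧ e ∉ D)
  obtain ⟨b₀, p₀, p₁, q₀, q₁, m, hV0, he0, ho0, hp, hq, hm⟩ := start hw T (fun e he => by
    simp only [T, decide_eq_true_eq] at he; exact he.1)
  have hDρ : ∀ e ∈ D, ρ e < 2 ∧ κ e < 2 := fun e he => by
    have := hD he
    simpa [hCn] using this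
  have hpc : (univ.filter (fun e => T e = true)).card + D.card = sr ρ 2 := by
    unfold sr
    rw [← card_union_of_disjoint]
    · congr 1
      ext e
      simp only [mem_union, mem_filter, mem_univ, true_and, T, decide_eq_true_eq]
      constructor
      · rintro (h | h)
        · exact h.1
        · exact (hDρ e h).1
      · intro h
        by_cases he : e ∈ D
        · exact Or.inr he
        · exact Or.inl ⟨h, he⟩
    · rw [disjoint_left]
      intro e he
      simp only [mem_filter, mem_univ, true_and, T, decide_eq_true_eq] at he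
      exact he.2
  have hqc : (univ.filter (fun e => T e = false ∧ κ e < 2)).card + k = sr κ 2 + D.card := by
    have e1 : (univ.filter (fun e => T e = false ∧ κ e < 2)) =
        ((univ.filter (fun e => κ e < 2)) \ Cn) ∪ D := by
      ext e
      simp only [mem_union, mem_filter, mem_univ, true_and, T, decide_eq_false_iff_not, mem_sdiff,
        hCn]
      constructor
      · rintro ⟨h, h'⟩
        by_cases he : e ∈ D
        · exact Or.inr he
        · exact Or.inl ⟨h', fun h'' => h ⟨h''.1, he⟩⟩
      · rintro (⟨h, h'⟩ | h)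
        · exact ⟨fun h'' => h' ⟨h''.1, h⟩, h⟩
        · exact ⟨fun h'' => h''.2 h, (hDρ e h).2⟩
    have hsub : Cn ⊆ univ.filter (fun e => κ e < 2) := by
      intro e he
      simp only [hCn, mem_filter, mem_univ, true_and] at he ⊢
      exact he.2
    have hle := card_le_card hsub
    rw [e1, card_union_of_disjoint, card_sdiff_of_subset hsub]
    · unfold sr
      omega
    · rw [disjoint_left]
      intro e he he'
      exact (mem_sdiff.mp he).2 (hD he')
  have htot : (univ.filter (fun e => T e = true)).card +
      (univ.filter (fun e => T e = false ∧ κ e < 2)).card +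
      (univ.filter (fun e => T e = false ∧ 2 ≤ κ e)).card = Fintype.card X := by
    rw [add_assoc, ← card_union_of_disjoint, ← card_union_of_disjoint]
    · rw [← card_univ]
      congr 1
      ext e
      simp only [mem_union, mem_filter, mem_univ, true_and, iff_true]
      cases hTe : T e
      · simp; omega
      · simp
    · rw [disjoint_left]
      intro e he he'
      simp only [mem_union, mem_filter, mem_univ, true_and] at he he'
      rw [he] at he'
      simp at he'
    · rw [disjoint_left]
      intro e he he'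
      simp only [mem_filter, mem_univ, true_and] at he he'
      omega
  have hsle : sr ρ 2 ≤ Fintype.card X := by
    unfold sr
    exact card_le_univ _
  have hs0 : ∀ i, (fun l : ℕ => l % 2 == 1) (2 * i + 0) = (fun l : ℕ => l % 2 == 1) 0 := by
    intro i
    simp
  have hs1 : ∀ i, (fun l : ℕ => l % 2 == 1) (2 * i + 1) = (fun l : ℕ => l % 2 == 1) 1 := by
    intro i
    simp
  obtain ⟨b₁, hV1, he1, ho1⟩ := sort hV0 0 (by omega) hs0 (fun i => by rw [add_zero]; exact he0 i)
  obtain ⟨b₂, hV2, ho2, he2⟩ := sort hV1 1 (by omega) hs1 (fun i => by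
    rw [← ho1 _ (by omega)]; exact ho0 i)
  have he2' : ∀ i, sz b₂ (2 * i) = cF (max p₀ p₁) (min p₀ p₁) m i := fun i => by
    rw [← he2 _ (by omega), ← he1 i, add_zero]
  set A := max p₀ p₁
  set B := min p₀ p₁
  set A' := max q₀ q₁
  set B' := min q₀ q₁
  have hAB : A + B = p₀ + p₁ := max_add_min _ _
  have hAB' : A' + B' = q₀ + q₁ := max_add_min _ _
  have hBA : B ≤ A := min_le_max
  have hBA' : B' ≤ A' := min_le_max
  obtain ⟨M, hM⟩ : ∃ M, M + x + y = m + A + B := ⟨m + A + B - x - y, by omega⟩
  obtain ⟨M', hM'⟩ : ∃ M, M + z + v = 0 + A' + B' := ⟨A' + B' - z - v, by omega⟩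
  obtain ⟨b₃, he3, ho3⟩ := exists_word_FF (Y := X) (cF x y M) (cF A' B' 0) (M + 1 + 2)
    (fun i hi => by
      unfold cF
      split_ifs <;> omega) (fun i hi => by
      unfold cF
      split_ifs <;> omega) (by
      rw [sum_cF, sum_cF]
      omega)
  have hV3 : Vec σ (fun l => l % 2 == 1) b₃ := by
    refine step hV2 0 (by omega) hs0 (fun i => by rw [add_zero]; exact he2' i)
      (fun i => by rw [add_zero]; exact he3 i) (fun l hl => ?_) (by omega) (by omega) (by omega) hy hM
    obtain ⟨c, hc⟩ : ∃ c, l = 2 * c + 1 := ⟨l / 2, by omega⟩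
    rw [hc, ho2, ho3]
  obtain ⟨u, hu0, hu1⟩ := exists_word_FF (Y := {x // S x}) (cF x y 0) (cF z v 0) (0 + 2)
    (fun i hi => by
      unfold cF
      split_ifs <;> omega) (fun i hi => by
      unfold cF
      split_ifs <;> omega) (by
      rw [sum_cF, sum_cF]
      omega)
  have hcS : Fintype.card {x // ¬ S x} = M + M' := by
    have h4 := Fintype.card_subtype_compl (fun x => S x)
    omega
  obtain ⟨c, hc0, hc1⟩ := exists_word_FF (Y := {x // ¬ S x}) (cF 0 0 M) (cF 0 0 M')
    (M + M' + 2)
    (fun i hi => by
      unfold cF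
      split_ifs <;> omega) (fun i hi => by
      unfold cF
      split_ifs <;> omega) (by
      rw [sum_cF, sum_cF]
      omega)
  refine ⟨fun e => if h : S e then u ⟨e, h⟩ else c ⟨e, h⟩, u, ?_, fun e => ?_, hu0, hu1⟩
  · refine step hV3 1 (by omega) hs1 (fun i => ho3 i) (fun i => ?_) (fun l hl => ?_) (by omega)
      (by omega) (by omega) hv hM'
    · rw [sz_glue2, hu1, hc1, cF_add]
    · obtain ⟨d, hd⟩ : ∃ d, l = 2 * d := ⟨l / 2, by omega⟩
      rw [hd, he3, sz_glue2, hu0, hc0, cF_add]
  · dsimp only
    rw [dif_pos e.2]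

lemma bal_four {n : ℕ} {t : ℕ → Bool}
    (h : (t (n + 5)).toNat + (t (n + 4)).toNat + (t (n + 3)).toNat + (t (n + 2)).toNat = 2) :
    Bal ({n + 5, n + 4, n + 3, n + 2} : Finset ℕ) t := by
  intro L hL
  simp only [mem_insert, mem_singleton, not_or] at hL
  unfold cntL
  have e : ∀ s : Bool, (({n + 5, n + 4, n + 3, n + 2} : Finset ℕ).filter
      (fun M => L < M ∧ t M = s)).card =
      (if L < n + 5 ∧ t (n + 5) = s then 1 else 0) + ((if L < n + 4 ∧ t (n + 4) = s then 1 else 0) +
      ((if L < n + 3 ∧ t (n + 3) = s then 1 else 0) +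
        (if L < n + 2 ∧ t (n + 2) = s then 1 else 0))) := by
    intro s
    rw [card_filter, sum_insert (by simp), sum_insert (by simp), sum_insert (by simp),
      sum_singleton]
  rw [e, e]
  rcases Nat.lt_or_ge L (n + 5) with hlt | hge
  · have h2 : L < n + 2 := by omega
    have h3 : L < n + 3 := by omega
    have h4 : L < n + 4 := by omega
    simp only [hlt, h2, h3, h4, true_and]
    cases h5 : t (n + 5) <;> cases h6 : t (n + 4) <;> cases h7 : t (n + 3) <;>
      cases h8 : t (n + 2) <;> simp [h5, h6, h7, h8] at h ⊢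
  · simp [not_lt.mpr hge, show ¬ L < n + 2 by omega, show ¬ L < n + 3 by omega,
      show ¬ L < n + 4 by omega]

lemma finish {a : ℕ} (ha : 4 ≤ a) {σ : Representation ℂ (Perm X) W} {ρ κ : Word X}
    (ht : IsTab (fun _ => 0) ρ κ) {w : W} (hw : yact σ ρ κ w ≠ 0)
    (S : X → Prop) [DecidablePred S] {x y z v : ℕ} (hxy : x = y + 1) (hzv : z = v + 1)
    (hc : (x = a + 1 ∧ z = a - 1) ∨ (x = a - 1 ∧ z = a + 1)) (h1 : x + y ≤ sr ρ 2)
    (h2 : z + v ≤ sr κ 2)
    (h3 : x + y + z + v + 4 ≤ sr ρ 2 + sr κ 2) (hS : Fintype.card {x // S x} = x + y + z + v) :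
    HasSV ({a + 1, a, a - 1, a - 2} : Finset ℕ) (resS S σ) := by
  classical
  obtain ⟨b, u, hV, hbu, hu0, hu1⟩ := core ht hw S hxy hzv (by omega) (by omega) h1 h2 h3 hS
  have hu4 : ∀ e, u e = 0 ∨ u e = 1 ∨ u e = 2 ∨ u e = 3 := by
    intro e
    have hpos : 1 ≤ sz u (u e) := card_pos.mpr ⟨e, by simp⟩
    rcases Nat.even_or_odd' (u e) with ⟨c, hc' | hc'⟩
    · rw [hc', hu0] at hpos
      unfold cF at hpos
      have : c < 2 := by
        by_contra hlt
        split_ifs at hpos <;> omega
      omega
    · rw [hc', hu1] at hpos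
      unfold cF at hpos
      have : c < 2 := by
        by_contra hlt
        split_ifs at hpos <;> omega
      omega
  let len : ℕ → ℕ := fun l => if l = 0 then x else if l = 2 then y else if l = 1 then z else v
  have hlen : ∀ e, (u e = 0 ∧ len (u e) = x) ∨ (u e = 2 ∧ len (u e) = y) ∨
      (u e = 1 ∧ len (u e) = z) ∨ (u e = 3 ∧ len (u e) = v) := by
    intro e
    rcases hu4 e with h | h | h | h
    · left; exact ⟨h, by simp [len, h]⟩
    · right; right; left; exact ⟨h, by simp [len, h]⟩
    · right; left; exact ⟨h, by simp [len, h]⟩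
    · right; right; right; exact ⟨h, by simp [len, h]⟩
  let t : ℕ → Bool := fun L => decide (L = y ∨ L = v)
  let t' : ℕ → Bool := fun L => decide (L = y ∨ L = z)
  obtain ⟨n, rfl⟩ : ∃ n, a = n + 4 := ⟨a - 4, by omega⟩
  have hUeq : ({n + 4 + 1, n + 4, n + 4 - 1, n + 4 - 2} : Finset ℕ) =
      {n + 5, n + 4, n + 3, n + 2} := by
    ext L
    simp only [mem_insert, mem_singleton]
    omega
  rw [hUeq]
  have hb : Bal ({n + 5, n + 4, n + 3, n + 2} : Finset ℕ) t := by
    apply bal_four
    rcases hc with ⟨h, h'⟩ | ⟨h, h'⟩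
    · have hy : y = n + 4 := by omega
      have hv : v = n + 2 := by omega
      simp [t, hy, hv]
    · have hy : y = n + 2 := by omega
      have hv : v = n + 4 := by omega
      simp [t, hy, hv]
  have hb' : Bal ({n + 5, n + 4, n + 3, n + 2} : Finset ℕ) t' := by
    apply bal_four
    rcases hc with ⟨h, h'⟩ | ⟨h, h'⟩
    · have hy : y = n + 4 := by omega
      have hz : z = n + 3 := by omega
      simp [t', hy, hz]
    · have hy : y = n + 2 := by omega
      have hz : z = n + 5 := by omega
      simp [t', hy, hz]
  have hsz0 : sz u 0 = x := by simpa [cF] using hu0 0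
  have hsz2 : sz u 2 = y := by simpa [cF] using hu0 1
  have hsz1 : sz u 1 = z := by simpa [cF] using hu1 0
  have hsz3 : sz u 3 = v := by simpa [cF] using hu1 1
  have hcard : ∀ L, (univ.filter (fun e => len (u e) = L)).card =
      if L = x ∨ L = y ∨ L = z ∨ L = v then L else 0 := by
    intro L
    by_cases hx : L = x
    · rw [if_pos (Or.inl hx)]
      have e1 : (univ.filter (fun e => len (u e) = L)) = univ.filter (fun e => u e = 0) := by
        ext e
        simp only [mem_filter, mem_univ, true_and]
        have := hlen e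
        omega
      rw [e1]
      exact hsz0.trans hx.symm
    · by_cases hy : L = y
      · rw [if_pos (Or.inr (Or.inl hy))]
        have e1 : (univ.filter (fun e => len (u e) = L)) = univ.filter (fun e => u e = 2) := by
          ext e
          simp only [mem_filter, mem_univ, true_and]
          have := hlen e
          omega
        rw [e1]
        exact hsz2.trans hy.symm
      · by_cases hz : L = z
        · rw [if_pos (Or.inr (Or.inr (Or.inl hz)))]
          have e1 : (univ.filter (fun e => len (u e) = L)) = univ.filter (fun e => u e = 1) := by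
            ext e
            simp only [mem_filter, mem_univ, true_and]
            have := hlen e
            omega
          rw [e1]
          exact hsz1.trans hz.symm
        · by_cases hv : L = v
          · rw [if_pos (Or.inr (Or.inr (Or.inr hv)))]
            have e1 : (univ.filter (fun e => len (u e) = L)) =
                univ.filter (fun e => u e = 3) := by
              ext e
              simp only [mem_filter, mem_univ, true_and]
              have := hlen e
              omega
            rw [e1]
            exact hsz3.trans hv.symm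
          · rw [if_neg (by omega), card_eq_zero, filter_eq_empty_iff]
            intro e _ h
            have := hlen e
            omega
  have hl : Lay ({n + 5, n + 4, n + 3, n + 2} : Finset ℕ) ∅ t t' (fun e => len (u e))
      (fun _ => 0) := by
    refine ⟨fun L hL => absurd hL (notMem_empty L), fun L hL => absurd hL (notMem_empty L),
      fun L hL => absurd hL (notMem_empty L), fun L => ?_, fun _ => by norm_num, fun _ _ => rfl⟩
    rw [hcard]
    simp only [notMem_empty, if_false, mem_insert, mem_singleton, not_false_eq_true, and_true]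
    have : (L = x ∨ L = y ∨ L = z ∨ L = v) ↔
      (L = n + 5 ∨ L = n + 4 ∨ L = n + 3 ∨ L = n + 2) := by omega
    simp only [this]
  refine HasSV.of_vec hV S hl hb hb' (fun e e' he _ => ?_) (fun e => ?_)
  · rw [hbu, hbu]
    have h4 := hlen e
    have h5 := hlen e'
    omega
  · rw [hbu]
    show (u e % 2 == 1) = xor (t (len (u e))) (t' (len (u e)))
    rcases hlen e with ⟨h, h'⟩ | ⟨h, h'⟩ | ⟨h, h'⟩ | ⟨h, h'⟩
    · have e1 : ¬ (x = y ∨ x = v) := by omega
      have e2 : ¬ (x = y ∨ x = z) := by omega
      rw [h', h, show t x = false from decide_eq_false e1,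
        show t' x = false from decide_eq_false e2]
      rfl
    · rw [h', h, show t y = true from decide_eq_true (Or.inl rfl),
        show t' y = true from decide_eq_true (Or.inl rfl)]
      rfl
    · have e1 : ¬ (z = y ∨ z = v) := by omega
      rw [h', h, show t z = false from decide_eq_false e1,
        show t' z = true from decide_eq_true (Or.inr rfl)]
      rfl
    · have e2 : ¬ (v = y ∨ v = z) := by omega
      rw [h', h, show t v = true from decide_eq_true (Or.inr rfl),
        show t' v = false from decide_eq_false e2]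
      rfl

end UM

/-- PROOF. `vec_split` with `T` = (row `0` or `1`) minus some of the four corner cells `(i,j)`, `i,j < 2` which are given to the
columns; then the letters outside the first two rows and columns are refined to singletons, (`Vec.refine`), the row pieces
(labels `0, 2`) and the column pieces (labels `1, 3`) have sizes `p₀ ≥ p₁`-ish, `q₀, q₁`, with `p₀ + p₁ + q₀ + q₁ = s₂ + c₂ - 4 ≥ 4a - 2` (if
the diagram contains the cell `(1,1)`; otherwise it is a hook and `s₂ = λ₀ + 1` etc., then the count is similar).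
Choose the corner cells and the distribution of the four lengths `a+1, a, a-1, a-2` into a row pair `x ≥ y` and a
column pair `z ≥ v` such that `p₀ ≥ x`, `p₀ + p₁ ≥ x + y`, `q₀ ≥ z`, `q₀ + q₁ ≥ z + v` (the row pair can have any of the sums
`2a+1, 2a, 2a-1, 2a-2, 2a-3`). `Vec.major` twice (row labels and column labels; remaining letters go to singletons,
which can be given any sign by `Vec.refine`). All four groups are single lines: `P = ∅`, `cl = 0`, `u` = line length.
Types: the two row lines must have sign `+` and the two column lines sign `-`: `t` = `false` on one row line and on one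
column line, `true` on the others; `t' = t` on the row lines and `! t` on the column lines: both have two
`false` and two `true`, so `Bal` holds. -/
theorem unitF_M {a : ℕ} (ha : 4 ≤ a) {σ : Representation ℂ (Perm X) W} {ρ κ : Word X}
    (ht : IsTab (fun _ => 0) ρ κ) {w : W} (hw : yact σ ρ κ w ≠ 0) (hm : ModeM a ρ κ)
    (S : X → Prop) [DecidablePred S] (hS : Fintype.card {x // S x} = 4 * a - 2) :
    HasSV ({a + 1, a, a - 1, a - 2} : Finset ℕ) (resS S σ) := by
  obtain ⟨h1, h2, h3⟩ := hm
  by_cases h : 2 * a + 1 ≤ sr ρ 2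
  · exact UM.finish ha ht hw S (x := a + 1) (y := a) (z := a - 1) (v := a - 2) rfl (by omega)
      (Or.inl ⟨rfl, rfl⟩) (by omega) (by omega) (by omega) (by omega)
  · exact UM.finish ha ht hw S (x := a - 1) (y := a - 2) (z := a + 1) (v := a) (by omega) rfl
      (Or.inr ⟨rfl, rfl⟩) (by omega) (by omega) (by omega) (by omega)

end Crest.Agent.SaxlN
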