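import Crest.Agent.SaxlN.UnitR
import Crest.Agent.SaxlN.UnitM
import Crest.Agent.SaxlN.UnitH
import Crest.Agent.SaxlN.Union

/-!
CHUNK PEEL (easy/medium, ~150 lines; Units, Union are black boxes).
-/

set_option autoImplicit false

namespace Crest.Agent.SaxlN

open Finset Equiv
open Crest.Agent.Saxl

private theorem peel_tab_swap {X : Type} {ρ κ : Word X} (h : IsTab (fun _ => 0) ρ κ) :
    IsTab (fun _ => 0) κ ρ := by
  refine ⟨fun x y hxy => h.inj ?_, fun x i j hi hj => ?_⟩
  · simp only [Prod.mk.injEq] at hxy ⊢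
    exact ⟨trivial, hxy.2.2, hxy.2.1⟩
  · obtain ⟨y, -, h1, h2⟩ := h.lower x j i hj hi
    exact ⟨y, rfl, h2, h1⟩

private theorem peel_resS_twist {X : Type} [Fintype X] [DecidableEq X] {W : Type} [AddCommGroup W]
    [Module ℂ W] (S : X → Prop) [DecidablePred S] {σ σ' : Representation ℂ (Perm X) W}
    (h : ∀ g w, σ' g w = (((Perm.sign g : ℤˣ) : ℤ) : ℂ) • σ g w) :
    ∀ g w, resS S σ' g w = (((Perm.sign g : ℤˣ) : ℤ) : ℂ) • resS S σ g w := by
  intro g w
  rw [resS_apply, resS_apply, h, Perm.sign_ofSubtype]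

/-- choice of the set of letters of the unit -/
private theorem peel_exists_S {U La : Finset ℕ} {m : ℕ} (hd : Disjoint U La) (h : Good La)
    (hU : ∑ L ∈ U, L = m)
    (X : Type) [Fintype X] [DecidableEq X] (hX : Fintype.card X = ∑ L ∈ U ∪ La, L)
    (W : Type) [AddCommGroup W] [Module ℂ W] (σ : Representation ℂ (Perm X) W)
    (key : ∀ (S : X → Prop) [DecidablePred S], Fintype.card {x // S x} = m →
      HasSV U (resS S σ)) : HasSV (U ∪ La) σ := by
  classical
  rw [Finset.sum_union hd, hU] at hX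
  obtain ⟨S, _, hS⟩ : ∃ (S : X → Prop) (_ : DecidablePred S), Fintype.card {x // S x} = m := by
    obtain ⟨s, -, hs⟩ := Finset.exists_subset_card_eq (s := (univ : Finset X)) (n := m)
      (by rw [card_univ, hX]; exact Nat.le_add_right _ _)
    obtain ⟨S, hS⟩ : ∃ S : X → Prop, ∀ x, S x ↔ x ∈ s := ⟨fun x => x ∈ s, fun _ => Iff.rfl⟩
    refine ⟨S, Classical.decPred S, ?_⟩
    rw [← hs, Fintype.card_subtype]
    congr 1
    ext x
    rw [mem_filter, hS]
    exact ⟨fun h => h.2, fun h => ⟨mem_univ _, h⟩⟩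
  have hS' : Fintype.card {x // ¬ S x} = ∑ L ∈ La, L := by
    rw [Fintype.card_subtype_compl, hS, hX]
    omega
  refine HasSV.union hd S σ (key S hS) ?_
  intro V _ _ _ τ
  exact h {x // ¬ S x} hS' V τ

/-- PROOF. For a nonzero representation `σ` of `Perm X`, `exists_yact_ne_zero` (Saxl/Irr) gives a tableau and `w`; `OkF` gives
a mode: `ModeR a ρ`: `unitF_R`; `ModeR a κ`: `exists_twist`, `unitF_R` for the conjugate tableau, `HasSV.twist`
(`resS S σ'` is the sign twist of `resS S σ`: `sign (ofSubtype g) = sign g`); `ModeM`: `unitF_M`.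
`S` = any set of `4a - 2` letters; `HasSV.union`. -/
theorem good_F {a : ℕ} (ha : 4 ≤ a) {La : Finset ℕ}
    (hd : Disjoint ({a + 1, a, a - 1, a - 2} : Finset ℕ) La) (h : Good La)
    (hok : OkF a (4 * a - 2 + ∑ L ∈ La, L)) : Good ({a + 1, a, a - 1, a - 2} ∪ La) := by
  have hU : ∑ L ∈ ({a + 1, a, a - 1, a - 2} : Finset ℕ), L = 4 * a - 2 := by
    rw [Finset.sum_insert, Finset.sum_insert, Finset.sum_insert, Finset.sum_singleton]
    · omega
    · simp only [Finset.mem_singleton]; omega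
    · simp only [Finset.mem_insert, Finset.mem_singleton]; omega
    · simp only [Finset.mem_insert, Finset.mem_singleton]; omega
  intro X _ _ hX W _ _ _ σ
  obtain ⟨ρ, κ, ht, w, hw⟩ := exists_yact_ne_zero σ
  have hmode := hok X (by rw [hX, Finset.sum_union hd, hU]) ρ κ ht
  refine peel_exists_S hd h hU X hX W σ ?_
  intro S _ hS
  rcases hmode with hm | hm | hm
  · exact unitF_R ha ht hw hm S hS
  · obtain ⟨σ', hσ', w', hw'⟩ := exists_twist ht hw
    exact HasSV.twist (peel_resS_twist S hσ') (unitF_R ha (peel_tab_swap ht) hw' hm S hS)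
  · exact unitF_M ha ht hw hm S hS

/-- the same for `H(a)` -/
theorem good_H {a : ℕ} (ha : 1 ≤ a) {La : Finset ℕ}
    (hd : Disjoint ({a + 1, a} : Finset ℕ) La) (h : Good La)
    (hok : OkH a (2 * a + 1 + ∑ L ∈ La, L)) : Good ({a + 1, a} ∪ La) := by
  have hU : ∑ L ∈ ({a + 1, a} : Finset ℕ), L = 2 * a + 1 := by
    rw [Finset.sum_insert, Finset.sum_singleton]
    · omega
    · simp only [Finset.mem_singleton]; omega
  intro X _ _ hX W _ _ _ σ
  obtain ⟨ρ, κ, ht, w, hw⟩ := exists_yact_ne_zero σ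
  have hmode := hok X (by rw [hX, Finset.sum_union hd, hU]) ρ κ ht
  refine peel_exists_S hd h hU X hX W σ ?_
  intro S _ hS
  rcases hmode with hm | hm
  · exact unitH_R ha ht hw hm S hS
  · obtain ⟨σ', hσ', w', hw'⟩ := exists_twist ht hw
    exact HasSV.twist (peel_resS_twist S hσ') (unitH_R ha (peel_tab_swap ht) hw' hm S hS)

end Crest.Agent.SaxlN
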