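import Crest.Agent.SaxlN.Sgn

/-!
CHUNK RRF (medium): the restriction operators `Rr`.
-/

set_option autoImplicit false

namespace Crest.Agent.SaxlN

open Finset Equiv
open Crest.Agent.Saxl

variable {X : Type} [Fintype X] [DecidableEq X]

private theorem pinv_apply {X : Type} (k : Perm X) (x : X) : (k⁻¹ : Perm X) (k x) = x :=
  k.symm_apply_apply x

private theorem papply_inv {X : Type} (k : Perm X) (x : X) : k ((k⁻¹ : Perm X) x) = x :=
  k.apply_symm_apply x

theorem gw_of_dw {X : Type} {w₀ : Word X} {h : Perm X} {b : X → Fin 2}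
    (hh : w₀ ∘ (h⁻¹ : Perm X) = dw (gw w₀) b) : gw w₀ ∘ h = gw w₀ := by
  funext x
  have h1 := congrFun hh (h x)
  simp only [Function.comp_apply, pinv_apply, dw, gw] at h1
  simp only [Function.comp_apply, gw]
  have h2 := (b (h x)).isLt
  omega

private theorem sgnT_gw_inv {X : Type} {t : ℕ → Bool} {w₀ : Word X} {g : Perm X} (hg : gw w₀ ∘ g = gw w₀) :
    (fun x => t (w₀ x / 2)) ∘ g = fun x => t (w₀ x / 2) := by
  funext x
  have h1 := congrFun hg x
  simp only [Function.comp_apply, gw] at h1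
  simp only [Function.comp_apply, h1]

theorem chi_mul {t : ℕ → Bool} {w₀ : Word X} {g h : Perm X} (hg : gw w₀ ∘ g = gw w₀)
    (hh : gw w₀ ∘ h = gw w₀) : chi t w₀ (g * h) = chi t w₀ g * chi t w₀ h := by
  unfold chi
  exact sgnT_mul (sgnT_gw_inv hg) (sgnT_gw_inv hh)

private theorem chi_sq_cast (t : ℕ → Bool) (w₀ : Word X) (k : Perm X) :
    ((((chi t w₀ k : ℤˣ) : ℤ) : ℂ)) * (((chi t w₀ k : ℤˣ) : ℤ) : ℂ) = 1 := by
  rw [← Int.cast_mul, ← Units.val_mul, Int.units_mul_self]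
  simp

private theorem dw_comp {X : Type} (w₀ : Word X) (b : X → Fin 2) {k : Perm X} (hk : gw w₀ ∘ k = gw w₀) :
    dw (gw w₀) b ∘ (k⁻¹ : Perm X) = dw (gw w₀) (b ∘ (k⁻¹ : Perm X)) := by
  funext x
  have h1 := congrFun hk ((k⁻¹ : Perm X) x)
  simp only [Function.comp_apply, papply_inv] at h1
  simp only [Function.comp_apply, dw, h1]

/-- PROOF: reindex `h ↦ k * h` (`w₀ ∘ (k h)⁻¹ = (w₀ ∘ h⁻¹) ∘ k⁻¹ = dw (gw w₀) (b ∘ k⁻¹)`). -/
theorem Rr_mul {t : ℕ → Bool} {w₀ : Word X} (v : Perm X → ℂ) (g k : Perm X)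
    (hk : gw w₀ ∘ k = gw w₀) (b : X → Fin 2) :
    Rr w₀ t v (g * k) b = (((chi t w₀ k : ℤˣ) : ℤ) : ℂ) * Rr w₀ t v g (b ∘ (k⁻¹ : Perm X)) := by
  unfold Rr
  rw [← mul_assoc, mul_comm (((chi t w₀ k : ℤˣ) : ℤ) : ℂ) (1 / _), mul_assoc]
  congr 1
  rw [Finset.mul_sum]
  refine Finset.sum_equiv (Equiv.mulLeft k) ?_ ?_
  · intro h
    simp only [Finset.mem_filter, Finset.mem_univ, true_and, Equiv.coe_mulLeft]
    rw [← dw_comp w₀ b hk]
    have e1 : w₀ ∘ ((k * h)⁻¹ : Perm X) = (w₀ ∘ (h⁻¹ : Perm X)) ∘ (k⁻¹ : Perm X) := by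
      rw [mul_inv_rev]; rfl
    rw [e1]
    constructor
    · intro h1
      rw [h1]
    · intro h1
      have h2 := congrArg (fun f : X → ℕ => f ∘ k) h1
      simp only [Function.comp_assoc] at h2
      have h3 : ((k⁻¹ : Perm X) : X → X) ∘ (k : X → X) = id := by
        funext x; simp
      rw [h3] at h2
      exact h2
  · intro h hmem
    simp only [Finset.mem_filter, Finset.mem_univ, true_and] at hmem
    simp only [Equiv.coe_mulLeft]
    rw [chi_mul hk (gw_of_dw hmem), ← mul_assoc g k h, Units.val_mul, Int.cast_mul]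
    have h1 := chi_sq_cast t w₀ k
    calc (((chi t w₀ h : ℤˣ) : ℤ) : ℂ) * v (g * k * h)
        = ((((chi t w₀ k : ℤˣ) : ℤ) : ℂ) * (((chi t w₀ k : ℤˣ) : ℤ) : ℂ)) *
            ((((chi t w₀ h : ℤˣ) : ℤ) : ℂ) * v (g * k * h)) := by rw [h1, one_mul]
      _ = _ := by ring

theorem Rr_lreg (t : ℕ → Bool) (w₀ : Word X) (v : Perm X → ℂ) (x g : Perm X) :
    Rr w₀ t (lreg X x v) g = Rr w₀ t v (x⁻¹ * g) := by
  funext b
  unfold Rr
  have : ∀ h : Perm X, lreg X x v (g * h) = v (x⁻¹ * g * h) := fun h => by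
    rw [lreg_apply, mul_assoc]
  simp only [this]

/-- value for right equivariant `v`: all terms of the average are equal -/
theorem Rr_val {t : ℕ → Bool} {w₀ : Word X} {v : Perm X → ℂ}
    (hv : ∀ g k : Perm X, w₀ ∘ k = w₀ → v (g * k) = (((chi t w₀ k : ℤˣ) : ℤ) : ℂ) * v g)
    {g h : Perm X} {b : X → Fin 2} (hh : w₀ ∘ (h⁻¹ : Perm X) = dw (gw w₀) b) :
    Rr w₀ t v g b = (((chi t w₀ h : ℤˣ) : ℤ) : ℂ) * v (g * h) := by
  unfold Rr
  have hterm : ∀ h' ∈ (univ : Finset (Perm X)).filter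
      (fun h => w₀ ∘ (h⁻¹ : Perm X) = dw (gw w₀) b),
      (((chi t w₀ h' : ℤˣ) : ℤ) : ℂ) * v (g * h') = (((chi t w₀ h : ℤˣ) : ℤ) : ℂ) * v (g * h) := by
    intro h' hmem
    simp only [Finset.mem_filter, Finset.mem_univ, true_and] at hmem
    obtain ⟨k, rfl⟩ : ∃ k, h' = h * k := ⟨h⁻¹ * h', by simp⟩
    have hk : w₀ ∘ k = w₀ := by
      have h1 : w₀ ∘ ((h * k)⁻¹ : Perm X) = w₀ ∘ (h⁻¹ : Perm X) := hmem.trans hh.symm
      funext x
      have h2 := congrFun h1 ((h * k) x)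
      rw [Function.comp_apply, pinv_apply, Function.comp_apply, Perm.mul_apply, pinv_apply] at h2
      exact h2.symm
    have hgk : gw w₀ ∘ k = gw w₀ := by
      funext x
      have := congrFun hk x
      simp only [Function.comp_apply] at this
      simp only [Function.comp_apply, gw, this]
    rw [chi_mul (gw_of_dw hh) hgk, ← mul_assoc g h k, hv _ k hk, Units.val_mul, Int.cast_mul]
    have h1 := chi_sq_cast t w₀ k
    calc (((chi t w₀ h : ℤˣ) : ℤ) : ℂ) * (((chi t w₀ k : ℤˣ) : ℤ) : ℂ) *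
          ((((chi t w₀ k : ℤˣ) : ℤ) : ℂ) * v (g * h))
        = ((((chi t w₀ k : ℤˣ) : ℤ) : ℂ) * (((chi t w₀ k : ℤˣ) : ℤ) : ℂ)) *
            ((((chi t w₀ h : ℤˣ) : ℤ) : ℂ) * v (g * h)) := by ring
      _ = _ := by rw [h1, one_mul]
  rw [Finset.sum_congr rfl hterm, Finset.sum_const, nsmul_eq_mul]
  have hcard : ((univ : Finset (Perm X)).filter
      (fun h => w₀ ∘ (h⁻¹ : Perm X) = dw (gw w₀) b)).card = (Rs w₀).card := by
    symm
    refine Finset.card_equiv (Equiv.mulLeft h) ?_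
    intro k
    simp only [Rs, Finset.mem_filter, Finset.mem_univ, true_and, Equiv.coe_mulLeft]
    rw [← hh]
    constructor
    · intro hk
      funext x
      have h2 := congrFun hk (((h * k)⁻¹ : Perm X) x)
      simp only [Function.comp_apply, mul_inv_rev, Perm.mul_apply, papply_inv] at h2
      simp only [Function.comp_apply, mul_inv_rev, Perm.mul_apply]
      exact h2.symm
    · intro hk
      funext x
      have h2 := congrFun hk ((h * k) x)
      rw [Function.comp_apply, pinv_apply, Function.comp_apply, Perm.mul_apply, pinv_apply] at h2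
      exact h2.symm
  have hpos : ((Rs w₀).card : ℂ) ≠ 0 := by
    have : (1 : Perm X) ∈ Rs w₀ := by
      simp [Rs]
    have h1 : 0 < (Rs w₀).card := Finset.card_pos.mpr ⟨_, this⟩
    exact_mod_cast h1.ne'
  rw [hcard, ← mul_assoc, one_div, inv_mul_cancel₀ hpos, one_mul]

theorem Rr_eq_zero {t : ℕ → Bool} {w₀ : Word X} (v : Perm X → ℂ) (g : Perm X) (b : X → Fin 2)
    (hb : ∀ h : Perm X, w₀ ∘ (h⁻¹ : Perm X) ≠ dw (gw w₀) b) : Rr w₀ t v g b = 0 := by
  unfold Rr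
  rw [Finset.filter_false_of_mem fun h _ => hb h]
  simp

end Crest.Agent.SaxlN
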