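import Crest.Agent.SaxlN.Defs

/-!
CHUNK SGN (easy): the sign of the restriction to a subset.
-/

set_option autoImplicit false
set_option linter.unusedSectionVars false
set_option linter.unusedSimpArgs false

namespace Crest.Agent.SaxlN

open Finset Equiv
open Crest.Agent.Saxl

variable {X : Type} [Fintype X] [DecidableEq X]

private lemma sgnT_aux_eq {T : X → Bool} {g g' : Perm X} (hg : T ∘ g = T)
    (h1 : ∀ x, T x = true → g' x = g x) (h2 : ∀ x, T x = false → g' x = x) :
    sgnT T g = Perm.sign g' := by
  classical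
  have hg1 : ∀ x, T (g x) = T x := fun x => congrFun hg x
  have hg2 : ∀ x, T (g' x) = T x := by
    intro x
    cases hx : T x with
    | true => rw [h1 x hx, hg1, hx]
    | false => rw [h2 x hx, hx]
  unfold sgnT
  rw [dif_pos hg1]
  have hs := Perm.sign_subtypePerm g' (p := fun x => T x = true)
    (fun x => by simp only [hg2]) (fun x hx => by
      by_contra hc
      exact hx (h2 x (by simpa using hc)))
  rw [← hs]
  congr 1
  ext x
  simp only [Perm.subtypePerm_apply]
  exact (h1 _ x.2).symm

private lemma sgnT_aux_exists {T : X → Bool} {g : Perm X} (hg : T ∘ g = T) :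
    ∃ g' : Perm X, (∀ x, T x = true → g' x = g x) ∧ (∀ x, T x = false → g' x = x) := by
  classical
  have hg1 : ∀ x, T (g x) = T x := fun x => congrFun hg x
  refine ⟨Perm.ofSubtype (g.subtypePerm (p := fun x => T x = true)
    (fun x => by simp only [hg1])), ?_, ?_⟩
  · intro x hx
    rw [Perm.ofSubtype_apply_of_mem (p := fun x => T x = true) _ hx]
    simp
  · intro x hx
    rw [Perm.ofSubtype_apply_of_not_mem (p := fun x => T x = true)]
    simp [hx]

private lemma comp_aux_mul {T : X → Bool} {g h : Perm X} (hg : T ∘ g = T) (hh : T ∘ h = T) :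
    T ∘ (g * h : Perm X) = T := by
  funext x
  have h1 := congrFun hg (h x)
  have h2 := congrFun hh x
  simp only [Function.comp_apply] at h1 h2
  simp [Perm.mul_apply, h1, h2]

private lemma comp_aux_inv {T : X → Bool} {g : Perm X} (hg : T ∘ g = T) :
    T ∘ (g⁻¹ : Perm X) = T := by
  funext x
  have h1 := congrFun hg (g⁻¹ x)
  simp only [Function.comp_apply] at h1
  simpa using h1.symm

theorem sgnT_mul {T : X → Bool} {g h : Perm X} (hg : T ∘ g = T) (hh : T ∘ h = T) :
    sgnT T (g * h) = sgnT T g * sgnT T h := by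
  obtain ⟨g', a1, a2⟩ := sgnT_aux_exists hg
  obtain ⟨h', b1, b2⟩ := sgnT_aux_exists hh
  rw [sgnT_aux_eq hg a1 a2, sgnT_aux_eq hh b1 b2, ← Perm.sign_mul]
  apply sgnT_aux_eq (comp_aux_mul hg hh)
  · intro x hx
    have hx' : T (h x) = true := by
      have := congrFun hh x
      simp only [Function.comp_apply] at this
      rw [this, hx]
    rw [Perm.mul_apply, Perm.mul_apply, b1 x hx, a1 _ hx']
  · intro x hx
    rw [Perm.mul_apply, b2 x hx, a2 x hx]

theorem sgnT_one (T : X → Bool) : sgnT T (1 : Perm X) = 1 := by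
  rw [sgnT_aux_eq (g' := 1) (by rfl) (fun x _ => rfl) (fun x _ => rfl), Perm.sign_one]

theorem sgnT_inv {T : X → Bool} {g : Perm X} (hg : T ∘ g = T) : sgnT T g⁻¹ = sgnT T g := by
  have h := sgnT_mul (comp_aux_inv hg) hg
  rw [inv_mul_cancel, sgnT_one] at h
  have h2 : sgnT T g * sgnT T g = 1 := Int.units_mul_self _
  calc sgnT T g⁻¹ = sgnT T g⁻¹ * (sgnT T g * sgnT T g) := by rw [h2, mul_one]
    _ = (sgnT T g⁻¹ * sgnT T g) * sgnT T g := by rw [mul_assoc]
    _ = sgnT T g := by rw [← h, one_mul]

theorem sgnT_false (g : Perm X) : sgnT (fun _ => false) g = 1 := by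
  rw [sgnT_aux_eq (g' := 1) (by rfl) (fun x hx => by simp at hx) (fun x _ => rfl),
    Perm.sign_one]

theorem sgnT_true (g : Perm X) : sgnT (fun _ => true) g = Perm.sign g :=
  sgnT_aux_eq (by rfl) (fun x _ => rfl) (fun x hx => by simp at hx)

private lemma sgnT_aux_union {T T₁ T₂ : X → Bool} {g : Perm X} (hg : T ∘ g = T)
    (hg1 : T₁ ∘ g = T₁) (hg2 : T₂ ∘ g = T₂)
    (h : ∀ x, T x = (T₁ x || T₂ x)) (hd : ∀ x, T₁ x = true → T₂ x = false) :
    sgnT T g = sgnT T₁ g * sgnT T₂ g := by
  obtain ⟨g', a1, a2⟩ := sgnT_aux_exists hg1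
  obtain ⟨h', b1, b2⟩ := sgnT_aux_exists hg2
  rw [sgnT_aux_eq hg1 a1 a2, sgnT_aux_eq hg2 b1 b2, ← Perm.sign_mul]
  apply sgnT_aux_eq hg
  · intro x hx
    rw [Perm.mul_apply]
    cases hx1 : T₁ x with
    | true =>
      have hx2 := hd x hx1
      rw [b2 x hx2, a1 x hx1]
    | false =>
      have hx2 : T₂ x = true := by
        have := h x
        rw [hx, hx1] at this
        simpa using this.symm
      rw [b1 x hx2]
      apply a2
      have hh : T₂ (g x) = true := by
        have := congrFun hg2 x
        simp only [Function.comp_apply] at this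
        rw [this, hx2]
      cases hc : T₁ (g x) with
      | true =>
        have := hd _ hc
        rw [hh] at this
        exact absurd this (by simp)
      | false => rfl
  · intro x hx
    have := h x
    rw [hx] at this
    have hx1 : T₁ x = false := by
      cases hc : T₁ x with
      | true => rw [hc] at this; simp at this
      | false => rfl
    have hx2 : T₂ x = false := by
      cases hc : T₂ x with
      | true => rw [hc] at this; simp at this
      | false => rfl
    rw [Perm.mul_apply, b2 x hx2, a2 x hx1]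

theorem sgnT_not {T : X → Bool} {g : Perm X} (hg : T ∘ g = T) :
    sgnT (fun x => !T x) g = Perm.sign g * sgnT T g := by
  have hg' : (fun x => !T x) ∘ g = (fun x => !T x) := by
    funext x
    have := congrFun hg x
    simp only [Function.comp_apply] at this ⊢
    rw [this]
  have h := sgnT_aux_union (T := fun _ => true) (g := g) (by rfl) hg' hg
    (fun x => by cases T x <;> rfl) (fun x hx => by simpa using hx)
  rw [sgnT_true] at h
  rw [h, mul_assoc, Int.units_mul_self, mul_one]

/-- `sgn_T sgn_T' = sgn_{T xor T'}` for permutations preserving both -/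
theorem sgnT_xor {T T' : X → Bool} {g : Perm X} (hg : T ∘ g = T) (hg' : T' ∘ g = T') :
    sgnT (fun x => xor (T x) (T' x)) g = sgnT T g * sgnT T' g := by
  have key : ∀ F : Bool → Bool → Bool, (fun x => F (T x) (T' x)) ∘ g = (fun x => F (T x) (T' x)) := by
    intro F
    funext x
    have h1 := congrFun hg x
    have h2 := congrFun hg' x
    simp only [Function.comp_apply] at h1 h2 ⊢
    rw [h1, h2]
  have e1 := sgnT_aux_union (T := T) (T₁ := fun x => T x && T' x) (T₂ := fun x => T x && !T' x)
    (g := g) hg (key (fun a b => a && b)) (key (fun a b => a && !b))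
    (fun x => by cases T x <;> cases T' x <;> rfl) (fun x => by cases T x <;> cases T' x <;> simp)
  have e2 := sgnT_aux_union (T := T') (T₁ := fun x => T x && T' x) (T₂ := fun x => !T x && T' x)
    (g := g) hg' (key (fun a b => a && b)) (key (fun a b => !a && b))
    (fun x => by cases T x <;> cases T' x <;> rfl) (fun x => by cases T x <;> cases T' x <;> simp)
  have e3 := sgnT_aux_union (T := fun x => xor (T x) (T' x)) (T₁ := fun x => T x && !T' x)
    (T₂ := fun x => !T x && T' x)
    (g := g) (key (fun a b => xor a b)) (key (fun a b => a && !b)) (key (fun a b => !a && b))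
    (fun x => by cases T x <;> cases T' x <;> rfl) (fun x => by cases T x <;> cases T' x <;> simp)
  rw [e1, e2, e3]
  have h := Int.units_mul_self (sgnT (fun x => T x && T' x) g)
  calc sgnT (fun x => T x && !T' x) g * sgnT (fun x => !T x && T' x) g
      = (sgnT (fun x => T x && T' x) g * sgnT (fun x => T x && T' x) g) *
        (sgnT (fun x => T x && !T' x) g * sgnT (fun x => !T x && T' x) g) := by
          rw [h, one_mul]
    _ = _ := by
          simp only [mul_assoc, mul_left_comm, mul_comm]

theorem sgnT_conj {T : X → Bool} {g h : Perm X} (hh : T ∘ h = T) :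
    sgnT (T ∘ g) (g⁻¹ * h * g) = sgnT T h := by
  obtain ⟨h', b1, b2⟩ := sgnT_aux_exists hh
  rw [sgnT_aux_eq hh b1 b2]
  rw [sgnT_aux_eq (g' := g⁻¹ * h' * g)]
  · simp only [Perm.sign_mul, Perm.sign_inv]
    rw [mul_comm (Perm.sign g), mul_assoc, Int.units_mul_self, mul_one]
  · funext x
    have := congrFun hh (g x)
    simp only [Function.comp_apply] at this
    simp [Perm.mul_apply, this]
  · intro x hx
    simp only [Perm.mul_apply]
    rw [b1 (g x) hx]
  · intro x hx
    simp only [Perm.mul_apply]
    rw [b2 (g x) hx]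
    simp

theorem sgnT_swap {T : X → Bool} {x y : X} (hxy : x ≠ y) (h : T x = T y) :
    sgnT T (swap x y) = if T x then -1 else 1 := by
  have hs : T ∘ (swap x y) = T := by
    funext z
    simp only [Function.comp_apply]
    rcases eq_or_ne z x with rfl | hzx
    · rw [swap_apply_left, h]
    · rcases eq_or_ne z y with rfl | hzy
      · rw [swap_apply_right, h]
      · rw [swap_apply_of_ne_of_ne hzx hzy]
  cases hx : T x with
  | true =>
    rw [sgnT_aux_eq (g' := swap x y) hs (fun z _ => rfl)]
    · rw [Perm.sign_swap hxy]; simp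
    · intro z hz
      apply swap_apply_of_ne_of_ne
      · rintro rfl; rw [hx] at hz; exact absurd hz (by simp)
      · rintro rfl; rw [← h, hx] at hz; exact absurd hz (by simp)
  | false =>
    rw [sgnT_aux_eq (g' := 1) hs _ (fun z _ => rfl)]
    · simp
    · intro z hz
      symm
      apply swap_apply_of_ne_of_ne
      · rintro rfl; rw [hx] at hz; exact absurd hz (by simp)
      · rintro rfl; rw [← h, hx] at hz; exact absurd hz (by simp)

/-- the sign of a restriction to a smaller set of letters: if `g` fixes all letters outside `P`, and `g₁` is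
its restriction to `P`, then `sgn_T g = sgn_{T|P} g₁`; stated with `ofSubtype`. -/
theorem sgnT_ofSubtype {T : X → Bool} (P : X → Prop) [DecidablePred P]
    (g₁ : Perm {x // P x}) (hg : (fun x : {x // P x} => T x) ∘ g₁ = (fun x : {x // P x} => T x)) :
    sgnT T (Perm.ofSubtype g₁) = sgnT (fun x : {x // P x} => T x) g₁ := by
  obtain ⟨h', b1, b2⟩ := sgnT_aux_exists hg
  rw [sgnT_aux_eq hg b1 b2]
  rw [sgnT_aux_eq (g' := Perm.ofSubtype h')]
  · exact Perm.sign_ofSubtype h'
  · funext x
    simp only [Function.comp_apply]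
    by_cases hx : P x
    · rw [Perm.ofSubtype_apply_of_mem _ hx]
      exact congrFun hg ⟨x, hx⟩
    · rw [Perm.ofSubtype_apply_of_not_mem _ hx]
  · intro x hx
    by_cases hP : P x
    · rw [Perm.ofSubtype_apply_of_mem _ hP, Perm.ofSubtype_apply_of_mem _ hP, b1 ⟨x, hP⟩ hx]
    · rw [Perm.ofSubtype_apply_of_not_mem _ hP, Perm.ofSubtype_apply_of_not_mem _ hP]
  · intro x hx
    by_cases hP : P x
    · rw [Perm.ofSubtype_apply_of_mem _ hP, b2 ⟨x, hP⟩ hx]
    · rw [Perm.ofSubtype_apply_of_not_mem _ hP]

/-- the sign character as a homomorphism on the block subgroup -/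
theorem exists_chiH (u : Word X) (s : ℕ → Bool) :
    ∃ ε : Hs u →* ℤˣ, ∀ h : Hs u, ε h = sgnT (fun x => s (u x)) (h : Perm X) := by
  have key : ∀ h : Hs u, (fun x => s (u x)) ∘ (h : Perm X) = (fun x => s (u x)) := by
    intro h
    have h1 : u ∘ (h : Perm X) = u := h.2
    funext x
    have := congrFun h1 x
    simp only [Function.comp_apply] at this ⊢
    rw [this]
  refine ⟨{ toFun := fun h => sgnT (fun x => s (u x)) (h : Perm X)
            map_one' := ?_
            map_mul' := ?_ }, fun h => rfl⟩
  · exact sgnT_one _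
  · intro a b
    exact sgnT_mul (key a) (key b)

end Crest.Agent.SaxlN
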