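import Crest.Agent.SaxlN.SysDefs

/-!
SHAPE (pure combinatorics of natural numbers): the shape of a system of lines does not depend
on the types, if they are balanced at the gaps.
-/

set_option autoImplicit false

namespace Crest.Agent.SaxlN

open Finset Equiv
open Crest.Agent.Saxl

private def rkL (La : Finset ℕ) (L : ℕ) : ℕ := (La.filter (fun M => L < M)).card

private lemma rkL_eq (La : Finset ℕ) (t : ℕ → Bool) (L : ℕ) :
    rkL La L = cntL La t false L + cntL La t true L := by
  unfold rkL cntL
  rw [← Finset.card_union_of_disjoint]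
  · congr 1
    ext M
    simp only [mem_filter, mem_union]
    cases t M <;> simp
  · rw [Finset.disjoint_left]
    intro M h1 h2
    simp only [mem_filter] at h1 h2
    rw [h1.2.2] at h2
    exact absurd h2.2.2 (by simp)

private lemma rkL_eq' (La : Finset ℕ) (t : ℕ → Bool) (s : Bool) (L : ℕ) :
    rkL La L = cntL La t s L + cntL La t (!s) L := by
  rw [rkL_eq La t L]
  cases s <;> simp [Nat.add_comm]

private lemma cntL_mono (La : Finset ℕ) (t : ℕ → Bool) (s : Bool) {L L' : ℕ} (h : L ≤ L') :
    cntL La t s L' ≤ cntL La t s L := by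
  unfold cntL
  apply Finset.card_le_card
  intro M hM
  simp only [mem_filter] at hM ⊢
  exact ⟨hM.1, by omega, hM.2.2⟩

private lemma cntL_lt (La : Finset ℕ) (t : ℕ → Bool) {L L' : ℕ} (h : L' < L) (hL : L ∈ La) :
    cntL La t (t L) L + 1 ≤ cntL La t (t L) L' := by
  unfold cntL
  rw [← Finset.card_insert_of_notMem (a := L) (s := La.filter (fun M => L < M ∧ t M = t L))]
  · apply Finset.card_le_card
    intro M hM
    simp only [mem_filter, mem_insert] at hM ⊢
    rcases hM with rfl | hM
    · exact ⟨hL, h, rfl⟩
    · exact ⟨hM.1, by omega, hM.2.2⟩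
  · simp

private lemma rkL_lt {La : Finset ℕ} {L L' : ℕ} (h : L' < L) (hL : L ∈ La) :
    rkL La L + 1 ≤ rkL La L' := by
  unfold rkL
  rw [← Finset.card_insert_of_notMem (a := L) (s := La.filter (fun M => L < M))]
  · apply Finset.card_le_card
    intro M hM
    simp only [mem_filter, mem_insert] at hM ⊢
    rcases hM with rfl | hM
    · exact ⟨hL, h⟩
    · exact ⟨hM.1, by omega⟩
  · simp

private lemma rkL_mono {La : Finset ℕ} {L L' : ℕ} (h : L' ≤ L) : rkL La L ≤ rkL La L' := by
  unfold rkL
  apply Finset.card_le_card
  intro M hM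
  simp only [mem_filter] at hM ⊢
  exact ⟨hM.1, by omega⟩

private lemma rkL_split {La : Finset ℕ} {L L' : ℕ} (h : L' ≤ L) :
    rkL La L' = rkL La L + (La ∩ Finset.Ioc L' L).card := by
  unfold rkL
  rw [← Finset.card_union_of_disjoint]
  · congr 1
    ext M
    simp only [mem_filter, mem_union, mem_inter, mem_Ioc]
    constructor
    · rintro ⟨h1, h2⟩
      by_cases h3 : L < M
      · exact Or.inl ⟨h1, h3⟩
      · exact Or.inr ⟨h1, h2, by omega⟩
    · rintro (⟨h1, h2⟩ | ⟨h1, h2, h3⟩)
      · exact ⟨h1, by omega⟩
      · exact ⟨h1, h2⟩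
  · rw [Finset.disjoint_left]
    intro M h1 h2
    simp only [mem_filter, mem_inter, mem_Ioc] at h1 h2
    omega

private lemma h_anti {La : Finset ℕ} {L L' : ℕ} (h : L' ≤ L) :
    L' + rkL La L' ≤ L + rkL La L := by
  rw [rkL_split h]
  have h1 : (La ∩ Finset.Ioc L' L).card ≤ (Finset.Ioc L' L).card :=
    Finset.card_le_card Finset.inter_subset_right
  rw [Nat.card_Ioc] at h1
  omega

private lemma rkL_full {La : Finset ℕ} {L L' : ℕ} (h : L' ≤ L)
    (hf : ∀ K, L' < K → K ≤ L → K ∈ La) : rkL La L' = rkL La L + (L - L') := by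
  rw [rkL_split h]
  have : La ∩ Finset.Ioc L' L = Finset.Ioc L' L := by
    apply Finset.inter_eq_right.2
    intro K hK
    rw [mem_Ioc] at hK
    exact hf K hK.1 hK.2
  rw [this, Nat.card_Ioc]

private lemma exists_rk {La : Finset ℕ} : ∀ (k : ℕ) {L : ℕ}, L ∈ La → ∀ m, m ≤ rkL La L →
    rkL La L = m + k → ∃ M ∈ La, rkL La M = m := by
  intro k
  induction k with
  | zero =>
    intro L hL m _ h
    exact ⟨L, hL, by omega⟩
  | succ k ih =>
    intro L hL m hm h
    have hne : (La.filter (fun M => L < M)).Nonempty := by
      rw [← Finset.card_pos]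
      show 0 < rkL La L
      omega
    set M := (La.filter (fun M => L < M)).min' hne with hM
    have hMm := Finset.min'_mem _ hne
    rw [← hM, mem_filter] at hMm
    have hr : rkL La L = rkL La M + 1 := by
      rw [rkL_split (le_of_lt hMm.2)]
      congr 1
      rw [Finset.card_eq_one]
      refine ⟨M, ?_⟩
      ext K
      simp only [mem_inter, mem_Ioc, mem_singleton]
      constructor
      · rintro ⟨h1, h2, h3⟩
        have h4 : M ≤ K := Finset.min'_le _ _ (by rw [mem_filter]; exact ⟨h1, h2⟩)
        omega
      · rintro rfl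
        exact ⟨hMm.1, hMm.2, le_rfl⟩
    exact ih hMm.1 m (by omega) (by omega)

private lemma exists_rk' {La : Finset ℕ} {L : ℕ} (hL : L ∈ La) {m : ℕ} (hm : m ≤ rkL La L) :
    ∃ M ∈ La, rkL La M = m :=
  exists_rk (rkL La L - m) hL m hm (by omega)

/-- different letters have different cells. -/
theorem cell_inj {La : Finset ℕ} (t : ℕ → Bool) {L L' a a' : ℕ} (hL : L ∈ La) (hL' : L' ∈ La)
    (h : cellOf La t L a = cellOf La t L' a') : L = L' ∧ a = a' := by
  have key : ∀ {L L' a a' : ℕ}, L ∈ La → L' < L → cellOf La t L a = cellOf La t L' a' → False := by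
    intro L L' a a' hL hlt h
    unfold cellOf at h
    rw [Prod.mk.injEq] at h
    have h1 := cntL_lt La t hlt hL
    cases htL : t L with
    | false =>
      rw [htL] at h1 h
      simp only [Bool.false_eq_true, if_false] at h
      have h2 := h.1
      omega
    | true =>
      rw [htL] at h1 h
      simp only [if_true] at h
      have h2 := h.2
      omega
  rcases lt_trichotomy L L' with hlt | heq | hlt
  · exact (key hL' hlt h.symm).elim
  · subst heq
    refine ⟨rfl, ?_⟩
    unfold cellOf at h
    rw [Prod.mk.injEq] at h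
    cases htL : t L with
    | false => rw [htL] at h; simp only [Bool.false_eq_true, if_false] at h; omega
    | true => rw [htL] at h; simp only [if_true] at h; omega
  · exact (key hL hlt h).elim

private lemma bal_gap {La : Finset ℕ} {t : ℕ → Bool} (hb : Bal La t) {G : ℕ} (hG : G + 1 ∉ La)
    (s : Bool) : 2 * cntL La t s G = rkL La G := by
  have h1 := hb G hG
  have h2 := rkL_eq La t G
  cases s <;> omega

private lemma cell_core {La : Finset ℕ} {t : ℕ → Bool} (hb : Bal La t) {L a : ℕ} (hL : L ∈ La)
    (ha : a < L) (d : ℕ) (hd1 : d ≤ cntL La t (t L) L) (hd2 : d ≤ cntL La t (!(t L)) L + a) :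
    ∃ M ∈ La, rkL La M = 2 * d ∧ rkL La L + a < M + 2 * d := by
  by_cases hc : 2 * d ≤ rkL La L
  · obtain ⟨M, hM, hMr⟩ := exists_rk' hL hc
    have hML : L ≤ M := by
      by_contra hlt
      have := rkL_lt (La := La) (not_le.1 hlt) hL
      omega
    have := h_anti (La := La) hML
    exact ⟨M, hM, hMr, by omega⟩
  · have hsum := rkL_eq' La t (t L) L
    have key : ∀ k, k ≤ 2 * d - rkL La L → k < L ∧ ∀ K, L - k ≤ K → K ≤ L → K ∈ La := by
      intro k
      induction k with
      | zero =>
        intro _
        refine ⟨by omega, fun K h1 h2 => ?_⟩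
        have : K = L := by omega
        rw [this]; exact hL
      | succ k ih =>
        intro hk
        obtain ⟨ih1, ih2⟩ := ih (by omega)
        have hkL : k + 1 < L := by
          by_contra hcon
          have : k + 1 = L := by omega
          omega
        refine ⟨hkL, ?_⟩
        obtain ⟨G, hG⟩ : ∃ G, L - (k + 1) = G + 1 := ⟨L - (k + 1) - 1, by omega⟩
        have hGm : G + 1 ∈ La := by
          by_contra hGn
          have h1 := bal_gap hb hGn (t L)
          have h2 : rkL La (G + 1) = rkL La L + (L - (G + 1)) := by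
            apply rkL_full (by omega)
            intro K h3 h4
            exact ih2 K (by omega) h4
          have h3 : rkL La G = rkL La (G + 1) := by
            rw [rkL_split (show G ≤ G + 1 by omega)]
            have : La ∩ Finset.Ioc G (G + 1) = ∅ := by
              ext K
              simp only [mem_inter, mem_Ioc, notMem_empty, iff_false]
              rintro ⟨h4, h5, h6⟩
              have : K = G + 1 := by omega
              rw [this] at h4
              exact hGn h4
            rw [this]; simp
          have h4 := cntL_lt La t (show G < L by omega) hL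
          omega
        intro K h1 h2
        by_cases h3 : K = G + 1
        · rw [h3]; exact hGm
        · exact ih2 K (by omega) h2
    obtain ⟨h1, h2⟩ := key (2 * d - rkL La L) le_rfl
    refine ⟨L - (2 * d - rkL La L), h2 _ le_rfl (by omega), ?_, ?_⟩
    · rw [rkL_full (L := L) (by omega) (fun K h3 h4 => h2 K (by omega) h4)]
      omega
    · omega

theorem cell_mem {La : Finset ℕ} (_h0 : 0 ∉ La) {t : ℕ → Bool} (hb : Bal La t) {L a : ℕ} (hL : L ∈ La)
    (ha : a < L) : cellOf La t L a ∈ DD La := by
  have hs := rkL_eq La t L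
  unfold cellOf DD
  simp only [Set.mem_setOf_eq]
  cases htL : t L with
  | false =>
    simp only [Bool.false_eq_true, if_false, Nat.add_zero]
    obtain ⟨M, hM, h1, h2⟩ := cell_core hb hL ha
      (min (cntL La t false L) (cntL La t true L + a))
      (by rw [htL]; exact min_le_left _ _) (by rw [htL]; exact min_le_right _ _)
    exact ⟨M, hM, h1, by omega⟩
  | true =>
    simp only [if_true, Nat.add_zero]
    obtain ⟨M, hM, h1, h2⟩ := cell_core hb hL ha
      (min (cntL La t false L + a) (cntL La t true L))
      (by rw [htL]; exact min_le_right _ _) (by rw [htL]; exact min_le_left _ _)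
    exact ⟨M, hM, h1, by omega⟩

private lemma capt {La : Finset ℕ} {t : ℕ → Bool} {i j : ℕ} : ∀ (k L : ℕ), La.sup id ≤ L + k →
    (∀ K ∈ La, L < K → ¬ ((t K = false ∧ cntL La t false K = i) ∨
      (t K = true ∧ cntL La t true K = j))) →
    cntL La t false L ≤ i ∧ cntL La t true L ≤ j := by
  intro k
  induction k with
  | zero =>
    intro L hL _
    have : ∀ s, cntL La t s L = 0 := by
      intro s
      unfold cntL
      rw [Finset.card_eq_zero, Finset.filter_eq_empty_iff]
      rintro K hK ⟨h1, _⟩
      have : K ≤ La.sup id := Finset.le_sup (f := id) hK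
      omega
    rw [this, this]; omega
  | succ k ih =>
    intro L hL hK
    obtain ⟨h1, h2⟩ := ih (L + 1) (by omega) (fun K hK' hlt => hK K hK' (by omega))
    have step : ∀ s, cntL La t s L ≤ cntL La t s (L + 1) +
        (if L + 1 ∈ La ∧ t (L + 1) = s then 1 else 0) := by
      intro s
      unfold cntL
      split_ifs with hc
      · rw [← Finset.card_insert_of_notMem (a := L + 1)
          (s := La.filter (fun M => L + 1 < M ∧ t M = s)) (by simp)]
        apply Finset.card_le_card
        intro M hM
        simp only [mem_filter, mem_insert] at hM ⊢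
        by_cases h3 : M = L + 1
        · exact Or.inl h3
        · exact Or.inr ⟨hM.1, by omega, hM.2.2⟩
      · rw [Nat.add_zero]
        apply Finset.card_le_card
        intro M hM
        simp only [mem_filter] at hM ⊢
        refine ⟨hM.1, ?_, hM.2.2⟩
        by_contra h3
        have h4 : M = L + 1 := by omega
        rw [h4] at hM
        exact hc ⟨hM.1, hM.2.2⟩
    have s1 := step false
    have s2 := step true
    by_cases hc : L + 1 ∈ La
    · have hn := hK (L + 1) hc (by omega)
      cases ht : t (L + 1) with
      | false =>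
        rw [ht] at s1 s2
        simp only [hc, true_and, if_true, Bool.false_eq_true, if_false] at s1 s2
        have : cntL La t false (L + 1) ≠ i := fun h => hn (Or.inl ⟨ht, h⟩)
        omega
      | true =>
        rw [ht] at s1 s2
        simp only [hc, true_and, if_true, Bool.true_eq_false, if_false] at s1 s2
        have : cntL La t true (L + 1) ≠ j := fun h => hn (Or.inr ⟨ht, h⟩)
        omega
    · simp only [hc, false_and, if_false] at s1 s2
      omega

private lemma gap_or_full {La : Finset ℕ} {L M : ℕ} (hLM : L ≤ M) (hM : M ∈ La ∨ L = M) :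
    (∀ K, L < K → K ≤ M → K ∈ La) ∨ ∃ G, G + 1 ∉ La ∧ L ≤ G ∧ G + 1 < M := by
  by_cases h : ∀ K, L < K → K ≤ M → K ∈ La
  · exact Or.inl h
  · push Not at h
    obtain ⟨K, h1, h2, h3⟩ := h
    right
    refine ⟨K - 1, ?_, by omega, ?_⟩
    · have : K - 1 + 1 = K := by omega
      rw [this]; exact h3
    · have : K ≠ M := by
        rintro rfl
        rcases hM with hM | hM
        · exact h3 hM
        · omega
      omega

theorem cell_surj {La : Finset ℕ} (h0 : 0 ∉ La) {t : ℕ → Bool} (hb : Bal La t) {c : ℕ × ℕ} (hc : c ∈ DD La) :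
    ∃ L ∈ La, ∃ a < L, cellOf La t L a = c := by
  obtain ⟨i, j⟩ := c
  obtain ⟨M, hM, hMr, hlt⟩ := hc
  simp only at hMr hlt
  change rkL La M = 2 * min i j at hMr
  -- the captured lines
  let cap : ℕ → Prop := fun K => (t K = false ∧ cntL La t false K = i) ∨
      (t K = true ∧ cntL La t true K = j)
  have hgapbound : ∀ G, G + 1 ∉ La → G + 1 < M → ∀ L ≤ G, min i j + 1 ≤ cntL La t false L ∧
      min i j + 1 ≤ cntL La t true L := by
    intro G hG hGM L hLG
    have h1 := bal_gap hb hG false
    have h2 := bal_gap hb hG true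
    have h3 := rkL_lt (La := La) (show G < M by omega) hM
    have h4 := cntL_mono La t false hLG
    have h5 := cntL_mono La t true hLG
    omega
  have hex : (La.filter (fun K => (t K = false ∧ cntL La t false K = i) ∨
      (t K = true ∧ cntL La t true K = j))).Nonempty := by
    by_contra hcon
    rw [Finset.not_nonempty_iff_eq_empty, Finset.filter_eq_empty_iff] at hcon
    obtain ⟨h1, h2⟩ := capt (La := La) (t := t) (i := i) (j := j) (La.sup id) 0 (by omega)
      (fun K hK _ => hcon hK)
    have h3 := rkL_eq La t 0
    rcases gap_or_full (La := La) (Nat.zero_le M) (Or.inl hM) with hf | ⟨G, hG, _, hGM⟩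
    · have h4 := rkL_full (Nat.zero_le M) hf
      omega
    · have h5 := hgapbound G hG hGM 0 (Nat.zero_le _)
      omega
  set L := (La.filter (fun K => (t K = false ∧ cntL La t false K = i) ∨
      (t K = true ∧ cntL La t true K = j))).max' hex with hLdef
  have hLm := Finset.max'_mem _ hex
  rw [← hLdef, mem_filter] at hLm
  obtain ⟨hL, hcap⟩ := hLm
  obtain ⟨hx, hy⟩ := capt (La := La) (t := t) (i := i) (j := j) (La.sup id) L (by omega) (by
    intro K hK hLK hcon
    have : K ≤ L := Finset.le_max' _ _ (by rw [mem_filter]; exact ⟨hK, hcon⟩)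
    omega)
  have hrk := rkL_eq La t L
  have hbound : i + j < L + rkL La L := by
    by_cases h1 : rkL La L ≤ 2 * min i j
    · have hML : M ≤ L := by
        by_contra hcon
        have := rkL_lt (La := La) (not_le.1 hcon) hM
        omega
      have := h_anti (La := La) hML
      omega
    · have hLM : L ≤ M := by
        by_contra hcon
        have := rkL_mono (La := La) (le_of_lt (not_le.1 hcon))
        omega
      rcases gap_or_full hLM (Or.inl hM) with hf | ⟨G, hG, hLG, hGM⟩
      · have := rkL_full hLM hf
        omega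
      · have := hgapbound G hG hGM L hLG
        omega
  refine ⟨L, hL, (i - cntL La t false L) + (j - cntL La t true L), ?_, ?_⟩
  · rcases hcap with ⟨_, h2⟩ | ⟨_, h2⟩ <;> omega
  · unfold cellOf
    rcases hcap with ⟨h1, h2⟩ | ⟨h1, h2⟩
    · rw [h1]
      simp only [Bool.false_eq_true, if_false, Prod.mk.injEq]
      omega
    · rw [h1]
      simp only [if_true, Prod.mk.injEq]
      omega

theorem DD_lower {La : Finset ℕ} {i j i' j' : ℕ} (h : (i, j) ∈ DD La) (hi : i' ≤ i) (hj : j' ≤ j) :
    (i', j') ∈ DD La := by
  obtain ⟨L, hL, hr, hlt⟩ := h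
  simp only at hr hlt
  change rkL La L = 2 * min i j at hr
  have hd : min i' j' ≤ min i j := min_le_min hi hj
  obtain ⟨L', hL', hr'⟩ := exists_rk' (La := La) hL (m := 2 * min i' j') (by omega)
  have hLL : L ≤ L' := by
    by_contra hcon
    have := rkL_lt (La := La) (not_le.1 hcon) hL
    omega
  have := h_anti (La := La) hLL
  refine ⟨L', hL', hr', ?_⟩
  simp only
  omega

end Crest.Agent.SaxlN
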