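import Crest.Agent.SaxlN.StepDefs
import Crest.Agent.SaxlN.RrF

/-!
CHUNK STEPA (medium): the lift is well defined.
-/

set_option autoImplicit false

namespace Crest.Agent.SaxlN

open Finset Equiv
open Crest.Agent.Saxl

variable {X : Type} [Fintype X] [DecidableEq X]

theorem pres_mul {X : Type} {w₀ : Word X} {k l : Perm X} (hk : Pres w₀ k) (hl : Pres w₀ l) :
    Pres w₀ (k * l) := by
  intro x
  rw [Perm.mul_apply, hk, hl]

theorem pres_inv {X : Type} {w₀ : Word X} {k : Perm X} (hk : Pres w₀ k) : Pres w₀ k⁻¹ := by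
  intro x
  have := hk (k⁻¹ x)
  have e : k (k⁻¹ x) = x := by simp
  rw [e] at this
  exact this.symm

/-- restriction to `X1` -/
theorem rs1_mul {w₀ : Word X} {k l : Perm X} (hk : Pres w₀ k) (hl : Pres w₀ l) :
    rs1 w₀ (k * l) = rs1 w₀ k * rs1 w₀ l := by
  unfold rs1
  rw [dif_pos hk, dif_pos hl, dif_pos (pres_mul hk hl)]
  ext x
  rfl

theorem rs1_apply {w₀ : Word X} {k : Perm X} (hk : Pres w₀ k) (x : X1 w₀) :
    ((rs1 w₀ k x : X1 w₀) : X) = k x := by
  unfold rs1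
  rw [dif_pos hk]
  rfl

/-- a permutation preserving the group word is in `Pres` -/
theorem pres_of_gw {X : Type} {w₀ : Word X} {k : Perm X} (hk : gw w₀ ∘ k = gw w₀) : Pres w₀ k := by
  intro x
  have := congrFun hk x
  simp only [gw, Function.comp_apply] at this
  omega

private theorem stepA_emL_swap {η : ℕ → ℕ} {w₀ A : Word X} (hA : PerpL η A w₀) {a b : X}
    (ha : w₀ a = 0) (hb : w₀ b = 1) (hab : A a = A b) (Y : Word X) :
    emL w₀ A (Y ∘ (swap a b : Perm X)) = - emL w₀ A Y := by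
  have hinj : ∀ x y : X, A x = A y → w₀ x = w₀ y → x = y := by
    intro x y h1 h2
    exact hA.1 (by simp [h1, h2])
  unfold emL
  have h2 : (∏ x ∈ univ.filter (fun x => w₀ x = 0 ∧ ∀ y, w₀ y = 1 → A y ≠ A x),
      (1 - ((Y ∘ (swap a b : Perm X)) x : ℤ))) =
      ∏ x ∈ univ.filter (fun x => w₀ x = 0 ∧ ∀ y, w₀ y = 1 → A y ≠ A x), (1 - (Y x : ℤ)) := by
    refine Finset.prod_congr rfl ?_
    intro x hx
    rw [mem_filter] at hx
    obtain ⟨-, hx0, hx1⟩ := hx
    have h1 : x ≠ a := by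
      rintro rfl
      exact hx1 b hb hab.symm
    have h2 : x ≠ b := by
      rintro rfl
      omega
    rw [Function.comp_apply, swap_apply_of_ne_of_ne h1 h2]
  rw [h2, ← neg_mul]
  congr 1
  have hmem : (a, b) ∈ (univ : Finset (X × X)).filter
      (fun q => w₀ q.1 = 0 ∧ w₀ q.2 = 1 ∧ A q.1 = A q.2) := by
    simp [ha, hb, hab]
  rw [← Finset.mul_prod_erase _ _ hmem, ← Finset.mul_prod_erase _ _ hmem]
  have h3 : (∏ q ∈ ((univ : Finset (X × X)).filter
      (fun q => w₀ q.1 = 0 ∧ w₀ q.2 = 1 ∧ A q.1 = A q.2)).erase (a, b),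
      (((Y ∘ (swap a b : Perm X)) q.2 : ℤ) - ((Y ∘ (swap a b : Perm X)) q.1 : ℤ))) =
      ∏ q ∈ ((univ : Finset (X × X)).filter
      (fun q => w₀ q.1 = 0 ∧ w₀ q.2 = 1 ∧ A q.1 = A q.2)).erase (a, b),
      ((Y q.2 : ℤ) - (Y q.1 : ℤ)) := by
    refine Finset.prod_congr rfl ?_
    rintro ⟨a', b'⟩ hq
    rw [mem_erase, mem_filter] at hq
    obtain ⟨hne, -, h0, h1, h01⟩ := hq
    simp only at h0 h1 h01
    have e1 : a' ≠ a := by
      rintro rfl
      apply hne
      have : b' = b := hinj _ _ (by rw [← h01, hab]) (by rw [h1, hb])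
      rw [this]
    have e2 : a' ≠ b := by
      rintro rfl
      omega
    have e3 : b' ≠ b := by
      rintro rfl
      apply hne
      have : a' = a := hinj _ _ (by rw [h01, hab]) (by rw [h0, ha])
      rw [this]
    have e4 : b' ≠ a := by
      rintro rfl
      omega
    simp only [Function.comp_apply]
    rw [swap_apply_of_ne_of_ne e1 e2, swap_apply_of_ne_of_ne e4 e3]
  rw [h3]
  simp only [Function.comp_apply, swap_apply_left, swap_apply_right]
  ring

private theorem stepA_pres_swap {w₀ : Word X} {a b : X} (ha : w₀ a = 0) (hb : w₀ b = 1) :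
    Pres w₀ (swap a b : Perm X) := by
  intro x
  by_cases h1 : x = a
  · subst h1
    rw [swap_apply_left]; omega
  by_cases h2 : x = b
  · subst h2
    rw [swap_apply_right]; omega
  rw [swap_apply_of_ne_of_ne h1 h2]

private theorem stepA_pres_mul_iff {X : Type} {w₀ : Word X} {c k : Perm X} (hc : Pres w₀ c) :
    Pres w₀ (c * k) ↔ Pres w₀ k := by
  constructor
  · intro h
    have := pres_mul (pres_inv hc) h
    rwa [inv_mul_cancel_left] at this
  · intro h
    exact pres_mul hc h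

private theorem stepA_swap {η : ℕ → ℕ} {w₀ A : Word X} (hA : PerpL η A w₀)
    {v₁ : Perm (X1 w₀) → ℤ} {a b : X} (ha : w₀ a = 0) (hb : w₀ b = 1) (hab : A a = A b)
    (k : Perm X) :
    mt w₀ A v₁ (swap a b * k) = - mt w₀ A v₁ k := by
  unfold mt
  have hp := stepA_pres_swap ha hb
  by_cases hk : Pres w₀ k
  · rw [if_pos hk, if_pos ((stepA_pres_mul_iff hp).2 hk)]
    have h1 : w₀ ∘ ((swap a b * k)⁻¹ : Perm X) = (w₀ ∘ (k⁻¹ : Perm X)) ∘ (swap a b : Perm X) := by
      funext x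
      simp [mul_inv_rev, Perm.mul_apply]
    rw [h1, stepA_emL_swap hA ha hb hab, rs1_mul hp hk]
    have h2 : rs1 w₀ (swap a b : Perm X) = 1 := by
      ext x
      rw [rs1_apply hp]
      have hx := x.2
      rw [swap_apply_of_ne_of_ne]
      · rfl
      · intro h
        rw [h] at hx
        omega
      · intro h
        rw [h] at hx
        omega
    rw [h2, one_mul, neg_mul]
  · rw [if_neg hk, if_neg (fun h => hk ((stepA_pres_mul_iff hp).1 h)), neg_zero]

private theorem stepA_fix {η : ℕ → ℕ} {w₀ A : Word X} (hA : PerpL η A w₀)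
    {v₁ : Perm (X1 w₀) → ℤ}
    (hv : ∀ c : Perm (X1 w₀), a1 w₀ A ∘ c = a1 w₀ A → ∀ g, v₁ (c * g) = ((Perm.sign c : ℤˣ) : ℤ) * v₁ g)
    {c k : Perm X} (hc : A ∘ c = A) (hcp : Pres w₀ c) (hf : ∀ x, w₀ x = 0 → c x = x) :
    mt w₀ A v₁ (c * k) = ((Perm.sign c : ℤˣ) : ℤ) * mt w₀ A v₁ k := by
  have hinj : ∀ x y : X, A x = A y → w₀ x = w₀ y → x = y := by
    intro x y h1 h2
    exact hA.1 (by simp [h1, h2])
  have hf2 : ∀ x, c x ≠ x → 2 ≤ w₀ x := by
    intro x hx
    by_contra hlt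
    have h0 : w₀ x ≠ 0 := fun h => hx (hf x h)
    have h1 : w₀ x = 1 := by omega
    have h2 : w₀ (c x) < 2 := by
      by_contra h
      exact hlt ((hcp x).1 (by omega))
    by_cases h3 : w₀ (c x) = 0
    · exact hx (c.injective (hf _ h3))
    · exact hx (hinj _ _ (congrFun hc x) (by omega))
  have hf3 : ∀ x, w₀ x < 2 → c⁻¹ x = x := by
    intro x hx
    have : c x = x := by
      by_contra h
      have := hf2 x h
      omega
    rw [Perm.inv_eq_iff_eq, this]
  unfold mt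
  by_cases hk : Pres w₀ k
  · rw [if_pos hk, if_pos ((stepA_pres_mul_iff hcp).2 hk), rs1_mul hcp hk, hv]
    · have h1 : Perm.sign (rs1 w₀ c) = Perm.sign c := by
        unfold rs1
        rw [dif_pos hcp]
        exact Perm.sign_subtypePerm (p := fun x => 2 ≤ w₀ x) c hcp hf2
      rw [h1]
      have h2 : emL w₀ A (w₀ ∘ ((c * k)⁻¹ : Perm X)) = emL w₀ A (w₀ ∘ (k⁻¹ : Perm X)) := by
        unfold emL
        have h3 : ∀ x, w₀ x < 2 → (w₀ ∘ ((c * k)⁻¹ : Perm X)) x = (w₀ ∘ (k⁻¹ : Perm X)) x := by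
          intro x hx
          simp only [Function.comp_apply, mul_inv_rev, Perm.mul_apply]
          rw [hf3 x hx]
        congr 1
        · refine Finset.prod_congr rfl ?_
          rintro ⟨a, b⟩ hq
          rw [mem_filter] at hq
          obtain ⟨-, h0, h1, h01⟩ := hq
          simp only at h0 h1
          simp only
          rw [h3 a (by omega), h3 b (by omega)]
        · refine Finset.prod_congr rfl ?_
          intro x hx
          rw [mem_filter] at hx
          rw [h3 x (by omega)]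
      rw [h2]
      ring
    · funext x
      have := congrFun hc (x : X)
      simp only [Function.comp_apply] at this
      simp only [a1, Function.comp_apply]
      rw [rs1_apply hcp, this]
  · rw [if_neg hk, if_neg (fun h => hk ((stepA_pres_mul_iff hcp).1 h)), mul_zero]

/-- PROOF. `c ∈ Rs A` preserving group 0 permutes the column pairs of group 0 among themselves as sets: it fixes
the column of each letter; in each column there are one or two letters of group 0, so `c` exchanges or fixes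
the letters of each pair, fixes the unpaired letters (`(A, w₀)` injective), and
`emL (Y ∘ c) = sgn(c on group 0) emL Y`; `v₁ (c₁ k₁) = sgn(c₁) v₁ k₁`; `sgn c = sgn(c|group 0) sgn(c₁)`. -/
theorem mt_left {η : ℕ → ℕ} {w₀ A : Word X} (hA : PerpL η A w₀)
    {v₁ : Perm (X1 w₀) → ℤ}
    (hv : ∀ c : Perm (X1 w₀), a1 w₀ A ∘ c = a1 w₀ A → ∀ g, v₁ (c * g) = ((Perm.sign c : ℤˣ) : ℤ) * v₁ g)
    {c k : Perm X} (hc : A ∘ c = A) (hcp : Pres w₀ c) :
    mt w₀ A v₁ (c * k) = ((Perm.sign c : ℤˣ) : ℤ) * mt w₀ A v₁ k := by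
  have hinj : ∀ x y : X, A x = A y → w₀ x = w₀ y → x = y := by
    intro x y h1 h2
    exact hA.1 (by simp [h1, h2])
  suffices H : ∀ n : ℕ, ∀ c : Perm X, A ∘ c = A → Pres w₀ c →
      (univ.filter (fun x => w₀ x = 0 ∧ c x ≠ x)).card = n →
      mt w₀ A v₁ (c * k) = ((Perm.sign c : ℤˣ) : ℤ) * mt w₀ A v₁ k from H _ c hc hcp rfl
  intro n
  induction n using Nat.strong_induction_on with
  | _ n ih =>
    intro c hc hcp hn
    by_cases hf : ∀ x, w₀ x = 0 → c x = x
    · exact stepA_fix hA hv hc hcp hf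
    · push Not at hf
      obtain ⟨a, ha, hne⟩ := hf
      have hb2 : w₀ (c a) < 2 := by
        by_contra h
        have := (hcp a).1 (by omega)
        omega
      have hAa : A (c a) = A a := congrFun hc a
      have hb : w₀ (c a) = 1 := by
        by_contra h
        exact hne (hinj _ _ hAa (by omega))
      set b := c a with hbdef
      have hab : A a = A b := hAa.symm
      have hps := stepA_pres_swap (w₀ := w₀) ha hb
      have hc' : A ∘ ((swap a b * c : Perm X)) = A := by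
        funext x
        simp only [Function.comp_apply, Perm.mul_apply]
        have hx : A (c x) = A x := congrFun hc x
        by_cases h1 : c x = a
        · rw [h1, swap_apply_left, ← hab, ← h1, hx]
        by_cases h2 : c x = b
        · rw [h2, swap_apply_right, hab, ← h2, hx]
        rw [swap_apply_of_ne_of_ne h1 h2, hx]
      have hcp' : Pres w₀ (swap a b * c) := pres_mul hps hcp
      have hlt : (univ.filter (fun x => w₀ x = 0 ∧ (swap a b * c) x ≠ x)).card < n := by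
        rw [← hn]
        apply Finset.card_lt_card
        rw [Finset.ssubset_iff_of_subset]
        · refine ⟨a, ?_, ?_⟩
          · rw [mem_filter]
            exact ⟨mem_univ _, ha, hne⟩
          · rw [mem_filter]
            rintro ⟨-, -, h⟩
            apply h
            rw [Perm.mul_apply, ← hbdef, swap_apply_right]
        · intro x hx
          rw [mem_filter] at hx ⊢
          obtain ⟨-, hx0, hx1⟩ := hx
          refine ⟨mem_univ _, hx0, ?_⟩
          intro hcx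
          apply hx1
          rw [Perm.mul_apply, hcx, swap_apply_of_ne_of_ne]
          · rintro rfl
            exact hne hcx
          · rintro rfl
            omega
      have key := ih _ hlt (swap a b * c) hc' hcp' rfl
      have hab' : a ≠ b := fun h => hne h.symm
      have hdec : c * k = swap a b * (swap a b * c * k) := by
        rw [← mul_assoc, ← mul_assoc, swap_mul_self, one_mul]
      rw [hdec, stepA_swap hA ha hb hab, key, Perm.sign_mul, Perm.sign_swap hab']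
      push_cast
      ring

theorem NN_pos (w₀ A : Word X) : 0 < NN w₀ A := by
  unfold NN
  have : (1 : Perm X) ∈ (Rs A).filter (fun c => Pres w₀ c) := by
    rw [mem_filter]
    refine ⟨?_, fun x => Iff.rfl⟩
    simp [Rs]
  exact_mod_cast Finset.card_pos.2 ⟨_, this⟩

private theorem stepA_sum_eq {η : ℕ → ℕ} {w₀ A : Word X} (hA : PerpL η A w₀)
    {v₁ : Perm (X1 w₀) → ℤ}
    (hv : ∀ c : Perm (X1 w₀), a1 w₀ A ∘ c = a1 w₀ A → ∀ g, v₁ (c * g) = ((Perm.sign c : ℤˣ) : ℤ) * v₁ g)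
    {c₀ g : Perm X} (hc : A ∘ c₀ = A) (hg : Pres w₀ (c₀⁻¹ * g)) :
    (∑ c ∈ Rs A, ((Perm.sign c : ℤˣ) : ℤ) * mt w₀ A v₁ (c⁻¹ * g)) =
      NN w₀ A * (((Perm.sign c₀ : ℤˣ) : ℤ) * mt w₀ A v₁ (c₀⁻¹ * g)) := by
  have hmem : ∀ d : Perm X, d ∈ Rs A ↔ A ∘ d = A := by
    intro d
    simp [Rs]
  have hcl : ∀ d : Perm X, A ∘ d = A ↔ A ∘ (c₀ * d : Perm X) = A := by
    intro d
    have : A ∘ (c₀ * d : Perm X) = (A ∘ c₀) ∘ d := by
      funext x; simp [Perm.mul_apply]
    rw [this, hc]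
  have h1 : (∑ c ∈ Rs A, ((Perm.sign c : ℤˣ) : ℤ) * mt w₀ A v₁ (c⁻¹ * g)) =
      ∑ d ∈ Rs A, ((Perm.sign (c₀ * d) : ℤˣ) : ℤ) * mt w₀ A v₁ ((c₀ * d)⁻¹ * g) := by
    symm
    refine Finset.sum_equiv (Equiv.mulLeft c₀) ?_ ?_
    · intro d
      rw [hmem, hmem, Equiv.coe_mulLeft]
      exact hcl d
    · intro d _
      rfl
  rw [h1]
  have h2 : ∀ d ∈ Rs A, ((Perm.sign (c₀ * d) : ℤˣ) : ℤ) * mt w₀ A v₁ ((c₀ * d)⁻¹ * g) =
      if Pres w₀ d then (((Perm.sign c₀ : ℤˣ) : ℤ) * mt w₀ A v₁ (c₀⁻¹ * g)) else 0 := by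
    intro d hd
    rw [hmem] at hd
    have e : (c₀ * d)⁻¹ * g = d⁻¹ * (c₀⁻¹ * g) := by
      rw [mul_inv_rev, mul_assoc]
    rw [e]
    split_ifs with hp
    · have hd' : A ∘ (d⁻¹ : Perm X) = A := by
        funext x
        have := congrFun hd (d⁻¹ x)
        have e : d (d⁻¹ x) = x := by simp
        simp only [Function.comp_apply] at this ⊢
        rw [e] at this
        exact this.symm
      rw [mt_left hA hv hd' (pres_inv hp), Perm.sign_mul, Perm.sign_inv]
      have hs : ((Perm.sign d : ℤˣ) : ℤ) * ((Perm.sign d : ℤˣ) : ℤ) = 1 := by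
        rw [← Units.val_mul, Int.units_mul_self, Units.val_one]
      push_cast
      linear_combination (((Perm.sign c₀ : ℤˣ) : ℤ) * mt w₀ A v₁ (c₀⁻¹ * g)) * hs
    · have : ¬ Pres w₀ (d⁻¹ * (c₀⁻¹ * g)) := by
        intro h
        apply hp
        have h3 := pres_mul hg (pres_inv h)
        have e2 : c₀⁻¹ * g * (d⁻¹ * (c₀⁻¹ * g))⁻¹ = d := by group
        rwa [e2] at h3
      unfold mt
      rw [if_neg this, mul_zero]
  rw [Finset.sum_congr rfl h2, ← Finset.sum_filter, Finset.sum_const, nsmul_eq_mul]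
  rfl

/-- PROOF. If `c₀⁻¹ g ∈ Pres` with `c₀ ∈ Rs A` then the nonzero terms are those with `c = c₀ d`,
`d ∈ Rs A ∩ Pres` (as `c⁻¹ g = d⁻¹ c₀⁻¹ g ∈ Pres` iff `d ∈ Pres`), each equal to
`sgn(c₀) sgn(d) mt (d⁻¹ c₀⁻¹ g) = sgn(c₀) mt (c₀⁻¹ g)`; there are `NN` of them. -/
theorem vs_eq {η : ℕ → ℕ} {w₀ A : Word X} (hA : PerpL η A w₀)
    {v₁ : Perm (X1 w₀) → ℤ}
    (hv : ∀ c : Perm (X1 w₀), a1 w₀ A ∘ c = a1 w₀ A → ∀ g, v₁ (c * g) = ((Perm.sign c : ℤˣ) : ℤ) * v₁ g)
    {c₀ g : Perm X} (hc : A ∘ c₀ = A) (hg : Pres w₀ (c₀⁻¹ * g)) :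
    vs w₀ A v₁ g = ((Perm.sign c₀ : ℤˣ) : ℤ) * mt w₀ A v₁ (c₀⁻¹ * g) := by
  unfold vs
  rw [stepA_sum_eq hA hv hc hg, Int.mul_ediv_cancel_left _ (NN_pos w₀ A).ne']

theorem vs_zero {w₀ A : Word X} {v₁ : Perm (X1 w₀) → ℤ} {g : Perm X}
    (hg : ∀ c₀ : Perm X, A ∘ c₀ = A → ¬ Pres w₀ (c₀⁻¹ * g)) : vs w₀ A v₁ g = 0 := by
  unfold vs
  have : (∑ c ∈ Rs A, ((Perm.sign c : ℤˣ) : ℤ) * mt w₀ A v₁ (c⁻¹ * g)) = 0 := by
    apply Finset.sum_eq_zero
    intro c hc
    have hc' : A ∘ c = A := by simpa [Rs] using hc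
    unfold mt
    rw [if_neg (hg c hc'), mul_zero]
  rw [this, Int.zero_ediv]

/-- the division is exact -/
theorem vs_mul {η : ℕ → ℕ} {w₀ A : Word X} (hA : PerpL η A w₀)
    {v₁ : Perm (X1 w₀) → ℤ}
    (hv : ∀ c : Perm (X1 w₀), a1 w₀ A ∘ c = a1 w₀ A → ∀ g, v₁ (c * g) = ((Perm.sign c : ℤˣ) : ℤ) * v₁ g)
    (g : Perm X) : NN w₀ A * vs w₀ A v₁ g =
      ∑ c ∈ Rs A, ((Perm.sign c : ℤˣ) : ℤ) * mt w₀ A v₁ (c⁻¹ * g) := by
  by_cases h : ∃ c₀ : Perm X, A ∘ c₀ = A ∧ Pres w₀ (c₀⁻¹ * g)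
  · obtain ⟨c₀, hc, hg⟩ := h
    rw [stepA_sum_eq hA hv hc hg, vs_eq hA hv hc hg]
  · push Not at h
    rw [vs_zero h, mul_zero]
    symm
    apply Finset.sum_eq_zero
    intro c hc
    have hc' : A ∘ c = A := by simpa [Rs] using hc
    unfold mt
    rw [if_neg (h c hc'), mul_zero]

end Crest.Agent.SaxlN
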