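import Crest.Agent.SaxlN.StepA
import Crest.Agent.SaxlN.Basic

/-!
CHUNK STEPB (medium): symmetry and parity pattern of the lift.
-/

set_option autoImplicit false

namespace Crest.Agent.SaxlN

open Finset Equiv
open Crest.Agent.Saxl

variable {X : Type} [Fintype X] [DecidableEq X]

/-- the data of group 1, 2, .. -/
theorem perpL_one {X : Type} {η : ℕ → ℕ} {w₀ A : Word X} (hA : PerpL η A w₀) :
    PerpL (eta1 η) (a1 w₀ A) (w1 w₀) := by
  refine ⟨?_, ?_⟩
  · intro x y hxy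
    have h1 : A x = A y := congrArg Prod.fst hxy
    have h2 : w₀ x - 2 = w₀ y - 2 := congrArg Prod.snd hxy
    have hx := x.2
    have hy := y.2
    have h3 : w₀ x = w₀ y := by omega
    exact Subtype.ext (hA.1 (Prod.ext h1 h3))
  · intro x
    have h := hA.2 x
    have hx := x.2
    show A x < η (w₀ x - 2 + 2)
    rwa [Nat.sub_add_cancel hx]

private theorem stepB_ais {X : Type} (e : Perm X) (x : X) : e (e⁻¹ x) = x :=
  e.apply_symm_apply x

private theorem stepB_ias {X : Type} (e : Perm X) (x : X) : e⁻¹ (e x) = x :=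
  e.symm_apply_apply x

private theorem stepB_comp_inv {X : Type} {w₀ : Word X} {k : Perm X} (hk : w₀ ∘ k = w₀) :
    w₀ ∘ (k⁻¹ : Perm X) = w₀ := by
  funext x
  have h := congrFun hk (k⁻¹ x)
  simp only [Function.comp_apply, stepB_ais] at h
  exact h.symm

private theorem stepB_pres {X : Type} {w₀ : Word X} {k : Perm X} (hk : w₀ ∘ k = w₀) :
    Pres w₀ k := by
  intro x
  have h : w₀ (k x) = w₀ x := congrFun hk x
  rw [h]

private theorem stepB_w1 {w₀ : Word X} {k : Perm X} (hk : w₀ ∘ k = w₀) :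
    w1 w₀ ∘ (rs1 w₀ k : Perm (X1 w₀)) = w1 w₀ := by
  funext x
  have h : w₀ (k x) = w₀ x := congrFun hk (x : X)
  show w₀ ((rs1 w₀ k x : X1 w₀) : X) - 2 = w₀ x - 2
  rw [rs1_apply (stepB_pres hk), h]

private theorem stepB_chi {w₀ : Word X} {t : ℕ → Bool} (ht : t 0 = false) {k : Perm X}
    (hk : w₀ ∘ k = w₀) : chi t w₀ k = chi (t1 t) (w1 w₀) (rs1 w₀ k) := by
  classical
  have hk' : ∀ x, w₀ (k x) = w₀ x := fun x => congrFun hk x
  have hr : ∀ x : X1 w₀, ((rs1 w₀ k x : X1 w₀) : X) = k x := fun x => rs1_apply (stepB_pres hk) x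
  have hT : ∀ x, (fun x => t (w₀ x / 2)) (k x) = (fun x => t (w₀ x / 2)) x := by
    intro x
    simp only [hk']
  have hT1 : ∀ x : X1 w₀, (fun x : X1 w₀ => t1 t (w1 w₀ x / 2)) (rs1 w₀ k x) =
      (fun x : X1 w₀ => t1 t (w1 w₀ x / 2)) x := by
    intro x
    show t1 t ((w₀ ((rs1 w₀ k x : X1 w₀) : X) - 2) / 2) = t1 t ((w₀ x - 2) / 2)
    rw [hr, hk']
  have hge : ∀ x, t (w₀ x / 2) = true → 2 ≤ w₀ x := by
    intro x hx
    by_contra hlt
    have h0 : w₀ x / 2 = 0 := by omega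
    rw [h0, ht] at hx
    exact Bool.noConfusion hx
  have hval : ∀ x : X1 w₀, t1 t (w1 w₀ x / 2) = t (w₀ x / 2) := by
    intro x
    have hx := x.2
    show t ((w₀ x - 2) / 2 + 1) = t (w₀ x / 2)
    congr 1
    omega
  unfold chi sgnT
  rw [dif_pos hT, dif_pos hT1]
  refine Perm.sign_bij (fun x _ => ⟨⟨x.1, hge x.1 x.2⟩, ?_⟩) ?_ ?_ ?_
  · show t1 t (w1 w₀ ⟨x.1, hge x.1 x.2⟩ / 2) = true
    rw [hval]
    exact x.2
  · intro x hx hx'
    apply Subtype.ext
    apply Subtype.ext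
    show k x.1 = ((rs1 w₀ k ⟨x.1, hge x.1 x.2⟩ : X1 w₀) : X)
    rw [hr]
  · intro x y hx hy hxy
    apply Subtype.ext
    have h1 := congrArg Subtype.val hxy
    have h2 := congrArg Subtype.val h1
    exact h2
  · intro y hy
    have hy1 : t (w₀ (y.1 : X) / 2) = true := by
      rw [← hval]
      exact y.2
    refine ⟨⟨(y.1 : X), hy1⟩, ?_, ?_⟩
    · intro he
      apply hy
      apply Subtype.ext
      apply Subtype.ext
      have h1 := congrArg Subtype.val he
      show ((rs1 w₀ k y.1 : X1 w₀) : X) = ((y.1 : X1 w₀) : X)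
      rw [hr]
      exact h1
    · rfl

private theorem stepB_hv {η : ℕ → ℕ} {w₀ A : Word X} {t : ℕ → Bool} {v₁ : Perm (X1 w₀) → ℤ}
    (h₁ : Lifted (eta1 η) (t1 t) (w1 w₀) (a1 w₀ A) false v₁) :
    ∀ c : Perm (X1 w₀), a1 w₀ A ∘ c = a1 w₀ A → ∀ g, v₁ (c * g) =
      ((Perm.sign c : ℤˣ) : ℤ) * v₁ g := by
  intro c hc g
  have h := h₁.left c hc g
  simpa using h

private theorem stepB_mt_right {η : ℕ → ℕ} {w₀ A : Word X} {t : ℕ → Bool}
    (ht : t 0 = false) {v₁ : Perm (X1 w₀) → ℤ}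
    (h₁ : Lifted (eta1 η) (t1 t) (w1 w₀) (a1 w₀ A) false v₁) (l k : Perm X) (hk : w₀ ∘ k = w₀) :
    mt w₀ A v₁ (l * k) = ((chi t w₀ k : ℤˣ) : ℤ) * mt w₀ A v₁ l := by
  have hkp := stepB_pres hk
  by_cases hl : Pres w₀ l
  · have hlk : Pres w₀ (l * k) := pres_mul hl hkp
    unfold mt
    rw [if_pos hl, if_pos hlk, rs1_mul hl hkp, h₁.right _ _ (stepB_w1 hk), ← stepB_chi ht hk]
    have he : w₀ ∘ ((l * k)⁻¹ : Perm X) = w₀ ∘ (l⁻¹ : Perm X) := by
      funext x
      have h := congrFun (stepB_comp_inv hk) (l⁻¹ x)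
      simp only [Function.comp_apply] at h
      simp only [mul_inv_rev, Function.comp_apply, Perm.mul_apply]
      exact h
    rw [he]
    ring
  · have hlk : ¬ Pres w₀ (l * k) := by
      intro h
      apply hl
      have h2 := pres_mul h (pres_inv hkp)
      rwa [mul_inv_cancel_right] at h2
    unfold mt
    rw [if_neg hl, if_neg hlk, mul_zero]

/-- PROOF. If `w₀ ∘ k = w₀` then `k ∈ Pres`, `mt (l k) = chi t w₀ k * mt l`: `w₀ ∘ (l k)⁻¹ = w₀ ∘ l⁻¹`
(`w₀ ∘ k⁻¹ = w₀`), `v₁ (l₁ k₁) = chi (t1 t) (w1 w₀) k₁ * v₁ l₁`, and `chi t w₀ k = chi (t1 t) (w1 w₀) k₁` since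
group 0 has type `t 0 = false` (`sgnT` only sees the letters with `t (w₀ x / 2) = true`, all in `X1`). -/
theorem vs_right {η : ℕ → ℕ} {w₀ A : Word X} (hA : PerpL η A w₀) {t : ℕ → Bool}
    (ht : t 0 = false) {v₁ : Perm (X1 w₀) → ℤ}
    (h₁ : Lifted (eta1 η) (t1 t) (w1 w₀) (a1 w₀ A) false v₁) (g k : Perm X) (hk : w₀ ∘ k = w₀) :
    vs w₀ A v₁ (g * k) = ((chi t w₀ k : ℤˣ) : ℤ) * vs w₀ A v₁ g := by
  have hv := stepB_hv h₁
  have h1 := vs_mul hA hv (g * k)
  have h2 := vs_mul hA hv g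
  have hN : NN w₀ A ≠ 0 := (NN_pos w₀ A).ne'
  apply mul_left_cancel₀ hN
  rw [h1, mul_left_comm, h2, Finset.mul_sum]
  refine Finset.sum_congr rfl fun c _ => ?_
  rw [← mul_assoc c⁻¹ g k, stepB_mt_right ht h₁ _ _ hk]
  ring

theorem vs_left {η : ℕ → ℕ} {w₀ A : Word X} (hA : PerpL η A w₀) {t : ℕ → Bool}
    {v₁ : Perm (X1 w₀) → ℤ}
    (h₁ : Lifted (eta1 η) (t1 t) (w1 w₀) (a1 w₀ A) false v₁) (c : Perm X) (hc : A ∘ c = A)
    (g : Perm X) : vs w₀ A v₁ (c * g) = ((Perm.sign c : ℤˣ) : ℤ) * vs w₀ A v₁ g := by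
  have hv := stepB_hv h₁
  have h1 := vs_mul hA hv (c * g)
  have h2 := vs_mul hA hv g
  have hN : NN w₀ A ≠ 0 := (NN_pos w₀ A).ne'
  apply mul_left_cancel₀ hN
  rw [h1, mul_left_comm, h2, Finset.mul_sum]
  have hci := stepB_comp_inv hc
  refine Finset.sum_bij' (fun d _ => c⁻¹ * d) (fun e _ => c * e) ?_ ?_ ?_ ?_ ?_
  · intro d hd
    have hd' : A ∘ d = A := (Finset.mem_filter.mp hd).2
    refine Finset.mem_filter.mpr ⟨Finset.mem_univ _, ?_⟩
    funext x
    have e1 := congrFun hci (d x)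
    have e2 := congrFun hd' x
    simp only [Function.comp_apply] at e1 e2
    simp only [Function.comp_apply, Perm.mul_apply]
    rw [e1, e2]
  · intro d hd
    have hd' : A ∘ d = A := (Finset.mem_filter.mp hd).2
    refine Finset.mem_filter.mpr ⟨Finset.mem_univ _, ?_⟩
    funext x
    have e1 := congrFun hc (d x)
    have e2 := congrFun hd' x
    simp only [Function.comp_apply] at e1 e2
    simp only [Function.comp_apply, Perm.mul_apply]
    rw [e1, e2]
  · intro d _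
    show c * (c⁻¹ * d) = d
    rw [mul_inv_cancel_left]
  · intro d _
    show c⁻¹ * (c * d) = d
    rw [inv_mul_cancel_left]
  · intro d _
    have e1 : d⁻¹ * (c * g) = (c⁻¹ * d)⁻¹ * g := by
      rw [mul_inv_rev, inv_inv, mul_assoc]
    have e2 : ((Perm.sign d : ℤˣ) : ℤ) =
        ((Perm.sign c : ℤˣ) : ℤ) * ((Perm.sign (c⁻¹ * d) : ℤˣ) : ℤ) := by
      rw [← Units.val_mul, ← Perm.sign_mul, mul_inv_cancel_left]
    rw [e1, e2, mul_assoc]

private theorem stepB_odd_factor {ι : Type} {s : Finset ι} {f : ι → ℤ} (h : Odd (∏ i ∈ s, f i))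
    {i : ι} (hi : i ∈ s) : Odd (f i) := by
  rw [← Int.not_even_iff_odd] at h ⊢
  intro he
  apply h
  rw [even_iff_two_dvd] at he ⊢
  exact he.trans (Finset.dvd_prod_of_mem f hi)

omit [DecidableEq X] in
private theorem stepB_emL_self (w₀ A : Word X) : emL w₀ A w₀ = 1 := by
  unfold emL
  rw [Finset.prod_eq_one, Finset.prod_eq_one, mul_one]
  · intro x hx
    have h := (Finset.mem_filter.mp hx).2.1
    rw [h]
    norm_num
  · intro q hq
    have h := (Finset.mem_filter.mp hq).2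
    rw [h.1, h.2.1]
    norm_num

private theorem stepB_odd_sign (c : Perm X) : Odd ((Perm.sign c : ℤˣ) : ℤ) := by
  rcases Int.units_eq_one_or (Perm.sign c) with h | h <;> rw [h] <;> decide

/-- PROOF. Let `Y = w₀ ∘ g⁻¹`. (⇐) If `PerpL η A Y` there is `c₀ ∈ Rs A` with `Y = w₀ ∘ c₀` (`perpL_conj`: an `h`
with `A = A ∘ h`, `Y = w₀ ∘ h`), put `k = c₀ g` [so `c₀⁻¹`, replace by inverse], `w₀ ∘ k⁻¹ = w₀`, so `k ∈ Pres`,
`emL w₀ A w₀ = 1`, `v₁ (k₁)` is odd by `par` (`w1 ∘ k₁⁻¹ = w1`, `perpL_one`).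
(⇒) If `vs g ≠ 0` there is `c₀ ∈ Rs A` with `k := c₀⁻¹ g ∈ Pres` (`vs_zero`), and `vs g = ± emL(w₀ ∘ k⁻¹) v₁(k₁)`
odd gives: `emL` odd, so in each column pair of group 0 the two letters have different lines `0, 1` (mod 2; the lines
of `w₀ ∘ k⁻¹` on group 0 are `0` or `1` as `k ∈ Pres`), unpaired letters have line 0; and
`PerpL (eta1 η) (a1) (w1 ∘ k₁⁻¹)`. Together `PerpL η A (w₀ ∘ k⁻¹)` and compose with `c₀⁻¹`. -/
theorem vs_par {q : ℕ} {η : ℕ → ℕ} (hz : ∀ r, 2 * q ≤ r → η r = 0) (ht : Top η)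
    (hX : Fintype.card X = total q η)
    {w₀ A : Word X} (hA : PerpL η A w₀) {t : ℕ → Bool} {v₁ : Perm (X1 w₀) → ℤ}
    (h₁ : Lifted (eta1 η) (t1 t) (w1 w₀) (a1 w₀ A) false v₁) (g : Perm X) :
    Odd (vs w₀ A v₁ g) ↔ PerpL η A (w₀ ∘ (g⁻¹ : Perm X)) := by
  have hv := stepB_hv h₁
  constructor
  · intro hodd
    have hex : ∃ c₀ : Perm X, A ∘ c₀ = A ∧ Pres w₀ (c₀⁻¹ * g) := by
      by_contra hno
      push Not at hno
      rw [vs_zero hno] at hodd
      exact absurd hodd (by decide)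
    obtain ⟨c₀, hc₀, hp⟩ := hex
    rw [vs_eq hA hv hc₀ hp] at hodd
    set k : Perm X := c₀⁻¹ * g with hkdef
    have hmt := (Int.odd_mul.mp hodd).2
    unfold mt at hmt
    rw [if_pos hp] at hmt
    obtain ⟨hem, hv1⟩ := Int.odd_mul.mp hmt
    have hki : Pres w₀ k⁻¹ := pres_inv hp
    have hperp1 := (h₁.par _).mp hv1
    set Z : Word X := w₀ ∘ (k⁻¹ : Perm X) with hZ
    have hZ1 : ∀ x : X1 w₀, (w1 w₀ ∘ ((rs1 w₀ k)⁻¹ : Perm (X1 w₀))) x = Z x - 2 := by
      intro x
      have h1 : (((rs1 w₀ k)⁻¹ : Perm (X1 w₀)) x : X) = k⁻¹ (x : X) := by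
        have h2 := rs1_apply hp (((rs1 w₀ k)⁻¹ : Perm (X1 w₀)) x)
        rw [stepB_ais] at h2
        rw [h2, stepB_ias]
      show w₀ ((((rs1 w₀ k)⁻¹ : Perm (X1 w₀)) x : X1 w₀) : X) - 2 = w₀ (k⁻¹ (x : X)) - 2
      rw [h1]
    have hZge : ∀ x, 2 ≤ Z x ↔ 2 ≤ w₀ x := fun x => hki x
    have hem' := hem
    unfold emL at hem'
    obtain ⟨hem1, hem2⟩ := Int.odd_mul.mp hem'
    have hpair : ∀ x y, w₀ x = 0 → w₀ y = 1 → A x = A y → Z x ≠ Z y := by
      intro x y hx hy hxy he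
      have h := stepB_odd_factor hem1 (i := (x, y))
        (Finset.mem_filter.mpr ⟨Finset.mem_univ _, hx, hy, hxy⟩)
      rw [he, sub_self] at h
      exact absurd h (by decide)
    have hunp : ∀ x, w₀ x = 0 → (∀ y, w₀ y = 1 → A y ≠ A x) → Z x = 0 := by
      intro x hx hy
      have h := stepB_odd_factor hem2 (i := x)
        (Finset.mem_filter.mpr ⟨Finset.mem_univ _, hx, hy⟩)
      have hlt : Z x < 2 := by
        by_contra hge
        have := (hZge x).mp (not_lt.mp hge)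
        omega
      interval_cases hzx : Z x
      · rfl
      · exact absurd h (by decide)
    have hη : 0 < η 1 → η 1 < η 0 := by
      intro h
      rcases ht.two with h2 | h2
      · omega
      · exact h2
    have hZp : PerpL η A Z := by
      refine ⟨?_, ?_⟩
      · intro x y hxy
        have hAxy : A x = A y := congrArg Prod.fst hxy
        have hZxy : Z x = Z y := congrArg Prod.snd hxy
        by_cases hx : 2 ≤ w₀ x
        · have hy : 2 ≤ w₀ y := by
            rw [← hZge, ← hZxy, hZge]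
            exact hx
          have hinj := hperp1.1
          have h3 : (⟨x, hx⟩ : X1 w₀) = ⟨y, hy⟩ := by
            apply hinj
            refine Prod.ext ?_ ?_
            · exact hAxy
            · show (w1 w₀ ∘ ((rs1 w₀ k)⁻¹ : Perm (X1 w₀))) ⟨x, hx⟩ =
                (w1 w₀ ∘ ((rs1 w₀ k)⁻¹ : Perm (X1 w₀))) ⟨y, hy⟩
              rw [hZ1, hZ1]
              show Z x - 2 = Z y - 2
              rw [hZxy]
          exact congrArg Subtype.val h3
        · have hy : ¬ 2 ≤ w₀ y := by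
            rw [← hZge, ← hZxy, hZge]
            exact hx
          by_contra hne
          have hw : w₀ x ≠ w₀ y := fun he => hne (hA.1 (Prod.ext hAxy he))
          have hcases : (w₀ x = 0 ∧ w₀ y = 1) ∨ (w₀ x = 1 ∧ w₀ y = 0) := by omega
          rcases hcases with ⟨h0, h1'⟩ | ⟨h1', h0⟩
          · exact hpair x y h0 h1' hAxy hZxy
          · exact hpair y x h0 h1' hAxy.symm hZxy.symm
      · intro x
        by_cases hx : 2 ≤ w₀ x
        · have h := hperp1.2 ⟨x, hx⟩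
          rw [hZ1] at h
          have hge := (hZge x).mpr hx
          have h' : A x < η (Z x - 2 + 2) := h
          rwa [Nat.sub_add_cancel hge] at h'
        · have hZlt : ¬ 2 ≤ Z x := by
            rw [hZge]
            exact hx
          have hwx : w₀ x = 0 ∨ w₀ x = 1 := by omega
          have hAx := hA.2 x
          by_cases hz0 : Z x = 0
          · rw [hz0]
            rcases hwx with h0 | h1'
            · rw [h0] at hAx
              exact hAx
            · rw [h1'] at hAx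
              exact hAx.trans (hη (by omega))
          · have hz1 : Z x = 1 := by omega
            rw [hz1]
            rcases hwx with h0 | h1'
            · by_contra hge
              apply hz0
              refine hunp x h0 ?_
              intro y hy hAy
              have hAy2 := hA.2 y
              rw [hy, hAy] at hAy2
              exact hge hAy2
            · rw [h1'] at hAx
              exact hAx
    have h5 := hZp.comp c₀⁻¹
    have h6 : Z ∘ (c₀⁻¹ : Perm X) = w₀ ∘ (g⁻¹ : Perm X) := by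
      funext x
      show w₀ (k⁻¹ (c₀⁻¹ x)) = w₀ (g⁻¹ x)
      rw [hkdef, mul_inv_rev, inv_inv, Perm.mul_apply, stepB_ais]
    rw [h6, stepB_comp_inv hc₀] at h5
    exact h5
  · intro hP
    obtain ⟨h, hAh, hYh⟩ := perpL_conj hz hX hA hP
    have hc : A ∘ (h⁻¹ : Perm X) = A := stepB_comp_inv hAh.symm
    have hk1 : w₀ ∘ ((h * g)⁻¹ : Perm X) = w₀ := by
      funext x
      have h2 := congrFun hYh (h⁻¹ x)
      simp only [Function.comp_apply, stepB_ais] at h2
      show w₀ ((h * g)⁻¹ x) = w₀ x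
      rw [mul_inv_rev, Perm.mul_apply]
      exact h2
    have hk : w₀ ∘ ((h * g : Perm X)) = w₀ := by
      have := stepB_comp_inv hk1
      rwa [inv_inv] at this
    have hp : Pres w₀ ((h⁻¹)⁻¹ * g) := by
      rw [inv_inv]
      exact stepB_pres hk
    rw [vs_eq hA hv hc hp, inv_inv]
    rw [inv_inv] at hp
    unfold mt
    rw [if_pos hp, hk1, stepB_emL_self, one_mul]
    refine Int.odd_mul.mpr ⟨stepB_odd_sign _, ?_⟩
    rw [h₁.par]
    have h7 : w1 w₀ ∘ ((rs1 w₀ (h * g))⁻¹ : Perm (X1 w₀)) = w1 w₀ := stepB_comp_inv (stepB_w1 hk)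
    rw [h7]
    exact perpL_one hA

end Crest.Agent.SaxlN
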