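import Crest.Agent.SaxlN.StepB

/-!
CHUNK STEPC (medium): restrictions of the lift to the groups are integral combinations of matchings.
-/

set_option autoImplicit false
set_option linter.unusedSectionVars false

namespace Crest.Agent.SaxlN

open Finset Equiv
open Crest.Agent.Saxl

variable {X : Type} [Fintype X] [DecidableEq X]

namespace StepC

/-- words with the same letter counts are conjugate -/
theorem word_conj {u v : Word X}
    (h : ∀ r, (univ.filter (fun x => u x = r)).card = (univ.filter (fun x => v x = r)).card) :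
    ∃ g : Perm X, u ∘ g = v := by
  have hc : ∀ i, Nonempty ({x // v x = i} ≃ {x // u x = i}) := fun i => by
    rw [← Fintype.card_eq, Fintype.card_subtype, Fintype.card_subtype, h i]
  let e : ∀ i, {x // v x = i} ≃ {x // u x = i} := fun i => (hc i).some
  refine ⟨(Equiv.sigmaFiberEquiv v).symm.trans
    ((Equiv.sigmaCongrRight e).trans (Equiv.sigmaFiberEquiv u)), ?_⟩
  funext x
  exact (e (v x) ⟨x, rfl⟩).2

theorem kki (k : Perm X) (x : X) : k ((k⁻¹ : Perm X) x) = x := by simp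

theorem kik (k : Perm X) (x : X) : (k⁻¹ : Perm X) (k x) = x := by simp

/-- partners in group 0 -/
def Pt (w₀ A : Word X) (x y : X) : Prop := w₀ x < 2 ∧ w₀ y < 2 ∧ w₀ x ≠ w₀ y ∧ A x = A y

theorem Pt.symm {w₀ A : Word X} {x y : X} (h : Pt w₀ A x y) : Pt w₀ A y x :=
  ⟨h.2.1, h.1, h.2.2.1.symm, h.2.2.2.symm⟩

theorem Pt.unique {w₀ A : Word X} (hA : Function.Injective (fun x => (A x, w₀ x))) {x y z : X}
    (h : Pt w₀ A x y) (h' : Pt w₀ A x z) : y = z := by
  apply hA
  simp only [Prod.mk.injEq]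
  obtain ⟨h1, h2, h3, h4⟩ := h
  obtain ⟨h5, h6, h7, h8⟩ := h'
  constructor <;> omega

/-- the partner -/
noncomputable def mu (w₀ A : Word X) (x : X) : X := by
  classical
  exact if h : ∃ y, Pt w₀ A x y then h.choose else x

theorem mu_of {w₀ A : Word X} (hA : Function.Injective (fun x => (A x, w₀ x))) {x y : X}
    (h : Pt w₀ A x y) : mu w₀ A x = y := by
  have h' : ∃ y, Pt w₀ A x y := ⟨y, h⟩
  unfold mu
  rw [dif_pos h']
  exact Pt.unique hA h'.choose_spec h

theorem mu_self {w₀ A : Word X} {x : X} (h : ∀ y, ¬ Pt w₀ A x y) : mu w₀ A x = x := by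
  unfold mu
  rw [dif_neg]
  rintro ⟨y, hy⟩
  exact h y hy

theorem pt_mu {w₀ A : Word X} {x : X} (h : mu w₀ A x ≠ x) : Pt w₀ A x (mu w₀ A x) := by
  by_cases h' : ∃ y, Pt w₀ A x y
  · unfold mu
    rw [dif_pos h']
    exact h'.choose_spec
  · exact absurd (mu_self (fun y hy => h' ⟨y, hy⟩)) h

theorem mu_invol {w₀ A : Word X} (hA : Function.Injective (fun x => (A x, w₀ x))) (x : X) :
    mu w₀ A (mu w₀ A x) = x := by
  by_cases h : mu w₀ A x = x
  · rw [h, h]
  · exact mu_of hA (pt_mu h).symm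

theorem mu_lt {w₀ A : Word X} {x : X} (hx : w₀ x < 2) : w₀ (mu w₀ A x) < 2 := by
  by_cases h : mu w₀ A x = x
  · rw [h]; exact hx
  · exact (pt_mu h).2.1

theorem mu_ge {w₀ A : Word X} {x : X} (hx : 2 ≤ w₀ x) : mu w₀ A x = x :=
  mu_self (fun y hy => by have := hy.1; omega)

/-- the partner involution as a permutation -/
noncomputable def muP (w₀ A : Word X) (hA : Function.Injective (fun x => (A x, w₀ x))) : Perm X :=
  ⟨mu w₀ A, mu w₀ A, mu_invol hA, mu_invol hA⟩

@[simp] theorem muP_apply {w₀ A : Word X} (hA : Function.Injective (fun x => (A x, w₀ x))) (x : X) :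
    muP w₀ A hA x = mu w₀ A x := rfl

/-- the combined matching -/
noncomputable def mm (w₀ A : Word X) (hA : Function.Injective (fun x => (A x, w₀ x))) (k : Perm X)
    (m₁ : Perm (X1 w₀)) : Perm X :=
  k⁻¹ * muP w₀ A hA * k * Perm.ofSubtype m₁

/-- the combined orientation -/
noncomputable def oo (w₀ : Word X) (k : Perm X) (o₁ : X1 w₀ → Bool) (x : X) : Bool :=
  if h : 2 ≤ w₀ x then o₁ ⟨x, h⟩ else decide (w₀ (k x) = 0)

section
variable {w₀ A : Word X} (hA : Function.Injective (fun x => (A x, w₀ x))) {k : Perm X}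
  (hk : Pres w₀ k) (m₁ : Perm (X1 w₀)) (o₁ : X1 w₀ → Bool)

include hk in
theorem k_lt {x : X} : w₀ (k x) < 2 ↔ w₀ x < 2 := by
  have := hk x
  omega

include hk in
theorem ki_lt {x : X} : w₀ ((k⁻¹ : Perm X) x) < 2 ↔ w₀ x < 2 := by
  have := hk ((k⁻¹ : Perm X) x)
  rw [kki] at this
  omega

theorem mm_lt {x : X} (hx : w₀ x < 2) : mm w₀ A hA k m₁ x = (k⁻¹ : Perm X) (mu w₀ A (k x)) := by
  unfold mm
  simp only [Perm.mul_apply]
  rw [Perm.ofSubtype_apply_of_not_mem m₁ (by omega)]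
  rfl

include hk in
theorem mm_ge {x : X} (hx : 2 ≤ w₀ x) : mm w₀ A hA k m₁ x = (m₁ ⟨x, hx⟩ : X) := by
  unfold mm
  simp only [Perm.mul_apply]
  rw [Perm.ofSubtype_apply_of_mem m₁ hx, muP_apply, mu_ge ((hk _).2 (m₁ ⟨x, hx⟩).2), kik]

include hk in
theorem mm_lt_iff {x : X} : w₀ (mm w₀ A hA k m₁ x) < 2 ↔ w₀ x < 2 := by
  by_cases hx : w₀ x < 2
  · rw [mm_lt hA m₁ hx, ki_lt hk]
    exact ⟨fun _ => hx, fun _ => mu_lt ((k_lt hk).2 hx)⟩
  · have hx' : 2 ≤ w₀ x := by omega
    rw [mm_ge hA hk m₁ hx']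
    have := (m₁ ⟨x, hx'⟩).2
    omega

include hk in
theorem mm_fix_iff {x : X} (hx : w₀ x < 2) :
    mm w₀ A hA k m₁ x = x ↔ mu w₀ A (k x) = k x := by
  rw [mm_lt hA m₁ hx, Perm.inv_eq_iff_eq]

include hA in
theorem mu_fix_iff (hp : ∀ y, w₀ y = 1 → ∃ x, w₀ x = 0 ∧ A x = A y) {z : X} (hz : w₀ z < 2) :
    mu w₀ A z = z ↔ (w₀ z = 0 ∧ ∀ y, w₀ y = 1 → A y ≠ A z) := by
  constructor
  · intro h
    have hno : ∀ y, ¬ Pt w₀ A z y := by
      intro y hy
      rw [mu_of hA hy] at h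
      exact hy.2.2.1 (by rw [h])
    have h0 : w₀ z = 0 := by
      by_contra h0
      obtain ⟨x, hx, hx'⟩ := hp z (by omega)
      exact hno x ⟨hz, by omega, by omega, hx'.symm⟩
    exact ⟨h0, fun y hy hy' => hno y ⟨hz, by omega, by omega, hy'.symm⟩⟩
  · rintro ⟨h0, h1⟩
    exact mu_self (fun y hy => h1 y (by have := hy.2.1; have := hy.2.2.1; omega) hy.2.2.2.symm)


/-- the 0/1 value at a letter of group 0 -/
theorem dw_lt {w₀ : Word X} (b : X → Fin 2) {x : X} (hx : w₀ x < 2) :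
    dw (gw w₀) b x = ((b x : Fin 2) : ℕ) := by
  unfold dw gw
  have : w₀ x / 2 = 0 := by omega
  rw [this]; omega

include hk in
/-- the pair part of group 0 -/
theorem pair_part (b : X → Fin 2) :
    (∏ q ∈ (univ : Finset (X × X)).filter (fun q => w₀ q.1 = 0 ∧ w₀ q.2 = 1 ∧ A q.1 = A q.2),
      ((((dw (gw w₀) b ∘ (k⁻¹ : Perm X)) q.2 : ℕ) : ℤ) -
        (((dw (gw w₀) b ∘ (k⁻¹ : Perm X)) q.1 : ℕ) : ℤ))) =
    ∏ x ∈ univ.filter (fun x => w₀ x < 2 ∧ mm w₀ A hA k m₁ x ≠ x ∧ oo w₀ k o₁ x = true),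
      ((((b (mm w₀ A hA k m₁ x) : Fin 2) : ℕ) : ℤ) - (((b x : Fin 2) : ℕ) : ℤ)) := by
  have key : ∀ q : X × X, (w₀ q.1 = 0 ∧ w₀ q.2 = 1 ∧ A q.1 = A q.2) →
      mm w₀ A hA k m₁ ((k⁻¹ : Perm X) q.1) = (k⁻¹ : Perm X) q.2 := by
    rintro ⟨x, y⟩ ⟨h1, h2, h3⟩
    simp only at h1 h2 h3 ⊢
    rw [mm_lt hA m₁ ((ki_lt hk).2 (by omega)), kki, mu_of hA ⟨by omega, by omega, by omega, h3⟩]
  refine Finset.prod_bij (fun q _ => (k⁻¹ : Perm X) q.1) ?_ ?_ ?_ ?_
  · rintro ⟨x, y⟩ hq
    rw [mem_filter] at hq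
    have hq' := hq.2
    have hkey := key _ hq'
    obtain ⟨h1, h2, h3⟩ := hq'
    simp only at h1 h2 h3 hkey
    rw [mem_filter]
    have hlt : w₀ ((k⁻¹ : Perm X) x) < 2 := (ki_lt hk).2 (by omega)
    refine ⟨mem_univ _, hlt, ?_, ?_⟩
    · simp only
      rw [hkey]
      intro h
      have := (k⁻¹ : Perm X).injective h
      rw [this] at h2
      omega
    · simp only [oo]
      rw [dif_neg (by omega), kki, decide_eq_true_iff]
      exact h1
  · rintro ⟨x, y⟩ hq ⟨x', y'⟩ hq' h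
    rw [mem_filter] at hq hq'
    obtain ⟨h1, h2, h3⟩ := hq.2
    obtain ⟨h1', h2', h3'⟩ := hq'.2
    simp only at h1 h2 h3 h1' h2' h3' h
    have hx : x = x' := (k⁻¹ : Perm X).injective h
    subst hx
    have hy : y = y' := Pt.unique hA (x := x) ⟨by omega, by omega, by omega, h3⟩
      ⟨by omega, by omega, by omega, h3'⟩
    rw [hy]
  · intro x hx
    rw [mem_filter] at hx
    obtain ⟨-, h1, h2, h3⟩ := hx
    have h4 : mu w₀ A (k x) ≠ k x := fun h => h2 ((mm_fix_iff hA hk m₁ h1).2 h)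
    have h5 := pt_mu h4
    have h6 : w₀ (k x) = 0 := by
      simp only [oo] at h3
      rw [dif_neg (show ¬ 2 ≤ w₀ x by omega), decide_eq_true_iff] at h3
      exact h3
    refine ⟨(k x, mu w₀ A (k x)), ?_, ?_⟩
    · rw [mem_filter]
      refine ⟨mem_univ _, h6, ?_, h5.2.2.2⟩
      have h7 := h5.2.1
      have h8 := h5.2.2.1
      simp only
      omega
    · simp only [kik]
  · rintro ⟨x, y⟩ hq
    rw [mem_filter] at hq
    have hkey := key _ hq.2
    obtain ⟨h1, h2, h3⟩ := hq.2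
    simp only at h1 h2 h3 hkey
    simp only [Function.comp_apply]
    rw [hkey, dw_lt b ((ki_lt hk).2 (by omega)), dw_lt b ((ki_lt hk).2 (by omega))]

include hk in
/-- the fixed part of group 0 -/
theorem fix_part (hp : ∀ y, w₀ y = 1 → ∃ x, w₀ x = 0 ∧ A x = A y) (b : X → Fin 2) :
    (∏ x ∈ univ.filter (fun x => w₀ x = 0 ∧ ∀ y, w₀ y = 1 → A y ≠ A x),
      (1 - (((dw (gw w₀) b ∘ (k⁻¹ : Perm X)) x : ℕ) : ℤ))) =
    ∏ x ∈ univ.filter (fun x => w₀ x < 2 ∧ mm w₀ A hA k m₁ x = x),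
      (1 - (((b x : Fin 2) : ℕ) : ℤ)) := by
  refine Finset.prod_bij (fun x _ => (k⁻¹ : Perm X) x) ?_ ?_ ?_ ?_
  · intro x hx
    rw [mem_filter] at hx
    have hlt : w₀ ((k⁻¹ : Perm X) x) < 2 := (ki_lt hk).2 (by have := hx.2.1; omega)
    rw [mem_filter]
    refine ⟨mem_univ _, hlt, ?_⟩
    rw [mm_fix_iff hA hk m₁ hlt, kki, mu_fix_iff hA hp (by have := hx.2.1; omega)]
    exact hx.2
  · intro x _ y _ h
    exact (k⁻¹ : Perm X).injective h
  · intro x hx
    rw [mem_filter] at hx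
    obtain ⟨-, h1, h2⟩ := hx
    refine ⟨k x, ?_, by simp⟩
    rw [mem_filter]
    refine ⟨mem_univ _, ?_⟩
    rw [mm_fix_iff hA hk m₁ h1, mu_fix_iff hA hp ((k_lt hk).2 h1)] at h2
    exact h2
  · intro x hx
    rw [mem_filter] at hx
    simp only [Function.comp_apply]
    rw [dw_lt b ((ki_lt hk).2 (by have := hx.2.1; omega))]

include hk in
/-- the product formula -/
theorem em_split (hp : ∀ y, w₀ y = 1 → ∃ x, w₀ x = 0 ∧ A x = A y) (b : X → Fin 2) :
    Saxl.em (mm w₀ A hA k m₁) (oo w₀ k o₁) b =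
      emL w₀ A (dw (gw w₀) b ∘ (k⁻¹ : Perm X)) * Saxl.em m₁ o₁ (fun x : X1 w₀ => b x) := by
  unfold emL
  rw [pair_part hA hk m₁ o₁ b, fix_part hA hk m₁ hp b]
  unfold Saxl.em
  have e1 := Finset.prod_filter_mul_prod_filter_not
    (univ.filter (fun x => mm w₀ A hA k m₁ x ≠ x ∧ oo w₀ k o₁ x = true)) (fun x => w₀ x < 2)
    (fun x => ((((b (mm w₀ A hA k m₁ x) : Fin 2) : ℕ) : ℤ) - (((b x : Fin 2) : ℕ) : ℤ)))
  have e2 := Finset.prod_filter_mul_prod_filter_not
    (univ.filter (fun x => mm w₀ A hA k m₁ x = x)) (fun x => w₀ x < 2)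
    (fun x => (1 - (((b x : Fin 2) : ℕ) : ℤ)))
  rw [← e1, ← e2]
  simp only [Finset.filter_filter]
  have f1 : (univ.filter (fun x => (mm w₀ A hA k m₁ x ≠ x ∧ oo w₀ k o₁ x = true) ∧ w₀ x < 2)) =
      univ.filter (fun x => w₀ x < 2 ∧ mm w₀ A hA k m₁ x ≠ x ∧ oo w₀ k o₁ x = true) := by
    ext x; simp only [mem_filter]; tauto
  have f2 : (univ.filter (fun x => mm w₀ A hA k m₁ x = x ∧ w₀ x < 2)) =
      univ.filter (fun x => w₀ x < 2 ∧ mm w₀ A hA k m₁ x = x) := by
    ext x; simp only [mem_filter]; tauto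
  rw [f1, f2]
  have g1 : (∏ x ∈ univ.filter (fun x : X1 w₀ => m₁ x ≠ x ∧ o₁ x = true),
      ((((b (m₁ x) : Fin 2) : ℕ) : ℤ) - (((b x : Fin 2) : ℕ) : ℤ))) =
      ∏ x ∈ univ.filter (fun x => (mm w₀ A hA k m₁ x ≠ x ∧ oo w₀ k o₁ x = true) ∧ ¬ w₀ x < 2),
      ((((b (mm w₀ A hA k m₁ x) : Fin 2) : ℕ) : ℤ) - (((b x : Fin 2) : ℕ) : ℤ)) := by
    refine Finset.prod_bij (fun x _ => (x : X)) ?_ ?_ ?_ ?_
    · rintro ⟨x, hx⟩ h
      rw [mem_filter] at h ⊢
      refine ⟨mem_univ _, ⟨?_, ?_⟩, by simp only; omega⟩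
      · simp only
        rw [mm_ge hA hk m₁ hx]
        intro h'
        exact h.2.1 (Subtype.ext h')
      · simp only [oo]
        rw [dif_pos hx]
        exact h.2.2
    · rintro ⟨x, hx⟩ _ ⟨y, hy⟩ _ h
      exact Subtype.ext h
    · intro x hx
      rw [mem_filter] at hx
      obtain ⟨-, ⟨h1, h2⟩, h3⟩ := hx
      have h4 : 2 ≤ w₀ x := by omega
      refine ⟨⟨x, h4⟩, ?_, rfl⟩
      rw [mem_filter]
      refine ⟨mem_univ _, ?_, ?_⟩
      · intro h5
        apply h1
        rw [mm_ge hA hk m₁ h4, h5]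
      · simp only [oo] at h2
        rw [dif_pos h4] at h2
        exact h2
    · rintro ⟨x, hx⟩ _
      simp only
      rw [mm_ge hA hk m₁ hx]
  have g2 : (∏ x ∈ univ.filter (fun x : X1 w₀ => m₁ x = x), (1 - (((b x : Fin 2) : ℕ) : ℤ))) =
      ∏ x ∈ univ.filter (fun x => mm w₀ A hA k m₁ x = x ∧ ¬ w₀ x < 2),
      (1 - (((b x : Fin 2) : ℕ) : ℤ)) := by
    refine Finset.prod_bij (fun x _ => (x : X)) ?_ ?_ ?_ ?_
    · rintro ⟨x, hx⟩ h
      rw [mem_filter] at h ⊢
      refine ⟨mem_univ _, ?_, by simp only; omega⟩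
      simp only
      rw [mm_ge hA hk m₁ hx, h.2]
    · rintro ⟨x, hx⟩ _ ⟨y, hy⟩ _ h
      exact Subtype.ext h
    · intro x hx
      rw [mem_filter] at hx
      obtain ⟨-, h1, h3⟩ := hx
      have h4 : 2 ≤ w₀ x := by omega
      refine ⟨⟨x, h4⟩, ?_, rfl⟩
      rw [mem_filter]
      refine ⟨mem_univ _, ?_⟩
      rw [mm_ge hA hk m₁ h4] at h1
      exact Subtype.ext h1
    · rintro ⟨x, hx⟩ _
      rfl
  rw [g1, g2]
  ring


include hk in
/-- number of fixed letters in group 0 -/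
theorem fix_count (hp : ∀ y, w₀ y = 1 → ∃ x, w₀ x = 0 ∧ A x = A y) :
    (univ.filter (fun x => gw w₀ x = 0 ∧ mm w₀ A hA k m₁ x = x)).card +
      (univ.filter (fun x => w₀ x = 1)).card = (univ.filter (fun x => w₀ x = 0)).card := by
  have h1 : (univ.filter (fun x => gw w₀ x = 0 ∧ mm w₀ A hA k m₁ x = x)).card =
      (univ.filter (fun x => w₀ x = 0 ∧ ∀ y, w₀ y = 1 → A y ≠ A x)).card := by
    refine Finset.card_bij (fun x _ => k x) ?_ ?_ ?_
    · intro x hx
      rw [mem_filter] at hx ⊢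
      have hlt : w₀ x < 2 := by have := hx.2.1; unfold gw at this; omega
      refine ⟨mem_univ _, ?_⟩
      rw [← mu_fix_iff hA hp ((k_lt hk).2 hlt), ← mm_fix_iff hA hk m₁ hlt]
      exact hx.2.2
    · intro x _ y _ h
      exact k.injective h
    · intro z hz
      rw [mem_filter] at hz
      have hlt : w₀ ((k⁻¹ : Perm X) z) < 2 := (ki_lt hk).2 (by have := hz.2.1; omega)
      refine ⟨(k⁻¹ : Perm X) z, ?_, by simp⟩
      rw [mem_filter]
      refine ⟨mem_univ _, by unfold gw; omega, ?_⟩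
      rw [mm_fix_iff hA hk m₁ hlt, kki, mu_fix_iff hA hp (by have := hz.2.1; omega)]
      exact hz.2
  have h2 : (univ.filter (fun x => w₀ x = 1)).card =
      (univ.filter (fun x => w₀ x = 0 ∧ ¬ ∀ y, w₀ y = 1 → A y ≠ A x)).card := by
    have hpt : ∀ x, w₀ x = 1 → ∃ z, Pt w₀ A x z ∧ w₀ z = 0 := by
      intro x hx
      obtain ⟨z, hz, hz'⟩ := hp x hx
      exact ⟨z, ⟨by omega, by omega, by omega, hz'.symm⟩, hz⟩
    refine Finset.card_bij (fun x _ => mu w₀ A x) ?_ ?_ ?_
    · intro x hx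
      rw [mem_filter] at hx ⊢
      obtain ⟨z, hz, hz0⟩ := hpt x hx.2
      rw [mu_of hA hz]
      refine ⟨mem_univ _, hz0, ?_⟩
      push Not
      exact ⟨x, hx.2, hz.2.2.2⟩
    · intro x _ y _ h
      have := congrArg (mu w₀ A) h
      rwa [mu_invol hA, mu_invol hA] at this
    · intro z hz
      rw [mem_filter] at hz
      obtain ⟨-, hz0, hz1⟩ := hz
      push Not at hz1
      obtain ⟨y, hy, hy'⟩ := hz1
      refine ⟨y, by rw [mem_filter]; exact ⟨mem_univ _, hy⟩, ?_⟩
      exact mu_of hA ⟨by omega, by omega, by omega, hy'⟩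
  rw [h1, h2]
  have h3 := Finset.card_filter_add_card_filter_not (s := univ.filter (fun x => w₀ x = 0))
    (fun x => ∀ y, w₀ y = 1 → A y ≠ A x)
  rw [Finset.filter_filter, Finset.filter_filter] at h3
  exact h3

include hk in
/-- the combined matching is a matching -/
theorem sml_comb {η : ℕ → ℕ} (hp : ∀ y, w₀ y = 1 → ∃ x, w₀ x = 0 ∧ A x = A y)
    (hc : ∀ r, (univ.filter (fun x => w₀ x = r)).card = η r)
    (h₁ : SML (eta1 η) (gw (w1 w₀)) m₁ o₁) :
    SML η (gw w₀) (mm w₀ A hA k m₁) (oo w₀ k o₁) := by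
  refine ⟨?_, ?_, ?_, ?_⟩
  · intro x
    by_cases hx : w₀ x < 2
    · have h2 : w₀ (mm w₀ A hA k m₁ x) < 2 := (mm_lt_iff hA hk m₁).2 hx
      rw [mm_lt hA m₁ h2, mm_lt hA m₁ hx, kki, mu_invol hA, kik]
    · have hx' : 2 ≤ w₀ x := by omega
      rw [mm_ge hA hk m₁ hx', mm_ge hA hk m₁ (m₁ ⟨x, hx'⟩).2]
      exact congrArg Subtype.val (h₁.invol ⟨x, hx'⟩)
  · intro x
    by_cases hx : w₀ x < 2
    · have h2 : w₀ (mm w₀ A hA k m₁ x) < 2 := (mm_lt_iff hA hk m₁).2 hx
      unfold gw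
      omega
    · have hx' : 2 ≤ w₀ x := by omega
      rw [mm_ge hA hk m₁ hx']
      have h3 := h₁.pres ⟨x, hx'⟩
      have h4 := (m₁ ⟨x, hx'⟩).2
      unfold gw w1 at h3
      unfold gw
      simp only at h3
      omega
  · intro i
    rcases Nat.eq_zero_or_pos i with rfl | hi
    · have h3 := fix_count hA hk m₁ hp
      rw [hc, hc] at h3
      simp only [Nat.mul_zero, Nat.zero_add]
      omega
    · obtain ⟨j, rfl⟩ : ∃ j, i = j + 1 := ⟨i - 1, by omega⟩
      have h3 := h₁.fix j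
      have h4 : (univ.filter (fun x => gw w₀ x = j + 1 ∧ mm w₀ A hA k m₁ x = x)).card =
          (univ.filter (fun x : X1 w₀ => gw (w1 w₀) x = j ∧ m₁ x = x)).card := by
        symm
        refine Finset.card_bij (fun x _ => (x : X)) ?_ ?_ ?_
        · rintro ⟨x, hx⟩ h
          rw [mem_filter] at h ⊢
          refine ⟨mem_univ _, ?_, ?_⟩
          · have := h.2.1
            unfold gw w1 at this
            unfold gw
            simp only at this ⊢
            omega
          · simp only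
            rw [mm_ge hA hk m₁ hx, h.2.2]
        · rintro ⟨x, hx⟩ _ ⟨y, hy⟩ _ h
          exact Subtype.ext h
        · intro x hx
          rw [mem_filter] at hx
          obtain ⟨-, h1, h2⟩ := hx
          have h5 : 2 ≤ w₀ x := by unfold gw at h1; omega
          refine ⟨⟨x, h5⟩, ?_, rfl⟩
          rw [mem_filter]
          refine ⟨mem_univ _, ?_, ?_⟩
          · unfold gw at h1
            unfold gw w1
            simp only
            omega
          · rw [mm_ge hA hk m₁ h5] at h2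
            exact Subtype.ext h2
      rw [h4, h3]
      unfold eta1
      congr 1
  · intro x hx
    by_cases h : w₀ x < 2
    · have h2 : w₀ (mm w₀ A hA k m₁ x) < 2 := (mm_lt_iff hA hk m₁).2 h
      have h3 : mu w₀ A (k x) ≠ k x := fun h3 => hx ((mm_fix_iff hA hk m₁ h).2 h3)
      have h4 := pt_mu h3
      unfold oo
      rw [dif_neg (show ¬ 2 ≤ w₀ (mm w₀ A hA k m₁ x) by omega),
        dif_neg (show ¬ 2 ≤ w₀ x by omega), mm_lt hA m₁ h, kki]
      obtain ⟨h5, h6, h7, -⟩ := h4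
      by_cases h8 : w₀ (k x) = 0
      · have h9 : ¬ w₀ (mu w₀ A (k x)) = 0 := by omega
        simp [h8, h9]
      · have h9 : w₀ (mu w₀ A (k x)) = 0 := by omega
        simp [h8, h9]
    · have hx' : 2 ≤ w₀ x := by omega
      have h5 := mm_ge hA hk m₁ hx'
      have h6 : m₁ ⟨x, hx'⟩ ≠ ⟨x, hx'⟩ := by
        intro h6
        apply hx
        rw [h5, h6]
      have h7 := h₁.orient ⟨x, hx'⟩ h6
      unfold oo
      have h8 : 2 ≤ w₀ (mm w₀ A hA k m₁ x) := by
        rw [h5]; exact (m₁ ⟨x, hx'⟩).2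
      rw [dif_pos h8, dif_pos hx', ← h7]
      congr 1
      exact Subtype.ext h5

include hA hk in
/-- counting the letters of group 0 with value 1 -/
theorem one_count (hp : ∀ y, w₀ y = 1 → ∃ x, w₀ x = 0 ∧ A x = A y) (b : X → Fin 2)
    (hb : emL w₀ A (dw (gw w₀) b ∘ (k⁻¹ : Perm X)) ≠ 0) :
    (univ.filter (fun x => dw (gw w₀) b x = 1)).card = (univ.filter (fun x => w₀ x = 1)).card := by
  unfold emL at hb
  have hb1 := left_ne_zero_of_mul hb
  have hb2 := right_ne_zero_of_mul hb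
  rw [Finset.prod_ne_zero_iff] at hb1 hb2
  -- `B z`: the value at `k⁻¹ z`
  have hlt : ∀ x, dw (gw w₀) b x = 1 → w₀ x < 2 := by
    intro x hx
    unfold dw gw at hx
    omega
  have hB : ∀ z, w₀ z < 2 → dw (gw w₀) b ((k⁻¹ : Perm X) z) = ((b ((k⁻¹ : Perm X) z) : Fin 2) : ℕ) :=
    fun z hz => dw_lt b ((ki_lt hk).2 hz)
  have hpair : ∀ y, w₀ y = 1 → w₀ (mu w₀ A y) = 0 ∧ A (mu w₀ A y) = A y := by
    intro y hy
    obtain ⟨z, hz, hz'⟩ := hp y hy
    rw [mu_of hA (⟨by omega, by omega, by omega, hz'.symm⟩ : Pt w₀ A y z)]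
    exact ⟨hz, hz'⟩
  have hne : ∀ y, w₀ y = 1 → dw (gw w₀) b ((k⁻¹ : Perm X) y) ≠
      dw (gw w₀) b ((k⁻¹ : Perm X) (mu w₀ A y)) := by
    intro y hy h
    obtain ⟨h1, h2⟩ := hpair y hy
    have := hb1 (mu w₀ A y, y) (by rw [mem_filter]; exact ⟨mem_univ _, h1, hy, h2⟩)
    apply this
    simp only [Function.comp_apply]
    rw [h]
    ring
  symm
  refine Finset.card_bij (fun y _ => if dw (gw w₀) b ((k⁻¹ : Perm X) y) = 1 then (k⁻¹ : Perm X) y
    else (k⁻¹ : Perm X) (mu w₀ A y)) ?_ ?_ ?_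
  · intro y hy
    rw [mem_filter] at hy ⊢
    refine ⟨mem_univ _, ?_⟩
    obtain ⟨h1, h2⟩ := hpair y hy.2
    by_cases h : dw (gw w₀) b ((k⁻¹ : Perm X) y) = 1
    · rw [if_pos h]; exact h
    · rw [if_neg h]
      have h3 := hne y hy.2
      rw [hB y (by omega), hB (mu w₀ A y) (by omega)] at h3
      rw [hB y (by omega)] at h
      rw [hB (mu w₀ A y) (by omega)]
      have := (b ((k⁻¹ : Perm X) y)).2
      have := (b ((k⁻¹ : Perm X) (mu w₀ A y))).2
      omega
  · intro y hy y' hy' h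
    rw [mem_filter] at hy hy'
    obtain ⟨h1, h2⟩ := hpair y hy.2
    obtain ⟨h1', h2'⟩ := hpair y' hy'.2
    have hy1 := hy.2
    have hy1' := hy'.2
    split_ifs at h with ha hb' hb'
    · exact (k⁻¹ : Perm X).injective h
    · have h3 := (k⁻¹ : Perm X).injective h
      rw [← h3] at h1'
      omega
    · have h3 := (k⁻¹ : Perm X).injective h
      rw [h3] at h1
      omega
    · have h3 := (k⁻¹ : Perm X).injective h
      have := congrArg (mu w₀ A) h3
      rwa [mu_invol hA, mu_invol hA] at this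
  · intro x hx
    rw [mem_filter] at hx
    have hx1 := hlt x hx.2
    have hkx : w₀ (k x) < 2 := (k_lt hk).2 hx1
    by_cases h : w₀ (k x) = 1
    · refine ⟨k x, by rw [mem_filter]; exact ⟨mem_univ _, h⟩, ?_⟩
      rw [kik, if_pos hx.2]
    · have h0 : w₀ (k x) = 0 := by omega
      by_cases h' : ∀ y, w₀ y = 1 → A y ≠ A (k x)
      · exfalso
        have := hb2 (k x) (by rw [mem_filter]; exact ⟨mem_univ _, h0, h'⟩)
        apply this
        simp only [Function.comp_apply]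
        rw [kik, hx.2]
        norm_num
      · push Not at h'
        obtain ⟨y, hy, hy'⟩ := h'
        have hmu : mu w₀ A y = k x := mu_of hA ⟨by omega, by omega, by omega, hy'⟩
        refine ⟨y, by rw [mem_filter]; exact ⟨mem_univ _, hy⟩, ?_⟩
        have h3 := hne y hy
        rw [hmu, kik, hx.2] at h3
        rw [if_neg h3, hmu, kik]

include hA hk in
/-- counting all letters -/
theorem exists_h (hp : ∀ y, w₀ y = 1 → ∃ x, w₀ x = 0 ∧ A x = A y) (b : X → Fin 2)
    (hb : emL w₀ A (dw (gw w₀) b ∘ (k⁻¹ : Perm X)) ≠ 0)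
    (h₁ : ∃ h : Perm (X1 w₀), w1 w₀ ∘ (h⁻¹ : Perm (X1 w₀)) =
      dw (gw (w1 w₀)) (fun x : X1 w₀ => b x)) :
    ∃ h : Perm X, w₀ ∘ (h⁻¹ : Perm X) = dw (gw w₀) b := by
  have hone := one_count hA hk hp b hb
  have hge : ∀ r, 2 ≤ r → (univ.filter (fun x => dw (gw w₀) b x = r)).card =
      (univ.filter (fun x => w₀ x = r)).card := by
    intro r hr
    obtain ⟨h, hh⟩ := h₁
    have e1 : (univ.filter (fun x : X1 w₀ => w1 w₀ x = r - 2)).card =
        (univ.filter (fun x => w₀ x = r)).card := by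
      refine Finset.card_bij (fun x _ => (x : X)) ?_ ?_ ?_
      · rintro ⟨x, hx⟩ h
        rw [mem_filter] at h ⊢
        have := h.2
        unfold w1 at this
        simp only at this ⊢
        exact ⟨mem_univ _, by omega⟩
      · rintro ⟨x, hx⟩ _ ⟨y, hy⟩ _ h
        exact Subtype.ext h
      · intro x hx
        rw [mem_filter] at hx
        refine ⟨⟨x, by omega⟩, ?_, rfl⟩
        rw [mem_filter]
        unfold w1
        simp only
        exact ⟨mem_univ _, by omega⟩
    have e2 : (univ.filter (fun x : X1 w₀ =>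
        dw (gw (w1 w₀)) (fun x : X1 w₀ => b x) x = r - 2)).card =
        (univ.filter (fun x => dw (gw w₀) b x = r)).card := by
      refine Finset.card_bij (fun x _ => (x : X)) ?_ ?_ ?_
      · rintro ⟨x, hx⟩ h
        rw [mem_filter] at h ⊢
        have := h.2
        unfold dw gw w1 at this
        unfold dw gw
        simp only at this ⊢
        exact ⟨mem_univ _, by omega⟩
      · rintro ⟨x, hx⟩ _ ⟨y, hy⟩ _ h
        exact Subtype.ext h
      · intro x hx
        rw [mem_filter] at hx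
        obtain ⟨-, hx⟩ := hx
        unfold dw gw at hx
        have hbx := (b x).2
        refine ⟨⟨x, by omega⟩, ?_, rfl⟩
        rw [mem_filter]
        unfold dw gw w1
        simp only
        exact ⟨mem_univ _, by omega⟩
    rw [← e1, ← e2]
    refine (Finset.card_bij (fun x _ => h x) ?_ ?_ ?_).symm
    · intro x hx
      rw [mem_filter] at hx ⊢
      refine ⟨mem_univ _, ?_⟩
      rw [← hh]
      simp only [Function.comp_apply]
      rw [show (h⁻¹ : Perm (X1 w₀)) (h x) = x by simp]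
      exact hx.2
    · intro x _ y _ hxy
      exact h.injective hxy
    · intro x hx
      rw [mem_filter] at hx
      refine ⟨(h⁻¹ : Perm (X1 w₀)) x, ?_, by simp⟩
      rw [mem_filter]
      refine ⟨mem_univ _, ?_⟩
      rw [← hx.2, ← hh]
      rfl
  have hall : ∀ r, (univ.filter (fun x => w₀ x = r)).card =
      (univ.filter (fun x => dw (gw w₀) b x = r)).card := by
    intro r
    rcases Nat.lt_or_ge r 2 with hr | hr
    · interval_cases r
      · -- value 0: complement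
        have c1 : (univ.filter (fun x => w₀ x = 0)).card + (univ.filter (fun x => w₀ x = 1)).card =
            (univ.filter (fun x => w₀ x < 2)).card := by
          rw [← Finset.card_union_of_disjoint]
          · congr 1
            ext x
            simp only [mem_union, mem_filter, mem_univ, true_and]
            omega
          · rw [Finset.disjoint_left]
            intro x hx hx'
            rw [mem_filter] at hx hx'
            omega
        have c2 : (univ.filter (fun x => dw (gw w₀) b x = 0)).card +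
            (univ.filter (fun x => dw (gw w₀) b x = 1)).card =
            (univ.filter (fun x => w₀ x < 2)).card := by
          rw [← Finset.card_union_of_disjoint]
          · congr 1
            ext x
            have := (b x).2
            simp only [mem_union, mem_filter, mem_univ, true_and]
            unfold dw gw
            omega
          · rw [Finset.disjoint_left]
            intro x hx hx'
            rw [mem_filter] at hx hx'
            omega
        omega
      · exact hone.symm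
    · exact (hge r hr).symm
  obtain ⟨g, hg⟩ := word_conj hall
  exact ⟨g⁻¹, by rw [inv_inv]; exact hg⟩

end

/-- the sign character of the group word only sees the groups `≥ 1` -/
theorem chi_eq {t : ℕ → Bool} (ht : t 0 = false) {w₀ : Word X} {h : Perm X}
    (hh : gw w₀ ∘ h = gw w₀) : chi t w₀ h = chi (t1 t) (w1 w₀) (rs1 w₀ h) := by
  have hp : Pres w₀ h := pres_of_gw hh
  have hT : ∀ x, t (w₀ (h x) / 2) = t (w₀ x / 2) := by
    intro x
    have := congrFun hh x
    unfold gw at this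
    simp only [Function.comp_apply] at this
    rw [this]
  have hval : ∀ x : X1 w₀, t1 t (w1 w₀ x / 2) = t (w₀ x / 2) := by
    rintro ⟨x, hx⟩
    unfold t1 w1
    simp only
    congr 1
    omega
  have hT1 : ∀ x : X1 w₀, t1 t (w1 w₀ (rs1 w₀ h x) / 2) = t1 t (w1 w₀ x / 2) := by
    intro x
    rw [hval, hval, rs1_apply hp]
    exact hT x
  have hge : ∀ x, t (w₀ x / 2) = true → 2 ≤ w₀ x := by
    intro x hx
    by_contra hlt
    have : w₀ x / 2 = 0 := by omega
    rw [this, ht] at hx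
    exact Bool.false_ne_true hx
  unfold chi sgnT
  rw [dif_pos hT, dif_pos hT1]
  let e : {x : X // t (w₀ x / 2) = true} ≃ {x : X1 w₀ // t1 t (w1 w₀ x / 2) = true} :=
    { toFun := fun x => ⟨⟨x.1, hge x.1 x.2⟩, by rw [hval]; exact x.2⟩
      invFun := fun x => ⟨x.1.1, by rw [← hval]; exact x.2⟩
      left_inv := fun x => rfl
      right_inv := fun x => rfl }
  refine Equiv.Perm.sign_eq_sign_of_equiv _ _ e ?_
  intro x
  apply Subtype.ext
  apply Subtype.ext
  simp only [e, Equiv.coe_fn_mk, Perm.subtypePerm_apply]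
  rw [rs1_apply hp]

/-- the product of the matching part with an element of the lattice -/
theorem prod_mem {η : ℕ → ℕ} {w₀ A : Word X} (hA : Function.Injective (fun x => (A x, w₀ x)))
    {k : Perm X} (hk : Pres w₀ k) (hp : ∀ y, w₀ y = 1 → ∃ x, w₀ x = 0 ∧ A x = A y)
    (hc : ∀ r, (univ.filter (fun x => w₀ x = r)).card = η r)
    {f₁ : (X1 w₀ → Fin 2) → ℤ} (hf₁ : f₁ ∈ EM (eta1 η) (gw (w1 w₀))) :
    (fun b : X → Fin 2 => emL w₀ A (dw (gw w₀) b ∘ (k⁻¹ : Perm X)) *
      f₁ (fun x : X1 w₀ => b x)) ∈ EM η (gw w₀) := by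
  unfold EM at hf₁
  induction hf₁ using AddSubgroup.closure_induction with
  | mem f hf =>
    obtain ⟨m₁, o₁, h₁, rfl⟩ := hf
    apply AddSubgroup.subset_closure
    refine ⟨mm w₀ A hA k m₁, oo w₀ k o₁, sml_comb hA hk m₁ o₁ hp hc h₁, ?_⟩
    funext b
    exact (em_split hA hk m₁ o₁ hp b).symm
  | zero =>
    convert zero_mem (EM η (gw w₀)) using 1
    funext b
    simp
  | add f g _ _ hf hg =>
    convert add_mem hf hg using 1
    funext b
    simp only [Pi.add_apply]
    ring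
  | neg f _ hf =>
    convert neg_mem hf using 1
    funext b
    simp only [Pi.neg_apply]
    ring

end StepC

/-- PROOF. If there is no `c₀ ∈ Rs A` with `c₀⁻¹ g ∈ Pres`, then for all `h` preserving the group word
`vs (g h) = 0` (`vs_zero`; `Pres` is a group containing `h`), so the restriction is `0`. Otherwise, with `k = c₀⁻¹ g`, for
`w₀ ∘ h⁻¹ = dw (gw w₀) b`: by `Rr_val` the restriction at `b` is `chi t w₀ h * vs (g h)
= ± chi t w₀ h * emL(w₀ ∘ h⁻¹ ∘ k⁻¹) * v₁(k₁ h₁)`, `chi t w₀ h = chi (t1 t) (w1 w₀) h₁`, so it is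
`± (product over the pairs of group 0 transported by k⁻¹) (b) * Rr (w1) (t1) v₁ k₁ (b|X1)`, and
`Rr .. = f₁ ∈ EM (eta1 η) (gw (w1 w₀))` by `h₁.rest`. The product of the matching element of group 0 with a
matching element of the other groups is a matching element `em m o` for the matching combined from the two
(`SML η (gw w₀)`): the first factor has `η 1` pairs and `η 0 - η 1` unpaired letters. When `b` is not of the
form `dw (gw w₀) b = w₀ ∘ h⁻¹` (wrong number of letters in a line) both sides are `0` (`Rr_eq_zero`; a matching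
element vanishes at such `b`). Use closure induction for `f₁`. -/
theorem vs_rest {q : ℕ} {η : ℕ → ℕ} (hz : ∀ r, 2 * q ≤ r → η r = 0) (hT : Top η)
    (hX : Fintype.card X = total q η)
    {w₀ A : Word X} (hA : PerpL η A w₀) {t : ℕ → Bool} (ht : t 0 = false)
    {v₁ : Perm (X1 w₀) → ℤ}
    (h₁ : Lifted (eta1 η) (t1 t) (w1 w₀) (a1 w₀ A) false v₁) (g : Perm X) :
    ∃ f ∈ EM η (gw w₀), ∀ b, Rr w₀ t (cx (vs w₀ A v₁)) g b = ((f b : ℤ) : ℂ) := by
  classical
  by_cases hc : ∃ c₀ : Perm X, A ∘ c₀ = A ∧ Pres w₀ (c₀⁻¹ * g)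
  swap
  · refine ⟨0, zero_mem _, fun b => ?_⟩
    have hv : ∀ h : Perm X, w₀ ∘ (h⁻¹ : Perm X) = dw (gw w₀) b → vs w₀ A v₁ (g * h) = 0 := by
      intro h hh
      apply vs_zero
      intro c₀ hc₀ hp
      apply hc
      refine ⟨c₀, hc₀, ?_⟩
      have h1 := pres_mul hp (pres_inv (pres_of_gw (gw_of_dw hh)))
      simpa [mul_assoc] using h1
    unfold Rr
    rw [Finset.sum_eq_zero]
    · simp
    · intro h hh
      rw [mem_filter] at hh
      simp [cx, hv h hh.2]
  · obtain ⟨c₀, hc₀, hk⟩ := hc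
    obtain ⟨k, hkdef⟩ : ∃ k : Perm X, k = c₀⁻¹ * g := ⟨_, rfl⟩
    rw [← hkdef] at hk
    obtain ⟨f₁, hf₁, hR₁⟩ := h₁.rest (rs1 w₀ k)
    have hv : ∀ c : Perm (X1 w₀), a1 w₀ A ∘ c = a1 w₀ A →
        ∀ g, v₁ (c * g) = ((Perm.sign c : ℤˣ) : ℤ) * v₁ g := by
      intro c hc g
      have := h₁.left c hc g
      simpa using this
    have hcnt : ∀ r, (univ.filter (fun x => w₀ x = r)).card = η r := fun r => hA.count hz hX r
    have hp : ∀ y, w₀ y = 1 → ∃ x, w₀ x = 0 ∧ A x = A y := by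
      intro y hy
      have h1 := hA.2 y
      rw [hy] at h1
      have h2 : A y < η 0 := by
        rcases hT.two with h | h <;> omega
      obtain ⟨x, hx, hx'⟩ := hA.surj hz hX (A y) 0 h2
      exact ⟨x, hx', hx⟩
    have hmem := StepC.prod_mem hA.1 hk hp hcnt hf₁
    have hmem' : (fun b : X → Fin 2 => ((Perm.sign c₀ : ℤˣ) : ℤ) *
        (emL w₀ A (dw (gw w₀) b ∘ (k⁻¹ : Perm X)) * f₁ (fun x : X1 w₀ => b x))) ∈
        EM η (gw w₀) := by
      rcases Int.units_eq_one_or (Perm.sign c₀) with h | h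
      · rw [h]; simpa using hmem
      · rw [h]
        convert neg_mem hmem using 1
        funext b
        simp
    refine ⟨_, hmem', fun b => ?_⟩
    by_cases hb : ∃ h : Perm X, w₀ ∘ (h⁻¹ : Perm X) = dw (gw w₀) b
    · obtain ⟨h, hh⟩ := hb
      have hgw := gw_of_dw hh
      have hph : Pres w₀ h := pres_of_gw hgw
      have hright : ∀ g k : Perm X, w₀ ∘ k = w₀ → cx (vs w₀ A v₁) (g * k) =
          (((chi t w₀ k : ℤˣ) : ℤ) : ℂ) * cx (vs w₀ A v₁) g := by
        intro g k hk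
        unfold cx
        rw [vs_right hA ht h₁ g k hk]
        push_cast
        ring
      rw [Rr_val hright hh]
      have e1 : vs w₀ A v₁ (g * h) = ((Perm.sign c₀ : ℤˣ) : ℤ) *
          (emL w₀ A (dw (gw w₀) b ∘ (k⁻¹ : Perm X)) * v₁ (rs1 w₀ k * rs1 w₀ h)) := by
        have hpk : Pres w₀ (c₀⁻¹ * (g * h)) := by
          rw [← mul_assoc, ← hkdef]
          exact pres_mul hk hph
        rw [vs_eq hA hv hc₀ hpk]
        unfold mt
        rw [if_pos hpk]
        have e2 : c₀⁻¹ * (g * h) = k * h := by rw [← mul_assoc, ← hkdef]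
        rw [e2, rs1_mul hk hph]
        have e3 : w₀ ∘ ((k * h)⁻¹ : Perm X) = dw (gw w₀) b ∘ (k⁻¹ : Perm X) := by
          rw [← hh, mul_inv_rev]
          rfl
        rw [e3]
      have hh1 : w1 w₀ ∘ ((rs1 w₀ h)⁻¹ : Perm (X1 w₀)) =
          dw (gw (w1 w₀)) (fun x : X1 w₀ => b x) := by
        funext x
        have e4 : ((((rs1 w₀ h)⁻¹ : Perm (X1 w₀)) x : X1 w₀) : X) = (h⁻¹ : Perm X) x := by
          rw [Perm.eq_inv_iff_eq, ← rs1_apply hph]
          simp
        have e5 := congrFun hh x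
        simp only [Function.comp_apply] at e5
        simp only [Function.comp_apply, w1, dw, gw]
        rw [e4, e5]
        have := x.2
        unfold dw gw
        omega
      have hright1 : ∀ g k : Perm (X1 w₀), w1 w₀ ∘ k = w1 w₀ → cx v₁ (g * k) =
          (((chi (t1 t) (w1 w₀) k : ℤˣ) : ℤ) : ℂ) * cx v₁ g := by
        intro g k hk
        unfold cx
        rw [h₁.right g k hk]
        push_cast
        ring
      have e6 := hR₁ (fun x : X1 w₀ => b x)
      rw [Rr_val hright1 hh1, ← StepC.chi_eq ht hgw] at e6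
      unfold cx at e6 ⊢
      rw [e1]
      push_cast
      rw [← e6]
      ring
    · rw [Rr_eq_zero _ _ _ (fun h hh => hb ⟨h, hh⟩)]
      by_cases h0 : emL w₀ A (dw (gw w₀) b ∘ (k⁻¹ : Perm X)) = 0
      · show (0 : ℂ) = ((((Perm.sign c₀ : ℤˣ) : ℤ) *
          (emL w₀ A (dw (gw w₀) b ∘ (k⁻¹ : Perm X)) * f₁ (fun x : X1 w₀ => b x)) : ℤ) : ℂ)
        rw [h0]
        simp
      · have h2 : f₁ (fun x : X1 w₀ => b x) = 0 := by
          by_contra h2
          apply hb
          apply StepC.exists_h hA.1 hk hp b h0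
          by_contra h3
          push Not at h3
          have h4 := hR₁ (fun x : X1 w₀ => b x)
          rw [Rr_eq_zero _ _ _ h3] at h4
          exact h2 (by exact_mod_cast h4.symm)
        simp [h2]

end Crest.Agent.SaxlN
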