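import Crest.Agent.SaxlN.Defs
import Crest.Agent.SaxlN.Basic

/-!
Definitions for the induction step of the lift (removal of group 0, peeled as rows).
-/

set_option autoImplicit false

namespace Crest.Agent.SaxlN

open Finset Equiv
open Crest.Agent.Saxl

variable {X : Type} [Fintype X] [DecidableEq X]

/-- the letters outside group 0 -/
abbrev X1 {X : Type} (w₀ : Word X) : Type := {x : X // 2 ≤ w₀ x}

/-- line word, column word, line lengths, types of the remaining groups -/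
def w1 {X : Type} (w₀ : Word X) : Word (X1 w₀) := fun x => w₀ x - 2
def a1 {X : Type} (w₀ A : Word X) : Word (X1 w₀) := fun x => A x
def eta1 (η : ℕ → ℕ) : ℕ → ℕ := fun r => η (r + 2)
def t1 (t : ℕ → Bool) : ℕ → Bool := fun i => t (i + 1)

/-- `k` preserves the letters outside group 0 -/
def Pres {X : Type} (w₀ : Word X) (k : Perm X) : Prop := ∀ x, 2 ≤ w₀ (k x) ↔ 2 ≤ w₀ x

noncomputable instance instDecPres (w₀ : Word X) (k : Perm X) : Decidable (Pres w₀ k) :=
  Classical.propDecidable _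

/-- the restriction of `k` to the letters outside group 0 -/
noncomputable def rs1 (w₀ : Word X) (k : Perm X) : Perm (X1 w₀) := by
  classical
  exact if h : Pres w₀ k then k.subtypePerm (p := fun x => 2 ≤ w₀ x) h else 1

/-- value at the line word `Y` of the polytabloid of group 0 (lines 0 and 1; pairs `(x,y)` in the same column) -/
def emL (w₀ A : Word X) (Y : Word X) : ℤ :=
  (∏ q ∈ (univ : Finset (X × X)).filter (fun q => w₀ q.1 = 0 ∧ w₀ q.2 = 1 ∧ A q.1 = A q.2),
      ((Y q.2 : ℤ) - (Y q.1 : ℤ))) *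
    ∏ x ∈ univ.filter (fun x => w₀ x = 0 ∧ ∀ y, w₀ y = 1 → A y ≠ A x), (1 - (Y x : ℤ))

/-- `(polytabloid of group 0) ⊗ v₁`, extended by zero -/
noncomputable def mt (w₀ A : Word X) (v₁ : Perm (X1 w₀) → ℤ) (k : Perm X) : ℤ :=
  if Pres w₀ k then emL w₀ A (w₀ ∘ (k⁻¹ : Perm X)) * v₁ (rs1 w₀ k) else 0

/-- number of column preserving permutations preserving group 0 -/
noncomputable def NN (w₀ A : Word X) : ℤ := (((Rs A).filter (fun c => Pres w₀ c)).card : ℤ)

/-- the lift: `1/N ∑_{c ∈ Rs A} sgn(c) c (emL ⊗ v₁)` (the division is exact) -/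
noncomputable def vs (w₀ A : Word X) (v₁ : Perm (X1 w₀) → ℤ) (g : Perm X) : ℤ :=
  (∑ c ∈ Rs A, ((Perm.sign c : ℤˣ) : ℤ) * mt w₀ A v₁ (c⁻¹ * g)) / NN w₀ A

/-- what we use on group 0 -/
structure Top (η : ℕ → ℕ) : Prop where
  two : η 1 = 0 ∨ η 1 < η 0
  dec : ∀ r, 2 ≤ r → 0 < η r → η r < η 0 ∧ (0 < η 1 → η r ≤ η 1)

end Crest.Agent.SaxlN
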