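import Crest.Agent.SaxlN.Units
import Crest.Agent.SaxlN.VecSplit
import Crest.Agent.SaxlN.VecMajor

/-!
CHUNK UNITR (medium, ~200 lines; VecBasic, VecMajor, VecSplit are black boxes).
-/

set_option autoImplicit false
set_option linter.unusedSectionVars false

namespace Crest.Agent.SaxlN

open Finset Equiv
open Crest.Agent.Saxl

variable {X : Type} [Fintype X] [DecidableEq X]
variable {W : Type} [AddCommGroup W] [Module ℂ W]

/-- a word with prescribed label sizes -/
private theorem exists_word_sz (Y : Type) [Fintype Y] (N : ℕ) (f : ℕ → ℕ)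
    (h : ∑ i ∈ range N, f i = Fintype.card Y) :
    ∃ b : Word Y, (∀ y, b y < N) ∧ ∀ i, i < N → sz b i = f i := by
  classical
  have hc : Fintype.card Y = Fintype.card (Σ i : Fin N, Fin (f i)) := by
    rw [Fintype.card_sigma, ← h, ← Fin.sum_univ_eq_sum_range]
    simp
  let e : Y ≃ Σ i : Fin N, Fin (f i) := Fintype.equivOfCardEq hc
  refine ⟨fun y => ((e y).1 : ℕ), fun y => (e y).1.2, fun i hi => ?_⟩
  have h1 : sz (fun y => (((e y).1 : Fin N) : ℕ)) i =
      (univ.filter (fun z : Σ i : Fin N, Fin (f i) => z.1 = ⟨i, hi⟩)).card := by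
    unfold sz
    refine Finset.card_equiv e ?_
    intro y
    simp only [Finset.mem_filter, Finset.mem_univ, true_and]
    exact ⟨fun h => Fin.ext h, fun h => by rw [h]⟩
  rw [h1]
  have h2 : (univ.filter (fun z : Σ i : Fin N, Fin (f i) => z.1 = ⟨i, hi⟩)) =
      (univ : Finset (Fin (f i))).map ⟨fun k => (⟨⟨i, hi⟩, k⟩ : Σ i : Fin N, Fin (f i)), by
        intro a b hab
        simpa using hab⟩ := by
    ext z
    simp only [Finset.mem_filter, Finset.mem_univ, true_and, Finset.mem_map]
    constructor
    · intro hz
      rcases z with ⟨z1, z2⟩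
      simp only at hz
      subst hz
      exact ⟨z2, rfl⟩
    · rintro ⟨k, hk⟩
      rw [← hk]
      rfl
  rw [h2, Finset.card_map]
  simp

/-- partial sums of the label sizes -/
private theorem sum_sz (a : Word X) (k : ℕ) : ∑ i ∈ range k, sz a i = sr a k := by
  unfold sz sr
  have h := Finset.card_eq_sum_card_fiberwise (s := univ.filter (fun x => a x < k))
    (t := range k) (f := a) (by
      intro x hx
      simp only [Finset.coe_filter, Finset.mem_univ, true_and, Set.mem_ofPred_eq] at hx
      simpa using hx)
  rw [h]
  refine Finset.sum_congr rfl fun i hi => ?_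
  congr 1
  ext x
  simp only [Finset.mem_filter, Finset.mem_univ, true_and]
  constructor
  · intro hx
    exact ⟨by rw [hx]; exact Finset.mem_range.1 hi, hx⟩
  · exact fun hx => hx.2

private theorem sr_le (a : Word X) (k : ℕ) : sr a k ≤ Fintype.card X := by
  unfold sr
  exact (Finset.card_le_univ _)

private theorem sr_succ (a : Word X) (k : ℕ) : sr a (k + 1) = sr a k + sz a k := by
  rw [← sum_sz, ← sum_sz, Finset.sum_range_succ]

/-- the rows of a tableau -/
private theorem sz_anti {ρ κ : Word X} (ht : IsTab (fun _ => 0) ρ κ) {i j : ℕ} (hij : i ≤ j) :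
    sz ρ j ≤ sz ρ i := by
  classical
  have key : ∀ x : X, ρ x = j → ∃ y, ρ y = i ∧ κ y = κ x := by
    intro x hx
    obtain ⟨y, -, h1, h2⟩ := ht.lower x i (κ x) (by rw [hx]; exact hij) le_rfl
    exact ⟨y, h1, h2⟩
  choose! f hf1 hf2 using key
  unfold sz
  refine Finset.card_le_card_of_injOn f ?_ ?_
  · intro x hx
    simp only [Finset.coe_filter, Finset.mem_univ, true_and, Set.mem_ofPred_eq] at hx ⊢
    exact hf1 x hx
  · intro x hx y hy hxy
    simp only [Finset.coe_filter, Finset.mem_univ, true_and, Set.mem_ofPred_eq] at hx hy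
    apply ht.inj
    simp only [Prod.mk.injEq, true_and]
    refine ⟨by rw [hx, hy], ?_⟩
    rw [← hf2 x hx, ← hf2 y hy, hxy]

/-- the number of letters in the first rows grows until all letters are used -/
private theorem sr_grow {ρ κ : Word X} (ht : IsTab (fun _ => 0) ρ κ) (j k : ℕ) :
    min (Fintype.card X) (sr ρ j + k) ≤ sr ρ (j + k) := by
  induction k with
  | zero => simp
  | succ k ih =>
    rw [← add_assoc, ← add_assoc, sr_succ]
    by_cases h0 : sz ρ (j + k) = 0
    · have : sr ρ (j + k) = Fintype.card X := by
        unfold sr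
        rw [Finset.filter_true_of_mem, Finset.card_univ]
        intro x _
        by_contra hc
        push Not at hc
        obtain ⟨y, -, h1, -⟩ := ht.lower x (j + k) (κ x) hc le_rfl
        unfold sz at h0
        rw [Finset.card_eq_zero, Finset.filter_eq_empty_iff] at h0
        exact h0 (Finset.mem_univ y) h1
      rw [h0, this]
      omega
    · omega

/-- sizes of a word defined on `S` and on the complement -/
private theorem sz_split (S : X → Prop) [DecidablePred S] (b : Word X) (i : ℕ) :
    sz b i = sz (fun x : {x // S x} => b x) i + sz (fun x : {x // ¬ S x} => b x) i := by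
  unfold sz
  rw [Finset.card_filter, Finset.card_filter, Finset.card_filter,
    Fintype.sum_subtype_add_sum_subtype S (fun x => if b x = i then 1 else 0)]

/-- the label sizes used for row mode -/
private def gR (a m : ℕ) (l : ℕ) : ℕ := if l < 8 then (2 * a + 4 - l) / 4 else if l - 8 < m then 1 else 0

private theorem gR_sum_le (a m k : ℕ) : ∑ i ∈ range (8 + k), gR a m i ≤ ∑ i ∈ range 8, gR a m i + k := by
  induction k with
  | zero => simp
  | succ k ih =>
    rw [← add_assoc, Finset.sum_range_succ]
    have : gR a m (8 + k) ≤ 1 := by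
      unfold gR
      split_ifs <;> omega
    omega

private theorem gR_sum8 {a : ℕ} (ha : 4 ≤ a) (m : ℕ) : ∑ i ∈ range 8, gR a m i = 4 * a - 2 := by
  simp only [Finset.sum_range_succ, Finset.sum_range_zero, gR]
  norm_num
  omega

/-- the word for row mode -/
private theorem exists_word_R {a : ℕ} (ha : 4 ≤ a) (S : X → Prop) [DecidablePred S]
    (hS : Fintype.card {x // S x} = 4 * a - 2) :
    ∃ b : Word X, (∀ x, S x → b x < 8) ∧
      (∀ i, sz b i = gR a (Fintype.card X - (4 * a - 2)) i) ∧
      (∀ i, i < 8 → sz (fun x : {x // S x} => b x) i = (2 * a + 4 - i) / 4) := by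
  classical
  set m := Fintype.card X - (4 * a - 2) with hm
  obtain ⟨c, hc1, hc2⟩ := exists_word_sz {x // S x} 8 (fun l => (2 * a + 4 - l) / 4) (by
    rw [hS]
    simp only [Finset.sum_range_succ, Finset.sum_range_zero]
    omega)
  have hS' : Fintype.card {x // ¬ S x} = m := by
    rw [Fintype.card_subtype_compl, hS]
  obtain ⟨d, hd1, hd2⟩ := exists_word_sz {x // ¬ S x} m (fun _ => 1) (by
    rw [hS']
    simp)
  let b : Word X := fun x => if h : S x then c ⟨x, h⟩ else 8 + d ⟨x, h⟩
  have hbS : (fun x : {x // S x} => b x) = c := by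
    funext x
    simp only [b]
    rw [dif_pos x.2]
  have hbS' : (fun x : {x // ¬ S x} => b x) = fun x => 8 + d x := by
    funext x
    simp only [b]
    rw [dif_neg x.2]
  refine ⟨b, ?_, ?_, ?_⟩
  · intro x hx
    have := congrFun hbS ⟨x, hx⟩
    simp only at this
    rw [this]
    exact hc1 _
  · intro i
    rw [sz_split S, hbS, hbS']
    unfold gR
    by_cases hi : i < 8
    · rw [if_pos hi, hc2 i hi]
      have : sz (fun x => 8 + d x) i = 0 := by
        unfold sz
        rw [Finset.card_eq_zero, Finset.filter_eq_empty_iff]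
        intro x _ hx
        have hx' : 8 + d x = i := hx
        omega
      rw [this, add_zero]
    · rw [if_neg hi]
      have h1 : sz c i = 0 := by
        unfold sz
        rw [Finset.card_eq_zero, Finset.filter_eq_empty_iff]
        intro x _
        have := hc1 x
        omega
      have h2 : sz (fun x => 8 + d x) i = sz d (i - 8) := by
        unfold sz
        congr 1
        ext x
        simp only [Finset.mem_filter, Finset.mem_univ, true_and]
        omega
      rw [h1, h2, zero_add]
      by_cases him : i - 8 < m
      · rw [if_pos him, hd2 _ him]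
      · rw [if_neg him]
        unfold sz
        rw [Finset.card_eq_zero, Finset.filter_eq_empty_iff]
        intro x _
        have := hd1 x
        omega
  · intro i hi
    rw [hbS]
    exact hc2 i hi

/-- the vector for row mode -/
private theorem vec_R {a : ℕ} (ha : 4 ≤ a) {σ : Representation ℂ (Perm X) W} {ρ κ : Word X}
    (ht : IsTab (fun _ => 0) ρ κ) (hσ : Vec σ (fun _ => false) ρ) (hm : ModeR a ρ)
    {b : Word X} (hb : ∀ i, sz b i = gR a (Fintype.card X - (4 * a - 2)) i) :
    Vec σ (fun _ => false) b := by
  obtain ⟨hm1, hm2⟩ := hm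
  have hn : 4 * a - 2 ≤ Fintype.card X := hm2.trans (sr_le _ _)
  refine Vec.major hσ (fun i => i) (fun _ _ h => h) (Fintype.card X + 8) (fun _ _ => rfl) ?_ ?_ ?_
  · intro l hl
    have hl' : Fintype.card X + 8 ≤ l := by
      by_contra hc
      push Not at hc
      exact hl l hc rfl
    have h1 := sr_grow ht 8 (Fintype.card X)
    have h2 := sr_succ ρ l
    have h3 := sr_le ρ (l + 1)
    have h4 : sr ρ (8 + Fintype.card X) ≤ sr ρ l := by
      unfold sr
      refine Finset.card_le_card ?_
      intro x hx
      simp only [Finset.mem_filter, Finset.mem_univ, true_and] at hx ⊢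
      omega
    have h5 : sz ρ l = 0 := by omega
    rw [h5, hb]
    unfold gR
    rw [if_neg (by omega), if_neg (by omega)]
  · intro i j hij hj
    rw [hb, hb]
    unfold gR
    split_ifs <;> omega
  · intro k hk
    rw [sum_sz ρ k]
    have h8 : ∀ l, sr ρ (l + 1) = sr ρ l + sz ρ l := sr_succ ρ
    have h0 : sr ρ 0 = 0 := by
      rw [← sum_sz]
      simp
    have e1 := h8 0
    have e2 := h8 1
    have e3 := h8 2
    have e4 := h8 3
    have e5 := h8 4
    have e6 := h8 5
    have e7 := h8 6
    have e8 := h8 7
    have a1 := sz_anti ht (show 0 ≤ 1 by omega)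
    have a2 := sz_anti ht (show 1 ≤ 2 by omega)
    have a3 := sz_anti ht (show 2 ≤ 3 by omega)
    have a4 := sz_anti ht (show 3 ≤ 4 by omega)
    have a5 := sz_anti ht (show 4 ≤ 5 by omega)
    have a6 := sz_anti ht (show 5 ≤ 6 by omega)
    have a7 := sz_anti ht (show 6 ≤ 7 by omega)
    norm_num at e1 e2 e3 e4 e5 e6 e7 e8
    have hle : ∀ k, ∑ i ∈ range k, sz b i ≤ Fintype.card X := by
      intro k
      rw [sum_sz]
      exact sr_le _ _
    rcases Nat.lt_or_ge k 9 with hk9 | hk9
    · have hg : ∀ i, i < 8 → sz b i = (2 * a + 4 - i) / 4 := by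
        intro i hi
        rw [hb]
        unfold gR
        rw [if_pos hi]
      have hpar : ∃ c, a = 2 * c ∨ a = 2 * c + 1 := ⟨a / 2, by omega⟩
      obtain ⟨c, hc | hc⟩ := hpar
      · have g0 : sz b 0 = c + 1 := by rw [hg 0 (by omega)]; omega
        have g1 : sz b 1 = c := by rw [hg 1 (by omega)]; omega
        have g2 : sz b 2 = c := by rw [hg 2 (by omega)]; omega
        have g3 : sz b 3 = c := by rw [hg 3 (by omega)]; omega
        have g4 : sz b 4 = c := by rw [hg 4 (by omega)]; omega
        have g5 : sz b 5 = c - 1 := by rw [hg 5 (by omega)]; omega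
        have g6 : sz b 6 = c - 1 := by rw [hg 6 (by omega)]; omega
        have g7 : sz b 7 = c - 1 := by rw [hg 7 (by omega)]; omega
        clear h8 hle hb hσ ht hg
        subst hc
        interval_cases k <;> simp only [Finset.sum_range_succ, Finset.sum_range_zero] <;> omega
      · have g0 : sz b 0 = c + 1 := by rw [hg 0 (by omega)]; omega
        have g1 : sz b 1 = c + 1 := by rw [hg 1 (by omega)]; omega
        have g2 : sz b 2 = c + 1 := by rw [hg 2 (by omega)]; omega
        have g3 : sz b 3 = c := by rw [hg 3 (by omega)]; omega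
        have g4 : sz b 4 = c := by rw [hg 4 (by omega)]; omega
        have g5 : sz b 5 = c := by rw [hg 5 (by omega)]; omega
        have g6 : sz b 6 = c := by rw [hg 6 (by omega)]; omega
        have g7 : sz b 7 = c - 1 := by rw [hg 7 (by omega)]; omega
        clear h8 hle hb hσ ht hg
        subst hc
        interval_cases k <;> simp only [Finset.sum_range_succ, Finset.sum_range_zero] <;> omega
    · obtain ⟨j, rfl⟩ : ∃ j, k = 8 + j := ⟨k - 8, by omega⟩
      have h1 := sr_grow ht 8 j
      have h2 := hle (8 + j)
      have h3 : ∑ i ∈ range (8 + j), sz b i ≤ 4 * a - 2 + j := by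
        have := gR_sum_le a (Fintype.card X - (4 * a - 2)) j
        rw [gR_sum8 ha] at this
        calc ∑ i ∈ range (8 + j), sz b i
            = ∑ i ∈ range (8 + j), gR a (Fintype.card X - (4 * a - 2)) i :=
              Finset.sum_congr rfl fun i _ => hb i
          _ ≤ _ := this
      omega

/-- PROOF. `vec_rows`: `Vec σ + ρ`, the sizes of the labels are the row lengths (antitone, by `IsTab`). Choose `u, cl` on `S`:
`P = {a+1, a-1}`, `2a+1` letters with `u = a+1`, `2a-3` with `u = a-1`; the class `c < 4` of the group of size `m` has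
`(m + 3 - c)/4` letters. `t = t' = ` (`false` on `a+1, a`; `true` on `a-1, a-2`) (all signs `+`).
`b x = c` (resp. `4 + c`) for the letters of `S` of class `c` in the first (second) group, and `b` injective with values `≥ 8`,
`< 8 + (card X - (4a-2))` outside `S`. Sizes of `b`: antitone (uses `a ≥ 4`: `(2a-3)/4 ≥ 1`; the last class of the first group has
`(2a+1)/4 = a/2 = (2a-3+3)/4` letters, the size of the first class of the second group). `Vec.major` with `e = id`,
`N = card X + 8` (large): dominance: for `k ≤ 8` it is linear arithmetic (omega) for antitone row lengths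
`r_0 ≥ .. ≥ r_7` with `r_0+..+r_3 ≥ 2a+1`, `r_0+..+r_7 ≥ 4a-2` (do the eight cases separately); for `k > 8`:
`s_k ≥ 4a-2 + (k-8)` or `s_k = card X` (rows beyond are nonempty until they end). Then `HasSV.of_vec`. -/
theorem unitF_R {a : ℕ} (ha : 4 ≤ a) {σ : Representation ℂ (Perm X) W} {ρ κ : Word X}
    (ht : IsTab (fun _ => 0) ρ κ) {w : W} (hw : yact σ ρ κ w ≠ 0) (hm : ModeR a ρ)
    (S : X → Prop) [DecidablePred S] (hS : Fintype.card {x // S x} = 4 * a - 2) :
    HasSV ({a + 1, a, a - 1, a - 2} : Finset ℕ) (resS S σ) := by
  classical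
  have hn : 4 * a - 2 ≤ Fintype.card X := hm.2.trans (sr_le _ _)
  obtain ⟨b, hb8, hb, hbS⟩ := exists_word_R ha S hS
  have hv := vec_R ha ht (vec_rows hw) hm hb
  let U : Finset ℕ := {a + 1, a, a - 1, a - 2}
  let t : ℕ → Bool := fun L => decide (L < a)
  let u : Word {x // S x} := fun x => if b x < 4 then a + 1 else a - 1
  let cl : Word {x // S x} := fun x => b x % 4
  have hu : ∀ x, u x = if b x < 4 then a + 1 else a - 1 := fun _ => rfl
  have hcl : ∀ x, cl x = b x % 4 := fun _ => rfl
  have hUm : ∀ L, L ∈ U ↔ (L = a + 1 ∨ L = a ∨ L = a - 1 ∨ L = a - 2) := by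
    intro L
    simp [U]
  have hPm : ∀ L, L ∈ ({a + 1, a - 1} : Finset ℕ) ↔ (L = a + 1 ∨ L = a - 1) := by
    intro L
    simp
  have hcard1 : (univ.filter (fun x => u x = a + 1)).card = 2 * a + 1 := by
    have h1 : (univ.filter (fun x => u x = a + 1)) =
        univ.filter (fun x : {x // S x} => b x < 4) := by
      ext x
      simp only [Finset.mem_filter, Finset.mem_univ, true_and, hu]
      split_ifs with h
      · exact ⟨fun _ => h, fun _ => rfl⟩
      · exact ⟨fun h' => by omega, fun h' => absurd h' h⟩
    have h2 := sum_sz (fun x : {x // S x} => b x) 4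
    rw [h1]
    change sr (fun x : {x // S x} => b x) 4 = _
    rw [← h2]
    simp only [Finset.sum_range_succ, Finset.sum_range_zero]
    rw [hbS 0 (by omega), hbS 1 (by omega), hbS 2 (by omega), hbS 3 (by omega)]
    omega
  have hcard2 : (univ.filter (fun x => u x = a - 1)).card = 2 * a - 3 := by
    have h1 : (univ.filter (fun x => u x = a - 1)) =
        (univ.filter (fun x => u x = a + 1))ᶜ := by
      ext x
      simp only [Finset.mem_filter, Finset.mem_univ, true_and, hu, Finset.mem_compl]
      split_ifs with h
      · constructor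
        · intro h'; omega
        · intro h'; exact absurd rfl h'
      · constructor
        · intro h'; omega
        · intro h'; rfl
    rw [h1, Finset.card_compl, hcard1, hS]
    omega
  have hbal : Bal U t := by
    intro L hL
    rw [hUm] at hL
    unfold cntL
    rcases Nat.lt_or_ge a L with h | h
    · have h1 : ∀ s, U.filter (fun M => L < M ∧ t M = s) = ∅ := by
        intro s
        rw [Finset.filter_eq_empty_iff]
        intro M hM hM'
        rw [hUm] at hM
        omega
      rw [h1, h1]
    · have h1 : U.filter (fun M => L < M ∧ t M = false) = {a + 1, a} := by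
        ext M
        simp only [Finset.mem_filter, hUm, Finset.mem_insert, Finset.mem_singleton, t,
          decide_eq_false_iff_not]
        omega
      have h2 : U.filter (fun M => L < M ∧ t M = true) = {a - 1, a - 2} := by
        ext M
        simp only [Finset.mem_filter, hUm, Finset.mem_insert, Finset.mem_singleton, t,
          decide_eq_true_eq]
        omega
      rw [h1, h2, Finset.card_pair (by omega), Finset.card_pair (by omega)]
  refine HasSV.of_vec (U := U) (P := {a + 1, a - 1}) (t := t) (t' := t) (u := u) (cl := cl) hv S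
    ?_ ?_ ?_ ?_ ?_
  · refine ⟨?_, ?_, ?_, ?_, ?_, ?_⟩
    · intro L hL
      rw [hPm] at hL
      rw [hUm, hUm]
      omega
    · intro L hL hL'
      rw [hPm] at hL hL'
      omega
    · intro L hL
      rw [hPm] at hL
      have h1 : t (L - 1) = t L := by
        simp only [t]
        congr 1
        apply propext
        omega
      exact ⟨h1, h1⟩
    · intro L
      rcases eq_or_ne L (a + 1) with rfl | h1
      · rw [hcard1, if_pos (by rw [hPm]; left; rfl)]
        omega
      · rcases eq_or_ne L (a - 1) with rfl | h2
        · rw [hcard2, if_pos (by rw [hPm]; right; rfl)]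
          omega
        · rw [if_neg (by rw [hPm]; omega), if_neg (by rw [hPm, hUm]; omega)]
          rw [Finset.card_eq_zero, Finset.filter_eq_empty_iff]
          intro x _ hx
          rw [hu] at hx
          split_ifs at hx
          · exact h1 hx.symm
          · exact h2 hx.symm
    · intro x
      rw [hcl]
      exact Nat.mod_lt _ (by omega)
    · intro x hx
      exfalso
      apply hx
      rw [hPm, hu]
      split_ifs
      · left; rfl
      · right; rfl
  · exact hbal
  · exact hbal
  · intro x y hxy hxy'
    rw [hu, hu] at hxy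
    rw [hcl, hcl] at hxy'
    have h1 := hb8 x x.2
    have h2 := hb8 y y.2
    split_ifs at hxy <;> omega
  · intro x
    simp

end Crest.Agent.SaxlN
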