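import Crest.Agent.SaxlN.SysDefs

/-!
Definitions: units `F(a)` = lines `a+1, a, a-1, a-2` and `H(a)` = lines `a+1, a`.
-/

set_option autoImplicit false

namespace Crest.Agent.SaxlN

open Finset Equiv
open Crest.Agent.Saxl

variable {X : Type} [Fintype X] [DecidableEq X]
variable {W : Type} [AddCommGroup W] [Module ℂ W]

/-- number of letters in the first `j` rows (columns) -/
def sr {X : Type} [Fintype X] (ρ : Word X) (j : ℕ) : ℕ := (univ.filter (fun x => ρ x < j)).card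

/-- row mode of `F(a)` -/
def ModeR (a : ℕ) (ρ : Word X) : Prop := 2 * a + 1 ≤ sr ρ 4 ∧ 4 * a - 2 ≤ sr ρ 8
/-- mixed mode of `F(a)` -/
def ModeM (a : ℕ) (ρ κ : Word X) : Prop :=
  2 * a - 3 ≤ sr ρ 2 ∧ 2 * a - 3 ≤ sr κ 2 ∧ 4 * a + 2 ≤ sr ρ 2 + sr κ 2

/-- the numeric condition for `F(a)` on `n` letters -/
def OkF (a n : ℕ) : Prop := ∀ (X : Type) [Fintype X] [DecidableEq X], Fintype.card X = n →
  ∀ ρ κ : Word X, IsTab (fun _ => 0) ρ κ → ModeR a ρ ∨ ModeR a κ ∨ ModeM a ρ κ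

/-- the numeric condition for `H(a)` on `n` letters -/
def OkH (a n : ℕ) : Prop := ∀ (X : Type) [Fintype X] [DecidableEq X], Fintype.card X = n →
  ∀ ρ κ : Word X, IsTab (fun _ => 0) ρ κ → 2 * a + 1 ≤ sr ρ 2 ∨ 2 * a + 1 ≤ sr κ 2

end Crest.Agent.SaxlN
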