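import Crest.Agent.SaxlN.SysDefs
import Crest.Agent.SaxlN.Sgn

/-!
CHUNK VECBASIC (easy, ~120 lines): conjugation and refinement of vector data.
-/

set_option autoImplicit false

namespace Crest.Agent.SaxlN

open Finset Equiv
open Crest.Agent.Saxl

variable {X : Type} [Fintype X] [DecidableEq X]
variable {W : Type} [AddCommGroup W] [Module ℂ W]

/-- PROOF: `v ↦ σ h⁻¹ v` (`sgnT_conj`-type computation: `sgnT (T ∘ h) g = sgnT T (h g h⁻¹)`). -/
theorem Vec.conj {σ : Representation ℂ (Perm X) W} {s : ℕ → Bool} {a : Word X} (h : Vec σ s a)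
    (p : Perm X) : Vec σ s (a ∘ p) := by
  obtain ⟨v, hv, hg⟩ := h
  refine ⟨σ p⁻¹ v, ?_, ?_⟩
  · intro h0
    apply hv
    have h1 : σ p (σ p⁻¹ v) = v := by
      rw [← Module.End.mul_apply, ← map_mul, mul_inv_cancel, map_one, Module.End.one_apply]
    rw [← h1, h0, map_zero]
  · intro g hag
    have h1 : a ∘ (p * g * p⁻¹ : Perm X) = a := by
      funext x
      have h2 := congrFun hag (p⁻¹ x)
      simp only [Function.comp_apply] at h2
      simp only [Function.comp_apply, Perm.mul_apply]
      rw [h2]
      simp
    have hT : (fun x => s (a x)) ∘ (p * g * p⁻¹ : Perm X) = (fun x => s (a x)) := by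
      funext x
      have h2 := congrFun h1 x
      simp only [Function.comp_apply] at h2 ⊢
      rw [h2]
    have h3 := sgnT_conj (T := fun x => s (a x)) (g := p) hT
    have h4 : p⁻¹ * (p * g * p⁻¹) * p = g := by group
    rw [h4] at h3
    have h5 : σ g (σ p⁻¹ v) = σ p⁻¹ (σ (p * g * p⁻¹) v) := by
      rw [← Module.End.mul_apply, ← Module.End.mul_apply, ← map_mul, ← map_mul]
      congr 2
      group
    rw [h5, hg _ h1, map_smul]
    have h6 : sgnT (fun x => s ((a ∘ p) x)) g = sgnT (fun x => s (a x)) (p * g * p⁻¹) := h3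
    rw [h6]

/-- words with the same label sizes are conjugate -/
theorem Vec.congr_sz {σ : Representation ℂ (Perm X) W} {s : ℕ → Bool} {a b : Word X}
    (h : Vec σ s a) (hsz : ∀ i, sz a i = sz b i) : Vec σ s b := by
  classical
  have hc : ∀ i, Fintype.card {x // b x = i} = Fintype.card {x // a x = i} := by
    intro i
    have := hsz i
    unfold sz at this
    rw [Fintype.card_subtype, Fintype.card_subtype, this]
  let p : Perm X := Equiv.ofFiberEquiv (f := b) (g := a) fun i => Fintype.equivOfCardEq (hc i)
  have hp : a ∘ p = b := by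
    funext x
    exact Equiv.ofFiberEquiv_map (f := b) (g := a) _ x
  rw [← hp]
  exact h.conj p

/-- Refinement: `b` is finer than `a`, and the signs agree except on letters whose `b`-label is a singleton.
PROOF: the same vector; for `g` preserving `b`, `sgnT (s ∘ a) g = sgnT (s' ∘ b) g` because the two sets of letters differ only in
fixed points of `g`. -/
theorem Vec.refine {σ : Representation ℂ (Perm X) W} {s s' : ℕ → Bool} {a b : Word X}
    (h : Vec σ s a) (hab : ∀ x y, b x = b y → a x = a y)
    (hs : ∀ x, s' (b x) = s (a x) ∨ ∀ y, b y = b x → y = x) : Vec σ s' b := by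
  obtain ⟨v, hv, hg⟩ := h
  refine ⟨v, hv, fun g hbg => ?_⟩
  have hb : ∀ x, b (g x) = b x := fun x => congrFun hbg x
  have ha : ∀ x, a (g x) = a x := fun x => hab _ _ (hb x)
  rw [hg g (funext ha)]
  congr 3
  have hT : (fun x => s (a x)) ∘ g = (fun x => s (a x)) := by
    funext x; simp only [Function.comp_apply]; rw [ha]
  have hT' : (fun x => s' (b x)) ∘ g = (fun x => s' (b x)) := by
    funext x; simp only [Function.comp_apply]; rw [hb]
  have h1 := sgnT_xor hT hT'
  have h2 : sgnT (fun x => xor (s (a x)) (s' (b x))) g = 1 := by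
    have hfix : ∀ x, xor (s (a x)) (s' (b x)) = true → g x = x := by
      intro x hx
      rcases hs x with h | h
      · rw [h] at hx
        simp at hx
      · exact h _ (hb x)
    unfold sgnT
    rw [dif_pos (fun x => by simp only [ha, hb])]
    have h3 : g.subtypePerm (p := fun x => xor (s (a x)) (s' (b x)) = true)
        (fun x => by rw [ha, hb]) = 1 := by
      ext x
      simp only [Perm.subtypePerm_apply, Perm.coe_one, id_eq]
      exact hfix x x.2
    rw [h3, Perm.sign_one]
  rw [h2] at h1
  calc sgnT (fun x => s (a x)) g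
      = sgnT (fun x => s (a x)) g * (sgnT (fun x => s (a x)) g * sgnT (fun x => s' (b x)) g) := by
        rw [← h1, mul_one]
    _ = sgnT (fun x => s' (b x)) g := by rw [← mul_assoc, Int.units_mul_self, one_mul]

end Crest.Agent.SaxlN
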