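import Crest.Agent.SaxlN.VecBasic

/-!
CHUNK VECMOVE (medium/hard, ~250 lines): the Kostka transfer (VecBasic is a black box).
-/

set_option autoImplicit false
set_option linter.unusedSectionVars false

namespace Crest.Agent.SaxlN

open Finset Equiv
open Crest.Agent.Saxl

variable {X : Type} [Fintype X] [DecidableEq X]
variable {W : Type} [AddCommGroup W] [Module ℂ W]

namespace VecMove

/-- sign scalar of a class -/
noncomputable def ec (s : ℕ → Bool) (i : ℕ) : ℂ := if s i then -1 else 1

lemma ec_sq (s : ℕ → Bool) (i : ℕ) : ec s i * ec s i = 1 := by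
  unfold ec
  split_ifs <;> simp

lemma comp_swap {b : Word X} {y z : X} (h : b y = b z) : b ∘ (swap y z : Perm X) = b := by
  funext w
  simp only [Function.comp_apply]
  rcases eq_or_ne w y with rfl | h1
  · rw [swap_apply_left, h]
  · rcases eq_or_ne w z with rfl | h2
    · rw [swap_apply_right, h]
    · rw [swap_apply_of_ne_of_ne h1 h2]

lemma stab_ind {b : Word X} {P : Perm X → Prop} (h1 : P 1)
    (hs : ∀ (y z : X) (g : Perm X), y ≠ z → b y = b z → b ∘ g = b → P g → P (swap y z * g)) :
    ∀ g : Perm X, b ∘ g = b → P g := by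
  intro g
  induction hn : g.support.card using Nat.strong_induction_on generalizing g with
  | _ n ih =>
    intro hg
    by_cases hg1 : g = 1
    · rw [hg1]; exact h1
    · obtain ⟨y, hy⟩ : ∃ y, g y ≠ y := by
        by_contra hc
        push Not at hc
        exact hg1 (Equiv.ext hc)
      have hb : b y = b (g y) := (congrFun hg y).symm
      have hlt : (swap y (g y) * g).support.card < g.support.card :=
        Perm.card_support_swap_mul hy
      have hg' : b ∘ (swap y (g y) * g : Perm X) = b := by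
        rw [Perm.coe_mul, ← Function.comp_assoc, comp_swap hb, hg]
      have h2 := ih _ (hn ▸ hlt) (swap y (g y) * g) rfl hg'
      have h3 := hs y (g y) _ (Ne.symm hy) hb hg' h2
      rwa [swap_mul_self_mul] at h3

lemma vec_of_swaps {σ : Representation ℂ (Perm X) W} {s : ℕ → Bool} {b : Word X} {v : W}
    (hv : v ≠ 0) (h : ∀ y z, y ≠ z → b y = b z → σ (swap y z) v = ec s (b y) • v) :
    Vec σ s b := by
  refine ⟨v, hv, ?_⟩
  apply stab_ind
  · rw [sgnT_one]; simp
  · intro y z g hyz hb hg ih
    have hcomp : ∀ g : Perm X, b ∘ g = b → (fun x => s (b x)) ∘ g = (fun x => s (b x)) := by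
      intro g hg
      funext x
      have := congrFun hg x
      simp only [Function.comp_apply] at this ⊢
      rw [this]
    rw [map_mul, Module.End.mul_apply, ih, map_smul, h y z hyz hb,
      sgnT_mul (hcomp _ (comp_swap hb)) (hcomp _ hg), sgnT_swap hyz (by simp [hb]), smul_smul]
    congr 1
    unfold ec
    split_ifs <;> simp

lemma swaps_of_vec {σ : Representation ℂ (Perm X) W} {s : ℕ → Bool} {b : Word X} {v : W}
    (h : ∀ g : Perm X, b ∘ g = b → σ g v = (((sgnT (fun x => s (b x)) g : ℤˣ) : ℤ) : ℂ) • v)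
    (y z : X) (hyz : y ≠ z) (hb : b y = b z) : σ (swap y z) v = ec s (b y) • v := by
  rw [h _ (comp_swap hb), sgnT_swap hyz (by simp [hb])]
  congr 1
  unfold ec
  split_ifs <;> simp

/-- the invariant positive form -/
noncomputable def B (σ : Representation ℂ (Perm X) W) (φ : W →ₗ[ℂ] ℂ) (w w' : W) : ℂ :=
  ∑ g : Perm X, φ (σ g⁻¹ w) * (starRingEnd ℂ) (φ (σ g⁻¹ w'))

variable (σ : Representation ℂ (Perm X) W) (φ : W →ₗ[ℂ] ℂ)

lemma B_inv (h : Perm X) (w w' : W) : B σ φ (σ h w) (σ h w') = B σ φ w w' := by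
  unfold B
  apply Fintype.sum_bijective (fun g => h⁻¹ * g) (Group.mulLeft_bijective _)
  intro g
  have : ∀ w, σ g⁻¹ (σ h w) = σ (h⁻¹ * g)⁻¹ w := by
    intro w
    rw [← Module.End.mul_apply, ← map_mul]
    simp [mul_inv_rev]
  rw [this, this]

lemma B_add_left (w₁ w₂ w' : W) : B σ φ (w₁ + w₂) w' = B σ φ w₁ w' + B σ φ w₂ w' := by
  unfold B
  rw [← sum_add_distrib]
  apply sum_congr rfl
  intro g _
  rw [map_add, map_add, add_mul]

lemma B_add_right (w w₁ w₂ : W) : B σ φ w (w₁ + w₂) = B σ φ w w₁ + B σ φ w w₂ := by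
  unfold B
  rw [← sum_add_distrib]
  apply sum_congr rfl
  intro g _
  rw [map_add, map_add, map_add, mul_add]

lemma B_smul_left (c : ℂ) (w w' : W) : B σ φ (c • w) w' = c * B σ φ w w' := by
  unfold B
  rw [mul_sum]
  apply sum_congr rfl
  intro g _
  rw [map_smul, map_smul, smul_eq_mul, mul_assoc]

lemma B_smul_right (c : ℂ) (w w' : W) : B σ φ w (c • w') = (starRingEnd ℂ) c * B σ φ w w' := by
  unfold B
  rw [mul_sum]
  apply sum_congr rfl
  intro g _
  rw [map_smul, map_smul, smul_eq_mul, map_mul]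
  ring

lemma B_zero_left (w' : W) : B σ φ 0 w' = 0 := by
  unfold B; simp

lemma B_zero_right (w : W) : B σ φ w 0 = 0 := by
  unfold B; simp

lemma B_sum_left {ι : Type} (S : Finset ι) (F : ι → W) (w' : W) :
    B σ φ (∑ i ∈ S, F i) w' = ∑ i ∈ S, B σ φ (F i) w' := by
  classical
  induction S using Finset.induction_on with
  | empty => simp [B_zero_left]
  | insert a S ha ih => rw [sum_insert ha, sum_insert ha, B_add_left, ih]

lemma B_sum_right {ι : Type} (S : Finset ι) (F : ι → W) (w : W) :
    B σ φ w (∑ i ∈ S, F i) = ∑ i ∈ S, B σ φ w (F i) := by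
  classical
  induction S using Finset.induction_on with
  | empty => simp [B_zero_right]
  | insert a S ha ih => rw [sum_insert ha, sum_insert ha, B_add_right, ih]

lemma B_self (w : W) : ∃ r : ℝ, 0 ≤ r ∧ B σ φ w w = (r : ℂ) ∧ (φ w ≠ 0 → 0 < r) := by
  refine ⟨∑ g : Perm X, ‖φ (σ g⁻¹ w)‖ ^ 2, sum_nonneg (fun _ _ => by positivity), ?_, ?_⟩
  · unfold B
    rw [Complex.ofReal_sum]
    apply sum_congr rfl
    intro g _
    rw [Complex.mul_conj, Complex.normSq_eq_norm_sq]
  · intro hw
    apply sum_pos' (fun _ _ => by positivity)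
    refine ⟨1, mem_univ _, ?_⟩
    simp only [inv_one, map_one, Module.End.one_apply]
    positivity

lemma swap_conj_mul (y z x w : X) :
    σ (swap y z) ∘ₗ σ (swap x w) = σ (swap (swap y z x) (swap y z w)) ∘ₗ σ (swap y z) := by
  have : swap y z * swap x w = swap (swap y z x) (swap y z w) * swap y z := by
    rw [← mul_swap_eq_swap_mul]
  calc σ (swap y z) ∘ₗ σ (swap x w) = σ (swap y z * swap x w) := (map_mul σ _ _).symm
    _ = _ := by rw [this]; exact map_mul σ _ _

lemma swap_conj_apply (y z x w : X) (v : W) :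
    σ (swap y z) (σ (swap x w) v) = σ (swap (swap y z x) (swap y z w)) (σ (swap y z) v) :=
  LinearMap.congr_fun (swap_conj_mul σ y z x w) v

lemma swap_swap_apply (y z : X) (v : W) : σ (swap y z) (σ (swap y z) v) = v := by
  rw [← Module.End.mul_apply, ← map_mul, swap_mul_self, map_one, Module.End.one_apply]

/-- coset sum: invariance under the swaps inside the class -/
lemma coset_in {u : W} {C : Finset X} {ε : ℂ} {x : X} (hx : x ∉ C)
    (hu : ∀ y ∈ C, ∀ z ∈ C, y ≠ z → σ (swap y z) u = ε • u) {y z : X} (hy : y ∈ C) (hz : z ∈ C)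
    (hyz : y ≠ z) :
    σ (swap y z) (u + ε • ∑ w ∈ C, σ (swap x w) u) = ε • (u + ε • ∑ w ∈ C, σ (swap x w) u) := by
  rw [map_add, map_smul, map_sum, hu y hy z hz hyz, smul_add]
  congr 1
  congr 1
  have h1 : ∀ w ∈ C, σ (swap y z) (σ (swap x w) u) = ε • σ (swap x (swap y z w)) u := by
    intro w _
    rw [swap_conj_apply, hu y hy z hz hyz, map_smul,
      swap_apply_of_ne_of_ne (a := y) (b := z) (x := x) (by rintro rfl; exact hx hy)
        (by rintro rfl; exact hx hz)]
  rw [sum_congr rfl h1, ← smul_sum]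
  congr 1
  apply sum_bij' (fun w _ => swap y z w) (fun w _ => swap y z w)
  · intro w hw
    rcases eq_or_ne w y with rfl | h1
    · rw [swap_apply_left]; exact hz
    · rcases eq_or_ne w z with rfl | h2
      · rw [swap_apply_right]; exact hy
      · rwa [swap_apply_of_ne_of_ne h1 h2]
  · intro w hw
    rcases eq_or_ne w y with rfl | h1
    · rw [swap_apply_left]; exact hz
    · rcases eq_or_ne w z with rfl | h2
      · rw [swap_apply_right]; exact hy
      · rwa [swap_apply_of_ne_of_ne h1 h2]
  · intro w _; simp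
  · intro w _; simp
  · intro w _; rfl

/-- coset sum: invariance under the swaps with the new letter -/
lemma coset_new {u : W} {C : Finset X} {ε : ℂ} (hε : ε * ε = 1) {x : X} (hx : x ∉ C)
    (hu : ∀ y ∈ C, ∀ z ∈ C, y ≠ z → σ (swap y z) u = ε • u) {z : X} (hz : z ∈ C) :
    σ (swap x z) (u + ε • ∑ w ∈ C, σ (swap x w) u) = ε • (u + ε • ∑ w ∈ C, σ (swap x w) u) := by
  have hxz : x ≠ z := by rintro rfl; exact hx hz
  rw [map_add, map_smul, map_sum, smul_add, smul_smul, hε, one_smul]
  rw [← sum_erase_add _ _ hz, ← sum_erase_add _ _ hz, swap_swap_apply]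
  have h1 : ∀ w ∈ C.erase z, σ (swap x z) (σ (swap x w) u) = ε • σ (swap x w) u := by
    intro w hw
    rw [mem_erase] at hw
    have hxw : x ≠ w := by rintro rfl; exact hx hw.2
    have h2 : swap x z * swap x w = swap x w * swap z w := by
      have := mul_swap_eq_swap_mul (swap x w) z w
      rw [swap_apply_right, swap_apply_of_ne_of_ne (Ne.symm hxz) (Ne.symm hw.1)] at this
      rw [this, swap_comm z x]
    rw [← Module.End.mul_apply, ← map_mul, h2, map_mul, Module.End.mul_apply,
      hu z hz w hw.2 (Ne.symm hw.1), map_smul]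
  rw [sum_congr rfl h1, ← smul_sum, smul_add, smul_smul, hε, one_smul]
  abel

end VecMove

open VecMove in

/-- MOVE ONE LETTER from a label class to a strictly smaller class of the same sign.
PROOF. By twisting `σ` by the sign we may assume `s i = s j = false`. (Or do both cases at once with the sign
`ε = ±1`.) Let `u` be the vector, `x` with `a x = i`, `B_i, B_j` the classes, `m = #B_i > n = #B_j`.
`v := u + ∑_{z ∈ B_j} σ(x z) u` is `∑` over the cosets of `Perm B_j` in `Perm (B_j ∪ {x})`, so it is fixed by `Perm (B_j ∪ {x})`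
(the permutations supported there), by those supported in `B_i ∖ {x}` (they commute with the `(x z)` and fix `u`) and
transforms by the signs under the other classes. So `v` is a vector for `update a x j` if `v ≠ 0`.
Suppose `v = 0`. Then (conjugating by permutations of `B_i`) `u + ∑_{z ∈ B_j} σ(x' z) u = 0` for all `x' ∈ B_i`.
Choose a linear functional `φ` with `φ u ≠ 0` and let `f g := φ (σ(g⁻¹) u)`, a nonzero function on `Perm X`, and
`⟨f, f'⟩ = ∑_g f(g) conj(f' g)`; the map `w ↦ (g ↦ φ(σ g⁻¹ w))` is equivariant for left translation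
`(L_h F)(g) = F(h⁻¹ g)`, which is unitary. So: `f + ∑_{z ∈ B_j} L_{(x z)} f = 0` for all `x ∈ B_i`.
`n = 0` gives `f = 0`. For `n > 0`: summing `⟨f, ·⟩`: `∑_{x,z} ⟨f, L_{(x z)} f⟩ = - m |f|²`.
All `⟨f, L_{(x z)} f⟩` are equal (`f` is fixed by `L_h` for `h` permuting `B_i` and `B_j`, and `h (x z) h⁻¹ = (hx hz)`), so for
one `z`: `∑_{x ∈ B_i} ⟨f, L_{(x z)} f⟩ = - (m/n) |f|²`, so `⟨f, F⟩ = (1 - m/n) |f|² < 0` for
`F = f + ∑_{x ∈ B_i} L_{(x z)} f`. But `F` is the sum over the cosets of `Perm B_i` in `Perm (B_i ∪ {z})` of `f`, so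
`L_h F = F` for `h` in `Perm (B_i ∪ {z})` and `(m+1) ⟨f, F⟩ = ∑_{y ∈ B_i ∪ {z}} ⟨L_{(y z)} f, F⟩ = ⟨F, F⟩ ≥ 0`. Contradiction. -/
theorem Vec.move {σ : Representation ℂ (Perm X) W} {s : ℕ → Bool} {a : Word X} (h : Vec σ s a)
    {i j : ℕ} (hij : i ≠ j) (hs : s i = s j) {x : X} (hx : a x = i) (hlt : sz a j < sz a i) :
    Vec σ s (Function.update a x j) := by
  obtain ⟨u, hu0, hu⟩ := h
  have hsw := swaps_of_vec hu
  set ε : ℂ := ec s j with hεdef
  have hε : ε * ε = 1 := ec_sq s j
  have hεi : ec s i = ε := by unfold ε ec; rw [hs]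
  have hεc : (starRingEnd ℂ) ε = ε := by
    unfold ε ec
    split_ifs <;> simp
  set Bi : Finset X := univ.filter (fun y => a y = i) with hBi
  set Bj : Finset X := univ.filter (fun y => a y = j) with hBj
  have hszi : sz a i = Bi.card := rfl
  have hszj : sz a j = Bj.card := rfl
  rw [hszi, hszj] at hlt
  have hmi : ∀ y, y ∈ Bi ↔ a y = i := by intro y; simp [Bi]
  have hmj : ∀ y, y ∈ Bj ↔ a y = j := by intro y; simp [Bj]
  have hui : ∀ y ∈ Bi, ∀ z ∈ Bi, y ≠ z → σ (swap y z) u = ε • u := by
    intro y hy z hz hyz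
    rw [hmi] at hy hz
    rw [hsw y z hyz (hy.trans hz.symm), hy, hεi]
  have huj : ∀ y ∈ Bj, ∀ z ∈ Bj, y ≠ z → σ (swap y z) u = ε • u := by
    intro y hy z hz hyz
    rw [hmj] at hy hz
    rw [hsw y z hyz (hy.trans hz.symm), hy]
  have hxj : x ∉ Bj := by rw [hmj, hx]; exact hij
  by_cases hv : u + ε • ∑ w ∈ Bj, σ (swap x w) u = 0
  · exfalso
    -- all coset sums vanish
    have hall : ∀ x' ∈ Bi, u + ε • ∑ w ∈ Bj, σ (swap x' w) u = 0 := by
      intro x' hx'
      rcases eq_or_ne x' x with rfl | hne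
      · exact hv
      · have h1 := congrArg (σ (swap x x')) hv
        rw [map_zero, map_add, map_smul, map_sum, hui x ((hmi x).2 hx) x' hx' (Ne.symm hne)] at h1
        have h2 : ∀ w ∈ Bj, σ (swap x x') (σ (swap x w) u) = ε • σ (swap x' w) u := by
          intro w hw
          have hwx : w ≠ x := by rintro rfl; exact hxj hw
          have hwx' : w ≠ x' := by
            rintro rfl
            exact hij (((hmi _).1 hx').symm.trans ((hmj _).1 hw))
          rw [swap_conj_apply, swap_apply_left, swap_apply_of_ne_of_ne hwx hwx',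
            hui x ((hmi x).2 hx) x' hx' (Ne.symm hne), map_smul]
        rw [sum_congr rfl h2, ← smul_sum, ← smul_add] at h1
        rcases smul_eq_zero.1 h1 with h3 | h3
        · rw [h3] at hε; simp at hε
        · exact h3
    -- the class j is nonempty
    rcases Bj.eq_empty_or_nonempty with he | ⟨z, hz⟩
    · rw [he] at hv; simp at hv; exact hu0 hv
    obtain ⟨φ, hφ⟩ : ∃ φ : W →ₗ[ℂ] ℂ, φ u ≠ 0 := by
      by_contra hc
      push Not at hc
      exact hu0 ((Module.forall_dual_apply_eq_zero_iff ℂ u).1 hc)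
    obtain ⟨r, hr0, hr, hrpos⟩ := B_self σ φ u
    have hrp := hrpos hφ
    -- constancy in the second letter
    have hc1 : ∀ x' ∈ Bi, ∀ w ∈ Bj, B σ φ (σ (swap x' w) u) u = B σ φ (σ (swap x' z) u) u := by
      intro x' hx' w hw
      rcases eq_or_ne w z with rfl | hne
      · rfl
      · have hxz : x' ≠ z := by
          rintro rfl; exact hij (((hmi _).1 hx').symm.trans ((hmj _).1 hz))
        have hxw : x' ≠ w := by
          rintro rfl; exact hij (((hmi _).1 hx').symm.trans ((hmj _).1 hw))
        rw [← B_inv σ φ (swap z w) (σ (swap x' z) u) u, swap_conj_apply, swap_apply_left,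
          swap_apply_of_ne_of_ne hxz hxw, huj z hz w hw (Ne.symm hne), map_smul, B_smul_left,
          B_smul_right, hεc, ← mul_assoc, hε, one_mul]
    have hcard : (Bj.card : ℂ) ≠ 0 := by
      have : 0 < Bj.card := card_pos.2 ⟨z, hz⟩
      exact_mod_cast this.ne'
    -- value
    have hc2 : ∀ x' ∈ Bi, B σ φ (σ (swap x' z) u) u = -(ε * r / Bj.card) := by
      intro x' hx'
      have h1 := congrArg (fun w => B σ φ w u) (hall x' hx')
      simp only [B_add_left, B_smul_left, B_sum_left, B_zero_left] at h1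
      rw [sum_congr rfl (hc1 x' hx'), sum_const, nsmul_eq_mul, hr] at h1
      field_simp
      linear_combination ε * h1 - (Bj.card : ℂ) * B σ φ (σ (swap x' z) u) u * hε
    have hc3 : ∀ x' ∈ Bi, B σ φ u (σ (swap x' z) u) = -(ε * r / Bj.card) := by
      intro x' hx'
      rw [← hc2 x' hx', ← B_inv σ φ (swap x' z) u (σ (swap x' z) u), swap_swap_apply]
    have hzi : z ∉ Bi := by
      rw [hmi, (hmj z).1 hz]; exact Ne.symm hij
    set G : W := u + ε • ∑ w ∈ Bi, σ (swap z w) u with hG
    have hG1 : B σ φ u G = r * (1 - Bi.card / Bj.card) := by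
      rw [hG, B_add_right, B_smul_right, B_sum_right, hεc, hr]
      have h2 : ∀ w ∈ Bi, B σ φ u (σ (swap z w) u) = -(ε * r / Bj.card) := by
        intro w hw
        rw [swap_comm]; exact hc3 w hw
      rw [sum_congr rfl h2, sum_const, nsmul_eq_mul]
      field_simp
      linear_combination (-(r * Bi.card : ℂ)) * hε
    have hG2 : B σ φ G G = (1 + Bi.card) * B σ φ u G := by
      have h2 : ∀ w ∈ Bi, B σ φ (σ (swap z w) u) G = ε * B σ φ u G := by
        intro w hw
        rw [← B_inv σ φ (swap z w) (σ (swap z w) u) G, swap_swap_apply, hG,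
          coset_new σ hε hzi hui hw, ← hG, B_smul_right, hεc]
      conv_lhs => rw [hG]
      rw [B_add_left, B_smul_left, B_sum_left, ← hG, sum_congr rfl h2, sum_const, nsmul_eq_mul]
      linear_combination (B σ φ u G * Bi.card) * hε
    obtain ⟨t, ht0, ht, -⟩ := B_self σ φ G
    rw [hG2, hG1] at ht
    have hreal : (1 + (Bi.card : ℝ)) * (r * (1 - (Bi.card : ℝ) / (Bj.card : ℝ))) = t := by
      apply Complex.ofReal_injective
      rw [← ht]
      push_cast
      ring
    have hjpos : (0 : ℝ) < Bj.card := by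
      have : 0 < Bj.card := card_pos.2 ⟨z, hz⟩
      exact_mod_cast this
    have hlt' : (Bj.card : ℝ) < Bi.card := by exact_mod_cast hlt
    have h3 : 1 - (Bi.card : ℝ) / Bj.card < 0 := by
      rw [sub_neg, lt_div_iff₀ hjpos]
      linarith
    have h4 : (1 + (Bi.card : ℝ)) * (r * (1 - (Bi.card : ℝ) / (Bj.card : ℝ))) < 0 := by
      apply mul_neg_of_pos_of_neg
      · positivity
      · exact mul_neg_of_pos_of_neg hrp h3
    linarith
  · apply vec_of_swaps hv
    have hupd : ∀ y, y ≠ x → Function.update a x j y = a y := fun y hy =>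
      Function.update_of_ne hy _ _
    have hupx : Function.update a x j x = j := Function.update_self _ _ _
    have hnew : ∀ z, z ≠ x → Function.update a x j z = j →
        σ (swap x z) (u + ε • ∑ w ∈ Bj, σ (swap x w) u) =
          ε • (u + ε • ∑ w ∈ Bj, σ (swap x w) u) := by
      intro z hz hz'
      rw [hupd z hz] at hz'
      exact coset_new σ hε hxj huj ((hmj z).2 hz')
    intro y z hyz hb
    rcases eq_or_ne y x with rfl | hy
    · rw [hupx] at hb ⊢
      exact hnew z (Ne.symm hyz) hb.symm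
    · rcases eq_or_ne z x with rfl | hz
      · rw [hb, hupx, swap_comm]
        rw [hupx] at hb
        exact hnew y hy hb
      · rw [hupd y hy, hupd z hz] at hb
        rw [hupd y hy]
        by_cases hj : a y = j
        · rw [hj]
          exact coset_in σ hxj huj ((hmj y).2 hj) ((hmj z).2 (hb ▸ hj)) hyz
        · rw [map_add, map_smul, map_sum, hsw y z hyz hb, smul_add, smul_comm (ec s (a y)) ε]
          congr 1
          congr 1
          rw [smul_sum]
          apply sum_congr rfl
          intro w hw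
          have hwj := (hmj w).1 hw
          have h1 : w ≠ y := by rintro rfl; exact hj hwj
          have h2 : w ≠ z := by rintro rfl; exact hj (hb.trans hwj)
          rw [swap_conj_apply, swap_apply_of_ne_of_ne (Ne.symm hy) (Ne.symm hz),
            swap_apply_of_ne_of_ne h1 h2, hsw y z hyz hb, map_smul]


end Crest.Agent.SaxlN
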